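import Vale.Agent.P106.Base
import Vale.Agent.P117.Cx

/-!
The weight is an `A₁` weight. On `|y| / 2 ≤ |x|`: `wt x ^ 2 ≤ 2 wt y ^ 2`, and `(1 + u²)⁻¹ ≤ 2 dc 2 u`, `lintegral_dc_aff`. On `|x| < |y| / 2`: `(1 + ((x - y) / Λ)²)⁻¹ ≤ Λ / |y|`
(`1 + u² ≥ 2 |u|`), and `wt lam b x ^ 2 ≤ (|y| / |x|) ^ (2 b) * wt lam b y ^ 2` for `0 < |x| ≤ |y|`, `∫_0^Y x ^ (-2 b) = Y ^ (1 - 2 b) / (1 - 2 b)` (compare `wl_lo` in P117/WL).
-/

open MeasureTheory Set Real Filter Topology
open scoped FourierTransform RealInnerProductSpace ContDiff ENNReal SchwartzMap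

noncomputable section

namespace Vale.Agent.P106

open Vale.Agent.P117

theorem a1_lo {α A u : ℝ} (hα : α < 1) (hA : 0 ≤ A) (hu : 0 ≤ u) :
    ∫⁻ w in Ioc 0 u, ENNReal.ofReal (A * w ^ (-α)) = ENNReal.ofReal (A * (u ^ (1 - α) / (1 - α))) := by
  have h1 : -1 < -α := by linarith
  have hi : IntegrableOn (fun w : ℝ => A * w ^ (-α)) (Ioc 0 u) :=
    ((intervalIntegral.intervalIntegrable_rpow' h1).const_mul A).1
  rw [← ofReal_integral_eq_lintegral_ofReal hi, ← intervalIntegral.integral_of_le hu,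
    intervalIntegral.integral_const_mul, integral_rpow (Or.inl h1), Real.zero_rpow (by linarith),
    sub_zero, neg_add_eq_sub]
  filter_upwards [ae_restrict_mem measurableSet_Ioc] with w hw
  exact mul_nonneg hA (Real.rpow_nonneg hw.1.le _)

theorem a1_sq (lam b t : ℝ) (hl : 0 < lam) : wt lam b t ^ 2 = (1 + lam * |t|) ^ (-(2 * b)) := by
  rw [wt, ← rpow_natCast, ← rpow_mul (by positivity)]
  congr 1
  push_cast
  ring

theorem a1_cmp {α lam θ s t : ℝ} (hα : 0 ≤ α) (hl : 0 < lam) (hθ : 1 ≤ θ) (hs : 0 ≤ s) (ht : 0 ≤ t)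
    (h : t ≤ θ * s) : (1 + lam * s) ^ (-α) ≤ θ ^ α * (1 + lam * t) ^ (-α) := by
  have h0 : 0 < θ := by linarith
  have h1 : (θ * (1 + lam * s)) ^ (-α) ≤ (1 + lam * t) ^ (-α) :=
    rpow_le_rpow_of_nonpos (by positivity) (by nlinarith) (by linarith)
  rw [mul_rpow h0.le (by positivity), rpow_neg h0.le, inv_mul_le_iff₀ (by positivity)] at h1
  exact h1

theorem a1 {b : ℝ} (h0 : 0 ≤ b) (h1 : b < 1 / 2) : ∃ C : ℝ, 0 < C ∧ ∀ lam Λ y : ℝ, 0 < lam → 0 < Λ →
    ∫⁻ x : ℝ, ENNReal.ofReal (wt lam b x ^ 2 * (1 + ((x - y) / Λ) ^ 2)⁻¹) ≤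
      ENNReal.ofReal (C * Λ * wt lam b y ^ 2) := by
  have hα : 2 * b < 1 := by linarith
  have hα0 : 0 ≤ 2 * b := by linarith
  have hβ : 0 < 1 - 2 * b := by linarith
  refine ⟨8 + 2 / (1 - 2 * b), by positivity, fun lam Λ y hl hΛ => ?_⟩
  simp only [a1_sq lam b _ hl]
  generalize 2 * b = α at hα hα0 hβ
  set W := (1 + lam * |y|) ^ (-α) with hW
  have hW0 : 0 < W := by positivity
  set A := Λ / |y| * |y| ^ α * W with hA
  have hA0 : 0 ≤ A := by positivity
  set h : ℝ → ℝ≥0∞ := (Ioc 0 |y|).indicator fun w => ENNReal.ofReal (A * w ^ (-α)) with hh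
  have hm : Measurable h := Measurable.indicator (by fun_prop) measurableSet_Ioc
  have hI : ∫⁻ w, h w ≤ ENNReal.ofReal (Λ * W / (1 - α)) := by
    rw [hh, lintegral_indicator measurableSet_Ioc, a1_lo hα hA0 (abs_nonneg y)]
    refine ENNReal.ofReal_le_ofReal ?_
    have e : |y| ^ α * |y| ^ (1 - α) = |y| := by
      rw [← rpow_add' (abs_nonneg y) (by simp), add_sub_cancel, rpow_one]
    have e2 : A * (|y| ^ (1 - α) / (1 - α)) = Λ * (|y| / |y|) * W / (1 - α) := by
      rw [hA]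
      linear_combination Λ / |y| * W / (1 - α) * e
    rw [e2]
    gcongr
    exact mul_le_of_le_one_right hΛ.le (div_self_le_one _)
  have key : ∀ x : ℝ, x ≠ 0 → ENNReal.ofReal ((1 + lam * |x|) ^ (-α) * (1 + ((x - y) / Λ) ^ 2)⁻¹) ≤
      ENNReal.ofReal (4 * W) * ENNReal.ofReal (dc 2 (Λ⁻¹ * x + -(y / Λ))) + (h x + h (-x)) := by
    intro x hx
    have hx0 : 0 < |x| := abs_pos.2 hx
    by_cases hc : |y| ≤ 2 * |x|
    · refine le_trans ?_ le_self_add
      rw [← ENNReal.ofReal_mul (by positivity), show Λ⁻¹ * x + -(y / Λ) = (x - y) / Λ by ring]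
      refine ENNReal.ofReal_le_ofReal ?_
      have c1 := a1_cmp hα0 hl one_le_two hx0.le (abs_nonneg y) hc
      have c2 : (2 : ℝ) ^ α ≤ 2 := by
        simpa using rpow_le_rpow_of_exponent_le one_le_two hα.le
      have c3 : (1 + ((x - y) / Λ) ^ 2)⁻¹ ≤ 2 * dc 2 ((x - y) / Λ) := by
        rw [dc, ← div_eq_mul_inv, inv_eq_one_div, div_le_div_iff₀ (by positivity) (by positivity),
          ← sq_abs ((x - y) / Λ)]
        nlinarith [sq_nonneg (|(x - y) / Λ| - 1)]
      refine (mul_le_mul (c1.trans (mul_le_mul_of_nonneg_right c2 hW0.le)) c3 (by positivity)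
        (by positivity)).trans_eq (by ring)
    · have hc' := not_le.1 hc
      have hy0 : 0 < |y| := by linarith
      have c1 := a1_cmp (θ := |y| / |x|) hα0 hl ((one_le_div hx0).2 (by linarith)) hx0.le hy0.le
        (by rw [div_mul_cancel₀ _ hx0.ne'])
      have c2 : (1 + ((x - y) / Λ) ^ 2)⁻¹ ≤ Λ / |y| := by
        have c3 : |y| ≤ 2 * |x - y| := by
          have := abs_sub_abs_le_abs_sub y x
          rw [abs_sub_comm] at this
          linarith
        rw [inv_eq_one_div, div_le_div_iff₀ (by positivity) hy0, ← sq_abs, abs_div, abs_of_pos hΛ]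
        have c4 : |x - y| = Λ * (|x - y| / Λ) := by field_simp
        nlinarith [mul_nonneg hΛ.le (sq_nonneg (|x - y| / Λ - 1))]
      have c5 : ENNReal.ofReal ((1 + lam * |x|) ^ (-α) * (1 + ((x - y) / Λ) ^ 2)⁻¹) ≤ h |x| := by
        rw [hh, indicator_of_mem (show |x| ∈ Ioc 0 |y| from ⟨hx0, by linarith⟩)]
        refine ENNReal.ofReal_le_ofReal ((mul_le_mul c1 c2 (by positivity) (by positivity)).trans_eq ?_)
        rw [div_rpow hy0.le hx0.le, rpow_neg hx0.le, hA]
        ring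
      refine c5.trans (le_trans ?_ le_add_self)
      rcases abs_cases x with h2 | h2 <;> rw [h2.1]
      exacts [le_self_add, le_add_self]
  refine (lintegral_mono_ae ((Measure.ae_ne volume 0).mono key)).trans ?_
  rw [lintegral_add_right (g := fun a => h a + h (-a)) _ (hm.add (hm.comp measurable_neg)), lintegral_add_left hm,
    lintegral_neg_eq_self h, lintegral_const_mul' _ _ ENNReal.ofReal_ne_top]
  refine (add_le_add (mul_le_mul_right (lintegral_dc_aff le_rfl (inv_pos.2 hΛ) _) _)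
    (add_le_add hI hI)).trans_eq ?_
  rw [← ENNReal.ofReal_mul (by positivity), ← ENNReal.ofReal_add (by positivity) (by positivity),
    ← ENNReal.ofReal_add (by positivity) (by positivity)]
  congr 1
  field_simp
  ring

end Vale.Agent.P106
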