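import Vale.Agent.P106.Tw
import Vale.Agent.P117.BdA

/-!
Calculus of the time averaged bounds. Compare P117/BdA. `tw_L1`: `Np_tm`, `young` for every `t`. `BdT.interp`: `marc_inf` on `ℝ × E3` with the measure `tm E3 0 R`, `f q = f q.2` (`Np_tm_snd`; `hi α (f ∘ snd) = hi α f ∘ snd`),
`g` the indicator of `Icc 0 R ×ˢ univ` times `Tw A f` (equal to it almost everywhere), `Cls.hi`, `Cls.lo`, `Tw_add`, `norm_cv_le`. `BdT.ext`: `f N = indicator (closedBall 0 N) f` is `Cls k`,
`Tw A (f N) q → Tw A f q` (dominated convergence, the kernel is bounded: `norm_inv_le`), `Np_fatou`, `Np_mono`.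
-/

open MeasureTheory Set Real Filter Topology
open scoped FourierTransform RealInnerProductSpace ContDiff ENNReal SchwartzMap

noncomputable section

namespace Vale.Agent.P106

open Vale.Agent.P117

variable {p R B B' : ℝ} {k : ℤ} {A A' f : E3 → ℂ}

theorem BdT.mono (hp : 0 ≤ p) (h : BdT p k R B A) (hB : B ≤ B') : BdT p k R B' A :=
  fun f hf =>
    (h f hf).trans (mul_le_mul_left (ENNReal.rpow_le_rpow (ENNReal.ofReal_le_ofReal hB) hp) _)

theorem BdT.add (hp : 1 ≤ p) (hA : Integrable A) (hA' : Integrable A') (hB : 0 ≤ B) (hB' : 0 ≤ B')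
    (h : BdT p k R B A) (h' : BdT p k R B' A') : BdT p k R (B + B') fun ξ => A ξ + A' ξ := by
  intro f hf
  rw [funext (Tw_addA hA hA' hf.nice.int)]
  exact Np_add_le hp (Tw_cont hA hf.nice.int).measurable (Tw_cont hA' hf.nice.int).measurable hB hB'
    (h f hf) (h' f hf)

theorem BdT.sum (hp : 1 ≤ p) (n : ℕ) {M : ℕ → E3 → ℂ} (hM : ∀ i, Integrable (M i)) (hB : 0 ≤ B)
    (h : ∀ i < n, BdT p k R B (M i)) :
    BdT p k R (n * B) fun ξ => ∑ i ∈ Finset.range n, M i ξ := by
  intro f hf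
  rw [funext (Tw_sum (Finset.range n) (fun i _ => hM i) hf.nice.int)]
  have h1 := Np_sum_le (μ := tm E3 0 R) hp (Finset.range n) (F := fun i => Tw (M i) f)
    (fun i _ => (Tw_cont (hM i) hf.nice.int).measurable) (a := fun _ => B) (fun _ _ => hB)
    fun i hi => h i (Finset.mem_range.1 hi) f hf
  rwa [Finset.sum_const, Finset.card_range, nsmul_eq_mul] at h1

theorem tw_L1 (hp : 1 ≤ p) (hA : Sw A) {a b : ℝ}
    (h : ∀ t ∈ Icc a b, ∫ x, ‖𝓕⁻ (wv A t) x‖ ≤ B) (hf : Nice f) : Np (tm E3 a b) p (Tw A f) ≤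
      ENNReal.ofReal B ^ p * (ENNReal.ofReal (b - a) * Np volume p f) := by
  rw [Np_tm (Tw_cont hA.sm.ker.int hf.int).measurable]
  refine (setLIntegral_mono' measurableSet_Icc
    (g := fun _ => ENNReal.ofReal B ^ p * Np volume p f) fun t ht =>
      young hp (hA.wv t).ker_inv hf.meas (h t ht)).trans_eq ?_
  rw [setLIntegral_const, volume_Icc]
  ring

theorem BdT.of_L1 (hp : 1 ≤ p) (hA : Sw A) (h : ∀ t ∈ Icc 0 R, ∫ x, ‖𝓕⁻ (wv A t) x‖ ≤ B) (k : ℤ) :
    BdT p k R B A := fun f hf => by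
  have h1 := tw_L1 hp hA h hf.nice
  rwa [sub_zero] at h1

theorem bdc_ae (a b : ℝ) : ∀ᵐ q ∂(tm E3 a b), q.1 ∈ Icc a b := by
  unfold tm
  exact Measure.quasiMeasurePreserving_fst.ae (ae_restrict_mem measurableSet_Icc)

theorem bdc_ind (a b p : ℝ) (F : ℝ × E3 → ℂ) :
    Np (tm E3 a b) p ({q : ℝ × E3 | q.1 ∈ Icc a b}.indicator F) = Np (tm E3 a b) p F := by
  refine lintegral_congr_ae ?_
  filter_upwards [bdc_ae a b] with q hq
  rw [indicator_of_mem (s := {q : ℝ × E3 | q.1 ∈ Icc a b}) hq]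

theorem BdT.interp {q : ℝ} (hq : 1 ≤ q) (hp : q < p) : ∃ C : ℝ, 0 < C ∧
    ∀ (k : ℤ) (R B B' : ℝ) (A : E3 → ℂ), 0 < B → 0 < B' → Sw A → BdT q k R B A →
      (∀ t ∈ Icc 0 R, ∫ x, ‖𝓕⁻ (wv A t) x‖ ≤ B') →
      BdT p k R (C * B ^ (q / p) * B' ^ (1 - q / p)) A := by
  have hq0 : 0 < q := by linarith
  have hp0 : 0 < p := by linarith
  obtain ⟨C, hC, hm⟩ := marc_inf hq0 hp
  refine ⟨C ^ (1 / p), by positivity, fun k R B B' A hB hB' hA h hI f hf => ?_⟩
  have hi0 := hA.sm.ker.int
  have hS : MeasurableSet {q : ℝ × E3 | q.1 ∈ Icc 0 R} := measurable_fst measurableSet_Icc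
  have h1 := hm (tm E3 0 R) (fun z => f z.2) ({z : ℝ × E3 | z.1 ∈ Icc 0 R}.indicator (Tw A f))
    (ENNReal.ofReal B ^ q) B' hB' (hf.meas.comp measurable_snd)
    ((Tw_cont hi0 hf.nice.int).measurable.indicator hS) fun α hα =>
      ⟨{z : ℝ × E3 | z.1 ∈ Icc 0 R}.indicator (Tw A (hi α f)),
        {z : ℝ × E3 | z.1 ∈ Icc 0 R}.indicator (Tw A (lo α f)),
        (Tw_cont hi0 (hf.hi α).nice.int).measurable.indicator hS, fun z => by
          simp only [indicator_apply]
          split_ifs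
          · rw [← Tw_add hi0 (hf.hi α).nice.int (hf.lo α).nice.int]
            simp only [← hi_add_lo]
          · rw [add_zero], by
          have e : hi α (fun z : ℝ × E3 => f z.2) = fun z => hi α f z.2 := rfl
          rw [bdc_ind, e, Np_tm_snd (hf.hi α).meas, sub_zero]
          exact h _ (hf.hi α), fun z => by
          simp only [indicator_apply]
          split_ifs with hz
          · exact (norm_cv_le (hA.wv z.1).ker_inv.int
              (Eventually.of_forall (norm_lo_le' hα.le f)) z.2).trans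
              (mul_le_mul_of_nonneg_right (hI z.1 hz) hα.le)
          · rw [norm_zero]
            positivity⟩
  rw [bdc_ind, Np_tm_snd hf.meas, sub_zero] at h1
  refine h1.trans_eq ?_
  rw [ENNReal.ofReal_rpow_of_pos hB, ENNReal.ofReal_rpow_of_pos (by positivity),
    ← ENNReal.ofReal_mul (by positivity), mul_rpow (by positivity) (by positivity),
    mul_rpow (by positivity) (by positivity), ← rpow_mul hC.le, ← rpow_mul hB.le, ← rpow_mul hB'.le,
    one_div_mul_cancel hp0.ne', div_mul_cancel₀ _ hp0.ne', sub_mul, div_mul_cancel₀ _ hp0.ne',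
    one_mul, rpow_one, mul_right_comm]

theorem BdT.ext (hp : 0 ≤ p) (hA : Integrable A) (h : BdT p k R B A) (hf : Nice f) (he : Eqv k f) :
    Np (tm E3 0 R) p (Tw A f) ≤ ENNReal.ofReal B ^ p * (ENNReal.ofReal R * Np volume p f) := by
  obtain ⟨C, hC⟩ := hf.bdd
  let g : ℕ → E3 → ℂ := fun N => (Metric.closedBall (0 : E3) N).indicator f
  have hle : ∀ N x, ‖g N x‖ ≤ ‖f x‖ := fun N x => norm_indicator_le_norm_self _ _
  have hg : ∀ N, Cls k (g N) := fun N =>
    ⟨hf.meas.indicator measurableSet_closedBall, ⟨C, fun x => (hle N x).trans (hC x)⟩,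
      ⟨N, fun x hx => indicator_of_notMem (fun h1 => absurd (mem_closedBall_zero_iff.1 h1)
        (not_le.2 hx)) _⟩, fun θ x => by
        classical
        simp only [g, indicator_apply, mem_closedBall_zero_iff, norm_rot]
        split_ifs
        · exact he θ x
        · rw [mul_zero]⟩
  refine Np_fatou hp (F := fun N => Tw A (g N)) (fun N => (Tw_cont hA (hg N).nice.int).measurable)
    (fun z => ?_) (Eventually.of_forall fun N => (h _ (hg N)).trans
      (mul_le_mul_right (mul_le_mul_right (Np_mono hp (hle N)) _) _))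
  have hc : Continuous fun y => 𝓕⁻ (wv A z.1) (z.2 - y) :=
    (continuous_inv (wv_int hA _)).comp (by fun_prop)
  refine tendsto_integral_of_dominated_convergence (fun y => (∫ ξ, ‖wv A z.1 ξ‖) * ‖f y‖)
    (fun N => hc.aestronglyMeasurable.mul (hg N).meas.aestronglyMeasurable)
    (hf.int.norm.const_mul _) (fun N => ae_of_all _ fun y => ?_) (ae_of_all _ fun y => ?_)
  · rw [norm_mul]
    exact mul_le_mul (norm_inv_le _ _) (hle N y) (norm_nonneg _)
      (integral_nonneg fun _ => norm_nonneg _)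
  · refine tendsto_const_nhds.congr' ?_
    filter_upwards [eventually_ge_atTop ⌈‖y‖⌉₊] with N hN
    simp only [g]
    rw [indicator_of_mem (mem_closedBall_zero_iff.2 (Nat.ceil_le.1 hN))]

end Vale.Agent.P106
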