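import Vale.Agent.P106.Tw
import Vale.Agent.P117.Cx
import Vale.Agent.P117.Decay

/-!
Weighted vector valued multiplier bound. `mul_inv`: `Real.fourier_fderiv` (or `Real.fourier_iteratedFDeriv`, see `l1_d_inv` in P117/L1) at `-x`. `cv_L2_sum`: `cv_eq`, `planch_inv`, `lintegral_finset_sum`, `planch`.
`wt_b0`: `P y = (1 + i ⟪a, y⟫) (1 + i ⟪b, y⟫)`, `vw a b y ≤ ‖P y‖⁻² ≤ 4 vw a b y`, `H y = G y / P (x₀ - y)` (`nice_of_le`). With `A₁ = 1 + i ⟪a, x₀ - x⟫`, `A₂ = 1 + i ⟪b, x₀ - x⟫`: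
`P (x₀ - y) = (A₁ + i ⟪a, x - y⟫) (A₂ + i ⟪b, x - y⟫)`, so `cv K G x = A₁ A₂ cv K H x + i A₂ cv (⟪a, ·⟫ K) H x + i A₁ cv (⟪b, ·⟫ K) H x - cv (⟪a, ·⟫ ⟪b, ·⟫ K) H x`; `mul_inv` (twice for the
last term) identifies the kernels, `1 ≤ ‖A₁‖, ‖A₂‖`, `‖i / (2 π)‖ ≤ 1`, and `(s + t + u + v)² ≤ 4 (s² + t² + u² + v²)`.
-/

open MeasureTheory Set Real Filter Topology
open scoped FourierTransform RealInnerProductSpace ContDiff ENNReal SchwartzMap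

noncomputable section

namespace Vale.Agent.P106

open Vale.Agent.P117

theorem sm_fderiv {V : Type} [NormedAddCommGroup V] [NormedSpace ℝ V] {M : V → ℂ} (h : Sm M) (v : V) :
    Sm fun ξ => fderiv ℝ M ξ v :=
  ⟨(h.smooth.fderiv_right (m := ∞) le_rfl).clm_apply contDiff_const, h.cs.fderiv_apply ℝ v⟩

theorem wt_e (u : ℂ) : ‖u‖ₑ ^ 2 = ENNReal.ofReal (‖u‖ ^ 2) := by
  rw [← ofReal_norm, ← ENNReal.ofReal_pow (norm_nonneg _)]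

section
variable {V : Type} [NormedAddCommGroup V] [InnerProductSpace ℝ V] [FiniteDimensional ℝ V]
  [MeasurableSpace V] [BorelSpace V]

theorem mul_inv {M : V → ℂ} (h : Sm M) (v x : V) : ((⟪v, x⟫ : ℝ) : ℂ) * 𝓕⁻ M x =
    Complex.I / (2 * π) * 𝓕⁻ (fun ξ => fderiv ℝ M ξ v) x := by
  have hi : Integrable (fderiv ℝ M) :=
    (h.smooth.continuous_fderiv (by simp)).integrable_of_hasCompactSupport (h.cs.fderiv ℝ)
  have h1 := Real.fourier_fderiv h.ker.int (h.smooth.differentiable (by simp)) hi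
  rw [Real.fourierInv_eq_fourier_neg, Real.fourierInv_eq_fourier_neg,
    ← Real.fourier_continuousLinearMap_apply hi, h1, VectorFourier.fourierSMulRight_apply]
  have e : (-innerSL ℝ : V →L[ℝ] V →L[ℝ] ℝ) (-x) v = ⟪v, x⟫ := by
    simp [real_inner_comm]
  have hπ : (π : ℂ) ≠ 0 := by exact_mod_cast pi_ne_zero
  rw [e, Complex.real_smul, smul_eq_mul]
  field_simp
  rw [Complex.I_sq]
  ring

theorem cv_L2_sum (s : Finset ℕ) {M : ℕ → V → ℂ} (hM : ∀ j ∈ s, Cc (M j)) {D : ℝ}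
    (hD : ∀ ξ, ∑ j ∈ s, ‖M j ξ‖ ^ 2 ≤ D) {g : V → ℂ} (hg : Integrable g) :
    ∑ j ∈ s, Np volume 2 (cv (𝓕⁻ (M j)) g) ≤ ENNReal.ofReal D * Np volume 2 g := by
  have h1 : ∀ j ∈ s, Np volume 2 (cv (𝓕⁻ (M j)) g) ≤ ∫⁻ ξ, ‖M j ξ * 𝓕 g ξ‖ₑ ^ 2 := fun j hj => by
    rw [funext (cv_eq (hM j hj).ker.int hg), ← Np_two]
    exact planch_inv (integrable_mul_fourier (hM j hj).ker.int hg)
  refine (Finset.sum_le_sum h1).trans (le_trans ?_ (mul_le_mul_right (planch hg) _))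
  rw [← lintegral_finsetSum _ fun j hj =>
    ((hM j hj).cont.fun_mul (continuous_fourier hg)).measurable.enorm.pow_const 2, Np_two,
    ← lintegral_const_mul' _ _ ENNReal.ofReal_ne_top]
  refine lintegral_mono fun ξ => ?_
  simp only [enorm_mul, mul_pow, ← Finset.sum_mul]
  refine mul_le_mul_left ?_ _
  simp only [wt_e]
  rw [← ENNReal.ofReal_sum_of_nonneg fun _ _ => sq_nonneg _]
  exact ENNReal.ofReal_le_ofReal (hD ξ)

end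

/-- the linear factor -/
def wt_l (a z : ℂ) : ℂ := 1 + (⟪a, z⟫ : ℝ) * Complex.I

theorem wt_sq (a z : ℂ) : ‖wt_l a z‖ ^ 2 = 1 + ⟪a, z⟫ ^ 2 := by
  rw [wt_l, ← Complex.ofReal_one, Complex.sq_norm, Complex.normSq_add_mul_I, one_pow]

theorem wt_one (a z : ℂ) : 1 ≤ ‖wt_l a z‖ := by
  refine (one_le_sq_iff₀ (norm_nonneg _)).1 ?_
  rw [wt_sq]
  linarith [sq_nonneg ⟪a, z⟫]

theorem wt_dc (a z : ℂ) : dc 2 ⟪a, z⟫ * ‖wt_l a z‖ ^ 2 ≤ 1 ∧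
    1 ≤ 2 * (dc 2 ⟪a, z⟫ * ‖wt_l a z‖ ^ 2) := by
  have h0 := abs_nonneg ⟪a, z⟫
  have h1 := sq_abs ⟪a, z⟫
  rw [wt_sq, dc, ← div_eq_inv_mul, div_le_one (by positivity), ← mul_div_assoc,
    one_le_div (by positivity)]
  constructor <;> nlinarith [sq_nonneg (|⟪a, z⟫| - 1)]

theorem wt_vw (a b z : ℂ) : vw a b z * (‖wt_l a z‖ * ‖wt_l b z‖) ^ 2 ≤ 1 ∧
    1 ≤ 4 * (vw a b z * (‖wt_l a z‖ * ‖wt_l b z‖) ^ 2) := by
  obtain ⟨h1, h2⟩ := wt_dc a z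
  obtain ⟨h3, h4⟩ := wt_dc b z
  have e : vw a b z * (‖wt_l a z‖ * ‖wt_l b z‖) ^ 2 =
      dc 2 ⟪a, z⟫ * ‖wt_l a z‖ ^ 2 * (dc 2 ⟪b, z⟫ * ‖wt_l b z‖ ^ 2) := by
    rw [vw]
    ring
  rw [e]
  exact ⟨mul_le_one₀ h1 (by linarith) h3, by nlinarith⟩

theorem wt_cont (a : ℂ) : Continuous (wt_l a) := by
  unfold wt_l
  fun_prop

theorem wt_split {M : ℂ → ℂ} (hM : Sm M) (a b : ℂ) {H : ℂ → ℂ} (hH : Integrable H) (x₀ x : ℂ) :
    cv (𝓕⁻ M) (fun y => wt_l a (x₀ - y) * wt_l b (x₀ - y) * H y) x =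
      wt_l a (x₀ - x) * wt_l b (x₀ - x) * cv (𝓕⁻ M) H x +
      Complex.I * (Complex.I / (2 * π)) * wt_l b (x₀ - x) *
        cv (𝓕⁻ fun ξ => fderiv ℝ M ξ a) H x +
      Complex.I * (Complex.I / (2 * π)) * wt_l a (x₀ - x) *
        cv (𝓕⁻ fun ξ => fderiv ℝ M ξ b) H x +
      (Complex.I * (Complex.I / (2 * π))) ^ 2 *
        cv (𝓕⁻ fun ξ => fderiv ℝ (fun ζ => fderiv ℝ M ζ a) ξ b) H x := by
  have i0 := (cv_integrable hM.ker_inv hH x).const_mul (wt_l a (x₀ - x) * wt_l b (x₀ - x))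
  have i1 := (cv_integrable (sm_fderiv hM a).ker_inv hH x).const_mul
    (Complex.I * (Complex.I / (2 * π)) * wt_l b (x₀ - x))
  have i2 := (cv_integrable (sm_fderiv hM b).ker_inv hH x).const_mul
    (Complex.I * (Complex.I / (2 * π)) * wt_l a (x₀ - x))
  have i3 := (cv_integrable (sm_fderiv (sm_fderiv hM a) b).ker_inv hH x).const_mul
    ((Complex.I * (Complex.I / (2 * π))) ^ 2)
  simp only [cv, ← integral_const_mul]
  rw [← integral_add i0 i1, ← integral_add (i0.fun_add i1) i2,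
    ← integral_add ((i0.fun_add i1).fun_add i2) i3]
  refine integral_congr_ae (Eventually.of_forall fun y => ?_)
  have e : ∀ c : ℂ, wt_l c (x₀ - y) = wt_l c (x₀ - x) + (⟪c, x - y⟫ : ℝ) * Complex.I := fun c => by
    rw [wt_l, wt_l, ← sub_add_sub_cancel x₀ x y, inner_add_right, Complex.ofReal_add]
    ring
  have h1 := mul_inv hM a (x - y)
  have h2 := mul_inv hM b (x - y)
  have h3 := mul_inv (sm_fderiv hM a) b (x - y)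
  simp only [e]
  linear_combination (Complex.I * wt_l b (x₀ - x) * H y +
      Complex.I ^ 2 * (⟪b, x - y⟫ : ℝ) * H y) * h1 + Complex.I * wt_l a (x₀ - x) * H y * h2 +
    Complex.I ^ 2 * (Complex.I / (2 * π)) * H y * h3

theorem wt_pt {A B c t0 t1 t2 t3 : ℂ} {w : ℝ} (hw : 0 ≤ w) (hA : 1 ≤ ‖A‖) (hB : 1 ≤ ‖B‖)
    (hc : ‖c‖ ≤ 1) (h : w * (‖A‖ * ‖B‖) ^ 2 ≤ 1) :
    ENNReal.ofReal w * ‖A * B * t0 + c * B * t1 + c * A * t2 + c ^ 2 * t3‖ₑ ^ 2 ≤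
      4 * (‖t0‖ₑ ^ 2 + ‖t1‖ₑ ^ 2 + ‖t2‖ₑ ^ 2 + ‖t3‖ₑ ^ 2) := by
  have hAB : 1 ≤ ‖A‖ * ‖B‖ := one_le_mul_of_one_le_of_one_le hA hB
  have c0 := norm_nonneg c
  have a1 : ‖c‖ * ‖B‖ ≤ ‖A‖ * ‖B‖ := mul_le_mul_of_nonneg_right (hc.trans hA) (norm_nonneg _)
  have a2 : ‖c‖ * ‖A‖ ≤ ‖A‖ * ‖B‖ := by nlinarith
  have a3 : ‖c‖ ^ 2 ≤ ‖A‖ * ‖B‖ := (pow_le_one₀ c0 hc).trans hAB
  have h1 : ‖A * B * t0 + c * B * t1 + c * A * t2 + c ^ 2 * t3‖ ≤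
      ‖A‖ * ‖B‖ * (‖t0‖ + ‖t1‖ + ‖t2‖ + ‖t3‖) := by
    refine (norm_add_le _ _).trans ((add_le_add_left norm_add₃_le _).trans ?_)
    simp only [norm_mul, norm_pow]
    linarith [mul_le_mul_of_nonneg_right a1 (norm_nonneg t1),
      mul_le_mul_of_nonneg_right a2 (norm_nonneg t2),
      mul_le_mul_of_nonneg_right a3 (norm_nonneg t3)]
  have h2 : w * ‖A * B * t0 + c * B * t1 + c * A * t2 + c ^ 2 * t3‖ ^ 2 ≤
      4 * (‖t0‖ ^ 2 + ‖t1‖ ^ 2 + ‖t2‖ ^ 2 + ‖t3‖ ^ 2) := by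
    refine (mul_le_mul_of_nonneg_left (pow_le_pow_left₀ (norm_nonneg _) h1 2) hw).trans ?_
    rw [mul_pow, ← mul_assoc]
    refine (mul_le_of_le_one_left (sq_nonneg _) h).trans ?_
    nlinarith [sq_nonneg (‖t0‖ - ‖t1‖), sq_nonneg (‖t0‖ - ‖t2‖), sq_nonneg (‖t0‖ - ‖t3‖),
      sq_nonneg (‖t1‖ - ‖t2‖), sq_nonneg (‖t1‖ - ‖t3‖), sq_nonneg (‖t2‖ - ‖t3‖)]
  simp only [wt_e]
  rw [← ENNReal.ofReal_mul hw, ← ENNReal.ofReal_add (by positivity) (by positivity),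
    ← ENNReal.ofReal_add (by positivity) (by positivity),
    ← ENNReal.ofReal_add (by positivity) (by positivity), ← ENNReal.ofReal_ofNat,
    ← ENNReal.ofReal_mul (by norm_num)]
  exact ENNReal.ofReal_le_ofReal h2

theorem wt_b0 (s : Finset ℕ) {M : ℕ → ℂ → ℂ} (hM : ∀ j ∈ s, Sm (M j)) (a b : ℂ) {D : ℝ}
    (h0 : ∀ ξ, ∑ j ∈ s, ‖M j ξ‖ ^ 2 ≤ D) (h1 : ∀ ξ, ∑ j ∈ s, ‖fderiv ℝ (M j) ξ a‖ ^ 2 ≤ D)
    (h2 : ∀ ξ, ∑ j ∈ s, ‖fderiv ℝ (M j) ξ b‖ ^ 2 ≤ D)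
    (h3 : ∀ ξ, ∑ j ∈ s, ‖fderiv ℝ (fun ζ => fderiv ℝ (M j) ζ a) ξ b‖ ^ 2 ≤ D) {G : ℂ → ℂ}
    (hG : Nice G) (x₀ : ℂ) :
    ∫⁻ x, ENNReal.ofReal (vw a b (x₀ - x)) * ∑ j ∈ s, ‖cv (𝓕⁻ (M j)) G x‖ₑ ^ 2 ≤
      ENNReal.ofReal (64 * D) * ∫⁻ y, ENNReal.ofReal (vw a b (x₀ - y)) * ‖G y‖ₑ ^ 2 := by
  have hP : ∀ z, 1 ≤ ‖wt_l a z * wt_l b z‖ := fun z => by
    rw [norm_mul]
    exact one_le_mul_of_one_le_of_one_le (wt_one a z) (wt_one b z)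
  have hP0 : ∀ z, wt_l a z * wt_l b z ≠ 0 := fun z => norm_pos_iff.1 (one_pos.trans_le (hP z))
  have hw : ∀ z, 0 ≤ vw a b z := fun z => (mul_pos (dc_pos _ _) (dc_pos _ _)).le
  obtain ⟨H, hH, hGH, hN⟩ : ∃ H : ℂ → ℂ, Nice H ∧
      (G = fun y => wt_l a (x₀ - y) * wt_l b (x₀ - y) * H y) ∧
      Np volume 2 H ≤ 4 * ∫⁻ y, ENNReal.ofReal (vw a b (x₀ - y)) * ‖G y‖ₑ ^ 2 := by
    refine ⟨fun y => G y / (wt_l a (x₀ - y) * wt_l b (x₀ - y)), nice_of_le hG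
      (hG.meas.div (((wt_cont a).mul (wt_cont b)).comp
        (continuous_const.sub continuous_id)).measurable) fun y => ?_,
      funext fun y => (mul_div_cancel₀ _ (hP0 _)).symm, ?_⟩
    · rw [norm_div]
      exact div_le_self (norm_nonneg _) (hP _)
    · rw [Np_two, ← lintegral_const_mul' _ _ ENNReal.ofNat_ne_top]
      refine lintegral_mono fun y => ?_
      simp only [wt_e]
      rw [← ENNReal.ofReal_mul (hw _), ← ENNReal.ofReal_ofNat, ← ENNReal.ofReal_mul (by norm_num),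
        norm_div, div_pow]
      refine ENNReal.ofReal_le_ofReal ?_
      rw [div_le_iff₀ (pow_pos (one_pos.trans_le (hP _)) 2), norm_mul]
      nlinarith [mul_le_mul_of_nonneg_right (wt_vw a b (x₀ - y)).2 (sq_nonneg ‖G y‖)]
  have hc : ‖Complex.I * (Complex.I / (2 * π))‖ ≤ 1 := by
    rw [norm_mul, norm_div, Complex.norm_I, one_mul, norm_mul, Complex.norm_real,
      Complex.norm_two, Real.norm_of_nonneg pi_pos.le]
    exact (div_le_one (by positivity)).2 (by linarith [pi_gt_three])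
  have m : ∀ {N : ℂ → ℂ}, Sm N → Measurable fun x => ‖cv (𝓕⁻ N) H x‖ₑ ^ 2 := fun hN =>
    (cv_ker hN.ker_inv hH).cont.measurable.enorm.pow_const 2
  have s1 := fun j hj => sm_fderiv (hM j hj) a
  have s2 := fun j hj => sm_fderiv (hM j hj) b
  have s3 := fun j hj => sm_fderiv (s1 j hj) b
  have b0 := cv_L2_sum s (fun j hj => cc_of_sm (hM j hj)) h0 hH.int
  have b1 := cv_L2_sum s (fun j hj => cc_of_sm (s1 j hj)) h1 hH.int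
  have b2 := cv_L2_sum s (fun j hj => cc_of_sm (s2 j hj)) h2 hH.int
  have b3 := cv_L2_sum s (fun j hj => cc_of_sm (s3 j hj)) h3 hH.int
  calc ∫⁻ x, ENNReal.ofReal (vw a b (x₀ - x)) * ∑ j ∈ s, ‖cv (𝓕⁻ (M j)) G x‖ₑ ^ 2
      ≤ ∫⁻ x, ∑ j ∈ s, 4 * (‖cv (𝓕⁻ (M j)) H x‖ₑ ^ 2 +
          ‖cv (𝓕⁻ fun ξ => fderiv ℝ (M j) ξ a) H x‖ₑ ^ 2 +
          ‖cv (𝓕⁻ fun ξ => fderiv ℝ (M j) ξ b) H x‖ₑ ^ 2 +
          ‖cv (𝓕⁻ fun ξ => fderiv ℝ (fun ζ => fderiv ℝ (M j) ζ a) ξ b) H x‖ₑ ^ 2) := by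
        refine lintegral_mono fun x => ?_
        rw [Finset.mul_sum]
        refine Finset.sum_le_sum fun j hj => ?_
        rw [hGH, wt_split (hM j hj) a b hH.int]
        exact wt_pt (hw _) (wt_one _ _) (wt_one _ _) hc (wt_vw a b _).1
    _ = 4 * (∑ j ∈ s, Np volume 2 (cv (𝓕⁻ (M j)) H) +
          ∑ j ∈ s, Np volume 2 (cv (𝓕⁻ fun ξ => fderiv ℝ (M j) ξ a) H) +
          ∑ j ∈ s, Np volume 2 (cv (𝓕⁻ fun ξ => fderiv ℝ (M j) ξ b) H) +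
          ∑ j ∈ s, Np volume 2
            (cv (𝓕⁻ fun ξ => fderiv ℝ (fun ζ => fderiv ℝ (M j) ζ a) ξ b) H)) := by
        rw [lintegral_finsetSum _ fun j hj => ((((m (hM j hj)).fun_add (m (s1 j hj))).fun_add
          (m (s2 j hj))).fun_add (m (s3 j hj))).const_mul 4]
        simp only [← Finset.sum_add_distrib, Finset.mul_sum, Np_two]
        refine Finset.sum_congr rfl fun j hj => ?_
        rw [lintegral_const_mul' _ _ ENNReal.ofNat_ne_top, lintegral_add_right _ (m (s3 j hj)),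
          lintegral_add_right _ (m (s2 j hj)), lintegral_add_right _ (m (s1 j hj))]
    _ ≤ 4 * (ENNReal.ofReal D * Np volume 2 H + ENNReal.ofReal D * Np volume 2 H +
          ENNReal.ofReal D * Np volume 2 H + ENNReal.ofReal D * Np volume 2 H) := by gcongr
    _ = 16 * ENNReal.ofReal D * Np volume 2 H := by ring
    _ ≤ 16 * ENNReal.ofReal D *
          (4 * ∫⁻ y, ENNReal.ofReal (vw a b (x₀ - y)) * ‖G y‖ₑ ^ 2) := by gcongr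
    _ = _ := by
        rw [ENNReal.ofReal_mul (by norm_num), ENNReal.ofReal_ofNat]
        ring

end Vale.Agent.P106
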