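import Vale.Agent.P106.Tw
import Vale.Agent.P117.L1
import Vale.Agent.P106.Wt

/-!
The `L¹` norm of the wave kernel. Route 1: `K = 𝓕⁻ (wv (rd φ) t)` is invariant under isometries (`Real.fourierInv_comp_linearIsometry`), so it is a function `k ‖x‖`; at `x = pt 0 0 r` integrate in
cylindrical coordinates (`integral_cyl` of P117/CylB, or `measurePreserving_pt` and `integral_polar`) and by parts: `r * k r = c (ψ (t + r) - ψ (t - r))`, `ψ = 𝓕⁻ (u φ u)`, `‖c‖ = 1`; `integral_fun_norm_addHaar`, `Sm.decay`.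
Route 2: Cauchy-Schwarz with the weight `1 + ((‖x‖² - t²) / R)²`, `R = 1 + |t|`: `(‖x‖² - t²) K = 𝓕⁻ (-(4 π²)⁻¹ ∑ j, l1_d m j - t² m)` (`l1_d_inv`), the multiplier is `ex (t ‖ξ‖) (t a ξ + b ξ)` with fixed `Sm` functions
`a`, `b`; `planch_inv`; `∫ (1 + ((‖x‖² - t²) / R)²)⁻¹ ≤ C R²` (`r² / (1 + ((r² - t²) / R)²) ≤ C R² dc 2 (r - |t|)`).
-/

open MeasureTheory Set Real Filter Topology
open scoped FourierTransform RealInnerProductSpace ContDiff ENNReal SchwartzMap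

noncomputable section

namespace Vale.Agent.P106

open Vale.Agent.P117

variable {A : E3 → ℂ}

/-- the normalised derivative -/
def l1wD (j : Fin 3) (A : E3 → ℂ) (ξ : E3) : ℂ :=
  fderiv ℝ A ξ (EuclideanSpace.single j 1) * (Complex.I / (2 * π))

/-- multiplication by a direction cosine -/
def l1wN (j : Fin 3) (A : E3 → ℂ) (ξ : E3) : ℂ := A ξ * ((ξ j / ‖ξ‖ : ℝ) : ℂ)

theorem l1w_zero {r : ℝ} (h : ∀ ξ, A ξ ≠ 0 → r ≤ ‖ξ‖) {ξ : E3} (hξ : ‖ξ‖ < r) :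
    A =ᶠ[𝓝 ξ] fun _ => 0 := by
  filter_upwards [(isOpen_lt continuous_norm continuous_const).mem_nhds hξ] with y hy
  by_contra h0
  exact absurd (h y h0) (not_le.2 hy)

theorem l1w_D (h : Sw A) (j : Fin 3) : Sw (l1wD j A) := by
  obtain ⟨r, hr, h1⟩ := h.off
  refine Sw.mul ⟨sm_fderiv h.sm _, r, hr, fun ξ h0 => ?_⟩ fun _ _ => contDiffAt_const
  by_contra h2
  apply h0
  rw [(l1w_zero h1 (not_le.1 h2)).fderiv_eq]
  simp

theorem l1w_N (h : Sw A) (j : Fin 3) : Sw (l1wN j A) := by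
  refine h.mul fun ξ h0 => Complex.ofRealCLM.contDiff.contDiffAt.comp ξ ?_
  exact (EuclideanSpace.proj (𝕜 := ℝ) j).contDiff.contDiffAt.div (contDiffAt_norm ℝ h0)
    (norm_ne_zero_iff.2 h0)

theorem l1w_der (h : Sw A) (j : Fin 3) (t : ℝ) (ξ : E3) :
    Complex.I / (2 * π) * fderiv ℝ (wv A t) ξ (EuclideanSpace.single j 1) =
      wv (l1wD j A) t ξ + (-t : ℂ) * wv (l1wN j A) t ξ := by
  obtain ⟨r, hr, h1⟩ := h.off
  by_cases h0 : ξ = 0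
  · have h2 := l1w_zero h1 (ξ := ξ) (by rw [h0, norm_zero]; exact hr)
    have h3 : wv A t =ᶠ[𝓝 ξ] fun _ => 0 := by
      filter_upwards [h2] with y hy
      simp [wv, hy]
    simp [wv, l1wD, l1wN, h3.fderiv_eq, h2.fderiv_eq, h2.eq_of_nhds]
  have hn : ‖ξ‖ ≠ 0 := norm_ne_zero_iff.2 h0
  have h2 : HasFDerivAt (fun y : E3 => ‖y‖) ((1 / (2 * ‖ξ‖)) • (2 • innerSL ℝ ξ)) ξ := by
    have := (hasStrictFDerivAt_norm_sq ξ).hasFDerivAt.sqrt (pow_ne_zero 2 hn)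
    simpa only [sqrt_sq (norm_nonneg _)] using this
  have h3 := ((Complex.ofRealCLM.hasFDerivAt.comp ξ ((h2.const_mul t).const_mul (2 * π))).mul_const
    Complex.I).cexp
  have h4 := h3.mul (h.sm.smooth.differentiable (by simp) ξ).hasFDerivAt
  have e : fderiv ℝ (wv A t) ξ = _ := h4.fderiv
  have hπ : (π : ℂ) ≠ 0 := Complex.ofReal_ne_zero.2 pi_ne_zero
  have hn' : ((‖ξ‖ : ℝ) : ℂ) ≠ 0 := Complex.ofReal_ne_zero.2 hn
  rw [e]
  simp [wv, l1wD, l1wN, ex, EuclideanSpace.inner_single_right]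
  field_simp
  ring_nf
  rw [Complex.I_sq]
  ring

theorem l1w_step (h : Sw A) (j : Fin 3) (t : ℝ) (x : E3) : (x j : ℂ) * 𝓕⁻ (wv A t) x =
    𝓕⁻ (wv (l1wD j A) t) x - t * 𝓕⁻ (wv (l1wN j A) t) x := by
  have h1 := mul_inv (h.wv t) (EuclideanSpace.single j 1) x
  rw [← inv_const_mul (Complex.I / (2 * π)), funext (l1w_der h j t), inv_add ((l1w_D h j).wv t).ker.int
    (((l1w_N h j).wv t).ker.int.const_mul _), inv_const_mul] at h1
  simp only [EuclideanSpace.inner_single_left, conj_trivial, one_mul] at h1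
  rw [h1]
  ring

theorem l1w_sum {M : Fin 3 → E3 → ℂ} (h : ∀ j, Sw (M j)) (t : ℝ) (x : E3) :
    𝓕⁻ (wv (fun ξ => ∑ j, M j ξ) t) x = ∑ j, 𝓕⁻ (wv (M j) t) x := by
  rw [← inv_sum _ fun j _ => ((h j).wv t).ker.int]
  refine congrArg (fun f : E3 → ℂ => 𝓕⁻ f x) (funext fun ξ => ?_)
  simp only [wv, Finset.mul_sum]

theorem l1w_id (h : Sw A) : ∃ a b c : E3 → ℂ, Sw a ∧ Sw b ∧ Sw c ∧ ∀ (t : ℝ) (x : E3),
    ((‖x‖ ^ 2 - t ^ 2 : ℝ) : ℂ) * 𝓕⁻ (wv A t) x =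
      𝓕⁻ (wv a t) x - t * 𝓕⁻ (wv b t) x - t * 𝓕⁻ (wv c t) x := by
  refine ⟨fun ξ => ∑ j, l1wD j (l1wD j A) ξ, fun ξ => ∑ j, l1wN j (l1wD j A) ξ,
    fun ξ => ∑ j, l1wD j (l1wN j A) ξ, Sw.sum _ fun j _ => l1w_D (l1w_D h j) j,
    Sw.sum _ fun j _ => l1w_N (l1w_D h j) j, Sw.sum _ fun j _ => l1w_D (l1w_N h j) j,
    fun t x => ?_⟩
  have e : A = fun ξ => ∑ j, l1wN j (l1wN j A) ξ := by
    funext ξ
    by_cases h0 : ξ = 0
    · obtain ⟨r, hr, h1⟩ := h.off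
      have h2 := (l1w_zero h1 (ξ := ξ) (by rw [h0, norm_zero]; exact hr)).eq_of_nhds
      simp [l1wN, h2]
    have hn : ((‖ξ‖ : ℝ) : ℂ) ≠ 0 := Complex.ofReal_ne_zero.2 (norm_ne_zero_iff.2 h0)
    have h2 := congrArg (fun u : ℝ => (u : ℂ)) (norm_sq_e3 ξ)
    simp only [l1wN, Fin.sum_univ_three]
    push_cast at h2 ⊢
    field_simp
    rw [h2]
  have e2 := l1w_sum (fun j => l1w_N (l1w_N h j) j) t x
  rw [← e] at e2
  have e3 : ∀ j, (x j : ℂ) ^ 2 * 𝓕⁻ (wv A t) x = 𝓕⁻ (wv (l1wD j (l1wD j A)) t) x -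
      t * 𝓕⁻ (wv (l1wN j (l1wD j A)) t) x - t * 𝓕⁻ (wv (l1wD j (l1wN j A)) t) x +
      t ^ 2 * 𝓕⁻ (wv (l1wN j (l1wN j A)) t) x := fun j => by
    linear_combination (x j : ℂ) * l1w_step h j t x + l1w_step (l1w_D h j) j t x -
      t * l1w_step (l1w_N h j) j t x
  rw [l1w_sum fun j => l1w_D (l1w_D h j) j, l1w_sum fun j => l1w_N (l1w_D h j) j,
    l1w_sum fun j => l1w_D (l1w_N h j) j, norm_sq_e3]
  simp only [Fin.sum_univ_three] at e2 ⊢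
  push_cast
  linear_combination e3 0 + e3 1 + e3 2 - t ^ 2 * e2

theorem l1w_pl (h : Sw A) : ∃ C : ℝ, 0 ≤ C ∧ ∀ t : ℝ,
    Integrable (fun x => ‖𝓕⁻ (wv A t) x‖ ^ 2) ∧ ∫ x, ‖𝓕⁻ (wv A t) x‖ ^ 2 ≤ C := by
  have hsq : ∀ {K : E3 → ℂ}, Ker K → Integrable (fun x => ‖K x‖ ^ 2) ∧
      ENNReal.ofReal (∫ x, ‖K x‖ ^ 2) = Np volume 2 K := fun {K} hK => by
    have h1 : Integrable (fun x => ‖K x‖ ^ 2) := by
      simpa only [norm_mul, sq] using (hK.mul hK).int.norm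
    refine ⟨h1, ?_⟩
    rw [ofReal_integral_eq_lintegral_ofReal h1 (Eventually.of_forall fun x => by positivity)]
    refine lintegral_congr fun x => ?_
    rw [ENNReal.ofReal_pow (norm_nonneg _), ofReal_norm, ENNReal.rpow_two]
  have h0 : 0 ≤ ∫ x, ‖A x‖ ^ 2 := integral_nonneg fun x => by positivity
  refine ⟨_, h0, fun t => ⟨(hsq (h.wv t).ker_inv).1, ?_⟩⟩
  have h1 := planch_inv (h.wv t).ker.int
  rw [← (hsq (h.wv t).ker_inv).2, ← (hsq (h.wv t).ker).2, ENNReal.ofReal_le_ofReal_iff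
    (integral_nonneg fun x => by positivity)] at h1
  simpa only [norm_wv] using h1

theorem l1w_pt (t : ℝ) {r : ℝ} (hr : 0 < r) :
    r ^ 2 * (1 + ((r ^ 2 - t ^ 2) / (1 + |t|)) ^ 2)⁻¹ ≤
      2 * (1 + |t|) ^ 2 * (1 + (r - |t|) ^ 2)⁻¹ := by
  rw [← sq_abs t]
  have hs := abs_nonneg t
  generalize |t| = s at hs ⊢
  have h1 : (r - s) ^ 2 * r ^ 2 ≤ (r ^ 2 - s ^ 2) ^ 2 := by
    rw [show (r ^ 2 - s ^ 2) ^ 2 = (r - s) ^ 2 * (r + s) ^ 2 by ring]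
    gcongr
    linarith
  have h2 : r ^ 2 ≤ (1 + s) ^ 2 + (r ^ 2 - s ^ 2) ^ 2 := by
    rcases le_total r (1 + s) with h | h
    · exact le_add_of_le_of_nonneg (pow_le_pow_left₀ hr.le h 2) (sq_nonneg _)
    · have h3 : 1 ≤ (r - s) ^ 2 := one_le_pow₀ (by linarith)
      nlinarith [sq_nonneg (1 + s), sq_nonneg r]
  rw [← div_eq_mul_inv, ← div_eq_mul_inv, div_le_div_iff₀ (by positivity) (by positivity), div_pow,
    mul_add (2 * _), mul_assoc 2 _ (_ / _), mul_div_cancel₀ _ (by positivity)]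
  nlinarith [sq_nonneg (1 + s)]

theorem l1w_w : ∃ C : ℝ, 0 ≤ C ∧ ∀ t : ℝ,
    Integrable (fun x : E3 => (1 + ((‖x‖ ^ 2 - t ^ 2) / (1 + |t|)) ^ 2)⁻¹) ∧
      ∫ x : E3, (1 + ((‖x‖ ^ 2 - t ^ 2) / (1 + |t|)) ^ 2)⁻¹ ≤ C * (1 + |t|) ^ 2 := by
  refine ⟨3 * (volume.real (Metric.ball (0 : E3) 1) * (2 * π)), by positivity, fun t => ?_⟩
  have hf : Module.finrank ℝ E3 = 3 := by simp
  have h1 : Integrable fun r : ℝ => 2 * (1 + |t|) ^ 2 * (1 + (r - |t|) ^ 2)⁻¹ :=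
    (integrable_inv_one_add_sq.comp_sub_right |t|).const_mul _
  have h2 : ∀ᵐ r ∂(volume.restrict (Ioi (0 : ℝ))),
      ‖r ^ 2 * (1 + ((r ^ 2 - t ^ 2) / (1 + |t|)) ^ 2)⁻¹‖ ≤
        2 * (1 + |t|) ^ 2 * (1 + (r - |t|) ^ 2)⁻¹ :=
    (ae_restrict_mem measurableSet_Ioi).mono fun r hr => by
      rw [Real.norm_of_nonneg (by positivity)]
      exact l1w_pt t hr
  have h3 : IntegrableOn (fun r : ℝ => r ^ 2 * (1 + ((r ^ 2 - t ^ 2) / (1 + |t|)) ^ 2)⁻¹) (Ioi 0) :=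
    h1.integrableOn.mono' (Measurable.aestronglyMeasurable (by fun_prop)) h2
  refine ⟨(integrable_fun_norm_addHaar volume
    (f := fun r => (1 + ((r ^ 2 - t ^ 2) / (1 + |t|)) ^ 2)⁻¹)).2 (by rw [hf]; exact h3), ?_⟩
  rw [integral_fun_norm_addHaar volume fun r => (1 + ((r ^ 2 - t ^ 2) / (1 + |t|)) ^ 2)⁻¹, hf]
  have h4 : ∫ r in Ioi (0 : ℝ), r ^ 2 * (1 + ((r ^ 2 - t ^ 2) / (1 + |t|)) ^ 2)⁻¹ ≤
      2 * π * (1 + |t|) ^ 2 := by
    refine ((le_abs_self _).trans (norm_integral_le_of_norm_le h1.integrableOn h2)).trans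
      ((setIntegral_le_integral h1 (Eventually.of_forall fun r => by positivity)).trans_eq ?_)
    rw [integral_const_mul, integral_sub_right_eq_self (fun r : ℝ => (1 + r ^ 2)⁻¹),
      integral_univ_inv_one_add_sq]
    ring
  simp only [nsmul_eq_mul, smul_eq_mul, Nat.cast_ofNat, mul_assoc] at h4 ⊢
  gcongr

theorem l1w_am {k a b c t u : ℝ} (hk : 0 ≤ k) (h : |u| * k ≤ a + |t| * b + |t| * c)
    (ha : 0 ≤ a) (hb : 0 ≤ b) (hc : 0 ≤ c) :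
    k ≤ (1 + |t|) * (k ^ 2 + 3 * (a ^ 2 + b ^ 2 + c ^ 2)) +
      (1 + |t|)⁻¹ * (1 + (u / (1 + |t|)) ^ 2)⁻¹ := by
  have hs := abs_nonneg t
  generalize |t| = s at hs h ⊢
  have h1 : |u| / (1 + s) * k ≤ a + b + c := by
    rw [div_mul_eq_mul_div, div_le_iff₀ (by positivity)]
    nlinarith [mul_nonneg hs ha]
  have h2 : (u / (1 + s)) ^ 2 * k ^ 2 ≤ 3 * (a ^ 2 + b ^ 2 + c ^ 2) := by
    have h3 := pow_le_pow_left₀ (by positivity) h1 2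
    rw [mul_pow, div_pow, sq_abs, ← div_pow] at h3
    nlinarith [sq_nonneg (a - b), sq_nonneg (a - c), sq_nonneg (b - c)]
  have hW : 0 < (1 + s) * (1 + (u / (1 + s)) ^ 2) := by positivity
  have h4 : (1 + s) * (1 + (u / (1 + s)) ^ 2) * k ^ 2 ≤
      (1 + s) * (k ^ 2 + 3 * (a ^ 2 + b ^ 2 + c ^ 2)) := by
    rw [mul_assoc]
    gcongr
    linarith
  rw [← _root_.mul_inv]
  generalize (1 + s) * (1 + (u / (1 + s)) ^ 2) = W at hW h4 ⊢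
  have h5 : k ≤ W * k ^ 2 + W⁻¹ := by
    have h6 : W * W⁻¹ = 1 := mul_inv_cancel₀ hW.ne'
    have h7 := inv_pos.2 hW
    nlinarith [mul_nonneg hW.le (sq_nonneg (k - W⁻¹)), mul_nonneg hW.le (sq_nonneg k)]
  linarith

theorem l1w {φ : ℝ → ℂ} (hφ : Prof φ) : ∃ C : ℝ, 0 < C ∧ ∀ t : ℝ,
    ∫ x, ‖𝓕⁻ (wv (rd φ : E3 → ℂ) t) x‖ ≤ C * (1 + |t|) := by
  have h : Sw (rd φ : E3 → ℂ) := rd_sw' hφ
  obtain ⟨a, b, c, ha, hb, hc, e⟩ := l1w_id h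
  obtain ⟨C0, p0, h0⟩ := l1w_pl h
  obtain ⟨Ca, pa, h1⟩ := l1w_pl ha
  obtain ⟨Cb, pb, h2⟩ := l1w_pl hb
  obtain ⟨Cc, pc, h3⟩ := l1w_pl hc
  obtain ⟨Cw, pw, h4⟩ := l1w_w
  refine ⟨C0 + 3 * (Ca + Cb + Cc) + Cw + 1, by positivity, fun t => ?_⟩
  have hR : 0 < 1 + |t| := by positivity
  have i1 := ((h1 t).1.add (h2 t).1).add (h3 t).1
  have i2 := ((h0 t).1.add (i1.const_mul 3)).const_mul (1 + |t|)
  have i3 := (h4 t).1.const_mul (1 + |t|)⁻¹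
  refine (integral_mono (h.wv t).ker_inv.int.norm (i2.add i3) fun x => l1w_am (norm_nonneg _) ?_
    (norm_nonneg _) (norm_nonneg _) (norm_nonneg _)).trans ?_
  · have h5 := congrArg norm (e t x)
    rw [norm_mul, Complex.norm_real, Real.norm_eq_abs] at h5
    rw [h5]
    refine (norm_sub_le _ _).trans (add_le_add ((norm_sub_le _ _).trans_eq ?_) (le_of_eq ?_))
    all_goals rw [norm_mul, Complex.norm_real, Real.norm_eq_abs]
  · rw [integral_add' i2 i3, integral_const_mul, integral_const_mul, integral_add' (h0 t).1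
      (i1.const_mul 3), integral_const_mul, integral_add' ((h1 t).1.add (h2 t).1) (h3 t).1,
      integral_add' (h1 t).1 (h2 t).1]
    have h5 : (1 + |t|)⁻¹ * ∫ x : E3, (1 + ((‖x‖ ^ 2 - t ^ 2) / (1 + |t|)) ^ 2)⁻¹ ≤
        Cw * (1 + |t|) := by
      rw [inv_mul_le_iff₀ hR]
      exact (h4 t).2.trans_eq (by ring)
    have h6 := mul_le_mul_of_nonneg_left (add_le_add (h0 t).2 (mul_le_mul_of_nonneg_left
      (add_le_add (add_le_add (h1 t).2 (h2 t).2) (h3 t).2) (by norm_num : (0 : ℝ) ≤ 3))) hR.le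
    nlinarith

end Vale.Agent.P106
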