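import Vale.Agent.P106.Cut3
import Vale.Agent.P117.Decay

/-!
The polar piece. `ε = (2 ^ n)⁻¹ ≤ 1/16`, `τ = t ε² ∈ [0, 1]`. On the support `|ξ 2| ≥ 1/5`. With `σ u = smoothTransition (20 * u - 2)` (zero for `u ≤ 1/10`, one for `u ≥ 3/20`) the multiplier is the sum
over `s = 1, -1` of `m s ξ = wv (polw φ n) t ξ * σ (s * ξ 2)`. For `ξ = D y = pt (ε * y 0) (ε * y 1) (y 2)`: `m s (D y) = ex (t s y 2) * N ((τ, ε), y)`, where `r = y 0 ^ 2 + y 1 ^ 2`, `v = √(ε² r + y 2 ^ 2)`,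
`N ((τ, ε), y) = ex (τ r / (v + s y 2)) * φ v * bt r * σ (s y 2)` is smooth (locally zero where `s y 2 < 1/10`) and vanishes for `‖y‖ > 5`. `l1_lin`, `l1_mod`, `unif_decay` with `n = 4`, `integrable_one_add_norm`.
-/

open MeasureTheory Set Real Filter Topology
open scoped FourierTransform RealInnerProductSpace ContDiff ENNReal SchwartzMap

noncomputable section

namespace Vale.Agent.P106

open Vale.Agent.P117

theorem l1_mod (M : E3 → ℂ) (a : E3) :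
    ∫ x, ‖𝓕⁻ (fun ξ => ex ⟪ξ, a⟫ * M ξ) x‖ = ∫ x, ‖𝓕⁻ M x‖ := by
  have h : ∀ x, 𝓕⁻ (fun ξ => ex ⟪ξ, a⟫ * M ξ) x = 𝓕⁻ M (x + a) := fun x => by
    rw [inv_eq, inv_eq]
    refine integral_congr_ae (Eventually.of_forall fun ξ => ?_)
    simp only [inner_add_right, ex_add]
    ring
  simp only [h]
  exact integral_add_right_eq_self (fun x => ‖𝓕⁻ M x‖) a

theorem polar_cov {F : Type} [NormedAddCommGroup F] [NormedSpace ℝ F] (L : E3 ≃L[ℝ] E3)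
    (g : E3 → F) :
    ∫ y, g (L y) = |(LinearMap.det (L.toLinearEquiv : E3 →ₗ[ℝ] E3))⁻¹| • ∫ y, g y := by
  have h := Measure.map_linearMap_addHaar_eq_smul_addHaar (volume : Measure E3)
    (f := (L.toLinearEquiv : E3 →ₗ[ℝ] E3)) (LinearEquiv.isUnit_det' L.toLinearEquiv).ne_zero
  have h2 := integral_map_equiv (μ := volume) L.toHomeomorph.toMeasurableEquiv g
  have h3 : Measure.map L.toHomeomorph.toMeasurableEquiv (volume : Measure E3) =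
      Measure.map (L.toLinearEquiv : E3 →ₗ[ℝ] E3) volume := rfl
  rw [h3, h, integral_smul_measure, ENNReal.toReal_ofReal (abs_nonneg _)] at h2
  exact h2.symm

/-- the diagonal map -/
def polarD {a b : ℝ} (ha : a ≠ 0) (hb : b ≠ 0) : E3 ≃L[ℝ] E3 :=
  LinearEquiv.toContinuousLinearEquiv
    { toFun := fun y => pt (a * y 0) (a * y 1) (b * y 2)
      invFun := fun y => pt (a⁻¹ * y 0) (a⁻¹ * y 1) (b⁻¹ * y 2)
      map_add' := fun x y => by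
        ext i
        fin_cases i <;> simp [pt, mul_add]
      map_smul' := fun c x => by
        ext i
        fin_cases i <;> simp [pt] <;> ring
      left_inv := fun x => by
        ext i
        fin_cases i <;> simp [pt, ha, hb]
      right_inv := fun x => by
        ext i
        fin_cases i <;> simp [pt, ha, hb] }

theorem polar_inner {a b : ℝ} (ha : a ≠ 0) (hb : b ≠ 0) (x y : E3) :
    ⟪polarD ha hb y, (polarD ha hb).symm x⟫ = ⟪y, x⟫ := by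
  rw [inner_e3, inner_e3]
  change (pt (a * y 0) (a * y 1) (b * y 2)) 0 * (pt (a⁻¹ * x 0) (a⁻¹ * x 1) (b⁻¹ * x 2)) 0 +
    (pt (a * y 0) (a * y 1) (b * y 2)) 1 * (pt (a⁻¹ * x 0) (a⁻¹ * x 1) (b⁻¹ * x 2)) 1 +
    (pt (a * y 0) (a * y 1) (b * y 2)) 2 * (pt (a⁻¹ * x 0) (a⁻¹ * x 1) (b⁻¹ * x 2)) 2 = _
  simp only [pt, Matrix.cons_val]
  field_simp

/-- diagonal changes of variables preserve the `L¹` norm of the kernel -/
theorem l1_lin (M : E3 → ℂ) {a b : ℝ} (ha : 0 < a) (hb : 0 < b) :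
    ∫ x, ‖𝓕⁻ (fun y : E3 => M (pt (a * y 0) (a * y 1) (b * y 2))) x‖ = ∫ x, ‖𝓕⁻ M x‖ := by
  set L := polarD ha.ne' hb.ne' with hL
  have h : ∀ x, 𝓕⁻ (fun y : E3 => M (pt (a * y 0) (a * y 1) (b * y 2))) x =
      |(LinearMap.det (L.toLinearEquiv : E3 →ₗ[ℝ] E3))⁻¹| • 𝓕⁻ M (L.symm x) := fun x => by
    rw [inv_eq, inv_eq, ← polar_cov L fun ξ => ex ⟪ξ, L.symm x⟫ * M ξ]
    refine integral_congr_ae (Eventually.of_forall fun y => ?_)
    simp only [hL, polar_inner]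
    rfl
  simp only [h, norm_smul, Real.norm_eq_abs, abs_abs]
  rw [integral_const_mul, polar_cov L.symm fun x => ‖𝓕⁻ M x‖, smul_eq_mul, ← mul_assoc, ← abs_mul,
    ← mul_inv]
  have h1 : LinearMap.det (L.toLinearEquiv : E3 →ₗ[ℝ] E3) *
      LinearMap.det (L.symm.toLinearEquiv : E3 →ₗ[ℝ] E3) = 1 :=
    LinearEquiv.det_mul_det_symm L.toLinearEquiv
  rw [h1, inv_one, abs_one, one_mul]

theorem l1_unif {P : Type} [NormedAddCommGroup P] [NormedSpace ℝ P] {N : P × E3 → ℂ}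
    (hN : ContDiff ℝ ∞ N) {S : Set P} (hS : IsCompact S) {R : ℝ}
    (hR : ∀ a ∈ S, ∀ y, R < ‖y‖ → N (a, y) = 0) :
    ∃ C : ℝ, 0 < C ∧ ∀ a ∈ S, ∫ x, ‖𝓕⁻ (fun y => N (a, y)) x‖ ≤ C := by
  obtain ⟨C, hC, h⟩ := unif_decay hN hS hR 4
  have hi : Integrable fun x : E3 => ((1 + ‖x‖) ^ 4)⁻¹ := by
    have := integrable_one_add_norm (E := E3) (μ := volume) (r := 4) (by simp; norm_num)
    refine this.congr (Eventually.of_forall fun x => ?_)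
    have h0 : (0 : ℝ) ≤ 1 + ‖x‖ := by positivity
    simp only
    rw [Real.rpow_neg h0]
    norm_cast
  refine ⟨C * (∫ x : E3, ((1 + ‖x‖) ^ 4)⁻¹) + 1, ?_, fun a ha => ?_⟩
  · have : 0 ≤ ∫ x : E3, ((1 + ‖x‖) ^ 4)⁻¹ := integral_nonneg fun x => by positivity
    positivity
  · have := integral_mono_of_nonneg (μ := volume) (f := fun x => ‖𝓕⁻ (fun y => N (a, y)) x‖)
      (Eventually.of_forall fun x => norm_nonneg _) (hi.const_mul C)
      (Eventually.of_forall fun x => h a ha x)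
    rw [integral_const_mul] at this
    linarith

/-- the cut-off between the two poles -/
def polarS (u : ℝ) : ℝ := smoothTransition (20 * u - 2)

theorem polar_s0 {u : ℝ} (h : u ≤ 1 / 10) : polarS u = 0 :=
  smoothTransition.zero_of_nonpos (by linarith)

theorem polar_s1 {u : ℝ} (h : 3 / 20 ≤ u) : polarS u = 1 :=
  smoothTransition.one_of_one_le (by linarith)

theorem polar_ss : ContDiff ℝ ∞ polarS :=
  smoothTransition.contDiff.comp (by fun_prop)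

/-- the rescaled norm -/
def polarV (q : (ℝ × ℝ) × E3) : ℝ := √(q.1.2 ^ 2 * (q.2 0 ^ 2 + q.2 1 ^ 2) + q.2 2 ^ 2)

/-- the rescaled multiplier -/
def polarN (φ : ℝ → ℂ) (s : ℝ) (q : (ℝ × ℝ) × E3) : ℂ :=
  ex (q.1.1 * (q.2 0 ^ 2 + q.2 1 ^ 2) / (polarV q + s * q.2 2)) * φ (polarV q) *
    ((bt (q.2 0 ^ 2 + q.2 1 ^ 2) * polarS (s * q.2 2) : ℝ) : ℂ)

theorem polar_co (i : Fin 3) : ContDiff ℝ ∞ fun q : (ℝ × ℝ) × E3 => q.2 i :=
  (EuclideanSpace.proj i : E3 →L[ℝ] ℝ).contDiff.comp contDiff_snd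

theorem polar_smooth {φ : ℝ → ℂ} (hφ : Prof φ) (s : ℝ) : ContDiff ℝ ∞ (polarN φ s) := by
  have c0 := polar_co 0
  have c1 := polar_co 1
  have c2 := polar_co 2
  have cr : ContDiff ℝ ∞ fun q : (ℝ × ℝ) × E3 => q.2 0 ^ 2 + q.2 1 ^ 2 := (c0.pow 2).add (c1.pow 2)
  have cs : ContDiff ℝ ∞ fun q : (ℝ × ℝ) × E3 => s * q.2 2 := contDiff_const.mul c2
  refine contDiff_iff_contDiffAt.2 fun q => ?_
  by_cases hq : s * q.2 2 < 1 / 10
  · have : ∀ᶠ p in 𝓝 q, s * p.2 2 < 1 / 10 :=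
      cs.continuous.continuousAt.eventually_lt continuousAt_const hq
    refine (contDiffAt_const (c := (0 : ℂ))).congr_of_eventuallyEq (this.mono fun p hp => ?_)
    simp only [polarN, polar_s0 hp.le, mul_zero, Complex.ofReal_zero]
  · have h1 : 0 < s * q.2 2 := by linarith [not_lt.1 hq]
    have h2 : q.2 2 ≠ 0 := fun h => by rw [h, mul_zero] at h1; exact lt_irrefl _ h1
    have h3 : q.1.2 ^ 2 * (q.2 0 ^ 2 + q.2 1 ^ 2) + q.2 2 ^ 2 ≠ 0 := by positivity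
    have cv : ContDiffAt ℝ ∞ polarV q :=
      ((((contDiff_snd.comp contDiff_fst).pow 2).mul cr).add (c2.pow 2)).contDiffAt.sqrt h3
    have h4 : polarV q + s * q.2 2 ≠ 0 := by
      have : 0 ≤ polarV q := Real.sqrt_nonneg _
      positivity
    have e1 : ContDiffAt ℝ ∞ (fun p : (ℝ × ℝ) × E3 =>
        p.1.1 * (p.2 0 ^ 2 + p.2 1 ^ 2) / (polarV p + s * p.2 2)) q :=
      ((contDiff_fst.comp contDiff_fst).mul cr).contDiffAt.div (cv.add cs.contDiffAt) h4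
    have e2 : ContDiff ℝ ∞ fun p : (ℝ × ℝ) × E3 =>
        ((bt (p.2 0 ^ 2 + p.2 1 ^ 2) * polarS (s * p.2 2) : ℝ) : ℂ) :=
      Complex.ofRealCLM.contDiff.comp ((bt_smooth.comp cr).mul (polar_ss.comp cs))
    exact ((contDiff_ex.contDiffAt.comp q e1).mul (hφ.smooth.contDiffAt.comp q cv)).mul
      e2.contDiffAt

theorem polar_van {φ : ℝ → ℂ} (hφ : Prof φ) (s : ℝ) (a : ℝ × ℝ) (y : E3) (hy : 5 < ‖y‖) :
    polarN φ s (a, y) = 0 := by
  have h1 : 25 < y 0 ^ 2 + y 1 ^ 2 + y 2 ^ 2 := by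
    rw [← norm_sq_e3]
    nlinarith
  by_cases h : 4 ≤ y 0 ^ 2 + y 1 ^ 2
  · simp only [polarN, bt_zero h, zero_mul, mul_zero, Complex.ofReal_zero]
  · have h2 : 4 < polarV (a, y) := by
      refine Real.lt_sqrt_of_sq_lt ?_
      have : 0 ≤ a.2 ^ 2 * (y 0 ^ 2 + y 1 ^ 2) := by positivity
      simp only
      linarith [not_le.1 h]
    have h3 : φ (polarV (a, y)) = 0 := hφ.supp _ fun h => absurd h.2 (not_le.2 h2)
    simp only [polarN, h3, zero_mul, mul_zero]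

theorem polar_id (φ : ℝ → ℂ) {s : ℝ} (hs : s ^ 2 = 1) (n : ℕ) (t : ℝ) (y : E3) :
    wv (polw φ n) t (pt ((2 ^ n)⁻¹ * y 0) ((2 ^ n)⁻¹ * y 1) (1 * y 2)) *
      (polarS (s * (pt ((2 ^ n)⁻¹ * y 0) ((2 ^ n)⁻¹ * y 1) (1 * y 2)) 2) : ℂ) =
    ex ⟪y, pt 0 0 (t * s)⟫ * polarN φ s ((t * ((2 ^ n)⁻¹) ^ 2, (2 ^ n)⁻¹), y) := by
  set ε : ℝ := (2 ^ n)⁻¹ with hε
  have h4 : (4 : ℝ) ^ n * ε ^ 2 = 1 := by
    rw [hε, inv_pow, ← pow_mul, mul_comm n 2, pow_mul]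
    norm_num
  have p0 : (pt (ε * y 0) (ε * y 1) (1 * y 2)) 0 = ε * y 0 := by simp [pt]
  have p1 : (pt (ε * y 0) (ε * y 1) (1 * y 2)) 1 = ε * y 1 := by simp [pt]
  have p2 : (pt (ε * y 0) (ε * y 1) (1 * y 2)) 2 = y 2 := by simp [pt]
  have hv : ‖pt (ε * y 0) (ε * y 1) (1 * y 2)‖ = polarV ((t * ε ^ 2, ε), y) := by
    rw [← Real.sqrt_sq (norm_nonneg (pt (ε * y 0) (ε * y 1) (1 * y 2))), norm_sq_e3, p0, p1, p2]
    unfold polarV
    congr 1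
    ring
  have hr : (4 : ℝ) ^ n * ((ε * y 0) ^ 2 + (ε * y 1) ^ 2) = y 0 ^ 2 + y 1 ^ 2 := by
    linear_combination (y 0 ^ 2 + y 1 ^ 2) * h4
  have hi : ⟪y, pt 0 0 (t * s)⟫ = t * s * y 2 := by
    rw [inner_e3]
    simp [pt]
    ring
  simp only [wv, polw, rd, polarN]
  rw [p0, p1, p2, hv, hr, hi]
  by_cases hq : s * y 2 ≤ 1 / 10
  · simp only [polar_s0 hq, mul_zero, Complex.ofReal_zero]
  · set v := polarV ((t * ε ^ 2, ε), y) with hv'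
    have h0 : 0 ≤ v := Real.sqrt_nonneg _
    have h1 : v ^ 2 = ε ^ 2 * (y 0 ^ 2 + y 1 ^ 2) + y 2 ^ 2 := Real.sq_sqrt (by positivity)
    have h2 : v + s * y 2 ≠ 0 := by
      have : 0 < s * y 2 := by linarith [not_le.1 hq]
      positivity
    have h3 : t * v = t * s * y 2 + t * ε ^ 2 * (y 0 ^ 2 + y 1 ^ 2) / (v + s * y 2) := by
      field_simp
      linear_combination t * h1 - t * y 2 ^ 2 * hs
    rw [h3, ex_add]
    push_cast
    ring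

theorem polar_half {φ : ℝ → ℂ} (hφ : Prof φ) {s : ℝ} (hs : s ^ 2 = 1) : ∃ C : ℝ, 0 < C ∧ ∀ n : ℕ,
    ∀ t ∈ Icc (0 : ℝ) (4 ^ n),
      ∫ x, ‖𝓕⁻ (fun ξ => wv (polw φ n) t ξ * (polarS (s * ξ 2) : ℂ)) x‖ ≤ C := by
  obtain ⟨C, hC, h⟩ := l1_unif (polar_smooth hφ s)
    ((isCompact_Icc (a := (0 : ℝ)) (b := 1)).prod (isCompact_Icc (a := (0 : ℝ)) (b := 1)))
    (R := 5) fun a _ y hy => polar_van hφ s a y hy
  refine ⟨C, hC, fun n t ht => ?_⟩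
  have hε : (0 : ℝ) < (2 ^ n)⁻¹ := by positivity
  have h4 : (4 : ℝ) ^ n * ((2 ^ n)⁻¹) ^ 2 = 1 := by
    rw [inv_pow, ← pow_mul, mul_comm n 2, pow_mul]
    norm_num
  rw [← l1_lin _ hε one_pos]
  simp only [polar_id φ hs]
  rw [l1_mod]
  refine h (t * ((2 ^ n)⁻¹) ^ 2, (2 ^ n)⁻¹) ⟨⟨mul_nonneg ht.1 (by positivity), ?_⟩, hε.le, ?_⟩
  · rw [← h4]
    exact mul_le_mul_of_nonneg_right ht.2 (by positivity)
  · exact inv_le_one_of_one_le₀ (one_le_pow₀ (by norm_num))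

theorem polar_split {φ : ℝ → ℂ} (hφ : Prof φ) {n : ℕ} (hn : 4 ≤ n) (t : ℝ) (ξ : E3) :
    wv (polw φ n) t ξ = wv (polw φ n) t ξ * (polarS (1 * ξ 2) : ℂ) +
      wv (polw φ n) t ξ * (polarS (-1 * ξ 2) : ℂ) := by
  by_cases h1 : rd φ ξ = 0
  · simp only [wv, polw, h1, zero_mul, mul_zero, add_zero]
  by_cases h2 : 4 ≤ (4 : ℝ) ^ n * (ξ 0 ^ 2 + ξ 1 ^ 2)
  · simp only [wv, polw, bt_zero h2, zero_mul, mul_zero, add_zero, Complex.ofReal_zero]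
  have h3 := (rd_ne hφ h1).1
  have h4 : (4 : ℝ) ^ 4 ≤ 4 ^ n := pow_le_pow_right₀ (by norm_num) hn
  have h5 : 1 / 16 ≤ ξ 0 ^ 2 + ξ 1 ^ 2 + ξ 2 ^ 2 := by
    rw [← norm_sq_e3]
    nlinarith
  have h6 : ξ 0 ^ 2 + ξ 1 ^ 2 ≤ 1 / 64 := by
    have : 0 ≤ ξ 0 ^ 2 + ξ 1 ^ 2 := by positivity
    nlinarith [not_le.1 h2]
  by_cases h7 : 0 ≤ ξ 2
  · have h8 : 3 / 20 ≤ 1 * ξ 2 := by nlinarith
    rw [polar_s1 h8, polar_s0 (u := -1 * ξ 2) (by linarith)]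
    simp
  · have h8 : 3 / 20 ≤ -1 * ξ 2 := by nlinarith
    rw [polar_s1 h8, polar_s0 (u := 1 * ξ 2) (by linarith)]
    simp

theorem polar {φ : ℝ → ℂ} (hφ : Prof φ) : ∃ C : ℝ, 0 < C ∧ ∀ n : ℕ, 4 ≤ n →
    ∀ t ∈ Icc (0 : ℝ) (4 ^ n), ∫ x, ‖𝓕⁻ (wv (polw φ n) t) x‖ ≤ C := by
  obtain ⟨C, hC, h⟩ := polar_half hφ (s := 1) (by norm_num)
  obtain ⟨C', hC', h'⟩ := polar_half hφ (s := -1) (by norm_num)
  refine ⟨C + C', by positivity, fun n hn t ht => ?_⟩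
  have sm : ∀ s : ℝ, Sm fun ξ : E3 => wv (polw φ n) t ξ * (polarS (s * ξ 2) : ℂ) := fun s =>
    ((polw_sw hφ n).wv t).mul (Complex.ofRealCLM.contDiff.comp (polar_ss.comp
      (contDiff_const.mul (EuclideanSpace.proj (2 : Fin 3) : E3 →L[ℝ] ℝ).contDiff)))
  have e : wv (polw φ n) t = fun ξ => wv (polw φ n) t ξ * (polarS (1 * ξ 2) : ℂ) +
      wv (polw φ n) t ξ * (polarS (-1 * ξ 2) : ℂ) := funext (polar_split hφ hn t)
  have i1 := (sm 1).ker_inv.int.norm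
  have i2 := (sm (-1)).ker_inv.int.norm
  refine le_trans (integral_mono_of_nonneg (Eventually.of_forall fun x => norm_nonneg _)
    (i1.add i2) (Eventually.of_forall fun x => ?_)) ?_
  · simp only [Pi.add_apply]
    refine le_trans (le_of_eq ?_) (norm_add_le _ _)
    rw [← inv_add (sm 1).ker.int (sm (-1)).ker.int, ← e]
  · simp only [Pi.add_apply]
    rw [integral_add i1 i2]
    exact add_le_add (h n t ht) (h' n t ht)

end Vale.Agent.P106
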