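import Vale.Agent.P106.Piece
import Vale.Agent.P106.Polar
import Vale.Agent.P106.L1W
import Vale.Agent.P106.BdC

/-!
All exponents. Compare P117/All.lean. `all23`: `rd_split`, `BdT.sum`, `BdT.add`, `pieceT` with `σ / 2` and `lam = 4 / 2 ^ i ≥ (2 ^ n)⁻¹`, `polar`, `BdT.of_L1`, `l4a_log`.
`allp`: for `3 ≤ p` choose `2 ≤ q < 3` and `η > 0` with `η + 1 - q / p ≤ σ`, then `BdT.interp` with `l1w` (`1 + |t| ≤ 2 * 4 ^ n`); `((1 + |k|)²) ^ (q / p) ≤ (1 + |k|)²`.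
-/

open MeasureTheory Set Real Filter Topology
open scoped FourierTransform RealInnerProductSpace ContDiff ENNReal SchwartzMap

noncomputable section

namespace Vale.Agent.P106

open Vale.Agent.P117

variable {φ : ℝ → ℂ} {p σ : ℝ}

theorem all_kk (k : ℤ) : 1 ≤ (1 + |(k : ℝ)|) ^ 2 :=
  one_le_pow₀ (le_add_of_nonneg_right (abs_nonneg _))

theorem all_lam {n i : ℕ} (h : i < n + 2) : ((2 : ℝ) ^ n)⁻¹ ≤ 4 / 2 ^ i := by
  have h1 : (2 : ℝ) ^ i ≤ 2 ^ (n + 2) := pow_le_pow_right₀ one_le_two h.le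
  rw [inv_eq_one_div, div_le_div_iff₀ (by positivity) (by positivity)]
  rw [pow_add] at h1
  linarith

theorem all23 (hφ : Prof φ) (h2 : 2 ≤ p) (h3 : p < 3) (hσ : 0 < σ) : ∃ C : ℝ, 0 < C ∧
    ∀ n : ℕ, 4 ≤ n → ∀ k : ℤ,
      BdT p k (4 ^ n) (C * (1 + |(k : ℝ)|) ^ 2 * (4 ^ n) ^ σ) (rd φ) := by
  obtain ⟨C, hC, hp⟩ := pieceT h2 h3 (half_pos hσ) hφ
  obtain ⟨D, hD, hl⟩ := polar hφ
  obtain ⟨E, hE, hn⟩ := l4a_log (half_pos hσ)
  refine ⟨E * C + D, by positivity, fun n h4 k => ?_⟩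
  have h1 : 1 ≤ p := by linarith
  have hs := fun i : ℕ => (pcw_sw hφ (4 / 2 ^ i)).sm.ker.int
  have b1 := BdT.sum h1 (n + 2) hs (by positivity)
    fun i hi => hp n (4 / 2 ^ i) (by omega) (all_lam hi) k
  have b2 := BdT.of_L1 h1 (polw_sw hφ n) (hl n h4) k
  rw [funext (rd_split hφ n)]
  refine (BdT.add h1 (integrable_finsetSum _ fun i _ => hs i) (polw_sw hφ n).sm.ker.int
    (by positivity) hD.le b1 b2).mono (by linarith) ?_
  have e : ((4 : ℝ) ^ n) ^ σ = (4 ^ n) ^ (σ / 2) * (4 ^ n) ^ (σ / 2) := by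
    rw [← rpow_add (by positivity), add_halves]
  have h5 : (1 : ℝ) ≤ ((4 : ℝ) ^ n) ^ (σ / 2) :=
    one_le_rpow (one_le_pow₀ (by norm_num)) (half_pos hσ).le
  have h6 := all_kk k
  have h9 := hn n
  rw [e]
  generalize ((4 : ℝ) ^ n) ^ (σ / 2) = x at h5 h9
  generalize (1 + |(k : ℝ)|) ^ 2 = K at h6
  have h7 : 1 ≤ K * (x * x) := one_le_mul_of_one_le_of_one_le h6 (by nlinarith)
  have h10 : ((n + 2 : ℕ) : ℝ) ≤ E * x := by
    push_cast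
    linarith
  have h8 := mul_le_mul_of_nonneg_right h10 (by positivity : 0 ≤ C * K * x)
  nlinarith [mul_le_mul_of_nonneg_left h7 hD.le]

theorem allp (hφ : Prof φ) (h2 : 2 ≤ p) (hσ : max 0 (1 - 3 / p) < σ) : ∃ C : ℝ, 0 < C ∧
    ∀ n : ℕ, 4 ≤ n → ∀ k : ℤ,
      BdT p k (4 ^ n) (C * (1 + |(k : ℝ)|) ^ 2 * (4 ^ n) ^ σ) (rd φ) := by
  obtain ⟨s2, s1⟩ := max_lt_iff.1 hσ
  rcases lt_or_ge p 3 with h3 | h3
  · exact all23 hφ h2 h3 s2
  have hp : 0 < p := by linarith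
  obtain ⟨q, q2, q3, q4⟩ : ∃ q : ℝ, 2 ≤ q ∧ q < 3 ∧ 1 - q / p < σ := by
    have h : (1 - σ) * p < 3 := (lt_div_iff₀ hp).1 (by linarith)
    refine ⟨max 2 ((3 + (1 - σ) * p) / 2), le_max_left _ _, max_lt (by norm_num) (by linarith), ?_⟩
    have h' : 1 - σ < max 2 ((3 + (1 - σ) * p) / 2) / p :=
      (lt_div_iff₀ hp).2 (lt_max_of_lt_right (by linarith))
    linarith
  obtain ⟨C, hC, hb⟩ := all23 hφ q2 q3 (sub_pos.2 q4)
  obtain ⟨D, hD, hl⟩ := l1w hφ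
  obtain ⟨E, hE, hi⟩ := BdT.interp (p := p) (q := q) (by linarith) (by linarith)
  refine ⟨E * C ^ (q / p) * (2 * D) ^ (1 - q / p), by positivity, fun n hn k => ?_⟩
  have h5 : (1 : ℝ) ≤ (4 : ℝ) ^ n := one_le_pow₀ (by norm_num)
  have hl' : ∀ t ∈ Icc (0 : ℝ) (4 ^ n), ∫ x, ‖𝓕⁻ (wv (rd φ : E3 → ℂ) t) x‖ ≤ 2 * D * 4 ^ n := by
    intro t ht
    refine (hl t).trans ?_
    rw [abs_of_nonneg ht.1]
    nlinarith [ht.2]
  refine (hi k _ _ _ _ (by positivity) (by positivity) (rd_sw' hφ) (hb n hn k) hl').mono hp.le ?_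
  have h6 := all_kk k
  generalize (4 : ℝ) ^ n = x at h5
  generalize (1 + |(k : ℝ)|) ^ 2 = K at h6
  have t1 : q / p ≤ 1 := (div_le_one hp).2 (by linarith)
  have h7 : 1 ≤ K * x ^ (σ - (1 - q / p)) :=
    one_le_mul_of_one_le_of_one_le h6 (one_le_rpow h5 (sub_pos.2 q4).le)
  have h8 : (K * x ^ (σ - (1 - q / p))) ^ (q / p) ≤ K * x ^ (σ - (1 - q / p)) :=
    rpow_le_self_of_one_le h7 t1
  have e : x ^ σ = x ^ (σ - (1 - q / p)) * x ^ (1 - q / p) := by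
    rw [← rpow_add (by linarith), sub_add_cancel]
  have hD2 : 0 ≤ 2 * D := by linarith
  rw [mul_assoc C, mul_rpow hC.le (by linarith), mul_rpow hD2 (by linarith), e]
  calc E * (C ^ (q / p) * (K * x ^ (σ - (1 - q / p))) ^ (q / p)) *
        ((2 * D) ^ (1 - q / p) * x ^ (1 - q / p))
      ≤ E * (C ^ (q / p) * (K * x ^ (σ - (1 - q / p)))) *
        ((2 * D) ^ (1 - q / p) * x ^ (1 - q / p)) := by
        gcongr
    _ = _ := by ring

end Vale.Agent.P106
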