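import Vale.Agent.P106.Tw
import Vale.Agent.P117.Cx

/-!
Planar amplitudes. `ps`: `smoothTransition.zero_of_nonpos`, `.one_of_one_le`, `.monotone`; the sums telescope (`Finset.sum_range_sub'`). `exists_c`:
`c u = (1 - bt (16 * u ^ 2)) * bt (u ^ 2 / 4)` for `0 < u`, zero otherwise (see `exists_ab` in P117/CutA; `chi u = 0` unless `1/2 ≤ |u| ≤ 2`). `pp` is smooth where `0 < ‖ξ‖ + ξ.re` and `ξ ≠ 0`.
`cap_am`: at points with `0 < ξ.re` a product of smooth functions, near the other points `amp` vanishes. `cs_closed`: on `lam / 4 ≤ ξ.re` the function `kap` is continuous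
(`ContinuousOn.preimage_isClosed_of_isClosed`). `sum_cap`: where `amp ≠ 0` one has `|pp ξ| ≤ 1`, so `2 ^ n * ((pp ξ + 2) / 4)` lies in `[0, 2 ^ n - 1]`.
-/

open MeasureTheory Set Real Filter Topology
open scoped FourierTransform RealInnerProductSpace ContDiff ENNReal SchwartzMap

noncomputable section

namespace Vale.Agent.P106

open Vale.Agent.P117

variable {φ : ℂ → ℂ} {c : ℝ → ℂ} {lam : ℝ} {n j m i : ℕ} {ξ : ℂ}

theorem ps_nonneg (u : ℝ) : 0 ≤ ps u := sub_nonneg.2 (smoothTransition.monotone (by linarith))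

theorem ps_zero {u : ℝ} (h : 1 ≤ |u|) : ps u = 0 := by
  rcases le_abs'.1 h with h | h
  · rw [ps, smoothTransition.zero_of_nonpos (by linarith),
      smoothTransition.zero_of_nonpos (by linarith), sub_self]
  · rw [ps, smoothTransition.one_of_one_le (by linarith), smoothTransition.one_of_one_le h, sub_self]

theorem ps_sm : Sm fun u => (ps u : ℂ) := by
  refine ⟨cuta_ofReal ((smoothTransition.contDiff.comp (contDiff_id.add contDiff_const)).sub
    smoothTransition.contDiff), .intro (isCompact_closedBall (0 : ℝ) 1) fun u hu => ?_⟩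
  rw [ps_zero (le_of_not_ge (by simpa using hu)), Complex.ofReal_zero]

theorem amp_tel (u : ℝ) (N : ℕ) : ∑ j ∈ Finset.range N, ps (u - j) =
    smoothTransition (u + 1) - smoothTransition (u - N + 1) := by
  have h := Finset.sum_range_sub' (fun j : ℕ => smoothTransition (u - j + 1)) N
  simp only [Nat.cast_zero, sub_zero, Nat.cast_succ] at h
  rw [← h]
  exact Finset.sum_congr rfl fun j _ => by rw [ps, show u - (j + 1) + 1 = u - j by ring]

theorem ps_sum {u : ℝ} {N : ℕ} (h0 : 0 ≤ u) (h1 : u ≤ N - 1) :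
    ∑ j ∈ Finset.range N, ps (u - j) = 1 := by
  rw [amp_tel, smoothTransition.one_of_one_le (by linarith),
    smoothTransition.zero_of_nonpos (by linarith), sub_zero]

theorem ps_sum_le (u : ℝ) (s : Finset ℕ) : ∑ j ∈ s, ps (u - j) ≤ 1 := by
  refine (Finset.sum_le_sum_of_subset_of_nonneg s.subset_range_sup_succ
    fun j _ _ => ps_nonneg _).trans ?_
  rw [amp_tel]
  exact (sub_le_self _ (smoothTransition.nonneg _)).trans (smoothTransition.le_one _)

theorem exists_c : ∃ c : ℝ → ℂ, Prof c ∧ ∀ u : ℝ, 0 ≤ u → c u * chi u = chi u := by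
  refine ⟨fun u => (((1 - bt (12 * u - 2)) * bt (3 * u / 2 - 2) : ℝ) : ℂ),
    ⟨cuta_ofReal ((contDiff_const.sub (cuta_bt (by fun_prop))).mul
      (cuta_bt (by fun_prop))), fun u hu => ?_⟩, fun u hu => ?_⟩
  · rw [mem_Icc, not_and_or, not_le, not_le] at hu
    rcases hu with hu | hu
    · rw [bt_one (u := 12 * u - 2) (by linarith)]
      simp
    · rw [bt_zero (u := 3 * u / 2 - 2) (by linarith)]
      simp
  · rcases le_or_gt u (1 / 2) with h1 | h1
    · rw [chi, bt_one (u := u ^ 2) (by nlinarith), bt_one (u := 4 * u ^ 2) (by nlinarith)]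
      simp
    rcases le_or_gt 2 u with h2 | h2
    · rw [chi, bt_zero (u := u ^ 2) (by nlinarith), bt_zero (u := 4 * u ^ 2) (by nlinarith)]
      simp
    · simp only
      rw [bt_zero (u := 12 * u - 2) (by linarith), bt_one (u := 3 * u / 2 - 2) (by linarith)]
      simp

theorem Am.sw (h : Am φ) : Sw φ := ⟨h.sm, 1 / 4, by norm_num, fun ξ h0 => (h.ann ξ h0).1⟩

theorem rd_am {ψ : ℝ → ℂ} (h : Prof ψ) : Am (rd ψ) := ⟨(rd_sw' h).sm, fun _ => rd_ne h⟩

theorem amp_am (h : Am φ) (hc : Prof c) (hl : 0 < lam) : Am (amp φ c lam) :=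
  have _ := hl
  ⟨h.sm.mul (hc.smooth.comp (Complex.reCLM.contDiff.div_const lam)),
    fun ξ h0 => h.ann ξ (left_ne_zero_of_mul h0)⟩

theorem amp_ne (h : Am φ) (hc : Prof c) (hl : 0 < lam) (h0 : amp φ c lam ξ ≠ 0) :
    lam / 4 ≤ ξ.re ∧ ξ.re ≤ 4 * lam ∧ 1 / 4 ≤ ‖ξ‖ ∧ ‖ξ‖ ≤ 4 := by
  obtain ⟨h1, h2⟩ : ξ.re / lam ∈ Icc (1 / 4 : ℝ) 4 :=
    by_contra fun k => right_ne_zero_of_mul h0 (hc.supp _ k)
  rw [le_div_iff₀ hl] at h1
  exact ⟨by linarith, (div_le_iff₀ hl).1 h2, h.ann ξ (left_ne_zero_of_mul h0)⟩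

theorem amp_bdd (h : Am φ) (hc : Prof c) : ∃ C : ℝ, 0 < C ∧ ∀ lam ξ, ‖amp φ c lam ξ‖ ≤ C := by
  obtain ⟨A, hA⟩ := h.sm.ker.bdd
  obtain ⟨B, hB, hB', -⟩ := hc.bdd
  have h0 := (norm_nonneg _).trans (hA 0)
  refine ⟨(A + 1) * B, by positivity, fun lam ξ => ?_⟩
  rw [amp, norm_mul]
  exact mul_le_mul (by linarith [hA ξ]) (hB' _) (norm_nonneg _) (by linarith)

theorem pp_smooth (h : 0 < ‖ξ‖ + ξ.re) : ContDiffAt ℝ ∞ pp ξ :=
  Complex.imCLM.contDiff.contDiffAt.div ((contDiffAt_norm ℝ (by rintro rfl; simp at h)).add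
    Complex.reCLM.contDiff.contDiffAt) h.ne'

theorem abs_pp_le (h : 0 ≤ ξ.re) : |pp ξ| ≤ 1 := by
  have h1 := add_nonneg (norm_nonneg ξ) h
  rw [pp, abs_div, abs_of_nonneg h1]
  exact div_le_one_of_le₀ ((Complex.abs_im_le_norm ξ).trans (le_add_of_nonneg_right h)) h1

theorem eq_e1 (h : 0 < ‖ξ‖ + ξ.re) : ξ = (‖ξ‖ + ξ.re) • e1 (pp ξ) := by
  have h1 := norm_sq_cx ξ
  refine Complex.ext ?_ ?_ <;> simp only [Complex.smul_re, Complex.smul_im, e1, pp, smul_eq_mul] <;>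
    field_simp
  linarith

theorem norm_eq_pp (h : 0 < ‖ξ‖ + ξ.re) : ‖ξ‖ = (‖ξ‖ + ξ.re) * (1 + pp ξ ^ 2) / 2 := by
  have h1 := norm_sq_cx ξ
  rw [pp]
  field_simp
  linarith

theorem eq_nv (h : 0 < ‖ξ‖ + ξ.re) : ξ = ‖ξ‖ • nv (pp ξ) := by
  refine (eq_e1 h).trans ?_
  conv_rhs => rw [norm_eq_pp h]
  refine Complex.ext ?_ ?_ <;> simp only [Complex.smul_re, Complex.smul_im, e1, nv, smul_eq_mul] <;>
    field_simp

theorem norm_nv (p : ℝ) : ‖nv p‖ = 1 := by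
  rw [← sq_eq_sq₀ (norm_nonneg _) zero_le_one, norm_sq_cx]
  simp only [nv]
  field_simp
  ring

theorem abs_p0 (hi : i < 2 ^ m) : |p0 m i| ≤ 2 := by
  have h1 : (i : ℝ) / 2 ^ m ≤ 1 := div_le_one_of_le₀ (by exact_mod_cast hi.le) (by positivity)
  have h2 : 0 ≤ (i : ℝ) / 2 ^ m := by positivity
  rw [p0, abs_le]
  constructor <;> linarith

theorem pp_sub (hm : m ≤ n) (hj : j ∈ blk (n - m) i) (h : |kap n j ξ| ≤ 1) :
    |pp ξ - p0 m i| ≤ 4 / 2 ^ m := by
  obtain ⟨d, rfl⟩ := Nat.exists_eq_add_of_le hm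
  rw [Nat.add_sub_cancel_left, blk, Finset.mem_Ico] at hj
  have h1 : (i : ℝ) * 2 ^ d ≤ j := by exact_mod_cast hj.1
  have h2 : (j : ℝ) + 1 ≤ (i + 1) * 2 ^ d := by exact_mod_cast hj.2
  have h3 : (1 : ℝ) ≤ 2 ^ d := one_le_pow₀ one_le_two
  have h4 : pp ξ - p0 m i = 4 / 2 ^ m * ((kap (m + d) j ξ + j - i * 2 ^ d) / 2 ^ d) := by
    rw [kap, p0, pow_add]
    field_simp
    ring
  rw [h4, abs_mul, abs_of_pos (by positivity), abs_div, abs_of_pos (a := 2 ^ d) (by positivity)]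
  rw [abs_le] at h
  exact mul_le_of_le_one_right (by positivity) (div_le_one_of_le₀
    (abs_le.2 ⟨by linarith, by linarith⟩) (by positivity))

theorem amp_kap (h : 0 < ξ.re) (n j : ℕ) : ContDiffAt ℝ ∞ (kap n j) ξ :=
  (contDiffAt_const.mul (((pp_smooth (add_pos_of_nonneg_of_pos (norm_nonneg _) h)).add
    contDiffAt_const).div_const 4)).sub contDiffAt_const

theorem cap_am (h : Am φ) (hc : Prof c) (hl : 0 < lam) (n j : ℕ) : Am (cap φ c lam n j) := by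
  have h1 := amp_am h hc hl
  refine ⟨⟨contDiff_iff_contDiffAt.2 fun ξ => ?_, h1.sm.cs.mul_right⟩,
    fun ξ h0 => h1.ann ξ (left_ne_zero_of_mul h0)⟩
  rcases lt_or_ge 0 ξ.re with h2 | h2
  · exact h1.sm.smooth.contDiffAt.mul (ps_sm.smooth.contDiffAt.comp ξ (amp_kap h2 n j))
  · refine (contDiffAt_const (c := (0 : ℂ))).congr_of_eventuallyEq ?_
    filter_upwards [Complex.continuous_re.continuousAt.eventually
      (gt_mem_nhds (h2.trans_lt (by positivity : 0 < lam / 4)))] with ζ hζ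
    exact mul_eq_zero_of_left (by_contra fun k => hζ.not_ge (amp_ne h hc hl k).1) _

theorem cap_cs (h : Am φ) (hc : Prof c) (hl : 0 < lam) (h0 : cap φ c lam n j ξ ≠ 0) :
    ξ ∈ cs lam n j := by
  obtain ⟨h1, h2, h3, h4⟩ := amp_ne h hc hl (left_ne_zero_of_mul h0)
  refine ⟨h1, h2, h3, h4, le_of_not_ge fun k => right_ne_zero_of_mul h0 ?_⟩
  rw [ps_zero k, Complex.ofReal_zero]

theorem cs_closed (hl : 0 < lam) (n j : ℕ) : IsClosed (cs lam n j) := by
  have h1 : IsClosed {ξ : ℂ | lam / 4 ≤ ξ.re ∧ ξ.re ≤ 4 * lam ∧ 1 / 4 ≤ ‖ξ‖ ∧ ‖ξ‖ ≤ 4} :=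
    (isClosed_le continuous_const Complex.continuous_re).inter
      ((isClosed_le Complex.continuous_re continuous_const).inter
        ((isClosed_le continuous_const continuous_norm).inter
          (isClosed_le continuous_norm continuous_const)))
  have h2 := ContinuousOn.preimage_isClosed_of_isClosed (f := fun ξ => |kap n j ξ|) (fun ξ hξ =>
    (amp_kap ((by positivity : 0 < lam / 4).trans_le hξ.1) n j).continuousAt.abs.continuousWithinAt)
    h1 (isClosed_Iic (a := 1))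
  refine (Set.ext fun ξ => ?_ : _ = cs lam n j) ▸ h2
  simp only [cs, mem_inter_iff, mem_ofPred_eq, mem_preimage, mem_Iic, and_assoc]

theorem cs_card (s : Finset ℕ) (h : ∀ j ∈ s, ξ ∈ cs lam n j) : s.card ≤ 3 := by
  obtain ⟨X, hX⟩ : ∃ X : ℝ, ∀ j : ℕ, kap n j ξ = X - j := ⟨_, fun _ => rfl⟩
  refine (Finset.card_le_card (t := Finset.Icc ⌈X - 1⌉₊ (⌈X - 1⌉₊ + 2)) fun j hj => ?_).trans
    (by simp; omega)
  obtain ⟨h1, h2⟩ := abs_le.1 (hX j ▸ (h j hj).2.2.2.2)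
  have h3 : (j : ℝ) ≤ ⌈X - 1⌉₊ + 2 := by linarith [Nat.le_ceil (X - 1)]
  exact Finset.mem_Icc.2 ⟨Nat.ceil_le.2 (by linarith), by exact_mod_cast h3⟩

theorem sum_cap (h : Am φ) (hc : Prof c) (hl : 0 < lam) (hn : 2 ≤ n) (ξ : ℂ) :
    ∑ j ∈ Finset.range (2 ^ n), cap φ c lam n j ξ = amp φ c lam ξ := by
  simp only [cap, kap, ← Finset.mul_sum, ← Complex.ofReal_sum]
  by_cases h0 : amp φ c lam ξ = 0
  · rw [h0, zero_mul]
  obtain ⟨h1, h2⟩ := abs_le.1 (abs_pp_le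
    ((by positivity : 0 ≤ lam / 4).trans (amp_ne h hc hl h0).1))
  have h3 : (2 : ℝ) ^ 2 ≤ 2 ^ n := pow_le_pow_right₀ one_le_two hn
  rw [ps_sum (mul_nonneg (by positivity) (by linarith)) (by push_cast; nlinarith),
    Complex.ofReal_one, mul_one]

theorem sq_cap (s : Finset ℕ) (ξ : ℂ) :
    ∑ j ∈ s, ‖cap φ c lam n j ξ‖ ^ 2 ≤ ‖amp φ c lam ξ‖ ^ 2 := by
  simp only [cap, kap, norm_mul, mul_pow, ← Finset.mul_sum, Complex.norm_real, Real.norm_eq_abs,
    sq_abs]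
  refine mul_le_of_le_one_right (sq_nonneg _)
    ((Finset.sum_le_sum fun j _ => ?_).trans (ps_sum_le (2 ^ n * ((pp ξ + 2) / 4)) s))
  rw [sq]
  exact mul_le_of_le_one_right (ps_nonneg _) (by simpa using ps_sum_le (2 ^ n * ((pp ξ + 2) / 4)) {j})

end Vale.Agent.P106
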