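import Vale.Agent.P117.Base

/-! Internal definitions for P106. FROZEN. See skeleton/P106/GUIDE.md. -/

open MeasureTheory Set Real
open scoped FourierTransform RealInnerProductSpace ContDiff ENNReal

noncomputable section

namespace Vale.Agent.P106

open Vale.Agent.P117

/-- the character -/
def ex (s : ℝ) : ℂ := Complex.exp (((2 * π * s : ℝ) : ℂ) * Complex.I)

section gen
variable {V : Type} [NormedAddCommGroup V] [InnerProductSpace ℝ V] [FiniteDimensional ℝ V]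
  [MeasurableSpace V] [BorelSpace V]

/-- the multiplier of the half-wave evolution with amplitude `A` -/
def wv (A : V → ℂ) (t : ℝ) (ξ : V) : ℂ := ex (t * ‖ξ‖) * A ξ

/-- the half-wave evolution with amplitude `A` -/
def Tw (A f : V → ℂ) (q : ℝ × V) : ℂ := cv (𝓕⁻ (wv A q.1)) f q.2

/-- the measure on a time slab -/
def tm (V : Type) [MeasureSpace V] (a b : ℝ) : Measure (ℝ × V) :=
  (volume.restrict (Icc a b)).prod volume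

/-- continuous with bounded support -/
structure Cc (F : V → ℂ) : Prop where
  cont : Continuous F
  supp : ∃ R, ∀ ξ, R < ‖ξ‖ → F ξ = 0

/-- correlation -/
def cr (F G : V → ℂ) : V → ℂ := cv (fun ζ => (starRingEnd ℂ) (G (-ζ))) F

/-- the basic quartic quantity -/
def Q (W : V → ℂ) (s : Finset ℕ) (F : ℕ → V → ℂ) : ℝ≥0∞ :=
  Np volume 2 fun ξ => W ξ * ∑ j ∈ s, cr (F j) (F j) ξ

/-- the local mass of the square function -/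
def lm (w : V → ℝ) (s : Finset ℕ) (F : ℕ → V → ℂ) (y : V) : ℝ≥0∞ :=
  ∫⁻ z, ENNReal.ofReal (w (y - z)) * ∑ j ∈ s, ‖𝓕⁻ (F j) z‖ₑ ^ 2

/-- `W` is the Fourier transform of the nonnegative weight `w` -/
structure Pw (W : V → ℂ) (w : V → ℝ) : Prop where
  cont : Continuous w
  int : Integrable w
  nn : ∀ y, 0 ≤ w y
  four : ∀ ξ, 𝓕 (fun y => (w y : ℂ)) ξ = W ξ

/-- radial amplitudes -/
def rd (φ : ℝ → ℂ) (ξ : V) : ℂ := φ ‖ξ‖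

end gen

/-- the fixed weight -/
structure Wgt (W : E3 → ℂ) (w : E3 → ℝ) (c C : ℝ) : Prop where
  pw : Pw W w
  c0 : 0 < c
  C0 : 0 < C
  lo : ∀ ξ, ‖ξ‖ ≤ 240 → c ≤ ‖W ξ‖
  hi : ∀ ξ, ‖W ξ‖ ≤ 1
  van : ∀ ξ, 500 < ‖ξ‖ → W ξ = 0
  dec : ∀ y, w y ≤ C * (dc 2 (y 0) * dc 2 (y 1) * dc 2 (y 2))

/-- planks of the cone `ξ 0 * ξ 2 = ξ 1 ^ 2` -/
def th (κ n j : ℕ) : Set E3 :=
  {ξ | 1 ≤ ξ 0 ∧ ξ 0 ≤ 1 + (4 ^ κ)⁻¹ ∧ |2 ^ n * ξ 1 - j * ξ 0| ≤ 2 ∧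
    |ξ 0 * ξ 2 - ξ 1 ^ 2| ≤ (4 ^ n)⁻¹}

/-- Lorentz rescaling -/
def Lz (m i : ℕ) (ξ : E3) : E3 :=
  pt (ξ 0) (2 ^ m * ξ 1 - i * ξ 0) (4 ^ m * ξ 2 - 2 * 2 ^ m * i * ξ 1 + i ^ 2 * ξ 0)

/-- the frame of a wave envelope -/
def Tz (n m i : ℕ) (ξ : E3) : E3 := (4 : ℝ) ^ (n - m) • Lz m i ξ

/-- dyadic blocks of indices -/
def blk (d i : ℕ) : Finset ℕ := Finset.Ico (i * 2 ^ d) ((i + 1) * 2 ^ d)

/-- sums over blocks -/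
def par (d : ℕ) (F : ℕ → E3 → ℂ) (i : ℕ) (ξ : E3) : ℂ := ∑ j ∈ blk d i, F j ξ

/-- families supported in the planks -/
def Fam (κ n : ℕ) (F : ℕ → E3 → ℂ) : Prop :=
  ∀ j < 2 ^ n, Continuous (F j) ∧ ∀ ξ, ξ ∉ th κ n j → F j ξ = 0

/-- the square function at level `k`, averaged on balls of radius `4 ^ k` -/
def AA (W : E3 → ℂ) (k n : ℕ) (F : ℕ → E3 → ℂ) : ℝ≥0∞ :=
  Q (fun ξ => W ((4 : ℝ) ^ k • ξ)) (Finset.range (2 ^ k)) (par (n - k) F)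

/-- the sum over the wave envelopes -/
def Env (W : E3 → ℂ) (n : ℕ) (F : ℕ → E3 → ℂ) : ℝ≥0∞ :=
  ∑ m ∈ Finset.range (n + 1), ∑ i ∈ Finset.range (2 ^ m),
    Q (fun ξ => W (Tz n m i ξ)) (blk (n - m) i) F

/-- the two-scale inequality -/
def PP (W : E3 → ℂ) (κ k n : ℕ) (S : ℝ) : Prop :=
  ∀ F, Fam κ n F → AA W k n F ≤ ENNReal.ofReal S * Env W n F

/-- differences of two points of a plank -/
def Df (n j : ℕ) (ξ : E3) : Prop :=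
  |ξ 0| ≤ 1 ∧ |2 ^ n * ξ 1 - j * ξ 0| ≤ 4 ∧
    |4 ^ n * ξ 2 - 2 * 2 ^ n * j * ξ 1 + j ^ 2 * ξ 0| ≤ 6

/-- pairs of indices that interact -/
def Nr (a b c d : ℕ) : Prop :=
  (|(a : ℝ) - c| ≤ 12 ∧ |(b : ℝ) - d| ≤ 12) ∨ (|(a : ℝ) - d| ≤ 12 ∧ |(b : ℝ) - c| ≤ 12)

/-- the tangent of the half angle -/
def pp (ξ : ℂ) : ℝ := ξ.im / (‖ξ‖ + ξ.re)

/-- the angular variable of a cap -/
def kap (n j : ℕ) (ξ : ℂ) : ℝ := 2 ^ n * ((pp ξ + 2) / 4) - j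

/-- the partition of unity -/
def ps (u : ℝ) : ℝ := smoothTransition (u + 1) - smoothTransition u

/-- planar amplitudes -/
structure Am (φ : ℂ → ℂ) : Prop where
  sm : Sm φ
  ann : ∀ ξ, φ ξ ≠ 0 → 1 / 4 ≤ ‖ξ‖ ∧ ‖ξ‖ ≤ 4

/-- the amplitude at distance `lam` from the axis -/
def amp (φ : ℂ → ℂ) (c : ℝ → ℂ) (lam : ℝ) (ξ : ℂ) : ℂ := φ ξ * c (ξ.re / lam)

/-- the amplitude of a cap -/
def cap (φ : ℂ → ℂ) (c : ℝ → ℂ) (lam : ℝ) (n j : ℕ) (ξ : ℂ) : ℂ :=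
  amp φ c lam ξ * ps (kap n j ξ)

/-- a closed set that contains the support of a cap -/
def cs (lam : ℝ) (n j : ℕ) : Set ℂ :=
  {ξ | lam / 4 ≤ ξ.re ∧ ξ.re ≤ 4 * lam ∧ 1 / 4 ≤ ‖ξ‖ ∧ ‖ξ‖ ≤ 4 ∧ |kap n j ξ| ≤ 1}

/-- the direction of a block -/
def p0 (m i : ℕ) : ℝ := 4 * (i / 2 ^ m) - 2

/-- the radial vector -/
def e1 (p : ℝ) : ℂ := ⟨(1 - p ^ 2) / 2, p⟩

/-- the tangential vector -/
def e2 (p : ℝ) : ℂ := ⟨-p, 1⟩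

/-- the unit vector -/
def nv (p : ℝ) : ℂ := ⟨(1 - p ^ 2) / (1 + p ^ 2), 2 * p / (1 + p ^ 2)⟩

/-- first vector of the frame -/
def v1 (n m i : ℕ) : ℂ := ((4 : ℝ) ^ m / 4 ^ n) • e1 (p0 m i)

/-- second vector of the frame -/
def v2 (n m i : ℕ) : ℂ := ((2 : ℝ) ^ m / 4 ^ n) • e2 (p0 m i)

/-- the weight of a frame -/
def vw (a b x : ℂ) : ℝ := dc 2 ⟪a, x⟫ * dc 2 ⟪b, x⟫

/-- the multiplier in a moving frame -/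
def mv (A : ℂ → ℂ) (t p : ℝ) (ξ : ℂ) : ℂ := ex (t * (‖ξ‖ - ⟪nv p, ξ⟫)) * A ξ

/-- the mass of an envelope -/
def mu (χ : ℝ → ℂ) (ρ : ℝ) (M : ℕ → ℂ → ℂ) (G : ℂ → ℂ) (n m i : ℕ) (x : ℂ) : ℝ≥0∞ :=
  ∫⁻ t : ℝ, ENNReal.ofReal (4 ^ n)⁻¹ * ‖χ (t / ρ)‖ₑ ^ 2 *
    ∫⁻ y : ℂ, ENNReal.ofReal (8 ^ m / 16 ^ n * vw (v1 n m i) (v2 n m i) (x - y - t • nv (p0 m i))) *
      ∑ j ∈ blk (n - m) i, ‖Tw (M j) G (t, y)‖ₑ ^ 2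

/-- light cone coordinates -/
def Lm (a : ℝ) (ξ : E3) : E3 :=
  pt ((ξ 2 + ξ 0) / a) ((ξ 1 + 2 * (ξ 2 + ξ 0)) / (4 * a))
    ((ξ 2 - ξ 0 + 4 * ξ 1 + 4 * (ξ 2 + ξ 0)) / (16 * a))

/-- the lift to a neighbourhood of the cone -/
def lf (h : ℝ → ℂ) (ρ : ℝ) (U : ℂ → ℂ) (ξ : E3) : ℂ :=
  U ⟨ξ 0, ξ 1⟩ * (ρ * h (ρ * (ξ 2 - ‖(⟨ξ 0, ξ 1⟩ : ℂ)‖)))

/-- bounds for two first derivatives and the mixed derivative -/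
structure J2 {E : Type} [NormedAddCommGroup E] [NormedSpace ℝ E] (f : ℂ → E) (ξ v w : ℂ) (B : ℝ) :
    Prop where
  sm : ContDiffAt ℝ 2 f ξ
  d1 : ‖fderiv ℝ f ξ v‖ ≤ B
  d2 : ‖fderiv ℝ f ξ w‖ ≤ B
  d12 : ‖fderiv ℝ (fun ζ => fderiv ℝ f ζ v) ξ w‖ ≤ B

/-- the same with a bound for the value -/
def Jt (f : ℂ → ℂ) (ξ v w : ℂ) (B : ℝ) : Prop := J2 f ξ v w B ∧ ‖f ξ‖ ≤ B

/-- the pieces of the amplitude in three-space -/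
def pcw (φ : ℝ → ℂ) (lam : ℝ) (ξ : E3) : ℂ := rd φ ξ * chi (rho ξ / lam)

/-- the polar piece -/
def polw (φ : ℝ → ℂ) (n : ℕ) (ξ : E3) : ℂ := rd φ ξ * (bt (4 ^ n * (ξ 0 ^ 2 + ξ 1 ^ 2)) : ℝ)

/-- time averaged bound on the class of equivariant functions -/
def BdT (p : ℝ) (k : ℤ) (R B : ℝ) (A : E3 → ℂ) : Prop :=
  ∀ f, Cls k f → Np (tm E3 0 R) p (Tw A f) ≤
    ENNReal.ofReal B ^ p * (ENNReal.ofReal R * Np volume p f)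

/-- the symbol of the Bessel potential -/
def jb (α : ℝ) (ξ : E3) : ℂ := (((1 + 4 * π ^ 2 * ‖ξ‖ ^ 2) ^ (α / 2) : ℝ) : ℂ)

/-- its normalised dyadic pieces -/
def bs (α : ℝ) (j : ℕ) (ξ : E3) : ℂ := chi (‖ξ‖ / 2 ^ j) * (((2 ^ j : ℝ) ^ α : ℝ) * jb (-α) ξ)

/-- low frequencies -/
def lw (N : ℕ) (ξ : E3) : ℂ := ((bt (‖ξ‖ ^ 2) - bt (4 ^ N * ‖ξ‖ ^ 2) : ℝ) : ℂ)

/-- the low frequency part of the symbol -/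
def b0 (α : ℝ) (ξ : E3) : ℂ := (bt (‖ξ‖ ^ 2 / 4) : ℝ) * jb (-α) ξ

/-- the truncated amplitude -/
def am (α : ℝ) (N : ℕ) (ξ : E3) : ℂ :=
  ((bt (‖ξ‖ ^ 2 / 4 ^ N) - bt (4 ^ N * ‖ξ‖ ^ 2) : ℝ) : ℂ) * jb (-α) ξ

/-- the half-wave evolution -/
def Uw (f : E3 → ℂ) (q : ℝ × E3) : ℂ := 𝓕⁻ (wv (𝓕 f) q.1) q.2

/-- the Bessel potential -/
def Jw (α : ℝ) (f : E3 → ℂ) : E3 → ℂ := 𝓕⁻ fun ξ => jb α ξ * 𝓕 f ξ

end Vale.Agent.P106
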