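import Vale.Agent.P106.Cr

/-!
The quartic quantity in physical space. `H = ∑ cr (F j) (F j)` is `Cc`, `𝓕⁻ H = g = ∑ ‖𝓕⁻ (F j)‖²` is integrable (`inv_cr`, `inv_mul_int`). `inv_W`: `cv_eq` with `m = H`,
`f = w`, then `cv_comm`. `Q_phys`: `W * H` is `Cc`, its inverse transform is a convolution of integrable functions (`Integrable.integrable_convolution`, `four_cv`), `plan_eq`;
the integral of a nonnegative real function: `ofReal_integral_eq_lintegral_ofReal`. `Q_le_one`: `c * ‖H‖ ≤ ‖W * H‖` pointwise.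
-/

open MeasureTheory Set Real Filter Topology
open scoped FourierTransform RealInnerProductSpace ContDiff ENNReal SchwartzMap

noncomputable section

namespace Vale.Agent.P106

open Vale.Agent.P117

variable {V : Type} [NormedAddCommGroup V] [InnerProductSpace ℝ V] [FiniteDimensional ℝ V]
  [MeasurableSpace V] [BorelSpace V]
  {W : V → ℂ} {w : V → ℝ} {s : Finset ℕ} {F : ℕ → V → ℂ}

theorem Pw.contW (h : Pw W w) : Continuous W := by
  rw [← funext h.four]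
  exact continuous_fourier h.int.ofReal

theorem inv_W (h : Pw W w) {H : V → ℂ} (hH : Integrable H) (y : V) :
    𝓕⁻ (fun ξ => W ξ * H ξ) y = ∫ z, (w (y - z) : ℂ) * 𝓕⁻ H z := by
  have h1 := cv_eq hH (f := fun y => (w y : ℂ)) h.int.ofReal y
  rw [cv_comm] at h1
  simp only [h.four] at h1
  simp only [mul_comm (W _), mul_comm (w _ : ℂ)]
  exact h1.symm

theorem qp_cc (hF : ∀ j ∈ s, Cc (F j)) : Cc fun ξ => ∑ j ∈ s, cr (F j) (F j) ξ :=
  Cc.sum s fun j hj => (hF j hj).cr (hF j hj)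

theorem qp_inv (hF : ∀ j ∈ s, Cc (F j)) :
    𝓕⁻ (fun ξ => ∑ j ∈ s, cr (F j) (F j) ξ) = fun y => ((∑ j ∈ s, ‖𝓕⁻ (F j) y‖ ^ 2 : ℝ) : ℂ) := by
  funext y
  rw [inv_sum s fun j hj => ((hF j hj).cr (hF j hj)).ker.int]
  push_cast
  exact Finset.sum_congr rfl fun j hj => by rw [inv_cr (hF j hj) (hF j hj), Complex.mul_conj']

theorem qp_int (hF : ∀ j ∈ s, Cc (F j)) : Integrable fun y => ∑ j ∈ s, ‖𝓕⁻ (F j) y‖ ^ 2 :=
  integrable_finsetSum s fun j hj => by simpa only [sq] using inv_mul_int (hF j hj) (hF j hj)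

theorem qp_enorm {r : ℝ} (hr : 0 ≤ r) : ‖(r : ℂ)‖ₑ = ENNReal.ofReal r := by
  rw [← ofReal_norm, Complex.norm_real, Real.norm_of_nonneg hr]

theorem qp_sum (a : ℕ → ℂ) : ENNReal.ofReal (∑ j ∈ s, ‖a j‖ ^ 2) = ∑ j ∈ s, ‖a j‖ₑ ^ 2 := by
  rw [ENNReal.ofReal_sum_of_nonneg fun j _ => sq_nonneg _]
  exact Finset.sum_congr rfl fun j _ => by rw [ENNReal.ofReal_pow (norm_nonneg _), ofReal_norm]

theorem Q_one (hF : ∀ j ∈ s, Cc (F j)) :
    Q (fun _ => 1) s F = ∫⁻ y, (∑ j ∈ s, ‖𝓕⁻ (F j) y‖ₑ ^ 2) ^ 2 := by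
  unfold Q
  simp only [one_mul]
  rw [← plan_eq (qp_cc hF).ker (by rw [qp_inv hF]; exact (qp_int hF).ofReal), qp_inv hF, Np_two]
  refine lintegral_congr fun y => ?_
  rw [qp_enorm (Finset.sum_nonneg fun j _ => sq_nonneg _), qp_sum]

theorem Q_phys (h : Pw W w) (hF : ∀ j ∈ s, Cc (F j)) : Q W s F = ∫⁻ y, lm w s F y ^ 2 := by
  have h1 : 𝓕⁻ (fun ξ => W ξ * ∑ j ∈ s, cr (F j) (F j) ξ) =
      cv (fun y => (w y : ℂ)) fun y => ((∑ j ∈ s, ‖𝓕⁻ (F j) y‖ ^ 2 : ℝ) : ℂ) := by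
    funext y
    rw [inv_W h (qp_cc hF).ker.int, qp_inv hF]
    rfl
  have hg : ∀ z, 0 ≤ ∑ j ∈ s, ‖𝓕⁻ (F j) z‖ ^ 2 := fun z =>
    Finset.sum_nonneg fun j _ => sq_nonneg _
  have h2 : ∀ z, ‖∑ j ∈ s, ‖𝓕⁻ (F j) z‖ ^ 2‖ ≤ ∫ ξ, ‖∑ j ∈ s, cr (F j) (F j) ξ‖ := fun z => by
    have := norm_inv_le (fun ξ => ∑ j ∈ s, cr (F j) (F j) ξ) z
    rwa [qp_inv hF, Complex.norm_real] at this
  unfold Q
  rw [← plan_eq ((qp_cc hF).mul_left h.contW).ker (by
    rw [h1, four_cv]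
    exact h.int.ofReal.integrable_convolution _ (qp_int hF).ofReal), h1, Np_two]
  refine lintegral_congr fun y => ?_
  have h3 : Integrable fun z => w (y - z) * ∑ j ∈ s, ‖𝓕⁻ (F j) z‖ ^ 2 :=
    (h.int.comp_sub_left y).mul_bdd (qp_int hF).aestronglyMeasurable (Eventually.of_forall h2)
  have h4 : ∀ z, 0 ≤ w (y - z) * ∑ j ∈ s, ‖𝓕⁻ (F j) z‖ ^ 2 := fun z => mul_nonneg (h.nn _) (hg z)
  unfold cv lm
  simp only [← Complex.ofReal_mul]
  rw [integral_complex_ofReal, qp_enorm (integral_nonneg h4),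
    ofReal_integral_eq_lintegral_ofReal h3 (Eventually.of_forall h4)]
  simp only [ENNReal.ofReal_mul (h.nn _), qp_sum]

theorem Q_le (hW : ∀ ξ, ‖W ξ‖ ≤ 1) (s : Finset ℕ) (F : ℕ → V → ℂ) :
    Q W s F ≤ Q (fun _ => 1) s F := Np_mono (by norm_num) fun ξ => by
    rw [norm_mul, one_mul]
    exact mul_le_of_le_one_left (norm_nonneg _) (hW ξ)

theorem Q_congr {F' : ℕ → V → ℂ} (h : ∀ j ∈ s, F j = F' j) : Q W s F = Q W s F' := by
  unfold Q
  congr 1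
  funext ξ
  rw [Finset.sum_congr rfl fun j hj => by rw [h j hj]]

theorem Q_le_one {c : ℝ} (hc : 0 < c)
    (h : ∀ ξ, ∑ j ∈ s, cr (F j) (F j) ξ ≠ 0 → c ≤ ‖W ξ‖) :
    Q (fun _ => 1) s F ≤ ENNReal.ofReal (c ^ 2)⁻¹ * Q W s F := by
  have h1 := Np_const_mul (μ := (volume : Measure V)) (p := 2) (by norm_num) ((c⁻¹ : ℝ) : ℂ)
    fun ξ => W ξ * ∑ j ∈ s, cr (F j) (F j) ξ
  rw [qp_enorm (by positivity), ENNReal.rpow_two, ← ENNReal.ofReal_pow (by positivity),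
    inv_pow] at h1
  refine le_trans (Np_mono (by norm_num) fun ξ => ?_) h1.le
  by_cases h0 : ∑ j ∈ s, cr (F j) (F j) ξ = 0
  · simp [h0]
  · rw [one_mul, ← mul_assoc, norm_mul]
    refine le_mul_of_one_le_left (norm_nonneg _) ?_
    rw [norm_mul, Complex.norm_real, Real.norm_of_nonneg (by positivity), ← div_eq_inv_mul,
      le_div_iff₀ hc, one_mul]
    exact h ξ h0

theorem np4_eq {G : V → ℂ} (hG : Cc G) :
    Np volume 4 (𝓕⁻ G) = Q (fun _ => 1) (Finset.range 1) fun _ => G := by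
  rw [Q_one fun _ _ => hG, Np_four]
  refine lintegral_congr fun y => ?_
  rw [Finset.sum_range_one, ← pow_mul]

end Vale.Agent.P106
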