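import Vale.Agent.P106.Th
import Vale.Agent.P106.Qp

/-!
Biorthogonality. `th_four`: `δ = (2 ^ n)⁻¹`, `x = 2 ^ n * ξ 1`; for a point of `th κ n j`, `j < 2 ^ n`, `n ≤ κ`: `|a - 1| ≤ δ²`, `|x - j| ≤ 3`, `|ξ 1| ≤ 4`, `|ξ 2| ≤ 17`, `|ξ 2 - ξ 1 ^ 2| ≤ 18 δ²`.
From `b₁ + b₂ = b₃ + b₄` one gets `2 (b₁ - b₃) (b₁ - b₄) = b₁² + b₂² - b₃² - b₄²`, so `|(x₁ - x₃) (x₁ - x₄)| ≤ 36`. `cf_pair`: `‖u‖² ‖u'‖² = ‖𝓕⁻ (cv G G')‖²` (`inv_cv`), `plan_eq`,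
`cv_sum`; for each `ξ` at most `1250` pairs `(j, j')` have `cv (F j) (F j') ξ ≠ 0` (`cv_supp`, `th_four` against one fixed such pair), Cauchy-Schwarz, and `plan_eq` again.
`cf`: `Q_le`, `Q_one` twice, expand the squares of the sums (`Finset.sum_mul_sum`, `lintegral_finset_sum`), `sum_blk`, `blk_zero`.
-/

open MeasureTheory Set Real Filter Topology
open scoped FourierTransform RealInnerProductSpace ContDiff ENNReal SchwartzMap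

noncomputable section

namespace Vale.Agent.P106

open Vale.Agent.P117

variable {W : E3 → ℂ} {w : E3 → ℝ} {c C : ℝ} {κ k n : ℕ} {F : ℕ → E3 → ℂ}

theorem cf_real {N J a x z : ℝ} (hN : 1 ≤ N) (hJ0 : 0 ≤ J) (hJ : J ≤ N) (h1 : 1 ≤ a)
    (h2 : (a - 1) * N ^ 2 ≤ 1) (h3 : |x - J * a| ≤ 2) (h4 : |a * z - x ^ 2| ≤ 1) :
    |x - J| ≤ 3 ∧ |z - x ^ 2| ≤ 18 := by
  have e0 : 0 ≤ a - 1 := by linarith
  have hN2 : N ≤ N ^ 2 := le_self_pow₀ hN two_ne_zero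
  have k1 : J * (a - 1) ≤ 1 := by nlinarith [mul_le_mul_of_nonneg_left (hJ.trans hN2) e0]
  have k2 : 0 ≤ J * (a - 1) := mul_nonneg hJ0 e0
  rw [abs_le] at h3 h4
  have k3 : |x - J| ≤ 3 := abs_le.2 ⟨by linarith [h3.1], by linarith [h3.2]⟩
  refine ⟨k3, ?_⟩
  rw [abs_le] at k3
  have k4 : x ^ 2 ≤ (4 * N) ^ 2 := sq_le_sq' (by linarith [k3.1]) (by linarith [k3.2])
  have k5 : |z| ≤ 17 * N ^ 2 := by
    refine le_trans (le_mul_of_one_le_left (abs_nonneg z) h1) ?_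
    rw [← abs_of_nonneg (zero_le_one.trans h1), ← abs_mul, abs_le]
    constructor <;> nlinarith [h4.1, h4.2, sq_nonneg x]
  have k6 : |(a - 1) * z| ≤ 17 := by
    rw [abs_mul, abs_of_nonneg e0]
    nlinarith [mul_le_mul_of_nonneg_left k5 e0]
  rw [abs_le] at k6 ⊢
  constructor <;> linarith [k6.1, k6.2, h4.1, h4.2]

theorem cf_pt {j : ℕ} {ξ : E3} (hn : n ≤ κ) (hj : j < 2 ^ n) (m : ξ ∈ th κ n j) :
    |2 ^ n * ξ 1 - j| ≤ 3 ∧ |4 ^ n * ξ 2 - (2 ^ n * ξ 1) ^ 2| ≤ 18 := by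
  obtain ⟨m1, m2, m3, m4⟩ := m
  have e : ((2 : ℝ) ^ n) ^ 2 = 4 ^ n := by rw [← pow_mul, mul_comm, pow_mul]; norm_num
  have p4 : (0 : ℝ) < 4 ^ n := by positivity
  refine cf_real (N := 2 ^ n) (one_le_pow₀ one_le_two) (Nat.cast_nonneg j)
    (by exact_mod_cast hj.le) m1 ?_ m3 ?_
  · rw [e, ← le_div_iff₀ p4, one_div]
    have h1 : ((4 : ℝ) ^ κ)⁻¹ ≤ (4 ^ n)⁻¹ := inv_anti₀ p4 (pow_le_pow_right₀ (by norm_num) hn)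
    linarith
  · rw [show ξ 0 * (4 ^ n * ξ 2) - (2 ^ n * ξ 1) ^ 2 = 4 ^ n * (ξ 0 * ξ 2 - ξ 1 ^ 2) by
      rw [mul_pow, e]; ring, abs_mul, abs_of_pos p4, ← le_div_iff₀' p4, one_div]
    exact m4

theorem cf_near {x y i j : ℝ} (h1 : |x - i| ≤ 3) (h2 : |y - j| ≤ 3) (h : |x - y| ≤ 6) :
    |i - j| ≤ 12 := by
  rw [abs_le] at h1 h2 h ⊢
  constructor <;> linarith [h1.1, h1.2, h2.1, h2.2, h.1, h.2]

theorem th_four {j₁ j₂ j₃ j₄ : ℕ} {a₁ a₂ a₃ a₄ : E3} (hn : n ≤ κ) (h₁ : j₁ < 2 ^ n)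
    (h₂ : j₂ < 2 ^ n) (h₃ : j₃ < 2 ^ n) (h₄ : j₄ < 2 ^ n) (m₁ : a₁ ∈ th κ n j₁)
    (m₂ : a₂ ∈ th κ n j₂) (m₃ : a₃ ∈ th κ n j₃) (m₄ : a₄ ∈ th κ n j₄) (h : a₁ + a₂ = a₃ + a₄) :
    Nr j₁ j₂ j₃ j₄ := by
  obtain ⟨p₁, q₁⟩ := cf_pt hn h₁ m₁
  obtain ⟨p₂, q₂⟩ := cf_pt hn h₂ m₂
  obtain ⟨p₃, q₃⟩ := cf_pt hn h₃ m₃
  obtain ⟨p₄, q₄⟩ := cf_pt hn h₄ m₄
  have e1 : a₁ 1 + a₂ 1 = a₃ 1 + a₄ 1 := congrArg (fun v : E3 => v 1) h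
  have e2 : a₁ 2 + a₂ 2 = a₃ 2 + a₄ 2 := congrArg (fun v : E3 => v 2) h
  have f1 : (2 : ℝ) ^ n * a₂ 1 = 2 ^ n * a₃ 1 + 2 ^ n * a₄ 1 - 2 ^ n * a₁ 1 := by
    rw [← mul_add, ← e1]
    ring
  have f2 : (4 : ℝ) ^ n * a₂ 2 = 4 ^ n * a₃ 2 + 4 ^ n * a₄ 2 - 4 ^ n * a₁ 2 := by
    rw [← mul_add, ← e2]
    ring
  rw [f1] at p₂
  rw [f1, f2] at q₂
  generalize (2 : ℝ) ^ n * a₁ 1 = x₁ at *
  generalize (2 : ℝ) ^ n * a₃ 1 = x₃ at *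
  generalize (2 : ℝ) ^ n * a₄ 1 = x₄ at *
  have k : |x₁ - x₃| * |x₁ - x₄| ≤ 6 * 6 := by
    rw [← abs_mul]
    rw [abs_le] at q₁ q₂ q₃ q₄ ⊢
    constructor <;> nlinarith [q₁.1, q₁.2, q₂.1, q₂.2, q₃.1, q₃.2, q₄.1, q₄.2]
  rcases le_or_gt |x₁ - x₃| 6 with h6 | h6
  · exact Or.inl ⟨cf_near p₁ p₃ h6, cf_near p₂ p₄
      (by rwa [show x₃ + x₄ - x₁ - x₄ = -(x₁ - x₃) by ring, abs_neg])⟩
  · have h7 : |x₁ - x₄| ≤ 6 := by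
      by_contra h7
      exact (mul_lt_mul'' h6 (not_le.1 h7) (by norm_num) (by norm_num)).not_ge k
    exact Or.inr ⟨cf_near p₁ p₄ h7, cf_near p₂ p₃
      (by rwa [show x₃ + x₄ - x₁ - x₃ = -(x₁ - x₄) by ring, abs_neg])⟩

theorem cf_icc {a c : ℕ} (h : |(a : ℝ) - c| ≤ 12) : c ∈ Finset.Icc (a - 12) (a + 12) := by
  rw [abs_le] at h
  have h1 : c ≤ a + 12 := by exact_mod_cast (show (c : ℝ) ≤ a + 12 by linarith [h.1])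
  have h2 : a ≤ c + 12 := by exact_mod_cast (show (a : ℝ) ≤ c + 12 by linarith [h.2])
  rw [Finset.mem_Icc]
  omega

theorem nr_card (t : Finset (ℕ × ℕ)) (a b : ℕ) (h : ∀ P ∈ t, Nr a b P.1 P.2) : t.card ≤ 1250 := by
  have h1 : t ⊆ Finset.Icc (a - 12) (a + 12) ×ˢ Finset.Icc (b - 12) (b + 12) ∪
      Finset.Icc (b - 12) (b + 12) ×ˢ Finset.Icc (a - 12) (a + 12) := fun P hP => by
    rw [Finset.mem_union, Finset.mem_product, Finset.mem_product]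
    rcases h P hP with h2 | h2
    · exact Or.inl ⟨cf_icc h2.1, cf_icc h2.2⟩
    · exact Or.inr ⟨cf_icc h2.2, cf_icc h2.1⟩
  have h2 : ∀ c : ℕ, (Finset.Icc (c - 12) (c + 12)).card ≤ 25 := fun c => by
    rw [Nat.card_Icc]
    omega
  refine (Finset.card_le_card h1).trans ((Finset.card_union_le _ _).trans ?_)
  rw [Finset.card_product, Finset.card_product]
  have h3 := Nat.mul_le_mul (h2 a) (h2 b)
  have h4 := Nat.mul_le_mul (h2 b) (h2 a)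
  omega

theorem cf_pl {G H : E3 → ℂ} (h : Cc G) (h' : Cc H) :
    ∫⁻ y, ‖𝓕⁻ G y‖ₑ ^ 2 * ‖𝓕⁻ H y‖ₑ ^ 2 = ∫⁻ ξ, ‖cv G H ξ‖ₑ ^ 2 := by
  have hi : Integrable (𝓕⁻ (cv G H)) := by
    refine (inv_mul_int h h').mono' (continuous_inv (h.cv h').ker.int).aestronglyMeasurable
      (Eventually.of_forall fun x => ?_)
    rw [inv_cv h h', norm_mul]
  rw [← Np_two, ← plan_eq (h.cv h').ker hi, Np_two]
  refine lintegral_congr fun y => ?_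
  rw [inv_cv h h', enorm_mul, mul_pow]

theorem cf_cs {ι : Type} (t : Finset ι) (u : ι → ℂ) {N : ℕ}
    (h : ∀ t' ⊆ t, (∀ P ∈ t', u P ≠ 0) → t'.card ≤ N) :
    ‖∑ P ∈ t, u P‖ₑ ^ 2 ≤ N * ∑ P ∈ t, ‖u P‖ₑ ^ 2 := by
  classical
  have h1 := h _ (Finset.filter_subset (fun P => u P ≠ 0) t) fun P hP => (Finset.mem_filter.1 hP).2
  have h2 : ‖∑ P ∈ t, u P‖₊ ^ 2 ≤ N * ∑ P ∈ t, ‖u P‖₊ ^ 2 := by
    rw [← Finset.sum_filter_ne_zero]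
    refine (pow_le_pow_left₀ zero_le (nnnorm_sum_le _ _) 2).trans
      (sq_sum_le_card_mul_sum_sq.trans (mul_le_mul' (by exact_mod_cast h1) ?_))
    exact Finset.sum_le_sum_of_subset (Finset.filter_subset _ _)
  simp only [enorm_eq_nnnorm]
  exact_mod_cast h2

theorem cf_pair (hn : n ≤ κ) (hF : Fam κ n F) (s s' : Finset ℕ) (hs : ∀ j ∈ s, j < 2 ^ n)
    (hs' : ∀ j ∈ s', j < 2 ^ n) :
    ∫⁻ y, ‖𝓕⁻ (fun ξ => ∑ j ∈ s, F j ξ) y‖ₑ ^ 2 * ‖𝓕⁻ (fun ξ => ∑ j ∈ s', F j ξ) y‖ₑ ^ 2 ≤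
      1250 * ∑ j ∈ s, ∑ j' ∈ s', ∫⁻ y, ‖𝓕⁻ (F j) y‖ₑ ^ 2 * ‖𝓕⁻ (F j') y‖ₑ ^ 2 := by
  have c1 : ∀ j ∈ s, Cc (F j) := fun j hj => hF.cc (hs j hj)
  have c2 : ∀ j ∈ s', Cc (F j) := fun j hj => hF.cc (hs' j hj)
  have hm : ∀ j < 2 ^ n, ∀ a, F j a ≠ 0 → a ∈ th κ n j := fun j hj a ha =>
    not_not.1 fun h => ha ((hF j hj).2 a h)
  rw [cf_pl (Cc.sum s c1) (Cc.sum s' c2), ← Finset.sum_product',
    Finset.sum_congr rfl fun P hP => cf_pl (c1 _ (Finset.mem_product.1 hP).1)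
      (c2 _ (Finset.mem_product.1 hP).2),
    ← lintegral_finsetSum _ fun P hP => (((c1 _ (Finset.mem_product.1 hP).1).cv
      (c2 _ (Finset.mem_product.1 hP).2)).cont.measurable.enorm.pow_const 2),
    ← lintegral_const_mul' _ _ ENNReal.ofNat_ne_top]
  refine lintegral_mono fun ξ => ?_
  rw [cv_sum s s' c1 c2, ← Finset.sum_product']
  refine (cf_cs (N := 1250) _ _ fun t ht h0 => ?_).trans (by simp)
  rcases t.eq_empty_or_nonempty with rfl | ⟨P₀, hP₀⟩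
  · simp
  refine nr_card t P₀.1 P₀.2 fun P hP => ?_
  obtain ⟨a, b, ha, hb, e⟩ := cv_supp (h0 P₀ hP₀)
  obtain ⟨a', b', ha', hb', e'⟩ := cv_supp (h0 P hP)
  have l := Finset.mem_product.1 (ht hP₀)
  have l' := Finset.mem_product.1 (ht hP)
  exact th_four hn (hs _ l.1) (hs' _ l.2) (hs _ l'.1) (hs' _ l'.2) (hm _ (hs _ l.1) a ha)
    (hm _ (hs' _ l.2) b hb) (hm _ (hs _ l'.1) a' ha') (hm _ (hs' _ l'.2) b' hb') (e.symm.trans e')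

theorem cf_sq {s : Finset ℕ} {G : ℕ → E3 → ℂ} (hG : ∀ j ∈ s, Cc (G j)) :
    Q (fun _ => 1) s G =
      ∑ j ∈ s, ∑ j' ∈ s, ∫⁻ y, ‖𝓕⁻ (G j) y‖ₑ ^ 2 * ‖𝓕⁻ (G j') y‖ₑ ^ 2 := by
  have hm : ∀ j ∈ s, Measurable fun y => ‖𝓕⁻ (G j) y‖ₑ ^ 2 := fun j hj =>
    (continuous_inv (hG j hj).ker.int).measurable.enorm.pow_const 2
  rw [Q_one hG]
  simp only [sq (∑ j ∈ s, _), Finset.sum_mul_sum]
  have hp : ∀ j ∈ s, ∀ j' ∈ s, Measurable fun y => ‖𝓕⁻ (G j) y‖ₑ ^ 2 * ‖𝓕⁻ (G j') y‖ₑ ^ 2 :=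
    fun j hj j' hj' => (hm j hj).mul (hm j' hj')
  rw [lintegral_finsetSum _ fun j hj => Finset.measurable_sum _ (hp j hj)]
  exact Finset.sum_congr rfl fun j hj => lintegral_finsetSum _ (hp j hj)

theorem cf (hW : Wgt W w c C) (hk : k ≤ n) (hn : n ≤ κ) (hF : Fam κ n F) :
    AA W k n F ≤ 1250 * Q (fun _ => 1) (Finset.range (2 ^ n)) F := by
  obtain ⟨d, rfl⟩ := Nat.exists_eq_add_of_le hk
  rw [AA, Nat.add_sub_cancel_left]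
  refine (Q_le (fun ξ => hW.hi _) _ _).trans ?_
  rw [cf_sq fun i hi => hF.par.cc (Finset.mem_range.1 hi),
    cf_sq fun j hj => hF.cc (Finset.mem_range.1 hj)]
  refine (Finset.sum_le_sum fun i hi => Finset.sum_le_sum fun i' hi' =>
    cf_pair hn hF (blk d i) (blk d i') (fun j hj => blk_lt (Finset.mem_range.1 hi) hj)
      fun j hj => blk_lt (Finset.mem_range.1 hi') hj).trans (le_of_eq ?_)
  simp only [← Finset.mul_sum]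
  congr 1
  rw [← blk_zero, ← blk_zero, ← sum_blk]
  refine Finset.sum_congr rfl fun i _ => ?_
  rw [Finset.sum_comm]
  exact Finset.sum_congr rfl fun j _ => sum_blk k d 0 _

end Vale.Agent.P106
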