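import Vale.Agent.P106.Base
import Vale.Agent.P117.Plan
import Vale.Agent.P117.Schur
import Vale.Agent.P117.Orth

/-!
Correlations. `inv_cv`: `fourier_cv` at `-x` (`Real.fourierInv_eq_fourier_neg`). `inv_cr`: the same and `orth_conj`. `cr_supp`, `cv_supp`: otherwise the integrand vanishes
(compare `orth_supp`). `inv_mul_int`: both factors are continuous with `Np volume 2` finite (`planch_inv`, a `Cc` function is bounded with bounded support), `MemLp.integrable_mul` or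
`2 a b ≤ a² + b²`. `plan_eq`: `planch_inv`, and `planch` for `𝓕⁻ H` with `Continuous.fourier_fourierInv_eq`-type inversion (`𝓕⁻ H x = 𝓕 H (-x)`).
-/

open MeasureTheory Set Real Filter Topology
open scoped FourierTransform RealInnerProductSpace ContDiff ENNReal SchwartzMap

noncomputable section

namespace Vale.Agent.P106

open Vale.Agent.P117

variable {V : Type} [NormedAddCommGroup V] [InnerProductSpace ℝ V] [FiniteDimensional ℝ V]
  [MeasurableSpace V] [BorelSpace V]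
  {F G H F' : V → ℂ}

theorem norm_ex (s : ℝ) : ‖ex s‖ = 1 := Complex.norm_exp_ofReal_mul_I _

theorem ex_add (s t : ℝ) : ex (s + t) = ex s * ex t := by
  rw [ex, ex, ex, ← Complex.exp_add]
  congr 1
  push_cast
  ring

theorem contDiff_ex : ContDiff ℝ ∞ ex := by
  have h : ContDiff ℝ ∞ fun s : ℝ => ((2 * π * s : ℝ) : ℂ) :=
    Complex.ofRealCLM.contDiff.comp (contDiff_const.mul contDiff_id)
  exact (h.mul contDiff_const).cexp

theorem inv_eq (F : V → ℂ) (x : V) : 𝓕⁻ F x = ∫ ξ, ex ⟪ξ, x⟫ * F ξ := by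
  rw [Real.fourierInv_eq']
  rfl

theorem cr_cs (h : Cc F) : HasCompactSupport F := by
  obtain ⟨R, hR⟩ := h.supp
  refine HasCompactSupport.intro (isCompact_closedBall (0 : V) R) fun ξ hξ => hR ξ ?_
  exact not_le.1 fun h => hξ (mem_closedBall_zero_iff.2 h)

theorem Cc.ker (h : Cc F) : Ker F :=
  ⟨h.cont, h.cont.integrable_of_hasCompactSupport (cr_cs h),
    h.cont.bounded_above_of_compact_support (cr_cs h)⟩

theorem Cc.add (h : Cc F) (h' : Cc G) : Cc fun ξ => F ξ + G ξ := by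
  obtain ⟨R, hR⟩ := h.supp
  obtain ⟨R', hR'⟩ := h'.supp
  refine ⟨h.cont.add h'.cont, max R R', fun ξ hξ => ?_⟩
  rw [hR ξ (lt_of_le_of_lt (le_max_left _ _) hξ), hR' ξ (lt_of_le_of_lt (le_max_right _ _) hξ),
    add_zero]

theorem Cc.sum {ι : Type} (s : Finset ι) {M : ι → V → ℂ} (h : ∀ i ∈ s, Cc (M i)) :
    Cc fun ξ => ∑ i ∈ s, M i ξ := by
  classical
  induction s using Finset.induction_on with
  | empty => exact ⟨by simpa using continuous_const, 0, fun ξ _ => Finset.sum_empty⟩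
  | insert a s ha ih =>
    simp only [Finset.sum_insert ha]
    exact (h a (Finset.mem_insert_self _ _)).add (ih fun i hi => h i (Finset.mem_insert_of_mem hi))

theorem Cc.mul_left (h : Cc F) (hG : Continuous G) : Cc fun ξ => G ξ * F ξ := by
  obtain ⟨R, hR⟩ := h.supp
  exact ⟨hG.mul h.cont, R, fun ξ hξ => by rw [hR ξ hξ, mul_zero]⟩

theorem Cc.mul_right (h : Cc F) (hG : Continuous G) : Cc fun ξ => F ξ * G ξ := by
  obtain ⟨R, hR⟩ := h.supp
  exact ⟨h.cont.mul hG, R, fun ξ hξ => by rw [hR ξ hξ, zero_mul]⟩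

theorem cc_of_sm (h : Sm F) : Cc F := by
  obtain ⟨R, hR⟩ := h.cs.isCompact.isBounded.subset_closedBall (0 : V)
  refine ⟨h.smooth.continuous, R, fun ξ hξ => image_eq_zero_of_notMem_tsupport fun h1 => ?_⟩
  exact absurd (mem_closedBall_zero_iff.1 (hR h1)) (not_le.2 hξ)

theorem cv_supp {ξ : V} (h : cv F G ξ ≠ 0) : ∃ a b, F a ≠ 0 ∧ G b ≠ 0 ∧ ξ = a + b := by
  obtain ⟨a, ha, b, hb, e⟩ := orth_supp (S := {a | F a ≠ 0}) (S' := {b | G b ≠ 0})
    (fun _ h => not_not.1 h) (fun _ h => not_not.1 h) h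
  exact ⟨a, b, ha, hb, e.symm⟩

theorem cr_supp {ξ : V} (h : cr F G ξ ≠ 0) : ∃ a b, F a ≠ 0 ∧ G b ≠ 0 ∧ ξ = a - b := by
  obtain ⟨a, b, ha, hb, e⟩ := cv_supp h
  refine ⟨b, -a, hb, fun h0 => ha ?_, by rw [e, sub_neg_eq_add, add_comm]⟩
  simp only [h0, map_zero]

theorem cr_conj (h : Cc G) : Cc fun ζ => (starRingEnd ℂ) (G (-ζ)) := by
  obtain ⟨R, hR⟩ := h.supp
  refine ⟨Complex.continuous_conj.comp (h.cont.comp continuous_neg), R, fun ξ hξ => ?_⟩
  rw [hR (-ξ) (by rwa [norm_neg]), map_zero]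

theorem Cc.cv (h : Cc F) (h' : Cc G) : Cc (cv F G) := by
  obtain ⟨R, hR⟩ := h.supp
  obtain ⟨R', hR'⟩ := h'.supp
  refine ⟨(cv_ker h.ker h'.ker.nice).cont, R + R', fun ξ hξ => ?_⟩
  by_contra h0
  obtain ⟨a, b, ha, hb, e⟩ := cv_supp h0
  have h1 : ‖a‖ ≤ R := not_lt.1 fun h => ha (hR a h)
  have h2 : ‖b‖ ≤ R' := not_lt.1 fun h => hb (hR' b h)
  have h3 := norm_add_le a b
  rw [← e] at h3
  linarith

theorem Cc.cr (h : Cc F) (h' : Cc G) : Cc (cr F G) := (cr_conj h').cv h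

theorem inv_cv (h : Cc F) (h' : Cc G) (x : V) : 𝓕⁻ (cv F G) x = 𝓕⁻ F x * 𝓕⁻ G x := by
  rw [Real.fourierInv_eq_fourier_neg, fourier_cv h.ker.int h'.ker.int,
    ← Real.fourierInv_eq_fourier_neg, ← Real.fourierInv_eq_fourier_neg]

theorem inv_cr (h : Cc F) (h' : Cc G) (x : V) :
    𝓕⁻ (cr F G) x = 𝓕⁻ F x * (starRingEnd ℂ) (𝓕⁻ G x) := by
  rw [cr, inv_cv (cr_conj h') h, mul_comm, Real.fourierInv_eq_fourier_neg G, ← orth_conj,
    ← Real.fourierInv_eq_fourier_neg]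

theorem cv_sum {ι : Type} (s s' : Finset ι) {M : ι → V → ℂ} (h : ∀ i ∈ s, Cc (M i))
    (h' : ∀ i ∈ s', Cc (M i)) (ξ : V) :
    cv (fun ζ => ∑ i ∈ s, M i ζ) (fun ζ => ∑ i ∈ s', M i ζ) ξ =
      ∑ i ∈ s, ∑ j ∈ s', cv (M i) (M j) ξ := by
  have hi : ∀ i ∈ s, ∀ j ∈ s', Integrable fun y => M i (ξ - y) * M j y := fun i hi j hj =>
    cv_integrable (h i hi).ker (h' j hj).ker.int ξ
  simp only [cv, Finset.sum_mul_sum]
  rw [integral_finsetSum s fun i hi' => integrable_finsetSum s' (hi i hi')]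
  exact Finset.sum_congr rfl fun i hi' => integral_finsetSum s' (hi i hi')

theorem cr_memLp (h : Cc F) : MemLp (𝓕⁻ F) 2 := by
  have h1 : MemLp F 2 := h.cont.memLp_of_hasCompactSupport (cr_cs h)
  have h2 := planch_inv h.ker.int
  rw [plan_np, plan_np, ENNReal.rpow_le_rpow_iff two_pos] at h2
  exact ⟨(continuous_inv h.ker.int).aestronglyMeasurable, h2.trans_lt h1.2⟩

theorem inv_mul_int (h : Cc F) (h' : Cc G) : Integrable fun x => ‖𝓕⁻ F x‖ * ‖𝓕⁻ G x‖ :=
  (cr_memLp h).norm.integrable_mul (cr_memLp h').norm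

theorem plan_eq (h : Ker H) (hi : Integrable (𝓕⁻ H)) : Np volume 2 (𝓕⁻ H) = Np volume 2 H := by
  refine le_antisymm (planch_inv h.int) ?_
  have h1 : Integrable (𝓕 H) := by
    have h2 : 𝓕 H = fun x => 𝓕⁻ H (-x) := funext fun x => by
      rw [Real.fourierInv_eq_fourier_neg, neg_neg]
    rw [h2]
    exact hi.comp_neg
  have h2 := planch hi
  rwa [h.cont.fourier_fourierInv_eq h.int h1] at h2

end Vale.Agent.P106
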