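import Vale.Agent.P106.Tw
import Vale.Agent.P117.CutB

/-!
The amplitudes on three-space. Compare P117/CutB (`pc_sm`, `ann_split`): `chi (rho ξ / lam) = bt ((ξ 0 ^ 2 + ξ 1 ^ 2) / lam ^ 2) - bt (4 * ((ξ 0 ^ 2 + ξ 1 ^ 2) / lam ^ 2))` is smooth;
`rd_split` telescopes (`Finset.sum_range_sub'`), `bt (rho ξ ^ 2 / 16) = 1` where `rd φ ξ ≠ 0`. `jb` is smooth since the base is positive (`ContDiff.rpow_const_of_ne`).
`chi u = 0` unless `1/2 ≤ |u| ≤ 2`. `am_split`: `bt (u² / 4 ^ N) - bt (u²) = ∑ j ∈ range N, chi (u / 2 ^ (j + 1))`, `lw N ξ ≠ 0` forces `‖ξ‖² / 4 ≤ 1`.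
-/

open MeasureTheory Set Real Filter Topology
open scoped FourierTransform RealInnerProductSpace ContDiff ENNReal SchwartzMap

noncomputable section

namespace Vale.Agent.P106

open Vale.Agent.P117

variable {φ c : ℝ → ℂ} {α lam : ℝ}

theorem cut3_chi (lam : ℝ) : ContDiff ℝ ∞ fun ξ : E3 => chi (rho ξ / lam) := by
  have e : (fun ξ : E3 => chi (rho ξ / lam)) = fun ξ : E3 =>
      ((bt ((ξ 0 ^ 2 + ξ 1 ^ 2) / lam ^ 2) - bt (4 * ((ξ 0 ^ 2 + ξ 1 ^ 2) / lam ^ 2)) : ℝ) : ℂ) := by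
    funext ξ
    rw [chi, div_pow, cutb_rho_sq]
  rw [e]
  exact cutb_ofReal ((bt_smooth.comp (cutb_q.div_const _)).sub
    (bt_smooth.comp (contDiff_const.mul (cutb_q.div_const _))))

theorem cut3_bt (a : ℝ) : ContDiff ℝ ∞ fun ξ : E3 => bt (a * ‖ξ‖ ^ 2) :=
  bt_smooth.comp (contDiff_const.mul (contDiff_norm_sq ℝ))

theorem cut3_far {a : ℝ} (ha : 0 < a) : ∃ R : ℝ, ∀ ξ : E3, R < ‖ξ‖ → bt (a * ‖ξ‖ ^ 2) = 0 := by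
  refine ⟨1 + 4 / a, fun ξ h => bt_zero ?_⟩
  have h1 : 0 < 4 / a := by positivity
  have h2 : 4 / a ≤ ‖ξ‖ ^ 2 := by nlinarith
  rw [div_le_iff₀ ha] at h2
  linarith

theorem cut3_near {a : ℝ} (ha : 0 < a) :
    ∃ r : ℝ, 0 < r ∧ ∀ ξ : E3, ‖ξ‖ < r → bt (a * ‖ξ‖ ^ 2) = 1 := by
  refine ⟨min 1 a⁻¹, lt_min one_pos (inv_pos.2 ha), fun ξ h => bt_one ?_⟩
  obtain ⟨h1, h2⟩ := lt_min_iff.1 h
  have h3 : ‖ξ‖ ^ 2 ≤ a⁻¹ := by nlinarith [norm_nonneg ξ]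
  calc a * ‖ξ‖ ^ 2 ≤ a * a⁻¹ := by gcongr
    _ = 1 := mul_inv_cancel₀ ha.ne'

theorem cut3_sw {a b : ℝ} (ha : 0 < a) (hb : 0 < b) :
    Sw fun ξ : E3 => ((bt (a * ‖ξ‖ ^ 2) - bt (b * ‖ξ‖ ^ 2) : ℝ) : ℂ) := by
  obtain ⟨R, hR⟩ := cut3_far ha
  obtain ⟨R', hR'⟩ := cut3_far hb
  obtain ⟨r, hr0, hr⟩ := cut3_near ha
  obtain ⟨r', hr0', hr'⟩ := cut3_near hb
  refine ⟨⟨cutb_ofReal ((cut3_bt a).sub (cut3_bt b)),
    HasCompactSupport.intro (isCompact_closedBall (0 : E3) (max R R')) fun ξ hξ => ?_⟩,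
    min r r', lt_min hr0 hr0', fun ξ h => ?_⟩
  · rw [mem_closedBall_zero_iff, not_le, max_lt_iff] at hξ
    rw [hR ξ hξ.1, hR' ξ hξ.2]
    simp
  · by_contra hc
    rw [not_le, lt_min_iff] at hc
    apply h
    rw [hr ξ hc.1, hr' ξ hc.2]
    simp

theorem pcw_sw (h : Prof φ) (lam : ℝ) : Sw (pcw φ lam) :=
  (rd_sw' h).mul fun _ _ => (cut3_chi lam).contDiffAt

theorem polw_sw (h : Prof φ) (n : ℕ) : Sw (polw φ n) :=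
  (rd_sw' h).mul fun _ _ =>
    (cutb_ofReal (bt_smooth.comp (contDiff_const.mul cutb_q))).contDiffAt

theorem wv_rot {A : E3 → ℂ} (h : ∀ θ ξ, A (rot θ ξ) = A ξ) (t θ : ℝ) (ξ : E3) :
    wv A t (rot θ ξ) = wv A t ξ := by
  rw [wv, wv, h, norm_rot]

theorem pcw_rot (φ : ℝ → ℂ) (lam θ : ℝ) (ξ : E3) : pcw φ lam (rot θ ξ) = pcw φ lam ξ := by
  rw [pcw, pcw, rd, rd, norm_rot, rho_rot]

theorem cut3_norm (ξ : E3) : ‖(⟨rho ξ, ξ 2⟩ : ℂ)‖ = ‖ξ‖ := by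
  rw [← sq_eq_sq₀ (norm_nonneg _) (norm_nonneg _), norm_sq_cx, norm_sq_e3, cutb_rho_sq]

theorem pcw_eq (hc : ∀ u : ℝ, 0 ≤ u → c u * chi u = chi u) (hl : 0 < lam) (φ : ℝ → ℂ) (t : ℝ)
    (ξ : E3) : wv (pcw φ lam) t ξ =
      wv (amp (rd φ) c lam) t ⟨rho ξ, ξ 2⟩ * chi (rho ξ / lam) := by
  have h := hc (rho ξ / lam) (div_nonneg (sqrt_nonneg _) hl.le)
  simp only [wv, pcw, amp, rd, cut3_norm]
  linear_combination (-(ex (t * ‖ξ‖) * φ ‖ξ‖)) * h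

theorem rd_split (h : Prof φ) (n : ℕ) (ξ : E3) :
    rd φ ξ = ∑ i ∈ Finset.range (n + 2), pcw φ (4 / 2 ^ i) ξ + polw φ n ξ := by
  simp only [pcw, polw]
  rw [← Finset.mul_sum, ← mul_add]
  by_cases h0 : rd φ ξ = 0
  · rw [h0, zero_mul]
  have h1 := (rd_ne h h0).2
  set q := ξ 0 ^ 2 + ξ 1 ^ 2 with hq
  have hq1 : q / 16 ≤ 1 := by
    have h2 : ‖ξ‖ ^ 2 ≤ 16 := by nlinarith [norm_nonneg ξ]
    rw [norm_sq_e3] at h2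
    nlinarith [sq_nonneg (ξ 2)]
  have e : ∀ i : ℕ, chi (rho ξ / (4 / 2 ^ i)) =
      ((bt (4 ^ i * (q / 16)) : ℝ) : ℂ) - ((bt (4 ^ (i + 1) * (q / 16)) : ℝ) : ℂ) := fun i => by
    have e1 : (rho ξ / (4 / 2 ^ i)) ^ 2 = 4 ^ i * (q / 16) := by
      rw [div_pow, div_pow, cutb_rho_sq, ← pow_mul, mul_comm i 2, pow_mul, ← hq]
      field_simp
      norm_num
      ring
    rw [chi, e1, ← mul_assoc, ← pow_succ']
    push_cast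
    rfl
  simp only [e]
  rw [Finset.sum_range_sub' (fun i => ((bt (4 ^ i * (q / 16)) : ℝ) : ℂ))]
  have e2 : (4 : ℝ) ^ (n + 2) * (q / 16) = 4 ^ n * q := by ring
  rw [e2, pow_zero, one_mul, bt_one hq1]
  simp

theorem cut3_pos (ξ : E3) : 0 < 1 + 4 * π ^ 2 * ‖ξ‖ ^ 2 := by positivity

theorem jb_smooth (α : ℝ) : ContDiff ℝ ∞ (jb α) :=
  cutb_ofReal ((contDiff_const.add (contDiff_const.mul (contDiff_norm_sq ℝ))).rpow_const_of_ne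
    fun ξ => (cut3_pos ξ).ne')

theorem jb_mul (α : ℝ) (ξ : E3) : jb (-α) ξ * jb α ξ = 1 := by
  rw [jb, jb, ← Complex.ofReal_mul, ← rpow_add (cut3_pos ξ)]
  have : -α / 2 + α / 2 = 0 := by ring
  rw [this, rpow_zero, Complex.ofReal_one]

theorem cut3_chi_eq (j : ℕ) (u : ℝ) : chi (u / 2 ^ j) =
    ((bt ((4 ^ j)⁻¹ * u ^ 2) - bt (4 * (4 ^ j)⁻¹ * u ^ 2) : ℝ) : ℂ) := by
  have e : (u / 2 ^ j) ^ 2 = (4 ^ j)⁻¹ * u ^ 2 := by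
    rw [div_pow, ← pow_mul, mul_comm j 2, pow_mul, div_eq_inv_mul]
    norm_num
  rw [chi, e, mul_assoc]

theorem bs_sm (α : ℝ) (j : ℕ) : Sm (bs α j) := by
  have h := (cut3_sw (a := (4 ^ j)⁻¹) (b := 4 * (4 ^ j)⁻¹) (by positivity) (by positivity)).sm
  simp only [← cut3_chi_eq] at h
  exact ⟨h.smooth.mul (contDiff_const.mul (jb_smooth _)), h.cs.mul_right⟩

theorem b0_sm (α : ℝ) : Sm (b0 α) := by
  have hc : HasCompactSupport fun ξ : E3 => ((bt (‖ξ‖ ^ 2 / 4) : ℝ) : ℂ) := by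
    refine HasCompactSupport.intro (isCompact_closedBall (0 : E3) 4) fun ξ hξ => ?_
    rw [mem_closedBall_zero_iff, not_le] at hξ
    rw [bt_zero (by nlinarith)]
    simp
  exact ⟨(cutb_ofReal (bt_smooth.comp ((contDiff_norm_sq ℝ).div_const _))).mul (jb_smooth _),
    hc.mul_right⟩

theorem lw_sw (N : ℕ) : Sw (lw N) := by
  have h := cut3_sw (a := 1) (b := 4 ^ N) one_pos (by positivity)
  simp only [one_mul] at h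
  exact h

theorem am_sw (α : ℝ) (N : ℕ) : Sw (am α N) := by
  have h := cut3_sw (a := (4 ^ N)⁻¹) (b := 4 ^ N) (by positivity) (by positivity)
  simp only [← div_eq_inv_mul] at h
  exact h.mul fun _ _ => (jb_smooth _).contDiffAt

theorem bs_rot (α : ℝ) (j : ℕ) (θ : ℝ) (ξ : E3) : bs α j (rot θ ξ) = bs α j ξ := by
  rw [bs, bs, jb, jb, norm_rot]

theorem am_split (hc : ∀ u : ℝ, 0 ≤ u → c u * chi u = chi u) (α : ℝ) (N : ℕ) (ξ : E3) :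
    am α N ξ = lw N ξ * b0 α ξ + ∑ j ∈ Finset.range N,
      ((((2 : ℝ) ^ (j + 1)) ^ (-α) : ℝ) : ℂ) * (c (‖ξ‖ / 2 ^ (j + 1)) * bs α (j + 1) ξ) := by
  have e1 : ∀ j : ℕ, ((((2 : ℝ) ^ (j + 1)) ^ (-α) : ℝ) : ℂ) *
      (c (‖ξ‖ / 2 ^ (j + 1)) * bs α (j + 1) ξ) =
      (((bt (‖ξ‖ ^ 2 / 4 ^ (j + 1)) : ℝ) : ℂ) - ((bt (‖ξ‖ ^ 2 / 4 ^ j) : ℝ) : ℂ)) * jb (-α) ξ := by
    intro j
    have h1 := hc (‖ξ‖ / 2 ^ (j + 1)) (by positivity)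
    have h2 : ((((2 : ℝ) ^ (j + 1)) ^ (-α) : ℝ) : ℂ) * ((((2 : ℝ) ^ (j + 1)) ^ α : ℝ) : ℂ) = 1 := by
      rw [← Complex.ofReal_mul, ← rpow_add (by positivity), neg_add_cancel, rpow_zero,
        Complex.ofReal_one]
    have h3 : chi (‖ξ‖ / 2 ^ (j + 1)) =
        ((bt (‖ξ‖ ^ 2 / 4 ^ (j + 1)) : ℝ) : ℂ) - ((bt (‖ξ‖ ^ 2 / 4 ^ j) : ℝ) : ℂ) := by
      have a1 : ((4 : ℝ) ^ (j + 1))⁻¹ * ‖ξ‖ ^ 2 = ‖ξ‖ ^ 2 / 4 ^ (j + 1) := by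
        rw [div_eq_inv_mul]
      have a2 : 4 * ((4 : ℝ) ^ (j + 1))⁻¹ * ‖ξ‖ ^ 2 = ‖ξ‖ ^ 2 / 4 ^ j := by
        rw [pow_succ]
        field_simp
      rw [cut3_chi_eq, a1, a2, Complex.ofReal_sub]
    rw [← h3, bs, ← mul_assoc (c _), h1]
    linear_combination (chi (‖ξ‖ / 2 ^ (j + 1)) * jb (-α) ξ) * h2
  have e2 : lw N ξ * b0 α ξ =
      (((bt (‖ξ‖ ^ 2) : ℝ) : ℂ) - ((bt (4 ^ N * ‖ξ‖ ^ 2) : ℝ) : ℂ)) * jb (-α) ξ := by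
    rw [lw, b0, Complex.ofReal_sub]
    rcases le_total (‖ξ‖ ^ 2) 4 with h | h
    · rw [bt_one (u := ‖ξ‖ ^ 2 / 4) (by linarith)]
      simp
    · have h4 : (1 : ℝ) ≤ 4 ^ N := one_le_pow₀ (by norm_num)
      rw [bt_zero h, bt_zero (u := 4 ^ N * ‖ξ‖ ^ 2) (by nlinarith)]
      simp
  simp only [e1]
  rw [e2, ← Finset.sum_mul, Finset.sum_range_sub (fun j => ((bt (‖ξ‖ ^ 2 / 4 ^ j) : ℝ) : ℂ)), am,
    Complex.ofReal_sub, pow_zero, div_one]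
  ring

theorem am_lim (α : ℝ) {ξ : E3} (h : ξ ≠ 0) :
    Tendsto (fun N => am α N ξ) atTop (𝓝 (jb (-α) ξ)) := by
  refine tendsto_const_nhds.congr' ?_
  have h0 : 0 < ‖ξ‖ ^ 2 := pow_pos (norm_pos_iff.2 h) 2
  have h4 : Tendsto (fun N : ℕ => (4 : ℝ) ^ N) atTop atTop :=
    tendsto_pow_atTop_atTop_of_one_lt (by norm_num)
  filter_upwards [(h4.atTop_mul_const h0).eventually_ge_atTop 4,
    h4.eventually_ge_atTop (‖ξ‖ ^ 2)] with N h1 h2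
  rw [am, bt_zero h1, bt_one ((div_le_one (by positivity)).2 h2)]
  simp

theorem am_le (α : ℝ) (N : ℕ) (ξ : E3) : ‖am α N ξ‖ ≤ ‖jb (-α) ξ‖ := by
  rw [am, norm_mul]
  refine mul_le_of_le_one_left (norm_nonneg _) ?_
  rw [Complex.norm_real, Real.norm_eq_abs, abs_le]
  constructor <;> linarith [bt_nonneg (‖ξ‖ ^ 2 / 4 ^ N), bt_le_one (‖ξ‖ ^ 2 / 4 ^ N),
    bt_nonneg (4 ^ N * ‖ξ‖ ^ 2), bt_le_one (4 ^ N * ‖ξ‖ ^ 2)]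

end Vale.Agent.P106
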