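import Vale.Agent.P106.Amp

/-!
Derivatives of the angular variable. `pp` is smooth on the open set `0 < ‖ξ‖ + ξ.re` (`pp_smooth`), so `fderiv ℝ pp` and `fderiv ℝ (fderiv ℝ pp)` are continuous on the compact set
`K = {0 ≤ ξ.re, 1/4 ≤ ‖ξ‖ ≤ 4}` and bounded there (`IsCompact.exists_bound_of_continuousOn`); `‖e1 p‖, ‖e2 p‖ ≤ 3`. Homogeneity: `pp (r • ξ) = pp ξ` for `r > 0` gives `fderiv ℝ pp ξ ξ = 0`
(derivative of `r ↦ pp (r • ξ)` at `1`), hence `fderiv ℝ pp ξ (e1 (pp ξ)) = 0` by `eq_e1`, and `‖e1 p - e1 (pp ξ)‖ ≤ 3 s` (`abs_pp_le`).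
-/

open MeasureTheory Set Real Filter Topology
open scoped FourierTransform RealInnerProductSpace ContDiff ENNReal SchwartzMap

noncomputable section

namespace Vale.Agent.P106

open Vale.Agent.P117

theorem derp_e1 {p : ℝ} (hp : |p| ≤ 2) : ‖e1 p‖ ≤ 4 := by
  have h := abs_le.1 hp
  refine (Complex.norm_le_abs_re_add_abs_im _).trans ?_
  have h1 : |(1 - p ^ 2) / 2| ≤ 2 := abs_le.2 ⟨by nlinarith, by nlinarith⟩
  simp only [e1]
  linarith

theorem derp_e2 {p : ℝ} (hp : |p| ≤ 2) : ‖e2 p‖ ≤ 4 := by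
  refine (Complex.norm_le_abs_re_add_abs_im _).trans ?_
  simp only [e2, abs_neg, abs_one]
  linarith

theorem derp_sub {p p' s : ℝ} (hp : |p| ≤ 2) (hp' : |p'| ≤ 1) (h : |p' - p| ≤ s) :
    ‖e1 p - e1 p'‖ ≤ 4 * s := by
  refine (Complex.norm_le_abs_re_add_abs_im _).trans ?_
  have e : (1 - p ^ 2) / 2 - (1 - p' ^ 2) / 2 = (p' - p) * ((p' + p) / 2) := by ring
  have h1 : |(p' + p) / 2| ≤ 3 := by
    have := abs_le.1 hp
    have := abs_le.1 hp'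
    exact abs_le.2 ⟨by linarith, by linarith⟩
  have h2 := mul_le_mul h h1 (abs_nonneg _) ((abs_nonneg _).trans h)
  simp only [e1, Complex.sub_re, Complex.sub_im, e, abs_mul]
  rw [abs_sub_comm p]
  linarith

theorem derp_rad {ξ : ℂ} (hd : DifferentiableAt ℝ pp ξ) : fderiv ℝ pp ξ ξ = 0 := by
  have h1 : HasDerivAt (fun r : ℝ => r • ξ) ξ 1 := by
    simpa using (hasDerivAt_id (1 : ℝ)).smul_const ξ
  have h2 : HasDerivAt (fun r : ℝ => pp (r • ξ)) (fderiv ℝ pp ξ ξ) 1 :=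
    HasFDerivAt.comp_hasDerivAt_of_eq 1 hd.hasFDerivAt h1 (one_smul ℝ ξ).symm
  have h3 : (fun r : ℝ => pp (r • ξ)) =ᶠ[𝓝 1] fun _ => pp ξ := by
    filter_upwards [lt_mem_nhds (show (0 : ℝ) < 1 by norm_num)] with r hr
    simp only [pp, norm_smul, Real.norm_of_nonneg hr.le, Complex.smul_re, Complex.smul_im,
      smul_eq_mul, ← mul_add]
    exact mul_div_mul_left _ _ hr.ne'
  exact h2.unique ((hasDerivAt_const 1 (pp ξ)).congr_of_eventuallyEq h3)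

theorem derP : ∃ C : ℝ, 0 < C ∧ ∀ (ξ : ℂ) (p s : ℝ), 0 ≤ ξ.re → 1 / 4 ≤ ‖ξ‖ → ‖ξ‖ ≤ 4 → |p| ≤ 2 →
    |pp ξ - p| ≤ s → |fderiv ℝ pp ξ (e1 p)| ≤ C * s ∧ |fderiv ℝ pp ξ (e2 p)| ≤ C ∧
      |fderiv ℝ (fun ζ => fderiv ℝ pp ζ (e1 p)) ξ (e2 p)| ≤ C := by
  obtain ⟨K, hK⟩ : ∃ K : Set ℂ, K = {ξ | 0 ≤ ξ.re ∧ 1 / 4 ≤ ‖ξ‖ ∧ ‖ξ‖ ≤ 4} := ⟨_, rfl⟩
  have hc : IsCompact K := by
    refine (isCompact_closedBall (0 : ℂ) 4).of_isClosed_subset ?_ fun ξ h => ?_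
    · rw [hK]
      exact (isClosed_le continuous_const Complex.continuous_re).inter
        ((isClosed_le continuous_const continuous_norm).inter
          (isClosed_le continuous_norm continuous_const))
    · rw [hK] at h
      simpa using h.2.2
  have hpos : ∀ ξ ∈ K, 0 < ‖ξ‖ + ξ.re := fun ξ h => by
    rw [hK] at h
    linarith [h.1, h.2.1]
  have hs : ∀ ξ ∈ K, ContDiffAt ℝ 2 pp ξ := fun ξ h =>
    (pp_smooth (hpos ξ h)).of_le (WithTop.coe_le_coe.2 (show (2 : ℕ∞) ≤ ⊤ from le_top))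
  have hs1 : ∀ ξ ∈ K, ContDiffAt ℝ 1 (fderiv ℝ pp) ξ := fun ξ h =>
    (hs ξ h).fderiv_right (by norm_num)
  obtain ⟨C1, h1⟩ := hc.exists_bound_of_continuousOn fun ξ h =>
    (hs1 ξ h).continuousAt.continuousWithinAt
  obtain ⟨C2, h2⟩ := hc.exists_bound_of_continuousOn (f := fderiv ℝ (fderiv ℝ pp)) fun ξ h =>
    ((hs1 ξ h).fderiv_right (m := 0) (by norm_num)).continuousAt.continuousWithinAt
  refine ⟨4 * |C1| + 16 * |C2| + 1, by positivity, fun ξ p s h0 hl hu hp hs' => ?_⟩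
  have hξ : ξ ∈ K := by
    rw [hK]
    exact ⟨h0, hl, hu⟩
  have b1 := (h1 ξ hξ).trans (le_abs_self C1)
  have b2 := (h2 ξ hξ).trans (le_abs_self C2)
  have a1 := abs_nonneg C1
  have a2 := abs_nonneg C2
  have s0 := (abs_nonneg _).trans hs'
  refine ⟨?_, ?_, ?_⟩
  · have e0 : fderiv ℝ pp ξ (e1 (pp ξ)) = 0 := by
      have e := derp_rad ((hs ξ hξ).differentiableAt (by norm_num))
      have e' := congrArg (fderiv ℝ pp ξ) (eq_e1 (hpos ξ hξ))
      rw [e, map_smul, smul_eq_mul] at e'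
      exact (mul_eq_zero.1 e'.symm).resolve_left (hpos ξ hξ).ne'
    have e1' : fderiv ℝ pp ξ (e1 p) = fderiv ℝ pp ξ (e1 p - e1 (pp ξ)) := by
      rw [map_sub, e0, sub_zero]
    have := ((fderiv ℝ pp ξ).le_opNorm (e1 p - e1 (pp ξ))).trans
      (mul_le_mul b1 (derp_sub hp (abs_pp_le h0) hs') (norm_nonneg _) a1)
    rw [e1', ← Real.norm_eq_abs]
    nlinarith
  · have := ((fderiv ℝ pp ξ).le_opNorm (e2 p)).trans
      (mul_le_mul b1 (derp_e2 hp) (norm_nonneg _) a1)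
    rw [← Real.norm_eq_abs]
    linarith
  · have hd := (hs1 ξ hξ).differentiableAt (by norm_num)
    rw [fderiv_clm_apply hd (differentiableAt_const _)]
    simp only [fderiv_fun_const, Pi.zero_apply, ContinuousLinearMap.comp_zero, zero_add,
      ContinuousLinearMap.flip_apply]
    have := ((fderiv ℝ (fderiv ℝ pp) ξ).le_opNorm₂ (e2 p) (e1 p)).trans
      (mul_le_mul (mul_le_mul b2 (derp_e2 hp) (norm_nonneg _) a2) (derp_e1 hp) (norm_nonneg _)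
        (by positivity))
    rw [← Real.norm_eq_abs]
    linarith

end Vale.Agent.P106
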