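import Vale.Agent.P106.Amp

/-!
Derivatives of the phase. For `ζ ≠ 0`: `fderiv f ζ v = ⟪ζ, v⟫ / ‖ζ‖ - ⟪nv p, v⟫` (`‖ζ‖ = √(‖ζ‖ ^ 2)`, `hasStrictFDerivAt_norm_sq`, `HasFDerivAt.sqrt`), and with `q = pp ξ`, `N = nv q = ξ / ‖ξ‖` (`eq_nv`):
`⟪N - nv p, e1 p⟫ = -(q - p)² / (1 + q²)`, `‖N - nv p‖² = 4 (q - p)² / ((1 + q²) (1 + p²))`. The mixed derivative is `(⟪v, w⟫ - ⟪N, v⟫ ⟪N, w⟫) / ‖ξ‖`, which in coordinates is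
`(N.re v.im - N.im v.re) (N.re w.im - N.im w.re) / ‖ξ‖`, and `N.re v.im - N.im v.re = (p - q) (1 + p q) / (1 + q²)` for `v = e1 p`. Use `inner_cx`, `field_simp`, `ring`.
-/

open MeasureTheory Set Real Filter Topology
open scoped FourierTransform RealInnerProductSpace ContDiff ENNReal SchwartzMap

noncomputable section

namespace Vale.Agent.P106

open Vale.Agent.P117

theorem dert_norm {ζ : ℂ} (h : ζ ≠ 0) :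
    HasFDerivAt (fun ζ : ℂ => ‖ζ‖) (‖ζ‖⁻¹ • innerSL ℝ ζ) ζ := by
  have h0 : ‖ζ‖ ≠ 0 := norm_ne_zero_iff.2 h
  have h1 := (hasStrictFDerivAt_norm_sq ζ).hasFDerivAt.sqrt (pow_ne_zero 2 h0)
  simp only [sqrt_sq (norm_nonneg _)] at h1
  refine h1.congr_fderiv (ContinuousLinearMap.ext fun v => ?_)
  simp only [_root_.smul_apply, smul_eq_mul, nsmul_eq_mul, Nat.cast_ofNat]
  field_simp

theorem dert_one (N v : ℂ) {ζ : ℂ} (h : ζ ≠ 0) :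
    fderiv ℝ (fun ζ : ℂ => ‖ζ‖ - ⟪N, ζ⟫) ζ v = ‖ζ‖⁻¹ * ⟪v, ζ⟫ - ⟪N, v⟫ := by
  have h1 : HasFDerivAt (fun ζ : ℂ => ‖ζ‖ - ⟪N, ζ⟫) (‖ζ‖⁻¹ • innerSL ℝ ζ - innerSL ℝ N) ζ :=
    (dert_norm h).sub (innerSL ℝ N).hasFDerivAt
  rw [h1.fderiv, real_inner_comm]
  rfl

theorem dert_two (N v w : ℂ) {ξ : ℂ} (h : ξ ≠ 0) :
    fderiv ℝ (fun ζ => fderiv ℝ (fun ζ : ℂ => ‖ζ‖ - ⟪N, ζ⟫) ζ v) ξ w =
      ‖ξ‖⁻¹ * (⟪v, w⟫ - (‖ξ‖⁻¹ * ⟪v, ξ⟫) * (‖ξ‖⁻¹ * ⟪w, ξ⟫)) := by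
  have h0 : ‖ξ‖ ≠ 0 := norm_ne_zero_iff.2 h
  have e : (fun ζ => fderiv ℝ (fun ζ : ℂ => ‖ζ‖ - ⟪N, ζ⟫) ζ v) =ᶠ[𝓝 ξ]
      fun ζ => ‖ζ‖⁻¹ * ⟪v, ζ⟫ - ⟪N, v⟫ := by
    filter_upwards [isOpen_ne.mem_nhds h] with ζ hζ
    exact dert_one N v hζ
  have h1 : HasFDerivAt (fun ζ : ℂ => ‖ζ‖⁻¹ * ⟪v, ζ⟫ - ⟪N, v⟫) _ ξ :=
    ((((hasDerivAt_inv h0).comp_hasFDerivAt ξ (dert_norm h)).mul
      (innerSL ℝ v).hasFDerivAt).sub_const ⟪N, v⟫)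
  rw [e.fderiv_eq, h1.fderiv, real_inner_comm ξ w]
  simp only [_root_.add_apply, _root_.smul_apply, smul_eq_mul,
    innerSL_apply_apply, Function.comp_apply]
  field_simp
  ring

theorem derT : ∃ C : ℝ, 0 < C ∧ ∀ (ξ : ℂ) (p s : ℝ), 0 ≤ ξ.re → 1 / 4 ≤ ‖ξ‖ → |p| ≤ 2 →
    |pp ξ - p| ≤ s → ContDiffAt ℝ 2 (fun ζ : ℂ => ‖ζ‖ - ⟪nv p, ζ⟫) ξ ∧
      |fderiv ℝ (fun ζ : ℂ => ‖ζ‖ - ⟪nv p, ζ⟫) ξ (e1 p)| ≤ C * s ^ 2 ∧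
      |fderiv ℝ (fun ζ : ℂ => ‖ζ‖ - ⟪nv p, ζ⟫) ξ (e2 p)| ≤ C * s ∧
      |fderiv ℝ (fun ζ => fderiv ℝ (fun ζ : ℂ => ‖ζ‖ - ⟪nv p, ζ⟫) ζ (e1 p)) ξ (e2 p)| ≤ C * s := by
  refine ⟨60, by norm_num, fun ξ p s h1 h2 h3 h4 => ?_⟩
  have h0 : 0 < ‖ξ‖ := by linarith
  have h5 : ξ ≠ 0 := norm_pos_iff.1 h0
  have h6 := abs_pp_le h1
  have h7 : ∀ v : ℂ, ‖ξ‖⁻¹ * ⟪v, ξ⟫ = ⟪v, nv (pp ξ)⟫ := fun v => by
    have h8 : ⟪v, ξ⟫ = ‖ξ‖ * ⟪v, nv (pp ξ)⟫ := by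
      rw [← real_inner_smul_right, ← eq_nv (by linarith)]
    rw [h8, inv_mul_cancel_left₀ h0.ne']
  generalize pp ξ = q at h4 h6 h7
  have hs : 0 ≤ s := (abs_nonneg _).trans h4
  have hq : 0 < 1 + q ^ 2 := by positivity
  have hp : 0 < 1 + p ^ 2 := by positivity
  have hd : ∀ x : ℝ, |x / (1 + q ^ 2)| ≤ |x| := fun x => by
    rw [abs_div, abs_of_pos hq]
    exact div_le_self (abs_nonneg _) (by nlinarith [sq_nonneg q])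
  have hpq : |p * q| ≤ 2 := by
    rw [abs_mul]
    nlinarith [abs_nonneg p, abs_nonneg q]
  refine ⟨(contDiffAt_norm ℝ h5).sub (innerSL ℝ (nv p)).contDiff.contDiffAt, ?_, ?_, ?_⟩
  · have e : ⟪e1 p, nv q⟫ - ⟪nv p, e1 p⟫ = -(q - p) ^ 2 / (1 + q ^ 2) := by
      simp only [inner_cx, e1, nv]
      field_simp
      ring
    rw [dert_one _ _ h5, h7, e]
    refine (hd _).trans ?_
    rw [abs_neg, abs_pow]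
    nlinarith [pow_le_pow_left₀ (abs_nonneg _) h4 2, sq_nonneg s]
  · have e : ⟪e2 p, nv q⟫ - ⟪nv p, e2 p⟫ = 2 * (q - p) / (1 + q ^ 2) := by
      simp only [inner_cx, e2, nv]
      field_simp
      ring
    rw [dert_one _ _ h5, h7, e]
    refine (hd _).trans ?_
    rw [abs_mul, abs_two]
    linarith
  · have e : ⟪e1 p, e2 p⟫ - ⟪e1 p, nv q⟫ * ⟪e2 p, nv q⟫ =
        -(q - p) * (1 + p * q) / (1 + q ^ 2) * ((1 - q ^ 2 + 2 * (p * q)) / (1 + q ^ 2)) := by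
      simp only [inner_cx, e1, e2, nv]
      field_simp
      ring
    have b1 : |-(q - p) * (1 + p * q) / (1 + q ^ 2)| ≤ s * 3 := by
      refine (hd _).trans ?_
      rw [abs_mul, abs_neg]
      exact mul_le_mul h4 (abs_le.2 ⟨by linarith [(abs_le.1 hpq).1], by linarith [(abs_le.1 hpq).2]⟩)
        (abs_nonneg _) hs
    have b2 : |(1 - q ^ 2 + 2 * (p * q)) / (1 + q ^ 2)| ≤ 5 := by
      have h8 : q ^ 2 ≤ 1 := (sq_le_one_iff_abs_le_one q).2 h6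
      exact (hd _).trans (abs_le.2 ⟨by linarith [(abs_le.1 hpq).1],
        by linarith [(abs_le.1 hpq).2, sq_nonneg q]⟩)
    have b3 : |‖ξ‖⁻¹| ≤ 4 := by
      rw [abs_of_pos (inv_pos.2 h0), inv_le_comm₀ h0 (by norm_num)]
      linarith
    rw [dert_two _ _ _ h5, h7, h7, e, abs_mul, abs_mul]
    refine (mul_le_mul b3 (mul_le_mul b1 b2 (abs_nonneg _) (by positivity)) (by positivity)
      (by norm_num)).trans_eq (by ring)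

end Vale.Agent.P106
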