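import Vale.Agent.P106.Jet
import Vale.Agent.P106.DerP
import Vale.Agent.P106.DerT

/-!
Derivatives of the multiplier of a cap. Outside the closed set `cs` it vanishes locally (`cap_cs`, `cs_closed`, `jt_zero`). On `cs`, with `p = p0 m i`, `s = 4 / 2 ^ m` (`pp_sub`, `abs_p0`),
`α = 4 ^ m / 4 ^ n`, `β = 2 ^ m / 4 ^ n`, `2 ^ m ≤ 2 ^ n`: it is the product of `ex (phase)`, `φ`, `c (re / lam)`, `ps (kap)`. Phase: `j2_scale` with `r = t`, `k = 0`, `derT`, `B = 16 C |t| / 4 ^ n`.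
`kap = 2 ^ n / 4 * pp + (2 ^ n / 2 - j)`: `j2_scale`, `derP`, `B = C`. `j2_re` with `B = 22`: `1 - pp² = 2 ξ.re / (‖ξ‖ + ξ.re) ≤ 32 lam` (`eq_e1`), `|p² - pp²| ≤ 3 s`, `1 / lam ≤ 2 ^ n`.
`jt_sm` (`‖v1‖, ‖v2‖ ≤ 3`), `g2_sm`, `J2.comp`, `Jt.mul`. `der_sum`: only the `j` with `ξ ∈ cs lam n j` contribute (`cs_card`).
-/

open MeasureTheory Set Real Filter Topology
open scoped FourierTransform RealInnerProductSpace ContDiff ENNReal SchwartzMap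

noncomputable section

namespace Vale.Agent.P106

open Vale.Agent.P117

variable {φ : ℂ → ℂ} {c : ℝ → ℂ}

theorem mv_sm {A : ℂ → ℂ} (h : Sw A) (t p : ℝ) : Sm (mv A t p) := by
  have h1 : Sw fun ξ => A ξ * ex (t * (‖ξ‖ - ⟪nv p, ξ⟫)) := by
    refine h.mul fun ξ hξ => contDiff_ex.contDiffAt.comp ξ ?_
    exact contDiffAt_const.mul
      ((contDiffAt_norm ℝ hξ).sub (contDiffAt_const.inner ℝ contDiffAt_id))
  have h2 : mv A t p = fun ξ => A ξ * ex (t * (‖ξ‖ - ⟪nv p, ξ⟫)) := by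
    funext ξ
    simp only [mv]
    ring
  rw [h2]
  exact h1.sm

theorem der_zero (h : Am φ) (hc : Prof c) {lam : ℝ} (hl : 0 < lam) {n j : ℕ} {ξ : ℂ}
    (h0 : ξ ∉ cs lam n j) (t p : ℝ) (v w : ℂ) : Jt (mv (cap φ c lam n j) t p) ξ v w 0 := by
  refine jt_zero ?_ v w
  filter_upwards [(cs_closed hl n j).isOpen_compl.mem_nhds h0] with ζ hζ
  have h1 : cap φ c lam n j ζ = 0 := by
    by_contra h2
    exact hζ (cap_cs h hc hl h2)
  simp only [mv, h1, mul_zero]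

theorem der_e1 {p : ℝ} (hp : |p| ≤ 2) : ‖e1 p‖ ≤ 3 := by
  have h1 : p ^ 2 ≤ 4 := by
    have := sq_abs p
    have := abs_nonneg p
    nlinarith
  refine abs_le_of_sq_le_sq' ?_ (by norm_num) |>.2
  rw [Complex.sq_norm, Complex.normSq_apply]
  simp only [e1]
  nlinarith [sq_nonneg p]

theorem der_e2 {p : ℝ} (hp : |p| ≤ 2) : ‖e2 p‖ ≤ 3 := by
  have h1 : p ^ 2 ≤ 4 := by
    have := sq_abs p
    have := abs_nonneg p
    nlinarith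
  refine abs_le_of_sq_le_sq' ?_ (by norm_num) |>.2
  rw [Complex.sq_norm, Complex.normSq_apply]
  simp only [e2]
  nlinarith [sq_nonneg p]

theorem der_v1 (n m i : ℕ) :
    v1 n m i = (((2 : ℝ) ^ m) ^ 2 / ((2 : ℝ) ^ n) ^ 2) • e1 (p0 m i) := by
  have h (k : ℕ) : ((2 : ℝ) ^ k) ^ 2 = 4 ^ k := by
    rw [← pow_mul, mul_comm, pow_mul]
    norm_num
  rw [h, h, v1]

theorem der_v2 (n m i : ℕ) :
    v2 n m i = ((2 : ℝ) ^ m / ((2 : ℝ) ^ n) ^ 2) • e2 (p0 m i) := by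
  have h (k : ℕ) : ((2 : ℝ) ^ k) ^ 2 = 4 ^ k := by
    rw [← pow_mul, mul_comm, pow_mul]
    norm_num
  rw [h, v2]

/-- the phase -/
theorem der_phase {f : ℂ → ℝ} {ξ v w : ℂ} {a b C t : ℝ} (ha : 1 ≤ a) (hab : a ≤ b) (hC : 0 < C)
    (h : ContDiffAt ℝ 2 f ξ) (h1 : |fderiv ℝ f ξ v| ≤ C * (4 / a) ^ 2)
    (h2 : |fderiv ℝ f ξ w| ≤ C * (4 / a))
    (h3 : |fderiv ℝ (fun ζ => fderiv ℝ f ζ v) ξ w| ≤ C * (4 / a)) :
    J2 (fun ζ => t * f ζ + 0) ξ ((a ^ 2 / b ^ 2) • v) ((a / b ^ 2) • w)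
      (16 * C * (|t| / b ^ 2)) := by
  have ha0 : 0 < a := by linarith
  have hb0 : 0 < b := by linarith
  have hx : 0 ≤ C * (|t| / b ^ 2) := by positivity
  have hq : a ^ 2 / b ^ 2 ≤ 1 := by
    rw [div_le_one (by positivity)]
    gcongr
  refine j2_scale h ?_ ?_ ?_
  · refine (mul_le_mul_of_nonneg_left h1 (abs_nonneg _)).trans (le_of_eq ?_)
    rw [abs_mul, abs_of_pos (by positivity : 0 < a ^ 2 / b ^ 2)]
    field_simp
    ring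
  · refine (mul_le_mul_of_nonneg_left h2 (abs_nonneg _)).trans ?_
    rw [abs_mul, abs_of_pos (by positivity : 0 < a / b ^ 2)]
    have e : |t| * (a / b ^ 2) * (C * (4 / a)) = 4 * (C * (|t| / b ^ 2)) := by
      field_simp
    rw [e]
    linarith
  · refine (mul_le_mul_of_nonneg_left h3 (abs_nonneg _)).trans ?_
    rw [abs_mul, abs_mul, abs_of_pos (by positivity : 0 < a / b ^ 2),
      abs_of_pos (by positivity : 0 < a ^ 2 / b ^ 2)]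
    have e : |t| * (a ^ 2 / b ^ 2) * (a / b ^ 2) * (C * (4 / a)) =
        4 * (C * (|t| / b ^ 2)) * (a ^ 2 / b ^ 2) := by
      field_simp
    rw [e]
    nlinarith

/-- the angular variable -/
theorem der_ang {f : ℂ → ℝ} {ξ v w : ℂ} {a b C k : ℝ} (ha : 1 ≤ a) (hab : a ≤ b) (hC : 0 < C)
    (h : ContDiffAt ℝ 2 f ξ) (h1 : |fderiv ℝ f ξ v| ≤ C * (4 / a))
    (h2 : |fderiv ℝ f ξ w| ≤ C)
    (h3 : |fderiv ℝ (fun ζ => fderiv ℝ f ζ v) ξ w| ≤ C) :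
    J2 (fun ζ => b / 4 * f ζ + k) ξ ((a ^ 2 / b ^ 2) • v) ((a / b ^ 2) • w) C := by
  have ha0 : 0 < a := by linarith
  have hb0 : 0 < b := by linarith
  have hq : a / b ≤ 1 := by rwa [div_le_one hb0]
  have hq0 : 0 < a / b := by positivity
  refine j2_scale h ?_ ?_ ?_
  · refine (mul_le_mul_of_nonneg_left h1 (abs_nonneg _)).trans ?_
    rw [abs_of_pos (by positivity)]
    have e : b / 4 * (a ^ 2 / b ^ 2) * (C * (4 / a)) = C * (a / b) := by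
      field_simp
    rw [e]
    nlinarith
  · refine (mul_le_mul_of_nonneg_left h2 (abs_nonneg _)).trans ?_
    rw [abs_of_pos (by positivity)]
    have e : b / 4 * (a / b ^ 2) * C = C * (a / b) / 4 := by
      field_simp
    rw [e]
    nlinarith
  · refine (mul_le_mul_of_nonneg_left h3 (abs_nonneg _)).trans ?_
    rw [abs_of_pos (by positivity)]
    have e : b / 4 * (a ^ 2 / b ^ 2) * (a / b ^ 2) * C = C * (a / b) ^ 3 / 4 := by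
      field_simp
    have h4 : (a / b) ^ 3 ≤ 1 := pow_le_one₀ hq0.le hq
    rw [e]
    nlinarith

theorem der_sq {ξ : ℂ} {lam p s : ℝ} (hl : 0 < lam) (h1 : lam / 4 ≤ ξ.re) (h2 : ξ.re ≤ 4 * lam)
    (h3 : 1 / 4 ≤ ‖ξ‖) (hp : |p| ≤ 2) (hs : |pp ξ - p| ≤ s) : |1 - p ^ 2| ≤ 32 * lam + 3 * s := by
  have h0 : 0 ≤ ξ.re := by linarith
  have hD : 0 < ‖ξ‖ + ξ.re := by linarith
  have hq := abs_pp_le h0
  have hn := norm_eq_pp hD
  have hq2 : pp ξ ^ 2 ≤ 1 := by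
    have := sq_abs (pp ξ)
    have := abs_nonneg (pp ξ)
    nlinarith
  have e1 : (‖ξ‖ + ξ.re) * (1 - pp ξ ^ 2) = 2 * ξ.re := by linarith
  have e2 : 1 - pp ξ ^ 2 ≤ 32 * lam := by nlinarith
  have e3 : |pp ξ ^ 2 - p ^ 2| ≤ 3 * s := by
    have e : pp ξ ^ 2 - p ^ 2 = (pp ξ + p) * (pp ξ - p) := by ring
    rw [e, abs_mul]
    have := abs_add_le (pp ξ) p
    exact mul_le_mul (by linarith) hs (abs_nonneg _) (by norm_num)
  have e4 := abs_le.1 e3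
  rw [abs_le]
  constructor <;> linarith [e4.1, e4.2]

/-- the distance to the axis -/
theorem der_re (ξ : ℂ) {a b lam p : ℝ} (ha : 1 ≤ a) (hab : a ≤ b) (hl : b⁻¹ ≤ lam)
    (hp : |p| ≤ 2) (hs : |1 - p ^ 2| ≤ 32 * lam + 3 * (4 / a)) :
    J2 (fun ζ : ℂ => ζ.re / lam) ξ ((a ^ 2 / b ^ 2) • e1 p) ((a / b ^ 2) • e2 p) 22 := by
  have ha0 : 0 < a := by linarith
  have hb0 : 0 < b := by linarith
  have hl0 : 0 < lam := lt_of_lt_of_le (by positivity) hl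
  have hq : a / b ≤ 1 := by rwa [div_le_one hb0]
  have hq0 : 0 < a / b := by positivity
  have h5 : a / b ^ 2 ≤ lam := by
    have e : a / b ^ 2 = a / b * b⁻¹ := by field_simp
    rw [e]
    have : 0 < b⁻¹ := by positivity
    nlinarith
  refine j2_re ?_ ?_ ξ
  · rw [abs_div, abs_of_pos hl0, div_le_iff₀ hl0]
    have e : ((a ^ 2 / b ^ 2) • e1 p).re = a ^ 2 / b ^ 2 / 2 * (1 - p ^ 2) := by
      simp only [Complex.smul_re, e1, smul_eq_mul]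
      ring
    rw [e, abs_mul, abs_of_pos (by positivity)]
    refine (mul_le_mul_of_nonneg_left hs (by positivity)).trans ?_
    have e' : a ^ 2 / b ^ 2 / 2 * (32 * lam + 3 * (4 / a)) =
        16 * lam * (a / b) ^ 2 + 6 * (a / b ^ 2) := by
      field_simp
      ring
    have h4 : (a / b) ^ 2 ≤ 1 := pow_le_one₀ hq0.le hq
    rw [e']
    nlinarith
  · rw [abs_div, abs_of_pos hl0, div_le_iff₀ hl0]
    have e : ((a / b ^ 2) • e2 p).re = a / b ^ 2 * (-p) := by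
      simp only [Complex.smul_re, e2, smul_eq_mul]
    rw [e, abs_mul, abs_of_pos (by positivity), abs_neg]
    have : 0 < a / b ^ 2 := by positivity
    nlinarith

theorem der_cap (h : Am φ) (hc : Prof c) : ∃ C : ℝ, 0 < C ∧ ∀ (n m i j : ℕ) (lam t : ℝ) (ξ : ℂ),
    m ≤ n → i < 2 ^ m → j ∈ blk (n - m) i → (2 ^ n)⁻¹ ≤ lam →
      Jt (mv (cap φ c lam n j) t (p0 m i)) ξ (v1 n m i) (v2 n m i) (C * (1 + |t| / 4 ^ n) ^ 2) := by
  obtain ⟨CP, hCP, HP⟩ := derP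
  obtain ⟨CT, hCT, HT⟩ := derT
  obtain ⟨C1, H1⟩ := jt_sm h.sm
  obtain ⟨C2, H2⟩ := g2_sm hc.sm
  obtain ⟨C3, H3⟩ := g2_sm ps_sm
  have c1 : 0 ≤ C1 := (norm_nonneg _).trans (H1 0 0 0 (by simp) (by simp)).2
  have c2 : 0 ≤ C2 := (norm_nonneg _).trans (H2.2 0).1
  have c3 : 0 ≤ C3 := (norm_nonneg _).trans (H3.2 0).1
  set D : ℝ := 4 * (4 * C1 * (C2 * (1 + 22) ^ 2)) * (C3 * (1 + CP) ^ 2) with hD
  have hD0 : 0 ≤ D := by positivity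
  refine ⟨160 * (1 + 16 * CT) ^ 2 * D + 1, by positivity, ?_⟩
  intro n m i j lam t ξ hm hi hj hl
  have hl0 : 0 < lam := lt_of_lt_of_le (by positivity) hl
  by_cases h0 : ξ ∈ cs lam n j
  swap
  · exact (der_zero h hc hl0 h0 _ _ _ _).mono (by positivity)
  obtain ⟨k1, k2, k3, k4, k5⟩ := h0
  have hre : 0 ≤ ξ.re := by linarith
  have hp := abs_p0 hi
  have hs := pp_sub hm hj k5
  have ha : (1 : ℝ) ≤ 2 ^ m := one_le_pow₀ (by norm_num)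
  have hab : (2 : ℝ) ^ m ≤ 2 ^ n := pow_le_pow_right₀ (by norm_num) hm
  have h4 : ((2 : ℝ) ^ n) ^ 2 = 4 ^ n := by
    rw [← pow_mul, mul_comm, pow_mul]
    norm_num
  obtain ⟨t0, t1, t2, t3⟩ := HT ξ _ _ hre k3 hp hs
  obtain ⟨p1, p2, p3⟩ := HP ξ _ _ hre k3 k4 hp hs
  have p0' : ContDiffAt ℝ 2 pp ξ :=
    (pp_smooth (by linarith)).of_le (WithTop.coe_le_coe.2 (le_top : (2 : ℕ∞) ≤ ⊤))
  have j1 := (der_phase (t := t) ha hab hCT t0 t1 t2 t3).comp g2_ex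
  have j2 := (der_re ξ ha hab hl hp (der_sq hl0 k1 k2 k3 hp hs)).comp H2
  have j3 := (der_ang (k := 2 ^ n / 2 - j) ha hab hCP p0' p1 p2 p3).comp H3
  rw [← der_v1, ← der_v2] at j1 j2 j3
  have hn : (1 : ℝ) ≤ 2 ^ n := ha.trans hab
  have n1 : ‖v1 n m i‖ ≤ 3 := by
    rw [der_v1, norm_smul, Real.norm_of_nonneg (by positivity)]
    have hq : ((2 : ℝ) ^ m) ^ 2 / ((2 : ℝ) ^ n) ^ 2 ≤ 1 := by
      rw [div_le_one (by positivity)]
      gcongr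
    have := mul_le_mul hq (der_e1 hp) (norm_nonneg _) zero_le_one
    linarith
  have n2 : ‖v2 n m i‖ ≤ 3 := by
    rw [der_v2, norm_smul, Real.norm_of_nonneg (by positivity)]
    have hq : (2 : ℝ) ^ m / ((2 : ℝ) ^ n) ^ 2 ≤ 1 := by
      rw [div_le_one (by positivity)]
      nlinarith
    have := mul_le_mul hq (der_e2 hp) (norm_nonneg _) zero_le_one
    linarith
  have j4 := j1.mul (((H1 ξ _ _ n1 n2).mul j2).mul j3)
  have e : mv (cap φ c lam n j) t (p0 m i) = fun ζ =>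
      ex (t * (‖ζ‖ - ⟪nv (p0 m i), ζ⟫) + 0) *
        (φ ζ * c (ζ.re / lam) * (ps (2 ^ n / 4 * pp ζ + (2 ^ n / 2 - j)) : ℂ)) := by
    funext ζ
    have e' : kap n j ζ = 2 ^ n / 4 * pp ζ + (2 ^ n / 2 - j) := by
      simp only [kap]
      ring
    simp only [mv, cap, amp, e', add_zero]
  rw [e]
  refine j4.mono ?_
  rw [h4, ← hD]
  have hx : 0 ≤ |t| / 4 ^ n := by positivity
  generalize |t| / 4 ^ n = x at hx
  have h5 : (1 + 16 * CT * x) ^ 2 ≤ (1 + 16 * CT) ^ 2 * (1 + x) ^ 2 := by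
    rw [← mul_pow]
    have : 0 ≤ CT * x := by positivity
    gcongr
    nlinarith
  have h6 := mul_le_mul_of_nonneg_left h5 hD0
  have h7 : 0 ≤ (1 + x) ^ 2 := by positivity
  nlinarith

theorem der_fin {s : Finset ℕ} {P : ℕ → Prop} {x : ℕ → ℂ} {B : ℝ}
    (h1 : ∀ j ∈ s, ‖x j‖ ≤ B) (h2 : ∀ j, ¬ P j → ‖x j‖ ≤ 0)
    (h3 : ∀ s' : Finset ℕ, (∀ j ∈ s', P j) → s'.card ≤ 3) :
    ∑ j ∈ s, ‖x j‖ ^ 2 ≤ 3 * B ^ 2 := by
  classical
  have e : ∑ j ∈ s.filter P, ‖x j‖ ^ 2 = ∑ j ∈ s, ‖x j‖ ^ 2 := by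
    refine Finset.sum_filter_of_ne fun j _ hj => ?_
    by_contra h
    exact hj (by rw [le_antisymm (h2 j h) (norm_nonneg _)]; norm_num)
  rw [← e]
  have h4 : ((s.filter P).card : ℝ) ≤ 3 := by
    exact_mod_cast h3 _ fun j hj => (Finset.mem_filter.1 hj).2
  have h5 : ∑ j ∈ s.filter P, ‖x j‖ ^ 2 ≤ (s.filter P).card • B ^ 2 :=
    Finset.sum_le_card_nsmul _ _ _ fun j hj =>
      pow_le_pow_left₀ (norm_nonneg _) (h1 j (Finset.mem_filter.1 hj).1) 2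
  rw [nsmul_eq_mul] at h5
  exact h5.trans (mul_le_mul_of_nonneg_right h4 (sq_nonneg _))

theorem der_sum (h : Am φ) (hc : Prof c) : ∃ C : ℝ, 0 < C ∧ ∀ (n m i : ℕ) (lam t : ℝ),
    m ≤ n → i < 2 ^ m → (2 ^ n)⁻¹ ≤ lam → ∀ M : ℕ → ℂ → ℂ,
      (∀ j, M j = mv (cap φ c lam n j) t (p0 m i)) → ∀ ξ : ℂ,
      ∑ j ∈ blk (n - m) i, ‖M j ξ‖ ^ 2 ≤ C * (1 + |t| / 4 ^ n) ^ 4 ∧
      ∑ j ∈ blk (n - m) i, ‖fderiv ℝ (M j) ξ (v1 n m i)‖ ^ 2 ≤ C * (1 + |t| / 4 ^ n) ^ 4 ∧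
      ∑ j ∈ blk (n - m) i, ‖fderiv ℝ (M j) ξ (v2 n m i)‖ ^ 2 ≤ C * (1 + |t| / 4 ^ n) ^ 4 ∧
      ∑ j ∈ blk (n - m) i, ‖fderiv ℝ (fun ζ => fderiv ℝ (M j) ζ (v1 n m i)) ξ (v2 n m i)‖ ^ 2 ≤
        C * (1 + |t| / 4 ^ n) ^ 4 := by
  obtain ⟨C, hC, H⟩ := der_cap h hc
  refine ⟨3 * C ^ 2, by positivity, ?_⟩
  intro n m i lam t hm hi hl M hM ξ
  have hl0 : 0 < lam := lt_of_lt_of_le (by positivity) hl
  have e : 3 * C ^ 2 * (1 + |t| / 4 ^ n) ^ 4 = 3 * (C * (1 + |t| / 4 ^ n) ^ 2) ^ 2 := by ring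
  have k1 : ∀ j ∈ blk (n - m) i,
      Jt (M j) ξ (v1 n m i) (v2 n m i) (C * (1 + |t| / 4 ^ n) ^ 2) := fun j hj => by
    rw [hM]
    exact H n m i j lam t ξ hm hi hj hl
  have k2 : ∀ j, ¬ ξ ∈ cs lam n j → Jt (M j) ξ (v1 n m i) (v2 n m i) 0 := fun j hj => by
    rw [hM]
    exact der_zero h hc hl0 hj _ _ _ _
  have k3 : ∀ s' : Finset ℕ, (∀ j ∈ s', ξ ∈ cs lam n j) → s'.card ≤ 3 := fun s' hs =>
    cs_card s' hs
  rw [e]
  exact ⟨der_fin (fun j hj => (k1 j hj).2) (fun j hj => (k2 j hj).2) k3,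
    der_fin (fun j hj => (k1 j hj).1.d1) (fun j hj => (k2 j hj).1.d1) k3,
    der_fin (fun j hj => (k1 j hj).1.d2) (fun j hj => (k2 j hj).1.d2) k3,
    der_fin (fun j hj => (k1 j hj).1.d12) (fun j hj => (k2 j hj).1.d12) k3⟩

end Vale.Agent.P106
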