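import Vale.Agent.P106.Qp
import Vale.Agent.P117.Cyl

/-!
Linear changes of variables. `jac`: `Measure.map_linearMap_addHaar_eq_smul_addHaar` (or `MeasureTheory.Measure.addHaar_preimage_continuousLinearEquiv`), `lintegral_map_equiv` and
`integral_map_equiv` for `A.toHomeomorph.toMeasurableEquiv`. `cr (F ∘ A) (F ∘ A) ξ = c • cr F F (A ξ)`. `pw_lin`: substitute `y' = B y` in `Real.fourier_eq`.
`pw_smul`: `A = r • id`, `B = r⁻¹ • id` (`ContinuousLinearEquiv.equivOfInverse` or `LinearEquiv.smulOfNeZero`).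
-/

open MeasureTheory Set Real Filter Topology
open scoped FourierTransform RealInnerProductSpace ContDiff ENNReal SchwartzMap

noncomputable section

namespace Vale.Agent.P106

open Vale.Agent.P117

variable {V : Type} [NormedAddCommGroup V] [InnerProductSpace ℝ V] [FiniteDimensional ℝ V]
  [MeasurableSpace V] [BorelSpace V]
  {W : V → ℂ} {w : V → ℝ}

theorem jac (A : V ≃L[ℝ] V) : 0 < |LinearMap.det (A : V →ₗ[ℝ] V)| ∧
    (∀ g : V → ℝ≥0∞, ∫⁻ x, g (A x) =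
      ENNReal.ofReal |LinearMap.det (A : V →ₗ[ℝ] V)|⁻¹ * ∫⁻ x, g x) ∧
    (∀ g : V → ℂ, ∫ x, g (A x) = (|LinearMap.det (A : V →ₗ[ℝ] V)|⁻¹ : ℝ) * ∫ x, g x) ∧
    ∀ g : V → ℝ, Integrable g → Integrable fun x => g (A x) := by
  have h0 : LinearMap.det (A : V →ₗ[ℝ] V) ≠ 0 := A.toLinearEquiv.isUnit_det'.ne_zero
  have hm : Measure.map A.toHomeomorph.toMeasurableEquiv (volume : Measure V) =
      ENNReal.ofReal |LinearMap.det (A : V →ₗ[ℝ] V)|⁻¹ • volume := by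
    rw [← abs_inv]
    exact Measure.map_linearMap_addHaar_eq_smul_addHaar volume h0
  refine ⟨abs_pos.2 h0, fun g => ?_, fun g => ?_, fun g hg => ?_⟩
  · have h := lintegral_map_equiv (μ := volume) g A.toHomeomorph.toMeasurableEquiv
    rw [hm, lintegral_smul_measure, smul_eq_mul] at h
    exact h.symm
  · have h := integral_map_equiv (μ := volume) A.toHomeomorph.toMeasurableEquiv g
    rw [hm, integral_smul_measure, ENNReal.toReal_ofReal (by positivity), Complex.real_smul] at h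
    exact h.symm
  · have h := (integrable_map_equiv (μ := volume) A.toHomeomorph.toMeasurableEquiv g).1
      (by rw [hm]; exact hg.smul_measure ENNReal.ofReal_ne_top)
    exact h

theorem Q_comp (A : V ≃L[ℝ] V) : ∃ c : ℝ, 0 < c ∧ ∀ (W : V → ℂ) (s : Finset ℕ) (F : ℕ → V → ℂ),
    Q (fun ξ => W (A ξ)) s (fun j ξ => F j (A ξ)) = ENNReal.ofReal c * Q W s F := by
  obtain ⟨h0, h1, h2, -⟩ := jac A
  generalize |LinearMap.det (A : V →ₗ[ℝ] V)| = d at h0 h1 h2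
  have hd : 0 < d⁻¹ := inv_pos.2 h0
  refine ⟨d⁻¹ ^ 2 * d⁻¹, by positivity, fun W s F => ?_⟩
  have hc : ∀ j ξ, cr (fun ξ => F j (A ξ)) (fun ξ => F j (A ξ)) ξ =
      (d⁻¹ : ℝ) * cr (F j) (F j) (A ξ) := fun j ξ => by
    rw [cr, cr, cv, cv, ← h2]
    simp only [map_neg, map_sub]
  have h3 := h1 fun ξ => ‖W ξ * ∑ j ∈ s, cr (F j) (F j) ξ‖ₑ ^ (2 : ℝ)
  rw [Q, Q, Np, Np, ENNReal.ofReal_mul (by positivity), mul_assoc, ← h3,
    ← lintegral_const_mul' _ _ ENNReal.ofReal_ne_top]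
  refine lintegral_congr fun ξ => ?_
  simp only [hc]
  rw [← Finset.mul_sum, mul_left_comm, enorm_mul, ENNReal.mul_rpow_of_nonneg _ _ (by norm_num),
    ← ofReal_norm, Complex.norm_real, Real.norm_of_nonneg hd.le,
    ENNReal.ofReal_rpow_of_nonneg hd.le (by norm_num), Real.rpow_two]

theorem Cc.comp {F : V → ℂ} (h : Cc F) (A : V ≃L[ℝ] V) : Cc fun ξ => F (A ξ) := by
  obtain ⟨R, hR⟩ := h.supp
  refine ⟨h.cont.comp A.continuous, ‖(A.symm : V →L[ℝ] V)‖ * R, fun ξ hξ => hR _ ?_⟩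
  by_contra h1
  have h2 := (A.symm : V →L[ℝ] V).le_opNorm_of_le (not_lt.1 h1)
  rw [ContinuousLinearEquiv.coe_coe, A.symm_apply_apply] at h2
  exact absurd hξ (not_lt.2 h2)

theorem pw_lin (h : Pw W w) (B : V ≃L[ℝ] V) {A : V → V} (hAB : ∀ y ξ, ⟪y, ξ⟫ = ⟪B y, A ξ⟫) :
    Pw (fun ξ => W (A ξ)) fun y => |LinearMap.det (B : V →ₗ[ℝ] V)| * w (B y) := by
  obtain ⟨h0, -, h2, h3⟩ := jac B
  generalize |LinearMap.det (B : V →ₗ[ℝ] V)| = d at h0 h2
  refine ⟨continuous_const.mul (h.cont.comp B.continuous), (h3 w h.int).const_mul _,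
    fun y => mul_nonneg h0.le (h.nn _), fun ξ => ?_⟩
  have h4 := h2 fun y => 𝐞 (-⟪y, A ξ⟫) • (w y : ℂ)
  rw [← Real.fourier_eq, h.four] at h4
  have h5 : ∀ y, 𝐞 (-⟪y, ξ⟫) • ((d * w (B y) : ℝ) : ℂ) =
      (d : ℂ) * (𝐞 (-⟪B y, A ξ⟫) • (w (B y) : ℂ)) := fun y => by
    rw [hAB, Complex.ofReal_mul, mul_smul_comm]
  rw [Real.fourier_eq]
  simp only [h5]
  rw [integral_const_mul, h4, ← mul_assoc, ← Complex.ofReal_mul, mul_inv_cancel₀ h0.ne',
    Complex.ofReal_one, one_mul]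

theorem pw_smul (h : Pw W w) {r : ℝ} (hr : 0 < r) : ∃ w', Pw (fun ξ => W (r • ξ)) w' :=
  ⟨_, pw_lin h (LinearEquiv.smulOfNeZero ℝ V r⁻¹ (inv_ne_zero hr.ne')).toContinuousLinearEquiv
    (A := fun ξ => r • ξ) fun y ξ => by
      change ⟪y, ξ⟫ = ⟪r⁻¹ • y, r • ξ⟫
      rw [real_inner_smul_left, real_inner_smul_right, ← mul_assoc, inv_mul_cancel₀ hr.ne',
        one_mul]⟩

end Vale.Agent.P106
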