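import Vale.Agent.P106.Lift
import Vale.Agent.P106.Lin
import Vale.Agent.P117.Rad

/-! The weight of an envelope in physical space. -/

open MeasureTheory Set Real Filter Topology
open scoped FourierTransform RealInnerProductSpace ContDiff ENNReal SchwartzMap

noncomputable section

namespace Vale.Agent.P106

open Vale.Agent.P117

theorem enva_lin (M : Matrix (Fin 3) (Fin 3) ℝ) (h : M.det ≠ 0) : ∃ B : E3 ≃L[ℝ] E3,
    LinearMap.det (B : E3 →ₗ[ℝ] E3) = M.det ∧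
      ∀ y i, B y i = M i 0 * y 0 + M i 1 * y 1 + M i 2 * y 2 := by
  have hd : LinearMap.det (Matrix.toLpLin 2 2 M : E3 →ₗ[ℝ] E3) = M.det := by
    rw [Matrix.toLpLin_eq_toLin]
    exact LinearMap.det_toLin _ _
  refine ⟨(LinearMap.equivOfDetNeZero (Matrix.toLpLin 2 2 M : E3 →ₗ[ℝ] E3)
    (by rw [hd]; exact h)).toContinuousLinearEquiv, hd, fun y i => ?_⟩
  change Matrix.toLpLin 2 2 M y i = _
  simp [Matrix.toLpLin_apply, Matrix.mulVec, dotProduct, Fin.sum_univ_three]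

theorem envA1 {W : E3 → ℂ} {w : E3 → ℝ} {c C a : ℝ} (hW : Wgt W w c C) (ha : 0 < a) :
    ∃ C' : ℝ, 0 < C' ∧ ∀ n m i : ℕ, m ≤ n → ∃ w', Pw (fun ξ => W (Tz n m i (Lm a ξ))) w' ∧
      ∀ (x : ℂ) (t : ℝ), w' (pt x.re x.im t) ≤
        C' * (8 ^ m / 16 ^ n * vw (v1 n m i) (v2 n m i) (x + t • nv (p0 m i))) *
          ((4 ^ n)⁻¹ * dc 2 ((t - x.re) / 4 ^ n)) := by
  have hC := hW.C0
  refine ⟨32 * a ^ 3 * C * ((1 + a⁻¹) ^ 2 * (1 + (4 * a)⁻¹) ^ 2 * (1 + (8 * a)⁻¹) ^ 2),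
    by positivity, fun n m i hm => ?_⟩
  obtain ⟨s, hs, e2m⟩ : ∃ s : ℝ, 0 < s ∧ 2 ^ m = s := ⟨_, by positivity, rfl⟩
  obtain ⟨u, hu, e4d⟩ : ∃ u : ℝ, 0 < u ∧ 4 ^ (n - m) = u := ⟨_, by positivity, rfl⟩
  have e4m : (4 : ℝ) ^ m = s ^ 2 := by
    rw [← e2m, ← pow_mul, mul_comm, pow_mul]; norm_num
  have e8m : (8 : ℝ) ^ m = s ^ 3 := by
    rw [← e2m, ← pow_mul, mul_comm, pow_mul]; norm_num
  have e4n : (4 : ℝ) ^ n = s ^ 2 * u := by
    rw [← e4m, ← e4d, ← pow_add, Nat.add_sub_cancel' hm]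
  have e16 : (16 : ℝ) ^ n = (s ^ 2 * u) ^ 2 := by
    rw [← e4n, ← pow_mul, mul_comm, pow_mul]; norm_num
  obtain ⟨p, hp⟩ : ∃ p, p0 m i = p := ⟨_, rfl⟩
  have ei : (i : ℝ) = s * (p + 2) / 4 := by
    rw [← hp, p0, e2m]
    field_simp
    ring
  have hdet : (!![a / u * ((1 - p ^ 2) / 2), a / u * p, a / u * ((1 + p ^ 2) / 2);
      4 * a / (s * u) * -p, 4 * a / (s * u), 4 * a / (s * u) * p;
      -(8 * a / (s ^ 2 * u)), 0, 8 * a / (s ^ 2 * u)] : Matrix (Fin 3) (Fin 3) ℝ).det =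
      32 * a ^ 3 / (s ^ 3 * u ^ 3) := by
    simp [Matrix.det_fin_three]
    field_simp
    ring
  obtain ⟨B, hB, hBy⟩ := enva_lin _ (hdet ▸ (by positivity : 32 * a ^ 3 / (s ^ 3 * u ^ 3) ≠ 0))
  have b0 : ∀ y, B y 0 = a / u * ((1 - p ^ 2) / 2) * y 0 + a / u * p * y 1 +
      a / u * ((1 + p ^ 2) / 2) * y 2 := fun y => hBy y 0
  have b1 : ∀ y, B y 1 = 4 * a / (s * u) * -p * y 0 + 4 * a / (s * u) * y 1 +
      4 * a / (s * u) * p * y 2 := fun y => hBy y 1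
  have b2 : ∀ y, B y 2 = -(8 * a / (s ^ 2 * u)) * y 0 + 0 * y 1 + 8 * a / (s ^ 2 * u) * y 2 :=
    fun y => hBy y 2
  refine ⟨_, pw_lin hW.pw B (A := fun ξ => Tz n m i (Lm a ξ)) fun y ξ => ?_, fun x t => ?_⟩
  · rw [inner_e3, inner_e3, b0, b1, b2]
    simp only [Tz, Lz, Lm, PiLp.smul_apply, smul_eq_mul, pt_zero, pt_one, pt_two, e2m, e4m, e4d, ei]
    field_simp
    ring
  have c0 : B (pt x.re x.im t) 0 = a * ⟪v1 n m i, x + t • nv (p0 m i)⟫ := by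
    rw [b0, inner_cx]
    simp only [v1, e1, nv, hp, pt_zero, pt_one, pt_two, Complex.smul_re, Complex.smul_im,
      Complex.add_re, Complex.add_im, smul_eq_mul, e4m, e4n]
    field_simp
    ring
  have c1 : B (pt x.re x.im t) 1 = 4 * a * ⟪v2 n m i, x + t • nv (p0 m i)⟫ := by
    rw [b1, inner_cx]
    simp only [v2, e2, nv, hp, pt_zero, pt_one, pt_two, Complex.smul_re, Complex.smul_im,
      Complex.add_re, Complex.add_im, smul_eq_mul, e2m, e4n]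
    field_simp
    ring
  have c2 : B (pt x.re x.im t) 2 = 8 * a * ((t - x.re) / 4 ^ n) := by
    rw [b2]
    simp only [pt_zero, pt_one, pt_two, e4n]
    field_simp
    ring
  have h1 := hW.dec (B (pt x.re x.im t))
  rw [c0, c1, c2] at h1
  have d0 := rad_dc ha ⟪v1 n m i, x + t • nv (p0 m i)⟫
  have d1 := rad_dc (by positivity : 0 < 4 * a) ⟪v2 n m i, x + t • nv (p0 m i)⟫
  have d2 := rad_dc (by positivity : 0 < 8 * a) ((t - x.re) / 4 ^ n)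
  have h2 := mul_le_mul (mul_le_mul d0 d1 (dc_pos _ _).le ((dc_pos _ _).le.trans d0)) d2
    (dc_pos _ _).le (mul_nonneg ((dc_pos _ _).le.trans d0) ((dc_pos _ _).le.trans d1))
  have h3 := mul_le_mul_of_nonneg_left (h1.trans (mul_le_mul_of_nonneg_left h2 hC.le))
    (by positivity : 0 ≤ 32 * a ^ 3 / (s ^ 3 * u ^ 3))
  rw [hB, hdet, abs_of_pos (by positivity)]
  refine h3.trans_eq ?_
  rw [vw, e8m, e16]
  generalize dc 2 ((t - x.re) / 4 ^ n) = D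
  rw [e4n]
  field_simp

end Vale.Agent.P106
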