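import Vale.Agent.P106.EnvA

/-! An envelope is bounded by its mass. -/

open MeasureTheory Set Real Filter Topology
open scoped FourierTransform RealInnerProductSpace ContDiff ENNReal SchwartzMap

noncomputable section

namespace Vale.Agent.P106

open Vale.Agent.P117

theorem envb_one {K : ℝ × ℂ → ℝ≥0∞} (hK : Measurable K) {b R : ℝ} (hb : 2 / 5 ≤ b) (hR : 0 < R)
    {e : ℝ × ℂ → ℝ} (he : Measurable e) :
    ∫⁻ s : ℝ, (∫⁻ q, K q * ENNReal.ofReal (dc 2 (b / R * s + e q))) ^ 2 ≤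
      ENNReal.ofReal (5 * R) * (∫⁻ q, K q) ^ 2 := by
  have hd := (continuous_dc 2).measurable
  have hm : Measurable fun w : ℝ × (ℝ × ℂ) =>
      K w.2 * ENNReal.ofReal (dc 2 (b / R * w.1 + e w.2)) := by fun_prop
  have hb0 : 0 < b / R := div_pos (by linarith) hR
  have h1 : ∀ s : ℝ, ∫⁻ q, K q * ENNReal.ofReal (dc 2 (b / R * s + e q)) ≤ ∫⁻ q, K q := fun s =>
    lintegral_mono fun q => mul_le_of_le_one_right' (ENNReal.ofReal_le_one.2 (dc_le_one _ _))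
  have h2 : ∫⁻ s : ℝ, ∫⁻ q, K q * ENNReal.ofReal (dc 2 (b / R * s + e q)) ≤
      ENNReal.ofReal (5 * R) * ∫⁻ q, K q := by
    rw [lintegral_lintegral_swap hm.aemeasurable, ← lintegral_const_mul _ hK]
    refine lintegral_mono fun q => ?_
    rw [lintegral_const_mul _ (by fun_prop), mul_comm]
    refine mul_le_mul_left ((lintegral_dc_aff le_rfl hb0 _).trans
      (ENNReal.ofReal_le_ofReal ?_)) _
    rw [div_le_iff₀ hb0]
    have : 5 * R * (b / R) = 5 * b := by field_simp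
    linarith
  calc _ ≤ ∫⁻ s : ℝ, (∫⁻ q, K q * ENNReal.ofReal (dc 2 (b / R * s + e q))) * ∫⁻ q, K q :=
        lintegral_mono fun s => by rw [sq]; exact mul_le_mul_right (h1 s) _
    _ = (∫⁻ s : ℝ, ∫⁻ q, K q * ENNReal.ofReal (dc 2 (b / R * s + e q))) * ∫⁻ q, K q :=
        lintegral_mul_const _ hm.lintegral_prod_right'
    _ ≤ _ := by rw [sq, ← mul_assoc]; exact mul_le_mul_left h2 _

theorem envb_abs {K : ℂ × (ℝ × ℂ) → ℝ≥0∞} (hK : Measurable K) {N : ℂ} (hN : 2 / 5 ≤ 1 + N.re)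
    {R : ℝ} (hR : 0 < R) :
    ∫⁻ s : ℝ, ∫⁻ x : ℂ, (∫⁻ q : ℝ × ℂ, K (x + s • N, q) *
        ENNReal.ofReal (dc 2 ((s - q.1 - (x - q.2).re) / R))) ^ 2 ≤
      ENNReal.ofReal (5 * R) * ∫⁻ x, (∫⁻ q, K (x, q)) ^ 2 := by
  have hd := (continuous_dc 2).measurable
  have hm : Measurable fun w : (ℝ × ℂ) × (ℝ × ℂ) => K (w.1.2, w.2) * ENNReal.ofReal
      (dc 2 ((1 + N.re) / R * w.1.1 + (w.2.2.re - w.2.1 - w.1.2.re) / R)) := by fun_prop
  have h1 : ∀ s : ℝ, ∫⁻ x : ℂ, (∫⁻ q : ℝ × ℂ, K (x + s • N, q) *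
      ENNReal.ofReal (dc 2 ((s - q.1 - (x - q.2).re) / R))) ^ 2 =
      ∫⁻ x : ℂ, (∫⁻ q : ℝ × ℂ, K (x, q) * ENNReal.ofReal
        (dc 2 ((1 + N.re) / R * s + (q.2.re - q.1 - x.re) / R))) ^ 2 := fun s => by
    rw [← lintegral_add_right_eq_self (μ := volume) (fun x : ℂ => (∫⁻ q : ℝ × ℂ, K (x, q) *
      ENNReal.ofReal (dc 2 ((1 + N.re) / R * s + (q.2.re - q.1 - x.re) / R))) ^ 2) (s • N)]
    refine lintegral_congr fun x => ?_
    congr 1
    refine lintegral_congr fun q => ?_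
    congr 3
    simp only [Complex.sub_re, Complex.add_re, Complex.smul_re, smul_eq_mul]
    ring
  simp_rw [h1]
  rw [lintegral_lintegral_swap (hm.lintegral_prod_right'.pow_const 2).aemeasurable,
    ← lintegral_const_mul' _ _ ENNReal.ofReal_ne_top]
  exact lintegral_mono fun x => envb_one (K := fun q => K (x, q)) (by fun_prop) hN hR
    (e := fun q => (q.2.re - q.1 - x.re) / R) (by fun_prop)

theorem envb_nv {p : ℝ} (h : |p| ≤ 2) : 2 / 5 ≤ 1 + (nv p).re := by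
  have h1 : p ^ 2 ≤ 4 := by nlinarith [abs_nonneg p, sq_abs p]
  have h2 : 0 < 1 + p ^ 2 := by positivity
  have h3 : 1 + (nv p).re = 2 / (1 + p ^ 2) := by
    simp only [nv]
    field_simp
    ring
  rw [h3]
  gcongr
  linarith

theorem envb_vw (a b : ℂ) : Continuous (vw a b) := by
  have := continuous_dc 2
  unfold vw
  fun_prop

theorem envb_lm {w : E3 → ℝ} (hw : Continuous w) {F : ℕ → E3 → ℂ} (hF : ∀ j, Cc (F j))
    (s : Finset ℕ) : Measurable fun q : E3 × E3 =>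
      ENNReal.ofReal (w (q.1 - q.2)) * ∑ j ∈ s, ‖𝓕⁻ (F j) q.2‖ₑ ^ 2 := by
  have h1 := hw.measurable
  refine Measurable.mul (by fun_prop) (Finset.measurable_sum _ fun j _ => ?_)
  have := (continuous_inv (hF j).ker.int).measurable
  fun_prop

theorem envb_lm' {w : E3 → ℝ} (hw : Continuous w) {F : ℕ → E3 → ℂ} (hF : ∀ j, Cc (F j))
    (s : Finset ℕ) (y : E3) : Measurable fun z : E3 =>
      ENNReal.ofReal (w (y - z)) * ∑ j ∈ s, ‖𝓕⁻ (F j) z‖ₑ ^ 2 := by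
  have h1 := hw.measurable
  refine Measurable.mul (by fun_prop) (Finset.measurable_sum _ fun j _ => ?_)
  have := (continuous_inv (hF j).ker.int).measurable
  fun_prop

theorem envA {W : E3 → ℂ} {w : E3 → ℝ} {c C a : ℝ} (hW : Wgt W w c C) (ha : 0 < a) :
    ∃ C' : ℝ, 0 < C' ∧ ∀ n m i : ℕ, m ≤ n → i < 2 ^ m → ∀ (ρ : ℝ) (h : ℝ → ℂ) (M : ℕ → ℂ → ℂ)
      (G : ℂ → ℂ), 0 < ρ → Sm h → (∀ j, Cc (M j)) → Nice G →
      Q (fun ξ => W (Tz n m i (Lm a ξ))) (blk (n - m) i)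
          (fun j => lf h ρ fun ξ => M j ξ * 𝓕 G ξ) ≤
        ENNReal.ofReal (C' * 4 ^ n) * ∫⁻ x, mu (𝓕⁻ h) ρ M G n m i x ^ 2 := by
  obtain ⟨C', hC, H⟩ := envA1 hW ha
  refine ⟨C' ^ 2 * 5, by positivity, fun n m i hm hi ρ h M G hρ hh hM hG => ?_⟩
  obtain ⟨w', hw, hb⟩ := H n m i hm
  have hU : ∀ j, Cc fun ξ => M j ξ * 𝓕 G ξ := fun j => (hM j).mul_right (continuous_fourier hG.int)
  have hF : ∀ j, Cc (lf h ρ fun ξ => M j ξ * 𝓕 G ξ) := fun j => lf_cc (hU j) hh hρ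
  have hl := envb_lm hw.cont hF (blk (n - m) i)
  set N := nv (p0 m i) with hN
  set K : ℂ × (ℝ × ℂ) → ℝ≥0∞ := fun z => ENNReal.ofReal (4 ^ n)⁻¹ * ‖𝓕⁻ h (z.2.1 / ρ)‖ₑ ^ 2 *
    (ENNReal.ofReal (8 ^ m / 16 ^ n * vw (v1 n m i) (v2 n m i) (z.1 - z.2.2 - z.2.1 • N)) *
      ∑ j ∈ blk (n - m) i, ‖Tw (M j) G z.2‖ₑ ^ 2) with hKd
  have hK : Measurable K := by
    have h1 := (continuous_inv hh.ker.int).measurable
    have h2 := (envb_vw (v1 n m i) (v2 n m i)).measurable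
    refine Measurable.mul (by fun_prop) (Measurable.mul (by fun_prop)
      (Finset.measurable_sum _ fun j _ => ?_))
    have := (Tw_cont (hM j).ker.int hG.int).measurable
    fun_prop
  have hmu : ∀ x, mu (𝓕⁻ h) ρ M G n m i x = ∫⁻ q, K (x, q) := fun x => by
    rw [Measure.volume_eq_prod, lintegral_prod _ (Measurable.aemeasurable (by fun_prop)), mu]
    refine lintegral_congr fun t => ?_
    rw [← lintegral_const_mul' _ _ (by finiteness)]
  have hd := (continuous_dc 2).measurable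
  have key : ∀ (s : ℝ) (x : ℂ), lm w' (blk (n - m) i) (fun j => lf h ρ fun ξ => M j ξ * 𝓕 G ξ)
      (pt x.re x.im s) ≤ ENNReal.ofReal C' * ∫⁻ q : ℝ × ℂ, K (x + s • N, q) *
        ENNReal.ofReal (dc 2 ((s - q.1 - (x - q.2).re) / 4 ^ n)) := fun s x => by
    rw [← lintegral_const_mul' _ _ ENNReal.ofReal_ne_top, Measure.volume_eq_prod,
      lintegral_prod _ (Measurable.aemeasurable (by fun_prop)), lm,
      lint_e3 (envb_lm' hw.cont hF _ _)]
    refine lintegral_mono fun t => lintegral_mono fun y => ?_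
    have h1 := hb (x - y) (s - t)
    have e1 : x - y + (s - t) • N = x + s • N - y - t • N := by rw [sub_smul]; ring
    have e2 : ∑ j ∈ blk (n - m) i, ‖𝓕⁻ (lf h ρ fun ξ => M j ξ * 𝓕 G ξ) (pt y.re y.im t)‖ₑ ^ 2 =
        ‖𝓕⁻ h (t / ρ)‖ₑ ^ 2 * ∑ j ∈ blk (n - m) i, ‖Tw (M j) G (t, y)‖ₑ ^ 2 := by
      rw [Finset.mul_sum]
      refine Finset.sum_congr rfl fun j _ => ?_
      rw [inv_lf (hU j) hh hρ, Tw_eq (hM j).ker.int hG.int, enorm_mul, mul_pow]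
    have hv : 0 ≤ 8 ^ m / 16 ^ n * vw (v1 n m i) (v2 n m i) (x + s • N - y - t • N) :=
      mul_nonneg (by positivity) (mul_pos (dc_pos _ _) (dc_pos _ _)).le
    rw [e1] at h1
    have h2 := ENNReal.ofReal_le_ofReal h1
    rw [ENNReal.ofReal_mul (mul_nonneg hC.le hv), ENNReal.ofReal_mul hC.le,
      ENNReal.ofReal_mul (p := (4 ^ n)⁻¹) (by positivity)] at h2
    simp only [hKd]
    rw [pt_sub, e2]
    refine (mul_le_mul_left h2 _).trans (le_of_eq ?_)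
    ring
  have hl2 : Measurable (lm w' (blk (n - m) i) fun j => lf h ρ fun ξ => M j ξ * 𝓕 G ξ) :=
    hl.lintegral_prod_right'
  rw [Q_phys hw fun j _ => hF j, lint_e3 (hl2.pow_const 2)]
  simp_rw [hmu]
  calc _ ≤ ∫⁻ s : ℝ, ∫⁻ x : ℂ, ENNReal.ofReal C' ^ 2 * (∫⁻ q : ℝ × ℂ, K (x + s • N, q) *
        ENNReal.ofReal (dc 2 ((s - q.1 - (x - q.2).re) / 4 ^ n))) ^ 2 :=
        lintegral_mono fun s => lintegral_mono fun x => by
          rw [← mul_pow]; exact pow_le_pow_left' (key s x) 2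
    _ ≤ ENNReal.ofReal C' ^ 2 * (ENNReal.ofReal (5 * 4 ^ n) * ∫⁻ x, (∫⁻ q, K (x, q)) ^ 2) := by
        simp_rw [lintegral_const_mul' _ _ (ENNReal.pow_ne_top ENNReal.ofReal_ne_top)]
        exact mul_le_mul_right (envb_abs hK (envb_nv (abs_p0 hi)) (by positivity)) _
    _ = _ := by
        rw [← mul_assoc, ← ENNReal.ofReal_pow hC.le, ← ENNReal.ofReal_mul (by positivity),
          mul_assoc (C' ^ 2)]

end Vale.Agent.P106
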