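import Vale.Agent.P106.Stmt
import Vale.Agent.P106.Cr
import Vale.Agent.P117.StmtB

/-!
The normalisation of the statement. `hat_eq`: `Real.fourier_eq'`, `inner_smul_right`, `real_inner_comm`. `U_eq`, `J_eq`: substitute `ξ = (2 π) • η` (`Measure.integral_comp_smul`, `finrank_euclideanSpace_fin`), `inv_eq`.
`eLp_U`: `Measure.volume_eq_prod`, `Measure.prod_restrict`, `Measure.restrict_univ`, `Measure.prod_swap`, `eLpNorm_map_measurableEquiv`-type lemma for `MeasurableEquiv.prodComm`.
-/

open MeasureTheory Set Real Filter Topology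
open scoped FourierTransform RealInnerProductSpace ContDiff ENNReal SchwartzMap

noncomputable section

namespace Vale.Agent.P106

open Vale.Agent.P117

theorem hat_eq (f : E3 → ℂ) (η : E3) : St.hat f ((2 * π) • η) = 𝓕 f η := by
  unfold St.hat
  rw [Real.fourier_eq']
  refine integral_congr_ae (Eventually.of_forall fun x => ?_)
  simp only [smul_eq_mul, inner_smul_right]
  congr 2
  push_cast
  ring

theorem glue_scale (g : E3 → ℂ) :
    ((((2 * π) ^ 3)⁻¹ : ℝ) : ℂ) * ∫ ξ, g ξ = ∫ η, g ((2 * π) • η) := by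
  rw [Measure.integral_comp_smul, finrank_euclideanSpace_fin, abs_of_pos (by positivity),
    Complex.real_smul]

theorem U_eq (f : E3 → ℂ) (x : E3) (t : ℝ) : St.U f (x, t) = Uw f (t, x) := by
  unfold St.U Uw
  rw [glue_scale, inv_eq]
  refine integral_congr_ae (Eventually.of_forall fun η => ?_)
  simp only [hat_eq, wv, ← mul_assoc, ← ex_add]
  congr 1
  unfold ex
  rw [inner_smul_right, norm_smul, Real.norm_of_nonneg (by positivity), real_inner_comm]
  congr 2
  push_cast
  ring

theorem J_eq (α : ℝ) (f : E3 → ℂ) : St.J α f = Jw α f := by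
  funext x
  unfold St.J Jw
  rw [glue_scale, inv_eq]
  refine integral_congr_ae (Eventually.of_forall fun η => ?_)
  simp only [hat_eq, jb]
  rw [inner_smul_right, norm_smul, Real.norm_of_nonneg (by positivity), real_inner_comm]
  have e : 1 + (2 * π * ‖η‖) ^ 2 = 1 + 4 * π ^ 2 * ‖η‖ ^ 2 := by ring
  rw [e]
  rfl

theorem eLp_U (f : E3 → ℂ) (p : ℝ≥0∞) :
    eLpNorm (St.U f) p (volume.restrict (univ ×ˢ Icc (1 : ℝ) 2)) = eLpNorm (Uw f) p (tm E3 1 2) := by
  have e : St.U f = Uw f ∘ (MeasurableEquiv.prodComm : E3 × ℝ ≃ᵐ ℝ × E3) :=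
    funext fun q => U_eq f q.1 q.2
  rw [e, ← (MeasurableEquiv.measurableEmbedding _).eLpNorm_map_measure, Measure.volume_eq_prod, ← Measure.prod_restrict,
    Measure.restrict_univ]
  exact congrArg (fun μ => eLpNorm (Uw f) p μ) Measure.prod_swap

end Vale.Agent.P106
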