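import Vale.Agent.P106.KakG
import Vale.Agent.P106.Qp

/-!
The Kakeya type lemma. `kak_pt`: call `(m, i)` good if `‖Tz n m i ξ‖ ≤ 240`, and first if it is good and no `(m', i / 2 ^ (m - m'))` with `m' < m` is good. For `j` with `H j ≠ 0`
(`good_top`, `Nat.find`) exactly one `m ≤ n` makes `(m, j / 2 ^ (n - m))` first, so `∑ j, H j = ∑ m, ∑ i ∈ S m, ∑ j ∈ blk (n - m) i, H j`, where `S m` is the set of the first `i < 2 ^ m`
whose block contains a `j` with `H j ≠ 0` (every `j` of a first block has the same first level). `kak_count` gives `(S m).card ≤ 4`; Cauchy-Schwarz (`sq_sum_le_card_mul_sum_sq`) twice; `hW.lo`.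
`kak`: apply it with `H j = cr (F j) (F j) ξ` (`cr_supp`, `th_diff`), `lintegral_finset_sum` (the integrands are continuous: `Cc.cr`, `Pw.contW`, `exists_Lz`).
-/

open MeasureTheory Set Real Filter Topology
open scoped FourierTransform RealInnerProductSpace ContDiff ENNReal SchwartzMap

noncomputable section

namespace Vale.Agent.P106

open Vale.Agent.P117

variable {W : E3 → ℂ} {w : E3 → ℝ} {c C : ℝ}

/-- first good pairs -/
def kakFi (n : ℕ) (ξ : E3) (m i : ℕ) : Prop :=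
  ‖Tz n m i ξ‖ ≤ 240 ∧ ∀ m' < m, 240 < ‖Tz n m' (i / 2 ^ (m - m')) ξ‖

open Classical in
theorem kak_one {n j : ℕ} {ξ : E3} {z : ℂ} (h : z ≠ 0 → Df n j ξ) :
    ∑ m ∈ Finset.range (n + 1), (if kakFi n ξ m (j / 2 ^ (n - m)) then z else 0) = z := by
  rcases eq_or_ne z 0 with rfl | hz
  · simp
  have h1 : ∃ m, ‖Tz n m (j / 2 ^ (n - m)) ξ‖ ≤ 240 := ⟨n, by simpa using good_top (h hz)⟩
  have h2 : Nat.find h1 ≤ n := Nat.find_min' h1 (by simpa using good_top (h hz))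
  have h3 : ∀ m ≤ n, ∀ m' < m, j / 2 ^ (n - m) / 2 ^ (m - m') = j / 2 ^ (n - m') :=
    fun m hm m' hm' => by
      rw [Nat.div_div_eq_div_mul, ← pow_add, show n - m + (m - m') = n - m' by omega]
  refine (Finset.sum_eq_single (Nat.find h1) (fun m hm hne => if_neg fun hf => hne ?_)
    (fun hm => absurd (Finset.mem_range.2 (by omega)) hm)).trans
      (if_pos ⟨Nat.find_spec h1, fun m' hm' => ?_⟩)
  · refine ((Nat.find_eq_iff h1).2 ⟨hf.1, fun m' hm' => not_le.2 ?_⟩).symm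
    rw [← h3 m (Nat.lt_succ_iff.1 (Finset.mem_range.1 hm)) _ hm']
    exact hf.2 _ hm'
  · rw [h3 _ h2 _ hm']
    exact not_le.1 (Nat.find_min h1 hm')

theorem kak_pt (hW : Wgt W w c C) (n : ℕ) (ξ : E3) (H : ℕ → ℂ)
    (hH : ∀ j < 2 ^ n, H j ≠ 0 → Df n j ξ) :
    ‖∑ j ∈ Finset.range (2 ^ n), H j‖ ^ 2 ≤ 4 * (n + 1) / c ^ 2 *
      ∑ m ∈ Finset.range (n + 1), ∑ i ∈ Finset.range (2 ^ m),
        ‖W (Tz n m i ξ) * ∑ j ∈ blk (n - m) i, H j‖ ^ 2 := by
  classical
  obtain ⟨S, hS⟩ : ∃ S : ℕ → Finset ℕ, ∀ m, S m = (Finset.range (2 ^ m)).filter fun i =>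
    kakFi n ξ m i ∧ ∑ j ∈ blk (n - m) i, H j ≠ 0 := ⟨_, fun _ => rfl⟩
  have h1 : ∑ j ∈ Finset.range (2 ^ n), H j =
      ∑ m ∈ Finset.range (n + 1), ∑ i ∈ S m, ∑ j ∈ blk (n - m) i, H j := by
    rw [← Finset.sum_congr rfl fun j hj => kak_one (hH j (Finset.mem_range.1 hj)), Finset.sum_comm]
    refine Finset.sum_congr rfl fun m hm => ?_
    have h2 : n = m + (n - m) := by have := Finset.mem_range.1 hm; omega
    rw [← blk_zero, hS, Finset.sum_filter, ← blk_zero]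
    conv_lhs => enter [1]; rw [h2]
    rw [← sum_blk]
    refine Finset.sum_congr rfl fun i _ => ?_
    rw [Finset.sum_congr rfl fun j hj => by rw [mem_blk.1 hj]]
    by_cases h3 : kakFi n ξ m i
    · simp only [h3, if_true, true_and, ite_not]
      split_ifs with h4
      exacts [h4, rfl]
    · simp [h3]
  have h2 : ∀ m ∈ Finset.range (n + 1), c ^ 2 * ‖∑ i ∈ S m, ∑ j ∈ blk (n - m) i, H j‖ ^ 2 ≤
      4 * ∑ i ∈ Finset.range (2 ^ m), ‖W (Tz n m i ξ) * ∑ j ∈ blk (n - m) i, H j‖ ^ 2 :=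
    fun m hm => by
    have h3 : m ≤ n := Nat.lt_succ_iff.1 (Finset.mem_range.1 hm)
    have h4 : ((S m).card : ℝ) ≤ 4 := by
      exact_mod_cast kak_count h3 ξ (S m) fun i hi => by
        obtain ⟨h5, h6, h7⟩ := Finset.mem_filter.1 (hS m ▸ hi)
        obtain ⟨j, hj, h8⟩ := Finset.exists_ne_zero_of_sum_ne_zero h7
        have h9 := blk_lt (Finset.mem_range.1 h5) hj
        rw [Nat.add_sub_cancel' h3] at h9
        exact ⟨Finset.mem_range.1 h5, ⟨j, hj, hH j h9 h8⟩, fun m' h => by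
          simpa [h] using h6.2 m' (by omega)⟩
    have h5 : c ^ 2 * ∑ i ∈ S m, ‖∑ j ∈ blk (n - m) i, H j‖ ^ 2 ≤
        ∑ i ∈ Finset.range (2 ^ m), ‖W (Tz n m i ξ) * ∑ j ∈ blk (n - m) i, H j‖ ^ 2 := by
      rw [Finset.mul_sum]
      refine (Finset.sum_le_sum fun i hi => ?_).trans (Finset.sum_le_sum_of_subset_of_nonneg
        (hS m ▸ Finset.filter_subset _ _) fun _ _ _ => sq_nonneg _)
      rw [norm_mul, mul_pow]
      exact mul_le_mul_of_nonneg_right (pow_le_pow_left₀ hW.c0.le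
        (hW.lo _ (Finset.mem_filter.1 (hS m ▸ hi)).2.1.1) 2) (sq_nonneg _)
    have h6 := (pow_le_pow_left₀ (norm_nonneg _) (norm_sum_le (S m) fun i =>
      ∑ j ∈ blk (n - m) i, H j) 2).trans (sq_sum_le_card_mul_sum_sq.trans
        (mul_le_mul_of_nonneg_right h4 (Finset.sum_nonneg fun _ _ => sq_nonneg _)))
    have h7 := mul_le_mul_of_nonneg_left h6 (sq_nonneg c)
    linarith
  have h3 := Finset.sum_le_sum h2
  have h4 := (pow_le_pow_left₀ (norm_nonneg _) (norm_sum_le (Finset.range (n + 1)) fun m =>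
    ∑ i ∈ S m, ∑ j ∈ blk (n - m) i, H j) 2).trans sq_sum_le_card_mul_sum_sq
  rw [← Finset.mul_sum, ← Finset.mul_sum] at h3
  rw [Finset.card_range, Nat.cast_succ] at h4
  rw [h1, div_mul_eq_mul_div, le_div_iff₀ (pow_pos hW.c0 2)]
  have h5 := mul_le_mul_of_nonneg_left h4 (sq_nonneg c)
  have h6 := mul_le_mul_of_nonneg_left h3 (by positivity : (0 : ℝ) ≤ n + 1)
  linarith

theorem kak (hW : Wgt W w c C) {κ n : ℕ} {F : ℕ → E3 → ℂ} (hF : Fam κ n F) :
    Q (fun _ => 1) (Finset.range (2 ^ n)) F ≤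
      ENNReal.ofReal (4 * (n + 1) / c ^ 2) * Env W n F := by
  have h1 : ∀ m ∈ Finset.range (n + 1), ∀ i ∈ Finset.range (2 ^ m), Measurable fun ξ =>
      ‖W (Tz n m i ξ) * ∑ j ∈ blk (n - m) i, cr (F j) (F j) ξ‖ₑ ^ 2 := fun m hm i hi => by
    obtain ⟨A, hA⟩ := exists_Lz m i
    refine (Continuous.measurable (.mul (hW.pw.contW.comp (f := fun ξ => Tz n m i ξ) ?_)
      (continuous_finsetSum _ fun j hj => ?_))).enorm.pow_const _
    · simp only [Tz, ← hA]
      fun_prop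
    · have h2 := blk_lt (Finset.mem_range.1 hi) hj
      rw [Nat.add_sub_cancel' (Nat.lt_succ_iff.1 (Finset.mem_range.1 hm))] at h2
      exact ((hF.cc h2).cr (hF.cc h2)).cont
  simp only [Env, Q, Np_two, one_mul]
  rw [← Finset.sum_congr rfl fun m hm => lintegral_finsetSum _ (h1 m hm),
    ← lintegral_finsetSum _ fun m hm => Finset.measurable_sum _ (h1 m hm),
    ← lintegral_const_mul' _ _ ENNReal.ofReal_ne_top]
  refine lintegral_mono fun ξ => ?_
  have h2 := ENNReal.ofReal_le_ofReal (kak_pt hW n ξ (fun j => cr (F j) (F j) ξ) fun j hj h => by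
    obtain ⟨a, b, ha, hb, rfl⟩ := cr_supp h
    exact th_diff (by_contra fun h => ha ((hF j hj).2 a h)) (by_contra fun h => hb ((hF j hj).2 b h)))
  rw [ENNReal.ofReal_mul (by positivity), ENNReal.ofReal_sum_of_nonneg fun _ _ =>
    Finset.sum_nonneg fun _ _ => sq_nonneg _] at h2
  simpa only [ENNReal.ofReal_sum_of_nonneg fun _ _ => sq_nonneg _,
    ENNReal.ofReal_pow (norm_nonneg _), ofReal_norm] using h2

end Vale.Agent.P106
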