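import Vale.Agent.P106.Th
import Vale.Agent.P106.Lin

/-!
Local orthogonality. `th_near`: with `ε = 2 ^ n b - j a`, `ε' = 2 ^ n b' - j' a'`: `(j - j') a = 2 ^ n (b - b') - ε + ε' - j' (a - a')`, and `|a - a'|, |b - b'| ≤ 500 / 4 ^ k ≤ 500 / 2 ^ n`.
`loc_pt`: with `u j = 𝓕⁻ (F j)` the left side is `ofReal` of `∑ j, ∑ j', re ∫ w (y - z) * (u j z * conj (u j' z))` (`inv_sum`, `inv_mul_int`; `w` is integrable and `u j` is bounded, `norm_inv_le`);
each integral is `𝓕⁻ (W * cr (F j) (F j')) y` (`inv_W`, `inv_cr`), zero if `1004 < |j - j'|`, and at most `(I j + I j') / 2` with `I j = ∫ w (y - z) ‖u j z‖²`; at most `2009` indices `j'` are near `j`.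
`loc`: `pw_smul`, `Q_phys` twice, `loc_pt` in every block, `sum_blk` with `blk_zero`, `Q_le`.
-/

open MeasureTheory Set Real Filter Topology
open scoped FourierTransform RealInnerProductSpace ContDiff ENNReal SchwartzMap

noncomputable section

namespace Vale.Agent.P106

open Vale.Agent.P117

variable {W : E3 → ℂ} {w : E3 → ℝ} {c C : ℝ}

theorem th_near {κ n k j j' : ℕ} {a b : E3} (hn : n ≤ 2 * k) (hj' : j' < 2 ^ n)
    (ha : a ∈ th κ n j) (hb : b ∈ th κ n j') (h : ‖(4 : ℝ) ^ k • (a - b)‖ ≤ 500) :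
    |(j : ℝ) - j'| ≤ 1004 := by
  obtain ⟨a1, -, a3, -⟩ := ha
  obtain ⟨-, -, b3, -⟩ := hb
  have hN : (0 : ℝ) < 2 ^ n := by positivity
  have h4 : (2 : ℝ) ^ n ≤ 4 ^ k := by
    rw [show (4 : ℝ) = 2 ^ 2 by norm_num, ← pow_mul]
    exact pow_le_pow_right₀ one_le_two hn
  have hi : ∀ i, 2 ^ n * |a i - b i| ≤ 500 := fun i => by
    have h1 : |a i - b i| ≤ ‖a - b‖ := by
      have h2 := PiLp.norm_apply_le (a - b) i
      rwa [PiLp.sub_apply, Real.norm_eq_abs] at h2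
    rw [norm_smul, Real.norm_of_nonneg (by positivity)] at h
    exact (mul_le_mul h4 h1 (abs_nonneg _) (by positivity)).trans h
  have hj : (j' : ℝ) ≤ 2 ^ n := by exact_mod_cast hj'.le
  have h1 : |2 ^ n * (a 1 - b 1)| ≤ 500 := by
    rw [abs_mul, abs_of_pos hN]
    exact hi 1
  have h2 : |j' * (a 0 - b 0)| ≤ 500 := by
    rw [abs_mul, Nat.abs_cast]
    exact (mul_le_mul_of_nonneg_right hj (abs_nonneg _)).trans (hi 0)
  have h3 : |((j : ℝ) - j') * a 0| ≤ 1004 := by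
    rw [abs_le] at *
    constructor <;> linarith [h1.1, h1.2, h2.1, h2.2, a3.1, a3.2, b3.1, b3.2]
  rw [abs_mul, abs_of_pos (one_pos.trans_le a1)] at h3
  exact (le_mul_of_one_le_right (abs_nonneg _) a1).trans h3

theorem loc_card (s : Finset ℕ) (j : ℕ) {x : ℝ} (hx : 0 ≤ x) :
    ∑ j' ∈ s, (if |(j : ℝ) - j'| ≤ 1004 then x else 0) ≤ 2009 * x := by
  rw [← Finset.sum_filter, Finset.sum_const, nsmul_eq_mul]
  refine mul_le_mul_of_nonneg_right ?_ hx
  have h : (s.filter fun j' : ℕ => |(j : ℝ) - j'| ≤ 1004) ⊆ Finset.Icc (j - 1004) (j + 1004) := by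
    intro j' hj'
    have h1 := abs_le.1 (Finset.mem_filter.1 hj').2
    have h2 : j ≤ j' + 1004 := by
      have : (j : ℝ) ≤ j' + 1004 := by linarith [h1.2]
      exact_mod_cast this
    have h3 : j' ≤ j + 1004 := by
      have : (j' : ℝ) ≤ j + 1004 := by linarith [h1.1]
      exact_mod_cast this
    rw [Finset.mem_Icc]
    omega
  have h2 := Finset.card_le_card h
  rw [Nat.card_Icc] at h2
  have h3 : (s.filter fun j' : ℕ => |(j : ℝ) - j'| ≤ 1004).card ≤ 2009 := by omega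
  exact_mod_cast h3

theorem loc_abs {X : Type} [MeasurableSpace X] {μ : Measure X} {v : X → ℝ} (hv : ∀ z, 0 ≤ v z)
    (s : Finset ℕ) {u : ℕ → X → ℂ}
    (hi : ∀ j ∈ s, ∀ j' ∈ s, Integrable (fun z => (v z : ℂ) * (u j z * (starRingEnd ℂ) (u j' z))) μ)
    (h0 : ∀ j ∈ s, ∀ j' ∈ s, 1004 < |(j : ℝ) - j'| →
      ∫ z, (v z : ℂ) * (u j z * (starRingEnd ℂ) (u j' z)) ∂μ = 0) :
    ∫⁻ z, ENNReal.ofReal (v z) * ‖∑ j ∈ s, u j z‖ₑ ^ 2 ∂μ ≤
      2009 * ∫⁻ z, ENNReal.ofReal (v z) * ∑ j ∈ s, ‖u j z‖ₑ ^ 2 ∂μ := by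
  have hn : ∀ z (a b : ℂ), ‖(v z : ℂ) * (a * (starRingEnd ℂ) b)‖ = v z * (‖a‖ * ‖b‖) :=
    fun z a b => by rw [norm_mul, norm_mul, Complex.norm_conj, Complex.norm_of_nonneg (hv z)]
  have he : ∀ z (a : ℂ), ENNReal.ofReal (v z) * ‖a‖ₑ ^ 2 = ENNReal.ofReal (v z * ‖a‖ ^ 2) :=
    fun z a => by
      rw [ENNReal.ofReal_mul (hv z), ENNReal.ofReal_pow (norm_nonneg _), ofReal_norm]
  have hr : ∀ j ∈ s, Integrable (fun z => v z * ‖u j z‖ ^ 2) μ := fun j hj => by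
    simpa only [hn, sq] using (hi j hj j hj).norm
  have hs : ∀ z, ((v z * ‖∑ j ∈ s, u j z‖ ^ 2 : ℝ) : ℂ) =
      ∑ j ∈ s, ∑ j' ∈ s, (v z : ℂ) * (u j z * (starRingEnd ℂ) (u j' z)) := fun z => by
    rw [Complex.ofReal_mul, Complex.ofReal_pow, ← Complex.mul_conj', map_sum, Finset.sum_mul_sum,
      Finset.mul_sum]
    simp only [Finset.mul_sum]
  have hi2 : Integrable (fun z => ∑ j ∈ s, ∑ j' ∈ s,
      (v z : ℂ) * (u j z * (starRingEnd ℂ) (u j' z))) μ :=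
    integrable_finsetSum _ fun j hj => integrable_finsetSum _ fun j' hj' => hi j hj j' hj'
  have hi3 : Integrable (fun z => v z * ‖∑ j ∈ s, u j z‖ ^ 2) μ := by
    have h1 := hi2.re
    simp only [← hs, RCLike.re_to_complex, Complex.ofReal_re] at h1
    exact h1
  obtain ⟨I, hI⟩ : ∃ I : ℕ → ℝ, ∀ j, I j = ∫ z, v z * ‖u j z‖ ^ 2 ∂μ := ⟨_, fun _ => rfl⟩
  have hI0 : ∀ j, 0 ≤ I j := fun j => by
    rw [hI]
    exact integral_nonneg fun z => mul_nonneg (hv z) (sq_nonneg _)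
  have hP : ∀ j ∈ s, ∀ j' ∈ s, ‖∫ z, (v z : ℂ) * (u j z * (starRingEnd ℂ) (u j' z)) ∂μ‖ ≤
      (if |(j : ℝ) - j'| ≤ 1004 then I j / 2 else 0) +
        if |(j' : ℝ) - j| ≤ 1004 then I j' / 2 else 0 := fun j hj j' hj' => by
    rw [abs_sub_comm (j' : ℝ)]
    split_ifs with h
    · refine (norm_integral_le_of_norm_le (((hr j hj).div_const 2).add ((hr j' hj').div_const 2))
        (Eventually.of_forall fun z => ?_)).trans_eq ?_
      · rw [hn, Pi.add_apply]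
        nlinarith [mul_nonneg (hv z) (sq_nonneg (‖u j z‖ - ‖u j' z‖))]
      · rw [integral_add' ((hr j hj).div_const 2) ((hr j' hj').div_const 2), integral_div,
          integral_div, hI, hI]
    · rw [h0 j hj j' hj' (not_le.1 h), norm_zero, add_zero]
  have key : ∫ z, v z * ‖∑ j ∈ s, u j z‖ ^ 2 ∂μ ≤ 2009 * ∑ j ∈ s, I j := by
    have h1 : ((∫ z, v z * ‖∑ j ∈ s, u j z‖ ^ 2 ∂μ : ℝ) : ℂ) =
        ∑ j ∈ s, ∑ j' ∈ s, ∫ z, (v z : ℂ) * (u j z * (starRingEnd ℂ) (u j' z)) ∂μ := by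
      rw [← integral_complex_ofReal]
      simp only [hs]
      rw [integral_finsetSum _ fun j hj => integrable_finsetSum _ fun j' hj' => hi j hj j' hj']
      exact Finset.sum_congr rfl fun j hj => integral_finsetSum _ fun j' hj' => hi j hj j' hj'
    refine (le_abs_self _).trans ?_
    rw [← Real.norm_eq_abs, ← Complex.norm_real, h1]
    refine (norm_sum_le_of_le _ fun j hj => norm_sum_le_of_le _ fun j' hj' =>
      hP j hj j' hj').trans ?_
    simp only [Finset.sum_add_distrib]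
    rw [Finset.sum_comm (f := fun j j' : ℕ => if |(j' : ℝ) - j| ≤ 1004 then I j' / 2 else 0)]
    have h2 : ∑ j ∈ s, ∑ j' ∈ s, (if |(j : ℝ) - j'| ≤ 1004 then I j / 2 else 0) ≤
        ∑ j ∈ s, 2009 * (I j / 2) :=
      Finset.sum_le_sum fun j _ => loc_card s j (div_nonneg (hI0 j) zero_le_two)
    rw [← Finset.mul_sum, ← Finset.sum_div] at h2
    linarith
  have e1 : ∫⁻ z, ENNReal.ofReal (v z) * ‖∑ j ∈ s, u j z‖ₑ ^ 2 ∂μ =
      ENNReal.ofReal (∫ z, v z * ‖∑ j ∈ s, u j z‖ ^ 2 ∂μ) := by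
    rw [ofReal_integral_eq_lintegral_ofReal hi3
      (Eventually.of_forall fun z => mul_nonneg (hv z) (sq_nonneg _))]
    simp only [he]
  have e2 : ∫⁻ z, ENNReal.ofReal (v z) * ∑ j ∈ s, ‖u j z‖ₑ ^ 2 ∂μ =
      ENNReal.ofReal (∑ j ∈ s, I j) := by
    simp only [hI]
    rw [← integral_finsetSum _ hr, ofReal_integral_eq_lintegral_ofReal (integrable_finsetSum _ hr)
      (Eventually.of_forall fun z =>
        Finset.sum_nonneg fun j _ => mul_nonneg (hv z) (sq_nonneg _))]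
    refine lintegral_congr fun z => ?_
    rw [Finset.mul_sum, ENNReal.ofReal_sum_of_nonneg fun j _ => mul_nonneg (hv z) (sq_nonneg _)]
    simp only [he]
  rw [e1, e2, ← ENNReal.ofReal_ofNat 2009, ← ENNReal.ofReal_mul (by norm_num)]
  exact ENNReal.ofReal_le_ofReal key

theorem loc_pt (h : Pw W w) (s : Finset ℕ) {F : ℕ → E3 → ℂ} (hF : ∀ j ∈ s, Cc (F j))
    (h0 : ∀ j ∈ s, ∀ j' ∈ s, 1004 < |(j : ℝ) - j'| → ∀ ξ, W ξ * cr (F j) (F j') ξ = 0) (y : E3) :
    ∫⁻ z, ENNReal.ofReal (w (y - z)) * ‖𝓕⁻ (fun ξ => ∑ j ∈ s, F j ξ) z‖ₑ ^ 2 ≤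
      2009 * lm w s F y := by
  have hk : ∀ j ∈ s, Integrable (F j) := fun j hj => (hF j hj).ker.int
  simp only [inv_sum s hk]
  refine loc_abs (fun z => h.nn (y - z)) s (fun j hj j' hj' => ?_) fun j hj j' hj' hd => ?_
  · refine (h.int.comp_sub_left y).ofReal.mul_bdd
      (c := (∫ x, ‖F j x‖) * ∫ x, ‖F j' x‖) ((continuous_inv (hk j hj)).mul
        (Complex.continuous_conj.comp (continuous_inv (hk j' hj')))).aestronglyMeasurable
      (Eventually.of_forall fun z => ?_)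
    rw [norm_mul, Complex.norm_conj]
    exact mul_le_mul (norm_inv_le _ _) (norm_inv_le _ _) (norm_nonneg _)
      (integral_nonneg fun _ => norm_nonneg _)
  · have h1 := inv_W h ((hF j hj).cr (hF j' hj')).ker.int y
    simp only [inv_cr (hF j hj) (hF j' hj'), h0 j hj j' hj' hd] at h1
    rw [← h1, inv_eq]
    simp

theorem loc (hW : Wgt W w c C) {κ k n : ℕ} (hk : k ≤ n) (hn : n ≤ 2 * k) {F : ℕ → E3 → ℂ}
    (hF : Fam κ n F) : AA W k n F ≤ 2009 ^ 2 * Q (fun _ => 1) (Finset.range (2 ^ n)) F := by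
  obtain ⟨d, rfl⟩ := Nat.exists_eq_add_of_le hk
  obtain ⟨w', hw'⟩ := pw_smul hW.pw (r := (4 : ℝ) ^ k) (by positivity)
  have hc : ∀ j ∈ Finset.range (2 ^ (k + d)), Cc (F j) := fun j hj =>
    hF.cc (Finset.mem_range.1 hj)
  have hm : ∀ j ∈ Finset.range (2 ^ (k + d)), ∀ y, Measurable fun z =>
      ENNReal.ofReal (w' (y - z)) * ‖𝓕⁻ (F j) z‖ₑ ^ 2 := fun j hj y =>
    (hw'.cont.comp (continuous_const.sub continuous_id)).measurable.ennreal_ofReal.mul
      ((continuous_inv (hc j hj).ker.int).measurable.enorm.pow_const 2)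
  have hlm : ∀ s ⊆ Finset.range (2 ^ (k + d)), ∀ y, lm w' s F y =
      ∑ j ∈ s, ∫⁻ z, ENNReal.ofReal (w' (y - z)) * ‖𝓕⁻ (F j) z‖ₑ ^ 2 := fun s hs y => by
    simp only [lm, Finset.mul_sum]
    exact lintegral_finsetSum _ fun j hj => hm j (hs hj) y
  have hb : ∀ i ∈ Finset.range (2 ^ k), blk d i ⊆ Finset.range (2 ^ (k + d)) := fun i hi j hj =>
    Finset.mem_range.2 (blk_lt (Finset.mem_range.1 hi) hj)
  have hp : ∀ i ∈ Finset.range (2 ^ k), Cc (par d F i) := fun i hi =>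
    hF.par.cc (Finset.mem_range.1 hi)
  have key : ∀ y, lm w' (Finset.range (2 ^ k)) (par d F) y ≤
      2009 * lm w' (Finset.range (2 ^ (k + d))) F y := fun y => by
    have h1 : lm w' (Finset.range (2 ^ k)) (par d F) y = ∑ i ∈ Finset.range (2 ^ k),
        ∫⁻ z, ENNReal.ofReal (w' (y - z)) * ‖𝓕⁻ (par d F i) z‖ₑ ^ 2 := by
      simp only [lm, Finset.mul_sum]
      exact lintegral_finsetSum _ fun i hi =>
        (hw'.cont.comp (continuous_const.sub continuous_id)).measurable.ennreal_ofReal.mul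
          ((continuous_inv (hp i hi).ker.int).measurable.enorm.pow_const 2)
    rw [h1, hlm _ subset_rfl, ← blk_zero (k + d), ← sum_blk, blk_zero, Finset.mul_sum]
    refine Finset.sum_le_sum fun i hi => ?_
    rw [← hlm _ (hb i hi)]
    refine loc_pt hw' _ (fun j hj => hc j (hb i hi hj)) (fun j hj j' hj' hd ξ => ?_) y
    by_contra h0
    obtain ⟨a, b, ha, hb', rfl⟩ := cr_supp (right_ne_zero_of_mul h0)
    have hj1 := Finset.mem_range.1 (hb i hi hj)
    have hj2 := Finset.mem_range.1 (hb i hi hj')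
    refine absurd (th_near hn hj2 (by_contra fun h => ha ((hF j hj1).2 a h))
      (by_contra fun h => hb' ((hF j' hj2).2 b h)) (le_of_not_gt fun h => ?_)) (not_le.2 hd)
    exact left_ne_zero_of_mul h0 (hW.van _ h)
  rw [AA, Nat.add_sub_cancel_left, Q_phys hw' hp]
  refine le_trans ?_ (mul_le_mul_right (Q_le (fun ξ => hW.hi ((4 : ℝ) ^ k • ξ)) _ F) _)
  rw [Q_phys hw' hc, ← lintegral_const_mul' _ _ (by simp)]
  refine lintegral_mono fun y => ?_
  rw [← mul_pow]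
  exact pow_le_pow_left' (key y) 2

end Vale.Agent.P106
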