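import Vale.Agent.P106.Th
import Vale.Agent.P106.Lin

/-!
Lorentz rescaling. Write the levels as `m`, `m + a`, `m + a + b`. `resc`: `A` from `exists_Lz m i`, `F' j ξ = F (i * 2 ^ (a + b) + j) (A.symm ξ)` is `Fam κ (a + b)` (`th_Lz`). With `c` from `Q_comp A`:
the left side is `c * AA W a (a + b) F'` (`sum_blk_shift`, `blk_zero`; `par b F (i * 2 ^ a + l) = par b F' l ∘ A`), and every term on the right is `c` times the term `(m', i')` of
`Env W (a + b) F'` (`Lz_comp`, `sum_blk_shift`). `comp`: `par_par`, `Fam.par`, `resc` in every term of `Env W k₂ (par (k₃ - k₂) F)`; for fixed `m` the sum over `i < 2 ^ m`, `m'`, `i' < 2 ^ m'` is a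
part of `Env W k₃ F` (swap the sums; `sum_blk_shift` with `d = m'`, or `sum_blk`; `Finset.sum_le_sum_of_subset`).
-/

open MeasureTheory Set Real Filter Topology
open scoped FourierTransform RealInnerProductSpace ContDiff ENNReal SchwartzMap

noncomputable section

namespace Vale.Agent.P106

open Vale.Agent.P117

variable {W : E3 → ℂ} {κ : ℕ} {S S₁ S₂ : ℝ}

theorem resc_shift (W : E3 → ℂ) (d m i l : ℕ) (G : ℕ → E3 → ℂ) :
    Q W (blk d l) (fun j => G (i * 2 ^ (m + d) + j)) = Q W (blk d (i * 2 ^ m + l)) G := by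
  unfold Q
  congr 1
  funext ξ
  rw [sum_blk_shift d m i l fun j => cr (G j) (G j) ξ]

theorem resc {m a b i : ℕ} (hi : i < 2 ^ m) (h : PP W κ a (a + b) S) {F : ℕ → E3 → ℂ}
    (hF : Fam κ (m + a + b) F) :
    Q (fun ξ => W (Tz (m + a) m i ξ)) (blk a i) (par b F) ≤ ENNReal.ofReal S *
      ∑ m' ∈ Finset.range (a + b + 1), ∑ i' ∈ Finset.range (2 ^ m'),
        Q (fun ξ => W (Tz (m + a + b) (m + m') (i * 2 ^ m' + i') ξ))
          (blk (a + b - m') (i * 2 ^ m' + i')) F := by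
  obtain ⟨A, hA⟩ := exists_Lz m i
  obtain ⟨c, hc, hQ⟩ := Q_comp A
  set F' : ℕ → E3 → ℂ := fun j ξ => F (i * 2 ^ (a + b) + j) (A.symm ξ) with hF'
  have hFam : Fam κ (a + b) F' := by
    intro j hj
    have h1 : i * 2 ^ (a + b) + j < 2 ^ (m + a + b) := by
      have h2 : (i + 1) * 2 ^ (a + b) ≤ 2 ^ m * 2 ^ (a + b) := Nat.mul_le_mul_right _ hi
      rw [add_assoc, pow_add 2 m]
      nlinarith
    refine ⟨(hF _ h1).1.comp A.symm.continuous, fun ξ hξ => (hF _ h1).2 _ fun h2 => hξ ?_⟩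
    rw [add_assoc, ← th_Lz, ← hA, A.apply_symm_apply] at h2
    exact h2
  have e1 : Q (fun ξ => W (Tz (m + a) m i ξ)) (blk a i) (par b F) =
      ENNReal.ofReal c * AA W a (a + b) F' := by
    have e : (fun j ξ => par b F' j (A ξ)) = fun j => par b F (i * 2 ^ (0 + a) + j) := by
      funext j ξ
      simp only [par, hF', A.symm_apply_apply, zero_add]
      exact sum_blk_shift b a i j fun l => F l ξ
    rw [AA, Nat.add_sub_cancel_left, ← hQ, e, ← blk_zero, resc_shift]
    simp only [Tz, Nat.add_sub_cancel_left, hA, pow_zero, mul_one, add_zero]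
  have e2 : ∀ m' ∈ Finset.range (a + b + 1), ∀ i' : ℕ,
      ENNReal.ofReal c * Q (fun ξ => W (Tz (a + b) m' i' ξ)) (blk (a + b - m') i') F' =
        Q (fun ξ => W (Tz (m + a + b) (m + m') (i * 2 ^ m' + i') ξ))
          (blk (a + b - m') (i * 2 ^ m' + i')) F := by
    intro m' hm' i'
    have h1 : m' ≤ a + b := Nat.lt_succ_iff.1 (Finset.mem_range.1 hm')
    have e : (fun j ξ => F' j (A ξ)) = fun j => F (i * 2 ^ (m' + (a + b - m')) + j) := by
      funext j ξ
      simp only [hF', A.symm_apply_apply, Nat.add_sub_cancel' h1]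
    have e' : m + a + b - (m + m') = a + b - m' := by omega
    rw [← hQ, e, resc_shift]
    simp only [Tz, hA, Lz_comp, e']
  rw [e1]
  refine (mul_le_mul_right (h F' hFam) _).trans (le_of_eq ?_)
  rw [mul_left_comm, Env, Finset.mul_sum]
  congr 1
  refine Finset.sum_congr rfl fun m' hm' => ?_
  rw [Finset.mul_sum]
  exact Finset.sum_congr rfl fun i' _ => e2 m' hm' i'

theorem comp {k₁ k₂ k₃ : ℕ} (h12 : k₁ ≤ k₂) (h23 : k₂ ≤ k₃) (h₁ : PP W κ k₁ k₂ S₁) (hS : 0 ≤ S₁)
    (hS' : 0 ≤ S₂) (h₂ : ∀ m ≤ k₂, PP W κ (k₂ - m) (k₃ - m) S₂) :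
    PP W κ k₁ k₃ (S₁ * (k₂ + 1) * S₂) := by
  intro F hF
  obtain ⟨b, rfl⟩ := Nat.exists_eq_add_of_le h23
  have e1 : AA W k₁ (k₂ + b) F = AA W k₁ k₂ (par b F) := by
    have e : k₂ + b - k₁ = k₂ - k₁ + b := by omega
    rw [AA, AA, par_par, e]
  have h3 : ∀ m ∈ Finset.range (k₂ + 1), ∑ i ∈ Finset.range (2 ^ m),
      Q (fun ξ => W (Tz k₂ m i ξ)) (blk (k₂ - m) i) (par b F) ≤
        ENNReal.ofReal S₂ * Env W (k₂ + b) F := by
    intro m hm
    obtain ⟨a, rfl⟩ := Nat.exists_eq_add_of_le (Nat.lt_succ_iff.1 (Finset.mem_range.1 hm))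
    have h4 := h₂ m (Nat.le_add_right _ _)
    have e2 : m + a + b - m = a + b := by omega
    rw [Nat.add_sub_cancel_left, e2] at h4
    rw [Nat.add_sub_cancel_left]
    refine (Finset.sum_le_sum fun i hi => resc (Finset.mem_range.1 hi) h4 hF).trans ?_
    rw [← Finset.mul_sum, Finset.sum_comm]
    refine mul_le_mul_right ?_ _
    have e3 : m + a + b + 1 = m + (a + b + 1) := by omega
    rw [Env, e3, Finset.sum_range_add _ m (a + b + 1)]
    refine le_trans (le_of_eq (Finset.sum_congr rfl fun m' _ => ?_)) le_add_self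
    have e4 : m + a + b - (m + m') = a + b - m' := by omega
    rw [e4, ← blk_zero (m + m'), ← sum_blk, blk_zero m]
    refine Finset.sum_congr rfl fun i _ => ?_
    have h5 := sum_blk_shift m' 0 i 0 fun j =>
      Q (fun ξ => W (Tz (m + a + b) (m + m') j ξ)) (blk (a + b - m') j) F
    simpa only [blk_zero, zero_add, pow_zero, mul_one, add_zero] using h5
  rw [e1]
  refine (h₁ _ hF.par).trans ?_
  rw [Env, mul_assoc, ENNReal.ofReal_mul hS, mul_assoc]
  refine mul_le_mul_right ((Finset.sum_le_sum h3).trans (le_of_eq ?_)) _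
  rw [Finset.sum_const, Finset.card_range, nsmul_eq_mul, ENNReal.ofReal_mul (by positivity),
    mul_assoc, ← Nat.cast_succ, ENNReal.ofReal_natCast]

end Vale.Agent.P106
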