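import Vale.Agent.P106.Ind
import Vale.Agent.P106.Resc
import Vale.Agent.P106.CF
import Vale.Agent.P106.Loc
import Vale.Agent.P106.Kak

/-!
The wave envelope estimate. `gwz`: `ind` for `PP W` (`loc` and `kak`, `cf` and `kak`, `comp`); `np4_eq`, `Q_le_one` (`Fam.par`, `cr_supp`, `th_diff`, `Df_norm`, `hW.lo`), `Q_congr`.
`gwz_cov`: apply `gwz` to `F j ∘ A.symm`; `np4_eq` and `Q_comp A` multiply both sides by the same constant.
-/

open MeasureTheory Set Real Filter Topology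
open scoped FourierTransform RealInnerProductSpace ContDiff ENNReal SchwartzMap

noncomputable section

namespace Vale.Agent.P106

open Vale.Agent.P117

variable {W : E3 → ℂ} {w : E3 → ℝ} {c C η : ℝ}

theorem gwz (hW : Wgt W w c C) (hη : 0 < η) : ∃ (κ : ℕ) (C' : ℝ), 0 < C' ∧ ∀ n F, Fam κ n F →
    Np volume 4 (𝓕⁻ (par n F 0)) ≤ ENNReal.ofReal (C' * (4 ^ n) ^ η) * Env W n F := by
  have hc := hW.c0
  have key : ∀ {κ k n : ℕ} {F : ℕ → E3 → ℂ}, Fam κ n F →
      AA W k n F ≤ 2009 ^ 2 * Q (fun _ => 1) (Finset.range (2 ^ n)) F →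
      AA W k n F ≤ ENNReal.ofReal (2009 ^ 2 * 4 / c ^ 2 * (n + 1)) * Env W n F := by
    intro κ k n F hF h
    refine h.trans ?_
    have e : ENNReal.ofReal (2009 ^ 2 * 4 / c ^ 2 * ((n : ℝ) + 1)) =
        2009 ^ 2 * ENNReal.ofReal (4 * (n + 1) / c ^ 2) := by
      rw [show (2009 : ℝ) ^ 2 * 4 / c ^ 2 * ((n : ℝ) + 1) = 2009 ^ 2 * (4 * (n + 1) / c ^ 2) by
        ring, ENNReal.ofReal_mul (by positivity), ENNReal.ofReal_pow (by norm_num)]
      norm_num
    rw [e, mul_assoc]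
    exact mul_le_mul_right (kak hW hF) _
  obtain ⟨κ, C', hC', h⟩ := ind (P := PP W) (C := 2009 ^ 2 * 4 / c ^ 2) (by positivity) hη
    (fun κ k n S S' h hS F hF =>
      (h F hF).trans (mul_le_mul_left (ENNReal.ofReal_le_ofReal hS) _))
    (fun κ k n hk hn F hF => key hF (loc hW hk hn hF))
    (fun κ k n hk hn F hF => key hF ((cf hW hk hn hF).trans
      (mul_le_mul_left (by norm_num) _)))
    (fun κ k₁ k₂ k₃ S₁ S₂ h12 h23 h₁ hS hS' h₂ => comp h12 h23 h₁ hS hS' h₂)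
  refine ⟨κ, (c ^ 2)⁻¹ * C', by positivity, fun n F hF => ?_⟩
  have hp : Fam κ 0 (par n F) := Fam.par (by rwa [Nat.zero_add])
  have h0 : (0 : ℕ) < 2 ^ 0 := by norm_num
  have h1 := h n F hF
  simp only [AA, pow_zero, one_smul, Nat.sub_zero] at h1
  rw [np4_eq (hp.cc h0), Q_congr (F' := par n F) (by
    intro j hj
    rw [Finset.mem_range, Nat.lt_one_iff] at hj
    rw [hj])]
  refine (Q_le_one (W := W) hc ?_).trans ?_
  · intro ξ hξ
    rw [Finset.sum_range_one] at hξ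
    obtain ⟨a, b, ha, hb, rfl⟩ := cr_supp hξ
    refine hW.lo _ (Df_norm (th_diff (κ := κ) ?_ ?_))
    · by_contra hn
      exact ha ((hp 0 h0).2 a hn)
    · by_contra hn
      exact hb ((hp 0 h0).2 b hn)
  · rw [mul_assoc, ENNReal.ofReal_mul (by positivity), mul_assoc]
    exact mul_le_mul_right h1 _

theorem gwz_cov (hW : Wgt W w c C) (hη : 0 < η) : ∃ (κ : ℕ) (C' : ℝ), 0 < C' ∧
    ∀ (A : E3 ≃L[ℝ] E3) (n : ℕ) (F : ℕ → E3 → ℂ),
      (∀ j < 2 ^ n, Continuous (F j) ∧ ∀ ξ, A ξ ∉ th κ n j → F j ξ = 0) →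
      Np volume 4 (𝓕⁻ (par n F 0)) ≤ ENNReal.ofReal (C' * (4 ^ n) ^ η) *
        ∑ m ∈ Finset.range (n + 1), ∑ i ∈ Finset.range (2 ^ m),
          Q (fun ξ => W (Tz n m i (A ξ))) (blk (n - m) i) F := by
  obtain ⟨κ, C', hC', h⟩ := gwz hW hη
  refine ⟨κ, C', hC', fun A n F hF => ?_⟩
  obtain ⟨e, -, hQ⟩ := Q_comp A
  set G : ℕ → E3 → ℂ := fun j ξ => F j (A.symm ξ) with hG
  have hFG : F = fun j ξ => G j (A ξ) := by
    funext j ξ
    simp only [hG, ContinuousLinearEquiv.symm_apply_apply]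
  have hGf : Fam κ n G := fun j hj =>
    ⟨(hF j hj).1.comp A.symm.continuous, fun ξ hξ =>
      (hF j hj).2 _ (by rwa [ContinuousLinearEquiv.apply_symm_apply])⟩
  have hp : Fam κ 0 (par n G) := Fam.par (by rwa [Nat.zero_add])
  have h0 : (0 : ℕ) < 2 ^ 0 := by norm_num
  have hpar : par n F 0 = fun ξ => par n G 0 (A ξ) := by
    funext ξ
    simp only [par, hG, ContinuousLinearEquiv.symm_apply_apply]
  have h1 := h n G hGf
  rw [np4_eq (hp.cc h0)] at h1
  have h2 : Np volume 4 (𝓕⁻ (par n F 0)) =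
      ENNReal.ofReal e * Q (fun _ => 1) (Finset.range 1) fun _ => par n G 0 := by
    rw [hpar, np4_eq ((hp.cc h0).comp A)]
    exact hQ (fun _ => 1) (Finset.range 1) fun _ => par n G 0
  have h3 : ∑ m ∈ Finset.range (n + 1), ∑ i ∈ Finset.range (2 ^ m),
      Q (fun ξ => W (Tz n m i (A ξ))) (blk (n - m) i) F = ENNReal.ofReal e * Env W n G := by
    rw [Env, Finset.mul_sum]
    refine Finset.sum_congr rfl fun m _ => ?_
    rw [Finset.mul_sum]
    refine Finset.sum_congr rfl fun i _ => ?_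
    rw [hFG]
    exact hQ (fun ξ => W (Tz n m i ξ)) _ G
  rw [h2, h3, mul_left_comm]
  exact mul_le_mul_right h1 _

end Vale.Agent.P106
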