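import Vale.Agent.P106.Base

/-!
The induction on scales, for an abstract predicate. Choose `κ ≥ 1` so large that `C (κ + 1) ^ 3 * (4 ^ η) ^ (-κ / 2) ≤ 1` and `2 C (2 k + 1) ^ 2 ≤ (4 ^ k) ^ η` whenever `κ ≤ 2 k`
(`tendsto_pow_const_div_const_pow_of_one_lt`), and `C' = C (κ + 2)`. Prove by strong induction on `d = n - k` that `P κ k n (C' (k + 1) (4 ^ (n - k)) ^ η)` for `k ≤ n`.
If `κ ≤ 2 k`: for `n ≤ 2 k` use `ha`, otherwise `hc` with `k₂ = 2 k`. If `2 k < κ`: for `n ≤ κ` use `hb`, otherwise `hc` with `k₂ = κ`. In `hc` take `S₂ = C' (k₂ + 1) (4 ^ (n - k₂)) ^ η`.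
-/

open MeasureTheory Set Real Filter Topology
open scoped FourierTransform RealInnerProductSpace ContDiff ENNReal SchwartzMap

noncomputable section

namespace Vale.Agent.P106

open Vale.Agent.P117

theorem ind {P : ℕ → ℕ → ℕ → ℝ → Prop} {C η : ℝ} (hC : 0 < C) (hη : 0 < η)
    (hm : ∀ κ k n S S', P κ k n S → S ≤ S' → P κ k n S')
    (ha : ∀ κ k n, k ≤ n → n ≤ 2 * k → P κ k n (C * (n + 1)))
    (hb : ∀ κ k n, k ≤ n → n ≤ κ → P κ k n (C * (n + 1)))
    (hc : ∀ κ k₁ k₂ k₃ S₁ S₂, k₁ ≤ k₂ → k₂ ≤ k₃ → P κ k₁ k₂ S₁ → 0 ≤ S₁ → 0 ≤ S₂ →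
      (∀ m ≤ k₂, P κ (k₂ - m) (k₃ - m) S₂) → P κ k₁ k₃ (S₁ * (k₂ + 1) * S₂)) :
    ∃ (κ : ℕ) (C' : ℝ), 0 < C' ∧ ∀ n, P κ 0 n (C' * (4 ^ n) ^ η) := by
  obtain ⟨q, hq, e⟩ : ∃ q : ℝ, 1 < q ∧ ∀ n : ℕ, ((4 : ℝ) ^ n) ^ η = q ^ n :=
    ⟨4 ^ η, one_lt_rpow (by norm_num) hη, fun n => (rpow_pow_comm (by norm_num) η n).symm⟩
  obtain ⟨K, hK1, hK⟩ : ∃ K : ℕ, 1 ≤ K ∧ ∀ k ≥ K, C * (2 * k + 1) ^ 3 ≤ q ^ k := by
    obtain ⟨K, hK⟩ := eventually_atTop.1 ((tendsto_pow_const_div_const_pow_of_one_lt 3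
      hq).eventually (gt_mem_nhds (show 0 < (27 * C)⁻¹ by positivity)))
    refine ⟨K + 1, Nat.le_add_left _ _, fun k hk => ?_⟩
    have h1 := hK k (by omega)
    have h2 : (1 : ℝ) ≤ k := by exact_mod_cast (show 1 ≤ k by omega)
    rw [div_lt_iff₀ (by positivity), inv_mul_eq_div, lt_div_iff₀ (by positivity)] at h1
    refine le_trans ?_ h1.le
    calc C * (2 * k + 1) ^ 3 ≤ C * (3 * k) ^ 3 := by gcongr; linarith
      _ = _ := by ring
  have key : ∀ d k : ℕ, P (2 * K) k (k + d) (C * (2 * K + 2) * (k + 1) * q ^ d) := by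
    intro d
    induction d using Nat.strong_induction_on with
    | _ d ih =>
      intro k
      obtain ⟨j, j1, j2, j3, j4⟩ : ∃ j : ℕ, K ≤ j ∧ k ≤ j ∧
          (2 * j + 1 : ℝ) ≤ (2 * K + 2) * (k + 1) ∧
          ∀ n, k ≤ n → n ≤ 2 * j → P (2 * K) k n (C * (n + 1)) := by
        have k0 : (0 : ℝ) ≤ k := Nat.cast_nonneg k
        have K0 : (0 : ℝ) ≤ K := Nat.cast_nonneg K
        rcases le_total K k with h | h
        · exact ⟨k, h, le_rfl, by nlinarith [mul_nonneg k0 K0], ha _ k⟩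
        · exact ⟨K, le_rfl, h, by nlinarith [mul_nonneg k0 K0], hb _ k⟩
      by_cases h : k + d ≤ 2 * j
      · refine hm _ _ _ _ _ (j4 _ (Nat.le_add_right _ _) h) ?_
        have h1 : ((k + d : ℕ) : ℝ) ≤ 2 * j := by exact_mod_cast h
        refine le_trans ?_ (le_mul_of_one_le_right (by positivity) (one_le_pow₀ hq.le))
        rw [mul_assoc]
        exact mul_le_mul_of_nonneg_left (by linarith) hC.le
      · refine hm _ _ _ _ _ (hc _ k (2 * j) (k + d) _
          (C * (2 * K + 2) * (2 * j + 1) * q ^ (k + d - 2 * j)) (by omega) (by omega)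
          (j4 _ (by omega) le_rfl) (by positivity) (by positivity) fun m hm' => ?_) ?_
        · rw [show k + d - m = 2 * j - m + (k + d - 2 * j) by omega]
          refine hm _ _ _ _ _ (ih _ (by omega) _) ?_
          have h1 : ((2 * j - m : ℕ) : ℝ) ≤ 2 * j := by exact_mod_cast Nat.sub_le _ _
          gcongr
        · have h1 : q ^ j * q ^ (k + d - 2 * j) ≤ (k + 1) * q ^ d := by
            rw [← pow_add]
            exact (pow_le_pow_right₀ hq.le (by omega)).trans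
              (le_mul_of_one_le_left (by positivity) (by linarith [Nat.cast_nonneg (α := ℝ) k]))
          have h2 := (mul_le_mul_of_nonneg_right (hK j j1) (by positivity)).trans h1
          have h3 := mul_le_mul_of_nonneg_left h2 (show 0 ≤ C * (2 * K + 2) by positivity)
          push_cast
          linarith
  refine ⟨2 * K, C * (2 * K + 2), by positivity, fun n => ?_⟩
  have := key n 0
  rwa [zero_add, Nat.cast_zero, zero_add, mul_one, ← e] at this

end Vale.Agent.P106
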