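import Vale.Agent.P106.Cr

/-!
Calculus of jets. A function that is `ContDiffAt ℝ 2` at `ξ` is differentiable near `ξ` (`ContDiffAt.eventually`, `ContDiffAt.differentiableAt`) and `fun ζ => fderiv ℝ f ζ v` is differentiable at `ξ`
(`ContDiffAt.fderiv_right`, `DifferentiableAt.clm_apply`). So the formulas `fderiv (g ∘ f) ζ v = deriv g (f ζ) * fderiv f ζ v`, `fderiv (f * g) ζ v = ..` hold eventually; `Filter.EventuallyEq.fderiv_eq`,
then differentiate once more. `jt_sm`: the first two derivatives are continuous with compact support (`fderiv ℝ (fderiv ℝ φ) ξ w v`, `ContinuousLinearMap.le_opNorm₂`).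
-/

open MeasureTheory Set Real Filter Topology
open scoped FourierTransform RealInnerProductSpace ContDiff ENNReal SchwartzMap

noncomputable section

namespace Vale.Agent.P106

open Vale.Agent.P117

variable {ξ v w : ℂ} {B B' C : ℝ}

/-- smooth functions of one variable with two bounded derivatives -/
def G2 (g : ℝ → ℂ) (C : ℝ) : Prop :=
  ContDiff ℝ ∞ g ∧ ∀ u, ‖g u‖ ≤ C ∧ ‖deriv g u‖ ≤ C ∧ ‖deriv (deriv g) u‖ ≤ C

section
variable {E : Type} [NormedAddCommGroup E] [NormedSpace ℝ E]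

theorem jet_ev {f : ℂ → E} (h : ContDiffAt ℝ 2 f ξ) : ∀ᶠ ζ in 𝓝 ξ, DifferentiableAt ℝ f ζ :=
  (h.eventually (by simp)).mono fun _ k => k.differentiableAt (by simp)

theorem jet_df {f : ℂ → E} (h : ContDiffAt ℝ 2 f ξ) : DifferentiableAt ℝ (fderiv ℝ f) ξ :=
  (h.fderiv_right (m := 1) (by norm_num)).differentiableAt (by simp)

theorem jet_d {f : ℂ → E} (h : ContDiffAt ℝ 2 f ξ) (v : ℂ) :
    DifferentiableAt ℝ (fun ζ => fderiv ℝ f ζ v) ξ :=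
  (jet_df h).clm_apply (differentiableAt_const v)

theorem jet_dd {f : ℂ → E} (h : ContDiffAt ℝ 2 f ξ) (v w : ℂ) :
    fderiv ℝ (fun ζ => fderiv ℝ f ζ v) ξ w = fderiv ℝ (fderiv ℝ f) ξ w v := by
  rw [fderiv_clm_apply (jet_df h) (differentiableAt_const v)]
  simp

end

theorem jet_comp {f : ℂ → ℝ} {g : ℝ → ℂ} (hg : DifferentiableAt ℝ g (f ξ))
    (hf : DifferentiableAt ℝ f ξ) (v : ℂ) :
    fderiv ℝ (fun ζ => g (f ζ)) ξ v = fderiv ℝ f ξ v • deriv g (f ξ) := by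
  have h : fderiv ℝ (fun ζ => g (f ζ)) ξ = _ :=
    (hg.hasDerivAt.hasFDerivAt.comp ξ hf.hasFDerivAt).fderiv
  rw [h]
  rfl

theorem jet_mul {f g : ℂ → ℂ} (hf : DifferentiableAt ℝ f ξ) (hg : DifferentiableAt ℝ g ξ) (v : ℂ) :
    fderiv ℝ (fun ζ => f ζ * g ζ) ξ v = f ξ * fderiv ℝ g ξ v + g ξ * fderiv ℝ f ξ v := by
  rw [fderiv_fun_mul hf hg]
  rfl

theorem jet_le {a b : ℂ} (ha : ‖a‖ ≤ B) (hb : ‖b‖ ≤ B') : ‖a * b‖ ≤ B * B' := by
  rw [norm_mul]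
  exact mul_le_mul ha hb (norm_nonneg _) ((norm_nonneg _).trans ha)

theorem jet_sle {a : ℝ} {b : ℂ} (ha : ‖a‖ ≤ B) (hb : ‖b‖ ≤ B') : ‖a • b‖ ≤ B * B' := by
  rw [norm_smul]
  exact mul_le_mul ha hb (norm_nonneg _) ((norm_nonneg _).trans ha)

theorem g2_sm {g : ℝ → ℂ} (h : Sm g) : ∃ C, G2 g C := by
  have h1 := (contDiff_infty_iff_deriv.1 h.smooth).2
  have h2 := (contDiff_infty_iff_deriv.1 h1).2
  obtain ⟨C₀, k0⟩ := h.smooth.continuous.bounded_above_of_compact_support h.cs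
  obtain ⟨C₁, k1⟩ := h1.continuous.bounded_above_of_compact_support h.cs.deriv
  obtain ⟨C₂, k2⟩ := h2.continuous.bounded_above_of_compact_support h.cs.deriv.deriv
  exact ⟨max C₀ (max C₁ C₂), h.smooth, fun u => ⟨(k0 u).trans (le_max_left _ _),
    (k1 u).trans ((le_max_left _ _).trans (le_max_right _ _)),
    (k2 u).trans ((le_max_right _ _).trans (le_max_right _ _))⟩⟩

theorem g2_ex : G2 ex 40 := by
  have h1 : ∀ u, HasDerivAt ex (ex u * (((2 * π : ℝ) : ℂ) * Complex.I)) u := fun u => by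
    have := ((((hasDerivAt_id u).const_mul (2 * π)).ofReal_comp).mul_const Complex.I).cexp
    rw [mul_one] at this
    exact this
  have h2 : deriv ex = fun u => ex u * (((2 * π : ℝ) : ℂ) * Complex.I) :=
    funext fun u => (h1 u).deriv
  have h3 : ∀ u, ‖ex u‖ = 1 := fun u => Complex.norm_exp_ofReal_mul_I _
  have h4 : ‖((2 * π : ℝ) : ℂ) * Complex.I‖ = 2 * π := by
    rw [norm_mul, Complex.norm_I, mul_one, Complex.norm_real, Real.norm_eq_abs,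
      abs_of_pos (by positivity)]
  have h5 := pi_lt_d2
  have h6 := pi_pos
  refine ⟨?_, fun u => ⟨?_, ?_, ?_⟩⟩
  · exact Complex.contDiff_exp.comp
      ((Complex.ofRealCLM.contDiff.comp (contDiff_const.mul contDiff_id)).mul contDiff_const)
  · rw [h3]
    norm_num
  · rw [h2, norm_mul, h3, h4]
    linarith
  · rw [h2, ((h1 u).mul_const _).deriv, norm_mul, norm_mul, h3, h4]
    nlinarith

theorem J2.comp {f : ℂ → ℝ} {g : ℝ → ℂ} (h : J2 f ξ v w B) (hg : G2 g C) :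
    Jt (fun ζ => g (f ζ)) ξ v w (C * (1 + B) ^ 2) := by
  have g1 := contDiff_infty_iff_deriv.1 hg.1
  have g2 := contDiff_infty_iff_deriv.1 g1.2
  have hB : 0 ≤ B := (norm_nonneg _).trans h.d1
  have hC : 0 ≤ C := (norm_nonneg _).trans (hg.2 0).1
  have hd := (jet_ev h.sm).self_of_nhds
  have k0 : 0 ≤ C * B := mul_nonneg hC hB
  have k1 : 0 ≤ C * B * B := mul_nonneg k0 hB
  refine ⟨⟨(contDiff_infty.1 hg.1 2).contDiffAt.comp ξ h.sm, ?_, ?_, ?_⟩, ?_⟩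
  · rw [jet_comp (g1.1 _) hd]
    nlinarith [jet_sle h.d1 (hg.2 (f ξ)).2.1]
  · rw [jet_comp (g1.1 _) hd]
    nlinarith [jet_sle h.d2 (hg.2 (f ξ)).2.1]
  · have e : (fun ζ => fderiv ℝ (fun ζ => g (f ζ)) ζ v) =ᶠ[𝓝 ξ]
        fun ζ => fderiv ℝ f ζ v • deriv g (f ζ) :=
      (jet_ev h.sm).mono fun ζ k => jet_comp (g1.1 _) k v
    rw [e.fderiv_eq, fderiv_fun_smul (f := fun ζ => deriv g (f ζ)) (jet_d h.sm v)
      ((g2.1 _).comp ξ hd)]
    show ‖fderiv ℝ f ξ v • fderiv ℝ (fun ζ => deriv g (f ζ)) ξ w +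
      fderiv ℝ (fun ζ => fderiv ℝ f ζ v) ξ w • deriv g (f ξ)‖ ≤ _
    rw [jet_comp (g2.1 _) hd]
    refine (norm_add_le_of_le (jet_sle h.d1 (jet_sle h.d2 (hg.2 (f ξ)).2.2))
      (jet_sle h.d12 (hg.2 (f ξ)).2.1)).trans ?_
    nlinarith
  · nlinarith [(hg.2 (f ξ)).1]

theorem Jt.mul {f g : ℂ → ℂ} (h : Jt f ξ v w B) (h' : Jt g ξ v w B') :
    Jt (fun ζ => f ζ * g ζ) ξ v w (4 * B * B') := by
  have hB : 0 ≤ B * B' := mul_nonneg ((norm_nonneg _).trans h.2) ((norm_nonneg _).trans h'.2)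
  have hf := (jet_ev h.1.sm).self_of_nhds
  have hg := (jet_ev h'.1.sm).self_of_nhds
  refine ⟨⟨h.1.sm.mul h'.1.sm, ?_, ?_, ?_⟩, ?_⟩
  · rw [jet_mul hf hg]
    linarith [norm_add_le_of_le (jet_le h.2 h'.1.d1) (jet_le h'.2 h.1.d1)]
  · rw [jet_mul hf hg]
    linarith [norm_add_le_of_le (jet_le h.2 h'.1.d2) (jet_le h'.2 h.1.d2)]
  · have e : (fun ζ => fderiv ℝ (fun ζ => f ζ * g ζ) ζ v) =ᶠ[𝓝 ξ]
        fun ζ => f ζ * fderiv ℝ g ζ v + g ζ * fderiv ℝ f ζ v := by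
      filter_upwards [jet_ev h.1.sm, jet_ev h'.1.sm] with ζ k k'
      exact jet_mul k k' v
    rw [e.fderiv_eq, fderiv_fun_add (hf.fun_mul (jet_d h'.1.sm v)) (hg.fun_mul (jet_d h.1.sm v)),
      ContinuousLinearMap.add_apply, jet_mul hf (jet_d h'.1.sm v), jet_mul hg (jet_d h.1.sm v)]
    linarith [norm_add_le_of_le (norm_add_le_of_le (jet_le h.2 h'.1.d12) (jet_le h'.1.d1 h.1.d2))
      (norm_add_le_of_le (jet_le h'.2 h.1.d12) (jet_le h.1.d1 h'.1.d2))]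
  · linarith [jet_le h.2 h'.2]

theorem Jt.mono {f : ℂ → ℂ} (h : Jt f ξ v w B) (hB : B ≤ B') : Jt f ξ v w B' :=
  ⟨⟨h.1.sm, h.1.d1.trans hB, h.1.d2.trans hB, h.1.d12.trans hB⟩, h.2.trans hB⟩

theorem jt_sm {φ : ℂ → ℂ} (h : Sm φ) : ∃ C, ∀ ξ v w : ℂ, ‖v‖ ≤ 3 → ‖w‖ ≤ 3 → Jt φ ξ v w C := by
  have h1 := (contDiff_infty_iff_fderiv.1 h.smooth).2
  have h2 := (contDiff_infty_iff_fderiv.1 h1).2
  obtain ⟨C₀, k0⟩ := h.smooth.continuous.bounded_above_of_compact_support h.cs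
  obtain ⟨C₁, k1⟩ := h1.continuous.bounded_above_of_compact_support (h.cs.fderiv ℝ)
  obtain ⟨C₂, k2⟩ := h2.continuous.bounded_above_of_compact_support ((h.cs.fderiv ℝ).fderiv ℝ)
  have p0 := (norm_nonneg _).trans (k0 0)
  have p1 := (norm_nonneg _).trans (k1 0)
  have p2 := (norm_nonneg _).trans (k2 0)
  refine ⟨C₀ + C₁ * 3 + C₂ * 3 * 3, fun ξ v w hv hw => ?_⟩
  have hs : ContDiffAt ℝ 2 φ ξ := (contDiff_infty.1 h.smooth 2).contDiffAt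
  refine ⟨⟨hs, ?_, ?_, ?_⟩, ?_⟩
  · linarith [(fderiv ℝ φ ξ).le_of_opNorm_le_of_le (k1 ξ) hv]
  · linarith [(fderiv ℝ φ ξ).le_of_opNorm_le_of_le (k1 ξ) hw]
  · rw [jet_dd hs]
    linarith [(fderiv ℝ (fderiv ℝ φ) ξ).le_of_opNorm₂_le_of_le (k2 ξ) hw hv]
  · linarith [k0 ξ]

theorem jt_zero {f : ℂ → ℂ} (h : ∀ᶠ ζ in 𝓝 ξ, f ζ = 0) (v w : ℂ) : Jt f ξ v w 0 := by
  have e : f =ᶠ[𝓝 ξ] fun _ => 0 := h
  have e' : (fun ζ => fderiv ℝ f ζ v) =ᶠ[𝓝 ξ] fun _ => 0 :=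
    (e.fderiv (𝕜 := ℝ)).mono fun ζ k => by
      show fderiv ℝ f ζ v = 0
      rw [k]
      simp
  refine ⟨⟨contDiffAt_const.congr_of_eventuallyEq e, ?_, ?_, ?_⟩, ?_⟩
  · rw [e.fderiv_eq]
    simp
  · rw [e.fderiv_eq]
    simp
  · rw [e'.fderiv_eq]
    simp
  · rw [h.self_of_nhds, norm_zero]

theorem j2_re {l : ℝ} (h1 : |v.re / l| ≤ B) (h2 : |w.re / l| ≤ B) (ξ : ℂ) :
    J2 (fun ζ : ℂ => ζ.re / l) ξ v w B := by
  have e : ∀ ζ u : ℂ, fderiv ℝ (fun ζ : ℂ => ζ.re / l) ζ u = u.re / l := fun ζ u => by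
    have h : fderiv ℝ (fun ζ : ℂ => ζ.re / l) ζ = _ :=
      ((Complex.reCLM.hasFDerivAt (x := ζ)).mul_const l⁻¹).fderiv
    rw [h]
    simp [div_eq_inv_mul]
  refine ⟨Complex.reCLM.contDiff.contDiffAt.div_const l, by rwa [e], by rwa [e], ?_⟩
  simp only [e]
  simpa using (abs_nonneg _).trans h1

theorem j2_scale {f : ℂ → ℝ} (h : ContDiffAt ℝ 2 f ξ) {r k α β : ℝ}
    (h1 : |r * α| * |fderiv ℝ f ξ v| ≤ B) (h2 : |r * β| * |fderiv ℝ f ξ w| ≤ B)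
    (h3 : |r * α * β| * |fderiv ℝ (fun ζ => fderiv ℝ f ζ v) ξ w| ≤ B) :
    J2 (fun ζ => r * f ζ + k) ξ (α • v) (β • w) B := by
  have e : ∀ (g : ℂ → ℝ) (r k α : ℝ) (ζ u : ℂ), DifferentiableAt ℝ g ζ →
      fderiv ℝ (fun ζ => r * g ζ + k) ζ (α • u) = r * α * fderiv ℝ g ζ u := by
    intro g r k α ζ u hg
    rw [((hg.hasFDerivAt.const_mul r).add_const k).fderiv, map_smul]
    simp only [smul_apply, smul_eq_mul]
    ring
  have hd := (jet_ev h).self_of_nhds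
  refine ⟨(contDiffAt_const.mul h).add contDiffAt_const, ?_, ?_, ?_⟩
  · rwa [e _ _ _ _ _ _ hd, Real.norm_eq_abs, abs_mul]
  · rwa [e _ _ _ _ _ _ hd, Real.norm_eq_abs, abs_mul]
  · have e' : (fun ζ => fderiv ℝ (fun ζ => r * f ζ + k) ζ (α • v)) =ᶠ[𝓝 ξ]
        fun ζ => r * α * fderiv ℝ f ζ v + 0 :=
      (jet_ev h).mono fun ζ hζ => (e _ _ _ _ _ _ hζ).trans (add_zero _).symm
    rwa [e'.fderiv_eq, e _ _ _ _ _ _ (jet_d h v), Real.norm_eq_abs, abs_mul]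

end Vale.Agent.P106
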