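import Vale.Agent.P106.Cut3
import Vale.Agent.P117.AngB

/-!
The Bessel potential of a Schwartz function. `jb α` has temperate growth (`Function.hasTemperateGrowth_one_add_norm_sq_rpow`, composed with `2 π • id`), `SchwartzMap.smulLeftCLM` or `SchwartzMap.bilinLeftCLM`,
`SchwartzMap.fourier_coe`, `SchwartzMap.fourierInv_coe`. `jw_eqv`: `Eqv.fourier`, `norm_rot`, `𝓕⁻ h x = 𝓕 h (-x)` and `rot θ (-x) = -rot θ x`. `tw_lim`: `Tw_eq`, `fourier_jw`, `inv_eq`, dominated convergence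
(`am_lim` almost everywhere, `am_le`, `jb_mul`).
-/

open MeasureTheory Set Real Filter Topology
open scoped FourierTransform RealInnerProductSpace ContDiff ENNReal SchwartzMap

noncomputable section

namespace Vale.Agent.P106

open Vale.Agent.P117

variable {α : ℝ}

theorem jw_temp (α : ℝ) : (jb α).HasTemperateGrowth := by
  have h := Complex.ofRealCLM.hasTemperateGrowth.comp
    ((Function.hasTemperateGrowth_one_add_norm_sq_rpow E3 (α / 2)).comp
      ((2 * π) • ContinuousLinearMap.id ℝ E3).hasTemperateGrowth)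
  have e : jb α = ⇑Complex.ofRealCLM ∘ (fun x : E3 => (1 + ‖x‖ ^ 2) ^ (α / 2)) ∘
      ⇑((2 * π) • ContinuousLinearMap.id ℝ E3) := by
    funext ξ
    simp only [jb, Function.comp, ContinuousLinearMap.smul_apply, ContinuousLinearMap.id_apply,
      norm_smul, mul_pow, Real.norm_eq_abs, sq_abs, Complex.ofRealCLM_apply]
    norm_num
  rwa [e]

theorem jw_mul (α : ℝ) (f : 𝓢(E3, ℂ)) :
    ∃ h : 𝓢(E3, ℂ), ⇑h = fun ξ => jb α ξ * 𝓕 (⇑f) ξ :=
  ⟨SchwartzMap.smulLeftCLM ℂ (jb α) (𝓕 f), SchwartzMap.smulLeftCLM_apply (jw_temp α) _⟩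

theorem jw_schwartz (α : ℝ) (f : 𝓢(E3, ℂ)) : ∃ g : 𝓢(E3, ℂ), ⇑g = Jw α f := by
  obtain ⟨h, e⟩ := jw_mul α f
  exact ⟨𝓕⁻ h, by rw [SchwartzMap.fourierInv_coe, e, Jw]⟩

theorem fourier_jw (α : ℝ) (f : 𝓢(E3, ℂ)) (ξ : E3) : 𝓕 (Jw α f) ξ = jb α ξ * 𝓕 (⇑f) ξ := by
  obtain ⟨h, e⟩ := jw_mul α f
  rw [Jw, ← e, h.continuous.fourier_fourierInv_eq h.integrable (𝓕 h).integrable]
  exact congrFun e ξ

theorem jw_eqv (α : ℝ) {k : ℤ} {f : E3 → ℂ} (h : Eqv k f) : Eqv k (Jw α f) := by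
  have h1 : Eqv k fun ξ => jb α ξ * 𝓕 f ξ := fun θ ξ => by
    have e : jb α (rot θ ξ) = jb α ξ := by simp only [jb, norm_rot]
    simp only []
    rw [e, h.fourier θ ξ]
    ring
  intro θ x
  obtain ⟨A, hA⟩ := exists_rotL θ
  rw [Jw, Real.fourierInv_eq_fourier_neg, Real.fourierInv_eq_fourier_neg, ← h1.fourier θ (-x),
    ← hA, ← hA, map_neg]

theorem uw_cont (f : 𝓢(E3, ℂ)) : Continuous (Uw f) :=
  cont_pr (𝓕 f).integrable

theorem tw_lim (α : ℝ) (f : 𝓢(E3, ℂ)) (q : ℝ × E3) :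
    Tendsto (fun N => Tw (am α N) (Jw α f) q) atTop (𝓝 (Uw f q)) := by
  obtain ⟨g, hg⟩ := jw_schwartz α f
  have hi : Integrable (Jw α f) := hg ▸ g.integrable
  have hf : Integrable (𝓕 (⇑f)) := (𝓕 f).integrable
  have hN : ∀ N, Integrable (am α N) := fun N => (am_sw α N).sm.ker.int
  simp only [Tw_eq (hN _) hi, fourier_jw, Uw, Real.fourierInv_eq]
  refine tendsto_integral_of_dominated_convergence (fun ξ => ‖𝓕 (⇑f) ξ‖) (fun N => ?_) hf.norm
    (fun N => Eventually.of_forall fun ξ => ?_) ?_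
  · have h1 := integrable_mul_fourier (hN N) hi
    simp only [fourier_jw] at h1
    exact (four_int (wv_int h1 q.1) q.2).aestronglyMeasurable
  · rw [Circle.norm_smul, norm_wv, norm_mul]
    refine (mul_le_mul_of_nonneg_right (am_le α N ξ) (norm_nonneg _)).trans (le_of_eq ?_)
    rw [← norm_mul, ← mul_assoc, jb_mul, one_mul]
  · filter_upwards [(Set.countable_singleton (0 : E3)).ae_notMem volume] with ξ hξ
    have h1 := (((am_lim α hξ).mul_const (jb α ξ * 𝓕 (⇑f) ξ)).const_mul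
      (ex (q.1 * ‖ξ‖))).const_smul (𝐞 ⟪ξ, q.2⟫)
    rw [← mul_assoc (jb (-α) ξ), jb_mul, one_mul] at h1
    exact h1

end Vale.Agent.P106
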