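import Vale.Agent.P106.Th

/-!
Geometry of the centred planks. Put `A = ξ 0`, `B = 2 ^ n * ξ 1`, `C = 4 ^ n * ξ 2`, `q x = C - 2 x B + x² A`. With `d = n - m`, `x = i 2 ^ d`:
`Tz n m i ξ = pt (4 ^ d A) (2 ^ d (B - x A)) (q x)` (`Tz_eq`). `three`: divided differences, `A = q[x₁,x₂,x₃]` gives `|A| ≤ 18 / h²` and `|A| (x₂ - x₁) ≤ 18 / h`;
`q x₂ - q x₁ = (x₂ - x₁) (-2 (B - x₁ A) + (x₂ - x₁) A)`. `kak_count`: for `m = 0` the set is inside `{0}`. For `m = m' + 1` let `lo`, `hi` be the least and the largest element of `S`;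
if some `i ∈ S` had `lo + 2 ≤ i`, `i + 2 ≤ hi`, then `three` with `h = 2 ^ d` for the three points `j` and `x' = (lo / 2) * 2 ^ (d + 1)`, `|x' - j₁| ≤ 2 h`, shows that the coordinates of
`Tz n m' (lo / 2) ξ` are at most `72`, `102`, `138`, so the norm is at most `240` (`norm_sq_e3`). Hence `S ⊆ {lo, lo + 1, hi - 1, hi}`.
-/

open MeasureTheory Set Real Filter Topology
open scoped FourierTransform RealInnerProductSpace ContDiff ENNReal SchwartzMap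

noncomputable section

namespace Vale.Agent.P106

open Vale.Agent.P117

variable {n m i j : ℕ} {ξ : E3}

theorem Tz_eq (hm : m ≤ n) (i : ℕ) (ξ : E3) : Tz n m i ξ =
    pt (4 ^ (n - m) * ξ 0) (2 ^ (n - m) * (2 ^ n * ξ 1 - (i * 2 ^ (n - m) : ℝ) * ξ 0))
      (4 ^ n * ξ 2 - 2 * (i * 2 ^ (n - m) : ℝ) * (2 ^ n * ξ 1) +
        (i * 2 ^ (n - m) : ℝ) ^ 2 * ξ 0) := by
  obtain ⟨d, rfl⟩ := Nat.exists_eq_add_of_le hm
  have h4 : ∀ k : ℕ, (4 : ℝ) ^ k = 2 ^ k * 2 ^ k := fun k => by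
    rw [← mul_pow]
    norm_num
  rw [Tz, Nat.add_sub_cancel_left, ← pt_eta ((4 : ℝ) ^ d • Lz m i ξ)]
  simp only [PiLp.smul_apply, Lz, pt_zero, pt_one, pt_two, smul_eq_mul, h4, pow_add]
  congr 1 <;> ring

theorem three {A B C x₁ x₂ x₃ h : ℝ} (hh : 0 < h) (h12 : x₁ + h ≤ x₂) (h23 : x₂ + h ≤ x₃)
    (q1 : |C - 2 * x₁ * B + x₁ ^ 2 * A| ≤ 6) (q2 : |C - 2 * x₂ * B + x₂ ^ 2 * A| ≤ 6)
    (q3 : |C - 2 * x₃ * B + x₃ ^ 2 * A| ≤ 6) : h ^ 2 * |A| ≤ 18 ∧ h * |B - x₁ * A| ≤ 15 := by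
  obtain ⟨u, rfl⟩ : ∃ u, x₂ = x₁ + u := ⟨x₂ - x₁, by ring⟩
  obtain ⟨v, rfl⟩ : ∃ v, x₃ = x₁ + u + v := ⟨x₃ - (x₁ + u), by ring⟩
  have hu : h ≤ u := by linarith
  have hv : h ≤ v := by linarith
  have hu0 : 0 < u := by linarith
  have hv0 : 0 < v := by linarith
  obtain ⟨a1, b1⟩ := abs_le.1 q1
  obtain ⟨a2, b2⟩ := abs_le.1 q2
  obtain ⟨a3, b3⟩ := abs_le.1 q3
  have h1 : |u * v * (u + v) * A| ≤ 12 * (u + v) := by
    rw [abs_le]
    constructor <;> nlinarith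
  rw [abs_mul, abs_of_pos (by positivity), mul_right_comm] at h1
  have h2 : u * v * |A| ≤ 12 := le_of_mul_le_mul_right h1 (by positivity)
  have hA := abs_nonneg A
  have h3 : u * h * |A| ≤ 12 := le_trans (by gcongr) h2
  have h4 : h * h * |A| ≤ 12 := le_trans (by gcongr) h3
  refine ⟨by nlinarith, ?_⟩
  have h5 : |2 * u * (B - x₁ * A)| ≤ u ^ 2 * |A| + 12 := by
    have h6 := mul_le_mul_of_nonneg_left (le_abs_self A) (sq_nonneg u)
    have h7 := mul_le_mul_of_nonneg_left (neg_abs_le A) (sq_nonneg u)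
    rw [abs_le]
    constructor <;> nlinarith
  rw [abs_mul, abs_of_pos (by positivity)] at h5
  have h6 : u * (h * |B - x₁ * A|) ≤ u * 12 := by
    have h7 := mul_le_mul_of_nonneg_left h5 hh.le
    have h8 := mul_le_mul_of_nonneg_left h3 hu0.le
    nlinarith
  linarith [le_of_mul_le_mul_left h6 hu0]

theorem kakg_norm {a b c : ℝ} (ha : |a| ≤ 72) (hb : |b| ≤ 102) (hc : |c| ≤ 138) :
    ‖pt a b c‖ ≤ 240 := by
  refine le_of_sq_le_sq ?_ (by norm_num)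
  rw [norm_sq_e3, pt_zero, pt_one, pt_two, ← sq_abs a, ← sq_abs b, ← sq_abs c]
  have h1 := pow_le_pow_left₀ (abs_nonneg a) ha 2
  have h2 := pow_le_pow_left₀ (abs_nonneg b) hb 2
  have h3 := pow_le_pow_left₀ (abs_nonneg c) hc 2
  linarith

theorem kakg_df (h : Df n j ξ) :
    |4 ^ n * ξ 2 - 2 * (j : ℝ) * (2 ^ n * ξ 1) + (j : ℝ) ^ 2 * ξ 0| ≤ 6 := by
  have h1 := h.2.2
  rwa [show 2 * 2 ^ n * (j : ℝ) * ξ 1 = 2 * (j : ℝ) * (2 ^ n * ξ 1) by ring] at h1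

theorem good_top (h : Df n j ξ) : ‖Tz n n j ξ‖ ≤ 240 := by
  rw [Tz_eq le_rfl, Nat.sub_self]
  simp only [pow_zero, one_mul, mul_one]
  exact kakg_norm (h.1.trans (by norm_num)) (h.2.1.trans (by norm_num))
    ((kakg_df h).trans (by norm_num))

theorem kakg_est {A B C x t h : ℝ} (ht : 0 ≤ t) (ht' : t ≤ 2 * h) (h1 : h ^ 2 * |A| ≤ 18)
    (h2 : h * |B - x * A| ≤ 15) (h3 : |C - 2 * x * B + x ^ 2 * A| ≤ 6) :
    ‖pt (h * h * 4 * A) (h * 2 * (B - (x - t) * A)) (C - 2 * (x - t) * B + (x - t) ^ 2 * A)‖ ≤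
      240 := by
  have hh : 0 ≤ h := by linarith
  have hA := abs_nonneg A
  have hB := abs_nonneg (B - x * A)
  have h4 : h * t * |A| ≤ 36 := by nlinarith [mul_le_mul_of_nonneg_right ht' (mul_nonneg hh hA)]
  have h5 : t * t * |A| ≤ 72 := by nlinarith [mul_le_mul_of_nonneg_right ht' (mul_nonneg ht hA)]
  have h6 : t * |B - x * A| ≤ 30 := by nlinarith [mul_le_mul_of_nonneg_right ht' hB]
  refine kakg_norm ?_ ?_ ?_
  · rw [abs_mul, abs_of_nonneg (by positivity)]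
    nlinarith
  · rw [abs_mul, abs_of_nonneg (by positivity),
      show B - (x - t) * A = B - x * A + t * A by ring]
    have h7 := abs_add_le (B - x * A) (t * A)
    rw [abs_mul, abs_of_nonneg ht] at h7
    nlinarith [mul_le_mul_of_nonneg_left h7 hh]
  · rw [show C - 2 * (x - t) * B + (x - t) ^ 2 * A =
      C - 2 * x * B + x ^ 2 * A + 2 * t * (B - x * A) + t * t * A by ring]
    refine (abs_add_three _ _ _).trans ?_
    rw [abs_mul, abs_mul (t * t), abs_of_nonneg (mul_nonneg zero_le_two ht),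
      abs_of_nonneg (mul_nonneg ht ht)]
    linarith

theorem kak_count (hm : m ≤ n) (ξ : E3) (S : Finset ℕ)
    (hS : ∀ i ∈ S, i < 2 ^ m ∧ (∃ j ∈ blk (n - m) i, Df n j ξ) ∧
      ∀ m', m = m' + 1 → 240 < ‖Tz n m' (i / 2) ξ‖) : S.card ≤ 4 := by
  rcases m with _ | m
  · refine (Finset.card_le_card (t := {0}) fun i hi => ?_).trans (by simp)
    have h := (hS i hi).1
    rw [pow_zero] at h
    exact Finset.mem_singleton.2 (by omega)
  rcases S.eq_empty_or_nonempty with rfl | hne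
  · simp
  refine (Finset.card_le_card (t := {S.min' hne, S.min' hne + 1, S.max' hne - 1, S.max' hne})
    fun i hi => ?_).trans Finset.card_le_four
  have h1 := S.min'_le i hi
  have h2 := S.le_max' i hi
  obtain ⟨-, ⟨j₁, a1, d1⟩, h3⟩ := hS _ (S.min'_mem hne)
  obtain ⟨-, ⟨j₂, a2, d2⟩, -⟩ := hS i hi
  obtain ⟨-, ⟨j₃, a3, d3⟩, -⟩ := hS _ (S.max'_mem hne)
  generalize S.min' hne = lo at *
  generalize S.max' hne = up at *
  by_contra h4
  simp only [Finset.mem_insert, Finset.mem_singleton, not_or] at h4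
  have h5 : lo + 2 ≤ i := by omega
  have h6 : i + 2 ≤ up := by omega
  have h7 : n - m = n - (m + 1) + 1 := by omega
  rw [blk, Finset.mem_Ico] at a1 a2 a3
  have h8 := h3 m rfl
  rw [Tz_eq (by omega), h7] at h8
  generalize n - (m + 1) = d at *
  have b1 : j₁ + 2 ^ d ≤ j₂ := by nlinarith [Nat.mul_le_mul_right (2 ^ d) h5]
  have b2 : j₂ + 2 ^ d ≤ j₃ := by nlinarith [Nat.mul_le_mul_right (2 ^ d) h6]
  have b3 : lo / 2 * 2 ^ (d + 1) ≤ j₁ := by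
    have := Nat.mul_le_mul_right (2 ^ d) (Nat.div_mul_le_self lo 2)
    rw [pow_succ]
    nlinarith
  have b4 : j₁ ≤ lo / 2 * 2 ^ (d + 1) + 2 * 2 ^ d := by
    have := Nat.mul_le_mul_right (2 ^ d) (show lo + 1 ≤ lo / 2 * 2 + 2 by omega)
    rw [pow_succ]
    nlinarith
  obtain ⟨c1, c2⟩ := three (h := 2 ^ d) (by positivity) (by exact_mod_cast b1)
    (by exact_mod_cast b2) (kakg_df d1) (kakg_df d2) (kakg_df d3)
  have c3 : ((lo / 2 : ℕ) : ℝ) * 2 ^ (d + 1) ≤ j₁ := by exact_mod_cast b3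
  have c4 : (j₁ : ℝ) ≤ ((lo / 2 : ℕ) : ℝ) * 2 ^ (d + 1) + 2 * 2 ^ d := by exact_mod_cast b4
  have c5 := kakg_est (t := j₁ - ((lo / 2 : ℕ) : ℝ) * 2 ^ (d + 1)) (by linarith) (by linarith) c1 c2
    (kakg_df d1)
  rw [sub_sub_cancel, ← mul_pow, ← pow_succ, show (2 : ℝ) * 2 = 4 by norm_num, ← pow_succ] at c5
  exact absurd h8 (not_lt.2 c5)

end Vale.Agent.P106
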