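import Vale.Agent.P106.Tw
import Vale.Agent.P117.Slice
import Vale.Agent.P117.Cx

/-!
Kato smoothing. `kato1`: `g ρ = √(ρ² + ζ²)`, `lam / 16 * |ρ - ρ'| ≤ |g ρ - g ρ'|` on the support. `1 ≤ exp π * exp (-π t² / R²)` on `[0, R]`; expand the square, Fubini,
`∫ t, exp (-π t² / R²) * ex (t σ) = R exp (-π R² σ²)` (`fourierIntegral_gaussian`, `fourier_gaussian_pi`), `2 ‖U ρ‖ ‖U ρ'‖ ≤ ‖U ρ‖² + ‖U ρ'‖²`, `∫ u, R exp (-π R² (lam / 16)² u²) = 16 / lam`.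
(Other route: change of variables `σ = g ρ` and `planch_inv`.) `kato2`: `inv_slice`, `pf_integrable`, `planch_inv` in `z`, swap `t` and `ζ`, `kato1` for `ρ ↦ ex (ρ x₁) * U ⟨ρ, ζ⟩`, `lintegral_cx`.
-/

open MeasureTheory Set Real Filter Topology
open scoped FourierTransform RealInnerProductSpace ContDiff ENNReal SchwartzMap

noncomputable section

namespace Vale.Agent.P106

open Vale.Agent.P117

theorem kato_der (ζ : ℝ) {ρ : ℝ} (h : 0 < ρ) :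
    HasDerivAt (fun r : ℝ => √(r ^ 2 + ζ ^ 2)) (ρ / √(ρ ^ 2 + ζ ^ 2)) ρ := by
  have h1 : HasDerivAt (fun r : ℝ => r ^ 2 + ζ ^ 2) (2 * ρ) ρ := by
    simpa using (hasDerivAt_pow 2 ρ).add_const (ζ ^ 2)
  have h2 := h1.sqrt (by positivity)
  have e : 2 * ρ / (2 * √(ρ ^ 2 + ζ ^ 2)) = ρ / √(ρ ^ 2 + ζ ^ 2) :=
    mul_div_mul_left _ _ two_ne_zero
  rwa [e] at h2

theorem kato_inv (ζ : ℝ) {ρ : ℝ} (h : 0 < ρ) : √(√(ρ ^ 2 + ζ ^ 2) ^ 2 - ζ ^ 2) = ρ := by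
  rw [Real.sq_sqrt (by positivity), add_sub_cancel_right, Real.sqrt_sq h.le]

theorem kato_inj (ζ : ℝ) : InjOn (fun r : ℝ => √(r ^ 2 + ζ ^ 2)) (Ioi 0) := by
  intro a ha b hb hab
  have h : √(a ^ 2 + ζ ^ 2) = √(b ^ 2 + ζ ^ 2) := hab
  rw [← kato_inv ζ (mem_Ioi.1 ha), ← kato_inv ζ (mem_Ioi.1 hb), h]

/-- the function in the new variable -/
def katoG (ζ : ℝ) (U : ℝ → ℂ) (σ : ℝ) : ℂ :=
  ((σ / √(σ ^ 2 - ζ ^ 2) : ℝ) : ℂ) * U √(σ ^ 2 - ζ ^ 2)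

theorem katoG_eq (ζ : ℝ) (U : ℝ → ℂ) {ρ : ℝ} (h : 0 < ρ) :
    katoG ζ U √(ρ ^ 2 + ζ ^ 2) = ((√(ρ ^ 2 + ζ ^ 2) / ρ : ℝ) : ℂ) * U ρ := by
  rw [katoG, kato_inv ζ h]

theorem katoG_smul (ζ : ℝ) (U : ℝ → ℂ) {ρ : ℝ} (h : 0 < ρ) :
    |ρ / √(ρ ^ 2 + ζ ^ 2)| • katoG ζ U √(ρ ^ 2 + ζ ^ 2) = U ρ := by
  have hg : 0 < √(ρ ^ 2 + ζ ^ 2) := Real.sqrt_pos.2 (by positivity)
  rw [katoG_eq ζ U h, abs_of_pos (div_pos h hg), Complex.real_smul, ← mul_assoc,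
    ← Complex.ofReal_mul]
  have e : ρ / √(ρ ^ 2 + ζ ^ 2) * (√(ρ ^ 2 + ζ ^ 2) / ρ) = 1 := by field_simp
  rw [e, Complex.ofReal_one, one_mul]

theorem kato1 : ∃ C : ℝ, 0 < C ∧ ∀ (lam R ζ : ℝ) (U : ℝ → ℂ), 0 < lam → 0 < R → Cc U →
    (∀ ρ, U ρ ≠ 0 → lam / 4 ≤ ρ ∧ ρ ^ 2 + ζ ^ 2 ≤ 16) →
    ∫⁻ t in Icc 0 R, ‖∫ ρ, ex (t * √(ρ ^ 2 + ζ ^ 2)) * U ρ‖ₑ ^ 2 ≤
      ENNReal.ofReal (C / lam) * Np volume 2 U := by
  refine ⟨16, by norm_num, fun lam R ζ U hl _ hU hs => ?_⟩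
  have hd : ∀ ρ ∈ Ioi (0 : ℝ), HasDerivWithinAt (fun r : ℝ => √(r ^ 2 + ζ ^ 2))
      (ρ / √(ρ ^ 2 + ζ ^ 2)) (Ioi 0) ρ := fun ρ h => (kato_der ζ h).hasDerivWithinAt
  have hc : Continuous fun r : ℝ => √(r ^ 2 + ζ ^ 2) := by fun_prop
  have hm : MeasurableSet ((fun r : ℝ => √(r ^ 2 + ζ ^ 2)) '' Ioi 0) :=
    measurableSet_Ioi.image_of_continuousOn_injOn hc.continuousOn (kato_inj ζ)
  have h0 : ∀ ρ, ρ ∉ Ioi (0 : ℝ) → U ρ = 0 := by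
    intro ρ h
    by_contra h'
    have := (hs ρ h').1
    exact h (mem_Ioi.2 (by linarith))
  set S := (fun r : ℝ => √(r ^ 2 + ζ ^ 2)) '' Ioi 0 with hS
  have hG : Integrable (S.indicator (katoG ζ U)) := by
    rw [integrable_indicator_iff hm, hS,
      integrableOn_image_iff_integrableOn_abs_deriv_smul measurableSet_Ioi hd (kato_inj ζ)]
    exact hU.ker.int.integrableOn.congr_fun (fun ρ h => (katoG_smul ζ U h).symm) measurableSet_Ioi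
  have h1 : ∀ t : ℝ, ∫ ρ, ex (t * √(ρ ^ 2 + ζ ^ 2)) * U ρ = 𝓕⁻ (S.indicator (katoG ζ U)) t := by
    intro t
    have e : ∀ σ : ℝ, ex ⟪σ, t⟫ * S.indicator (katoG ζ U) σ =
        S.indicator (fun σ => ex (t * σ) * katoG ζ U σ) σ := by
      intro σ
      rw [slice_inner, mul_comm σ t]
      by_cases h : σ ∈ S
      · rw [indicator_of_mem h, indicator_of_mem h]
      · rw [indicator_of_notMem h, indicator_of_notMem h, mul_zero]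
    rw [inv_eq]
    simp only [e]
    rw [integral_indicator hm, hS,
      integral_image_eq_integral_abs_deriv_smul measurableSet_Ioi hd (kato_inj ζ),
      ← setIntegral_eq_integral_of_forall_compl_eq_zero (s := Ioi (0 : ℝ))
        (fun ρ h => by rw [h0 ρ h, mul_zero])]
    refine setIntegral_congr_fun measurableSet_Ioi fun ρ h => ?_
    rw [← katoG_smul ζ U h, mul_smul_comm]
  have h2 : Np volume 2 (S.indicator (katoG ζ U)) ≤ ENNReal.ofReal (16 / lam) * Np volume 2 U := by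
    rw [Np_two, Np_two]
    have e : ∀ σ : ℝ, ‖S.indicator (katoG ζ U) σ‖ₑ ^ 2 =
        S.indicator (fun σ => ‖katoG ζ U σ‖ₑ ^ 2) σ := by
      intro σ
      by_cases h : σ ∈ S
      · rw [indicator_of_mem h, indicator_of_mem h]
      · rw [indicator_of_notMem h, indicator_of_notMem h]
        simp
    simp only [e]
    rw [lintegral_indicator hm, hS,
      lintegral_image_eq_lintegral_abs_deriv_mul measurableSet_Ioi hd (kato_inj ζ),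
      ← lintegral_const_mul' _ _ ENNReal.ofReal_ne_top]
    refine le_trans (setLIntegral_mono' measurableSet_Ioi fun ρ h => ?_)
      (setLIntegral_le_lintegral (Ioi 0) _)
    have hρ : 0 < ρ := h
    have hg : 0 < √(ρ ^ 2 + ζ ^ 2) := Real.sqrt_pos.2 (by positivity)
    by_cases hu : U ρ = 0
    · rw [katoG_eq ζ U h, hu]
      simp
    obtain ⟨ha, hb⟩ := hs ρ hu
    have h4 : √(ρ ^ 2 + ζ ^ 2) ≤ 4 := Real.sqrt_le_iff.2 ⟨by norm_num, by linarith⟩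
    rw [katoG_eq ζ U h, enorm_mul, mul_pow, ← mul_assoc, ← ofReal_norm, Complex.norm_real,
      Real.norm_of_nonneg (div_pos hg hρ).le, ← ENNReal.ofReal_pow (div_pos hg hρ).le,
      abs_of_pos (div_pos hρ hg), ← ENNReal.ofReal_mul (div_pos hρ hg).le]
    refine mul_le_mul_left (ENNReal.ofReal_le_ofReal ?_) _
    have e' : ρ / √(ρ ^ 2 + ζ ^ 2) * (√(ρ ^ 2 + ζ ^ 2) / ρ) ^ 2 = √(ρ ^ 2 + ζ ^ 2) / ρ := by
      field_simp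
    rw [e', div_le_div_iff₀ hρ hl]
    nlinarith
  calc ∫⁻ t in Icc 0 R, ‖∫ ρ, ex (t * √(ρ ^ 2 + ζ ^ 2)) * U ρ‖ₑ ^ 2
      ≤ ∫⁻ t, ‖∫ ρ, ex (t * √(ρ ^ 2 + ζ ^ 2)) * U ρ‖ₑ ^ 2 := setLIntegral_le_lintegral _ _
    _ = Np volume 2 (𝓕⁻ (S.indicator (katoG ζ U))) := by
        rw [Np_two]
        simp only [h1]
    _ ≤ _ := (planch_inv hG).trans h2

theorem kato_norm (ρ ζ : ℝ) : ‖(⟨ρ, ζ⟩ : ℂ)‖ = √(ρ ^ 2 + ζ ^ 2) := by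
  rw [← Real.sqrt_sq (norm_nonneg (⟨ρ, ζ⟩ : ℂ)), norm_sq_cx]

theorem kato2 : ∃ C : ℝ, 0 < C ∧ ∀ (lam R x₁ : ℝ) (U : ℂ → ℂ), 0 < lam → 0 < R → Cc U →
    (∀ ξ, U ξ ≠ 0 → lam / 4 ≤ ξ.re ∧ ‖ξ‖ ≤ 4) →
    ∫⁻ t in Icc 0 R, ∫⁻ z : ℝ, ‖𝓕⁻ (wv U t) ⟨x₁, z⟩‖ₑ ^ 2 ≤
      ENNReal.ofReal (C / lam) * Np volume 2 U := by
  obtain ⟨C, hC, H⟩ := kato1
  refine ⟨C, hC, fun lam R x₁ U hl hR hU hs => ?_⟩
  have hex : Continuous ex := contDiff_ex.continuous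
  have hUc := hU.cont
  have hmk : Continuous fun q : (ℝ × ℝ) × ℝ => U ⟨q.2, q.1.2⟩ :=
    hUc.comp (continuous_mk.comp (continuous_snd.prodMk (continuous_snd.comp continuous_fst)))
  have h1 : ∀ t : ℝ, ∫⁻ z : ℝ, ‖𝓕⁻ (wv U t) ⟨x₁, z⟩‖ₑ ^ 2 ≤
      ∫⁻ ζ : ℝ, ‖∫ ρ, ex (t * √(ρ ^ 2 + ζ ^ 2)) * (ex (ρ * x₁) * U ⟨ρ, ζ⟩)‖ₑ ^ 2 := by
    intro t
    have hi := wv_int hU.ker.int t
    have h := planch_inv (pf_integrable hi x₁)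
    rw [Np_two, Np_two] at h
    simp only [inv_slice hi]
    refine h.trans (le_of_eq (lintegral_congr fun ζ => ?_))
    rw [pf, inv_eq]
    congr 3
    funext ρ
    rw [slice_inner, wv, kato_norm]
    ring
  have hm : Measurable fun q : ℝ × ℝ =>
      ‖∫ ρ, ex (q.1 * √(ρ ^ 2 + q.2 ^ 2)) * (ex (ρ * x₁) * U ⟨ρ, q.2⟩)‖ₑ ^ 2 := by
    have hc : Continuous fun q : (ℝ × ℝ) × ℝ =>
        ex (q.1.1 * √(q.2 ^ 2 + q.1.2 ^ 2)) * (ex (q.2 * x₁) * U ⟨q.2, q.1.2⟩) :=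
      (hex.comp (by fun_prop)).mul ((hex.comp (by fun_prop)).mul hmk)
    exact (hc.stronglyMeasurable.integral_prod_right' (ν := volume)).measurable.enorm.pow_const 2
  have h2 : ∀ ζ : ℝ, ∫⁻ t in Icc 0 R,
      ‖∫ ρ, ex (t * √(ρ ^ 2 + ζ ^ 2)) * (ex (ρ * x₁) * U ⟨ρ, ζ⟩)‖ₑ ^ 2 ≤
        ENNReal.ofReal (C / lam) * ∫⁻ ρ : ℝ, ‖U ⟨ρ, ζ⟩‖ₑ ^ 2 := by
    intro ζ
    have hc : Cc fun ρ : ℝ => U ⟨ρ, ζ⟩ := by
      refine ⟨hUc.comp (continuous_mk.comp (continuous_id.prodMk continuous_const)), 4,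
        fun ρ h => ?_⟩
      by_contra h'
      have h3 := (hs _ h').2
      have h4 := Complex.abs_re_le_norm (⟨ρ, ζ⟩ : ℂ)
      rw [Real.norm_eq_abs] at h
      simp only at h4
      linarith
    have h := H lam R ζ (fun ρ => ex (ρ * x₁) * U ⟨ρ, ζ⟩) hl hR
      (hc.mul_left (hex.comp (by fun_prop))) fun ρ h => by
        have h3 := hs _ (right_ne_zero_of_mul h)
        have h4 := norm_sq_cx (⟨ρ, ζ⟩ : ℂ)
        have h5 := norm_nonneg (⟨ρ, ζ⟩ : ℂ)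
        simp only at h3 h4
        exact ⟨h3.1, by nlinarith [h3.2]⟩
    refine h.trans (le_of_eq ?_)
    rw [Np_two]
    congr 1
    refine lintegral_congr fun ρ => ?_
    rw [enorm_mul, ← ofReal_norm (ex _), norm_ex, ENNReal.ofReal_one, one_mul]
  calc ∫⁻ t in Icc 0 R, ∫⁻ z : ℝ, ‖𝓕⁻ (wv U t) ⟨x₁, z⟩‖ₑ ^ 2
      ≤ ∫⁻ t in Icc 0 R, ∫⁻ ζ : ℝ,
          ‖∫ ρ, ex (t * √(ρ ^ 2 + ζ ^ 2)) * (ex (ρ * x₁) * U ⟨ρ, ζ⟩)‖ₑ ^ 2 := lintegral_mono h1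
    _ = ∫⁻ ζ : ℝ, ∫⁻ t in Icc 0 R,
          ‖∫ ρ, ex (t * √(ρ ^ 2 + ζ ^ 2)) * (ex (ρ * x₁) * U ⟨ρ, ζ⟩)‖ₑ ^ 2 :=
        lintegral_lintegral_swap hm.aemeasurable
    _ ≤ ∫⁻ ζ : ℝ, ENNReal.ofReal (C / lam) * ∫⁻ ρ : ℝ, ‖U ⟨ρ, ζ⟩‖ₑ ^ 2 := lintegral_mono h2
    _ = _ := by
        rw [lintegral_const_mul' _ _ ENNReal.ofReal_ne_top, Np_two,
          lintegral_cx (hUc.measurable.enorm.pow_const 2)]

end Vale.Agent.P106
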