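import Vale.Agent.P106.Kato
import Vale.Agent.P106.Wt
import Vale.Agent.P106.Amp

/-!
Localised Kato smoothing. `A = amp φ c lam`, `Λ = lam R ≥ 1`, `lam Λ ≥ 1`, `H y = G y / (1 + i (x₁ - y.re) / Λ)` (`nice_of_le`), `K = 𝓕⁻ (wv A t)`. For `x.re = x₁`:
`cv K G x = cv (fun u => (1 + i u.re / Λ) * K u) H x`. By `mul_inv` with `v = 1` and `fderiv (wv A t) ξ 1 = ex (t ‖ξ‖) (2 π i t (ξ.re / ‖ξ‖) A ξ + fderiv A ξ 1)` (both sides vanish near `0`):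
`(1 + i u.re / Λ) K u = 𝓕⁻ (wv A₁ t) u - i (t / R) 𝓕⁻ (wv A₂ t) u`, `A₁ = A - fderiv A · 1 / (2 π Λ)`, `A₂ ξ = ξ.re / (lam ‖ξ‖) * A ξ`. Both are `Cc`, bounded uniformly
(`‖fderiv A ξ 1‖ ≤ C (1 + 1 / lam)`, `amp_ne`), and vanish off the closed set `lam / 4 ≤ ξ.re`, `‖ξ‖ ≤ 4`. `Tw_eq`, `kato2` for `Aₖ * 𝓕 H`, `planch`.
-/

open MeasureTheory Set Real Filter Topology
open scoped FourierTransform RealInnerProductSpace ContDiff ENNReal SchwartzMap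

noncomputable section

namespace Vale.Agent.P106

open Vale.Agent.P117

theorem katoL_line {f : ℂ → ℂ} {ξ : ℂ} (hf : DifferentiableAt ℝ f ξ) :
    HasDerivAt (fun s : ℝ => f (ξ + s)) (fderiv ℝ f ξ 1) 0 := by
  have h1 : HasDerivAt (fun s : ℝ => ξ + (s : ℂ)) 1 0 := by
    simpa using (Complex.ofRealCLM.hasDerivAt (x := (0 : ℝ))).const_add ξ
  have h2 : HasFDerivAt f (fderiv ℝ f ξ) (ξ + ((0 : ℝ) : ℂ)) := by simpa using hf.hasFDerivAt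
  exact h2.comp_hasDerivAt (0 : ℝ) h1

theorem katoL_norm {ξ : ℂ} (h : ξ ≠ 0) :
    HasDerivAt (fun s : ℝ => ‖ξ + s‖) (ξ.re / ‖ξ‖) 0 := by
  have hn : 0 < ‖ξ‖ := norm_pos_iff.2 h
  have e : (fun s : ℝ => ‖ξ + s‖) = fun s : ℝ => √((ξ.re + s) ^ 2 + ξ.im ^ 2) := by
    funext s
    rw [Complex.norm_eq_sqrt_sq_add_sq]
    simp
  have e0 : √((ξ.re + 0) ^ 2 + ξ.im ^ 2) = ‖ξ‖ := by
    rw [Complex.norm_eq_sqrt_sq_add_sq, add_zero]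
  have h1 : HasDerivAt (fun s : ℝ => (ξ.re + s) ^ 2 + ξ.im ^ 2) (2 * ξ.re) 0 := by
    have h2 : HasDerivAt (fun s : ℝ => ξ.re + s) 1 0 := (hasDerivAt_id (0 : ℝ)).const_add ξ.re
    have h3 := (h2.mul h2).add_const (ξ.im ^ 2)
    have e1 : (fun s : ℝ => (ξ.re + s) ^ 2 + ξ.im ^ 2) =
        fun s : ℝ => (ξ.re + s) * (ξ.re + s) + ξ.im ^ 2 := by
      funext s
      ring
    rw [e1]
    exact h3.congr_deriv (by ring)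
  have h0 : (ξ.re + 0) ^ 2 + ξ.im ^ 2 ≠ 0 := by
    intro h0
    rw [h0, Real.sqrt_zero] at e0
    exact hn.ne e0
  rw [e]
  refine (h1.sqrt h0).congr_deriv ?_
  rw [e0]
  field_simp

theorem katoL_ex (s : ℝ) : HasDerivAt ex (2 * π * Complex.I * ex s) s := by
  have h1 : HasDerivAt (fun s : ℝ => ((s : ℝ) : ℂ)) 1 s := by
    simpa using (hasDerivAt_id s).ofReal_comp
  have h2 := (h1.const_mul (2 * π * Complex.I)).cexp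
  have e : ex = fun s : ℝ => Complex.exp (2 * π * Complex.I * (s : ℂ)) := by
    funext s
    unfold ex
    congr 1
    push_cast
    ring
  rw [e]
  exact h2.congr_deriv (by ring)

theorem katoL_zero {A : ℂ → ℂ} {S : Set ℂ} (hS : IsClosed S) (h : ∀ ξ, A ξ ≠ 0 → ξ ∈ S) {ξ : ℂ}
    (hξ : ξ ∉ S) : fderiv ℝ A ξ = 0 := by
  have e : A =ᶠ[𝓝 ξ] fun _ => 0 := by
    filter_upwards [hS.isOpen_compl.mem_nhds hξ] with ζ hζ
    by_contra h0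
    exact hζ (h ζ h0)
  rw [e.fderiv_eq]
  simp

theorem katoL_wv {A : ℂ → ℂ} (h : Sw A) (t : ℝ) (ξ : ℂ) :
    fderiv ℝ (wv A t) ξ 1 =
      ex (t * ‖ξ‖) * (2 * π * Complex.I * t * ((ξ.re / ‖ξ‖ : ℝ) : ℂ) * A ξ + fderiv ℝ A ξ 1) := by
  obtain ⟨r, hr, hoff⟩ := h.off
  have hS : IsClosed {ζ : ℂ | r ≤ ‖ζ‖} := isClosed_le continuous_const continuous_norm
  by_cases h0 : ξ = 0
  · have hξ : ξ ∉ {ζ : ℂ | r ≤ ‖ζ‖} := by
      subst h0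
      simpa using hr
    have hA : A ξ = 0 := by
      by_contra h1
      exact hξ (hoff ξ h1)
    have h2 : ∀ ζ, wv A t ζ ≠ 0 → ζ ∈ {ζ : ℂ | r ≤ ‖ζ‖} := fun ζ hζ =>
      hoff ζ (right_ne_zero_of_mul hζ)
    rw [katoL_zero hS h2 hξ, katoL_zero hS hoff hξ, hA]
    simp
  · have h1 := katoL_line ((h.wv t).smooth.differentiable (by simp) ξ)
    have h2 := katoL_line (h.sm.smooth.differentiable (by simp) ξ)
    have h3 := (katoL_norm h0).const_mul t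
    have h4 := (katoL_ex (t * ‖ξ + ((0 : ℝ) : ℂ)‖)).scomp (0 : ℝ) h3
    have h5 := h4.mul h2
    have h6 := h1.unique h5
    rw [h6]
    simp only [Function.comp, Complex.ofReal_zero, add_zero, Complex.real_smul]
    push_cast
    ring

theorem katoL_key {A : ℂ → ℂ} (h : Sw A) {lam R : ℝ} (hl : 0 < lam) (hR : 0 < R) (t : ℝ) (u : ℂ) :
    (1 + Complex.I * ((u.re / (lam * R) : ℝ) : ℂ)) * 𝓕⁻ (wv A t) u =
      𝓕⁻ (wv (fun ξ => (A ξ + ((-1 / (2 * π * (lam * R)) : ℝ) : ℂ) * fderiv ℝ A ξ 1) +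
        (-Complex.I * ((t / R : ℝ) : ℂ)) * (A ξ * ((ξ.re / (lam * ‖ξ‖) : ℝ) : ℂ))) t) u := by
  have hM := h.wv t
  have h1 := mul_inv hM 1 u
  have e1 : (⟪(1 : ℂ), u⟫ : ℝ) = u.re := by simp [Complex.inner]
  rw [e1] at h1
  have hD := (sm_fderiv hM (1 : ℂ)).ker.int
  set κ : ℂ := Complex.I / ((lam * R : ℝ) : ℂ) * (Complex.I / (2 * π)) with hκ
  have h2 := inv_add hM.ker.int (hD.const_mul κ) u
  rw [inv_const_mul] at h2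
  have hl' : (lam : ℂ) ≠ 0 := by exact_mod_cast hl.ne'
  have hR' : (R : ℂ) ≠ 0 := by exact_mod_cast hR.ne'
  have hp : (π : ℂ) ≠ 0 := by exact_mod_cast Real.pi_ne_zero
  have e2 : (1 + Complex.I * ((u.re / (lam * R) : ℝ) : ℂ)) * 𝓕⁻ (wv A t) u =
      𝓕⁻ (wv A t) u + κ * 𝓕⁻ (fun ξ => fderiv ℝ (wv A t) ξ 1) u := by
    rw [hκ, mul_assoc, ← h1]
    push_cast
    ring
  rw [e2, ← h2]
  refine congrArg (fun m : ℂ → ℂ => 𝓕⁻ m u) (funext fun ξ => ?_)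
  rw [katoL_wv h, hκ]
  unfold wv
  have hI : Complex.I * Complex.I = -1 := Complex.I_mul_I
  have e3 : ((ξ.re / (lam * ‖ξ‖) : ℝ) : ℂ) = ((ξ.re / ‖ξ‖ : ℝ) : ℂ) / lam := by
    rw [← Complex.ofReal_div, div_div, mul_comm]
  beta_reduce
  rw [e3]
  generalize ((ξ.re / ‖ξ‖ : ℝ) : ℂ) = a
  push_cast
  field_simp
  linear_combination (ex (t * ‖ξ‖) * (2 * π * Complex.I * t * a * A ξ + fderiv ℝ A ξ 1)) * hI

theorem katoL_cc {A : ℂ → ℂ} (h : Sm A) {lam : ℝ}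
    (hs : ∀ ξ, A ξ ≠ 0 → lam / 4 ≤ ξ.re ∧ ‖ξ‖ ≤ 4) : Cc A :=
  ⟨h.smooth.continuous, 4, fun ξ hξ => by
    by_contra h0
    exact absurd (hs ξ h0).2 (not_le.2 hξ)⟩

theorem katoL_one : ∃ C : ℝ, 0 < C ∧ ∀ (lam R x₁ D : ℝ) (B H : ℂ → ℂ), 0 < lam → 0 < R → 0 ≤ D →
    Sm B → (∀ ξ, B ξ ≠ 0 → lam / 4 ≤ ξ.re ∧ ‖ξ‖ ≤ 4) → (∀ ξ, ‖B ξ‖ ≤ D) → Integrable H →
    ∫⁻ t in Icc 0 R, ∫⁻ z : ℝ, ‖Tw B H (t, ⟨x₁, z⟩)‖ₑ ^ 2 ≤
      ENNReal.ofReal (C * D ^ 2 / lam) * Np volume 2 H := by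
  obtain ⟨C, hC, hk⟩ := kato2
  refine ⟨C, hC, fun lam R x₁ D B H hl hR hD hB hs hb hH => ?_⟩
  have h1 := hk lam R x₁ (fun ξ => B ξ * 𝓕 H ξ) hl hR
    ((katoL_cc hB hs).mul_right (continuous_fourier hH))
    (fun ξ hξ => hs ξ (left_ne_zero_of_mul hξ))
  have h2 : Np volume 2 (fun ξ => B ξ * 𝓕 H ξ) ≤ ENNReal.ofReal (D ^ 2) * Np volume 2 H := by
    have h3 : Np volume 2 (fun ξ => B ξ * 𝓕 H ξ) ≤ Np volume 2 (fun ξ => (D : ℂ) * 𝓕 H ξ) := by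
      refine Np_mono (by norm_num) fun ξ => ?_
      rw [norm_mul, norm_mul, Complex.norm_real, Real.norm_of_nonneg hD]
      exact mul_le_mul_of_nonneg_right (hb ξ) (norm_nonneg _)
    rw [Np_const_mul (by norm_num)] at h3
    have e : ‖(D : ℂ)‖ₑ ^ (2 : ℝ) = ENNReal.ofReal (D ^ 2) := by
      rw [← ofReal_norm, Complex.norm_real, Real.norm_of_nonneg hD, ENNReal.rpow_two,
        ENNReal.ofReal_pow hD]
    rw [e] at h3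
    exact h3.trans (by gcongr; exact planch hH)
  simp only [Tw_eq hB.ker.int hH]
  refine h1.trans ?_
  calc ENNReal.ofReal (C / lam) * Np volume 2 (fun ξ => B ξ * 𝓕 H ξ)
      ≤ ENNReal.ofReal (C / lam) * (ENNReal.ofReal (D ^ 2) * Np volume 2 H) := by gcongr
    _ = ENNReal.ofReal (C * D ^ 2 / lam) * Np volume 2 H := by
      rw [← mul_assoc, ← ENNReal.ofReal_mul (by positivity)]
      congr 2
      ring

theorem katoL_der {φ : ℂ → ℂ} {c : ℝ → ℂ} (hφ : Am φ) (hc : Prof c) : ∃ C : ℝ, 0 < C ∧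
    ∀ (lam : ℝ) (ξ : ℂ), 0 < lam → ‖fderiv ℝ (amp φ c lam) ξ 1‖ ≤ C * (1 + 1 / lam) := by
  obtain ⟨a, ha, ha0, ha1⟩ := hc.bdd
  obtain ⟨b, hb⟩ := hφ.sm.ker.bdd
  obtain ⟨d, hd⟩ := (sm_fderiv hφ.sm (1 : ℂ)).ker.bdd
  have hb0 : 0 ≤ b := (norm_nonneg _).trans (hb 0)
  have hd0 : 0 ≤ d := (norm_nonneg _).trans (hd 0)
  refine ⟨(b + d + 1) * a, by positivity, fun lam ξ hl => ?_⟩
  have h1 := katoL_line ((amp_am hφ hc hl).sm.smooth.differentiable (by simp) ξ)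
  have h2 := katoL_line (hφ.sm.smooth.differentiable (by simp) ξ)
  have h3 : HasDerivAt (fun s : ℝ => (ξ + s).re / lam) (1 / lam) 0 := by
    have h4 := ((hasDerivAt_id (0 : ℝ)).const_add ξ.re).div_const lam
    simpa using h4
  have h4 := ((hc.smooth.differentiable (by simp)) ((ξ + ((0 : ℝ) : ℂ)).re / lam)).hasDerivAt.scomp
    (0 : ℝ) h3
  have h5 := h2.mul h4
  have h6 := h1.unique h5
  rw [h6]
  simp only [Function.comp, Complex.ofReal_zero, add_zero]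
  have h7 : ‖fderiv ℝ φ ξ 1 * c (ξ.re / lam)‖ ≤ d * a := by
    rw [norm_mul]
    exact mul_le_mul (hd ξ) (ha0 _) (norm_nonneg _) hd0
  have h8 : ‖φ ξ * (1 / lam) • deriv c (ξ.re / lam)‖ ≤ b * (1 / lam * a) := by
    rw [norm_mul, norm_smul, Real.norm_of_nonneg (by positivity)]
    exact mul_le_mul (hb ξ) (mul_le_mul_of_nonneg_left (ha1 _) (by positivity)) (by positivity) hb0
  refine (norm_add_le _ _).trans ((add_le_add h7 h8).trans ?_)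
  have h9 : 0 ≤ 1 / lam := by positivity
  generalize 1 / lam = e at h9 ⊢
  have h10 : 0 ≤ b * a + a + (d * a + a) * e := by positivity
  nlinarith

theorem katoL_sq (a b c : ℂ) (hc : ‖c‖ ≤ 1) :
    ‖a + c * b‖ₑ ^ 2 ≤ 2 * ‖a‖ₑ ^ 2 + 2 * ‖b‖ₑ ^ 2 := by
  have h1 : ‖a + c * b‖ ≤ ‖a‖ + ‖b‖ := by
    refine (norm_add_le _ _).trans (add_le_add le_rfl ?_)
    rw [norm_mul]
    exact mul_le_of_le_one_left (norm_nonneg _) hc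
  have h2 : ‖a + c * b‖ ^ 2 ≤ 2 * ‖a‖ ^ 2 + 2 * ‖b‖ ^ 2 := by
    nlinarith [norm_nonneg (a + c * b), sq_nonneg (‖a‖ - ‖b‖), norm_nonneg a, norm_nonneg b]
  have e : ∀ x : ℂ, ‖x‖ₑ ^ 2 = ENNReal.ofReal (‖x‖ ^ 2) := fun x => by
    rw [← ofReal_norm, ENNReal.ofReal_pow (norm_nonneg _)]
  have e2 : (2 : ℝ≥0∞) = ENNReal.ofReal 2 := by simp
  rw [e, e, e]
  calc ENNReal.ofReal (‖a + c * b‖ ^ 2) ≤ ENNReal.ofReal (2 * ‖a‖ ^ 2 + 2 * ‖b‖ ^ 2) :=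
        ENNReal.ofReal_le_ofReal h2
    _ = 2 * ENNReal.ofReal (‖a‖ ^ 2) + 2 * ENNReal.ofReal (‖b‖ ^ 2) := by
      rw [ENNReal.ofReal_add (by positivity) (by positivity), ENNReal.ofReal_mul (by norm_num),
        ENNReal.ofReal_mul (by norm_num), ← e2]

theorem katoL_w (s : ℝ) : ‖1 + Complex.I * (s : ℂ)‖ ^ 2 = 1 + s ^ 2 := by
  rw [Complex.sq_norm, Complex.normSq_apply]
  simp
  ring

theorem katoL_meas (x₁ : ℝ) {B H : ℂ → ℂ} (hB : Integrable B) (hH : Integrable H) :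
    Measurable fun q : ℝ × ℝ => ‖Tw B H (q.1, ⟨x₁, q.2⟩)‖ₑ ^ 2 := by
  have h1 : Continuous fun q : ℝ × ℝ => ((q.1, (⟨x₁, q.2⟩ : ℂ)) : ℝ × ℂ) := by
    have e : (fun q : ℝ × ℝ => ((q.1, (⟨x₁, q.2⟩ : ℂ)) : ℝ × ℂ)) =
        fun q : ℝ × ℝ => (q.1, (x₁ : ℂ) + (q.2 : ℂ) * Complex.I) := by
      funext q
      rw [Complex.mk_eq_add_mul_I]
    rw [e]
    fun_prop
  exact ((Tw_cont hB hH).comp h1).measurable.enorm.pow_const 2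

theorem katoL_sum {R : ℝ} (hR : 0 < R) {F F₁ F₂ : ℝ → ℝ → ℂ}
    (hm : Measurable fun q : ℝ × ℝ => ‖F₁ q.1 q.2‖ₑ ^ 2)
    (h : ∀ t z, F t z = F₁ t z + (-Complex.I * ((t / R : ℝ) : ℂ)) * F₂ t z) {N : ℝ≥0∞}
    (h1 : ∫⁻ t in Icc 0 R, ∫⁻ z : ℝ, ‖F₁ t z‖ₑ ^ 2 ≤ N)
    (h2 : ∫⁻ t in Icc 0 R, ∫⁻ z : ℝ, ‖F₂ t z‖ₑ ^ 2 ≤ N) :
    ∫⁻ t in Icc 0 R, ∫⁻ z : ℝ, ‖F t z‖ₑ ^ 2 ≤ 4 * N := by
  calc ∫⁻ t in Icc 0 R, ∫⁻ z : ℝ, ‖F t z‖ₑ ^ 2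
      ≤ ∫⁻ t in Icc 0 R, (2 * (∫⁻ z : ℝ, ‖F₁ t z‖ₑ ^ 2) + 2 * ∫⁻ z : ℝ, ‖F₂ t z‖ₑ ^ 2) := by
        refine setLIntegral_mono' measurableSet_Icc fun t ht => ?_
        have m1 : Measurable fun z : ℝ => ‖F₁ t z‖ₑ ^ 2 := hm.comp measurable_prodMk_left
        rw [← lintegral_const_mul' _ _ (by simp), ← lintegral_const_mul' _ _ (by simp),
          ← lintegral_add_left (m1.const_mul 2)]
        refine lintegral_mono fun z => ?_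
        rw [h]
        refine katoL_sq _ _ _ ?_
        rw [norm_mul, norm_neg, Complex.norm_I, one_mul, Complex.norm_real,
          Real.norm_of_nonneg (div_nonneg ht.1 hR.le), div_le_one hR]
        exact ht.2
    _ = 2 * (∫⁻ t in Icc 0 R, ∫⁻ z : ℝ, ‖F₁ t z‖ₑ ^ 2) +
          2 * ∫⁻ t in Icc 0 R, ∫⁻ z : ℝ, ‖F₂ t z‖ₑ ^ 2 := by
        rw [lintegral_add_left (hm.lintegral_prod_right'.const_mul 2),
          lintegral_const_mul' _ _ (by simp), lintegral_const_mul' _ _ (by simp)]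
    _ ≤ 2 * N + 2 * N := by gcongr
    _ = 4 * N := by ring

theorem katoL_id {A : ℂ → ℂ} (h : Sw A) {lam R : ℝ} (hl : 0 < lam) (hR : 0 < R) (x₁ : ℝ)
    {G : ℂ → ℂ} {A₁ A₂ P : ℂ → ℂ}
    (hA₁ : A₁ = fun ξ => A ξ + ((-1 / (2 * π * (lam * R)) : ℝ) : ℂ) * fderiv ℝ A ξ 1)
    (hA₂ : A₂ = fun ξ => A ξ * ((ξ.re / (lam * ‖ξ‖) : ℝ) : ℂ))
    (hP : P = fun y => 1 + Complex.I * (((x₁ - y.re) / (lam * R) : ℝ) : ℂ)) (hP0 : ∀ y, P y ≠ 0)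
    (h1 : Integrable A₁) (h2 : Integrable A₂) (hH : Integrable fun y => G y / P y) (t z : ℝ) :
    Tw A G (t, ⟨x₁, z⟩) = Tw A₁ (fun y => G y / P y) (t, ⟨x₁, z⟩) +
      (-Complex.I * ((t / R : ℝ) : ℂ)) * Tw A₂ (fun y => G y / P y) (t, ⟨x₁, z⟩) := by
  rw [← Tw_cmul h2 hH, ← Tw_addA h1 (h2.const_mul _) hH]
  unfold Tw cv
  refine integral_congr_ae (Eventually.of_forall fun y => ?_)
  have h3 := katoL_key h hl hR t ((⟨x₁, z⟩ : ℂ) - y)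
  have e : ((⟨x₁, z⟩ : ℂ) - y).re = x₁ - y.re := by simp
  have e2 : 1 + Complex.I * (((x₁ - y.re) / (lam * R) : ℝ) : ℂ) = P y := by rw [hP]
  rw [e, e2] at h3
  simp only [hA₁, hA₂]
  rw [← h3]
  have h4 := hP0 y
  field_simp

theorem katoL_b1 {A : ℂ → ℂ} {lam R a d : ℝ} (hl : 0 < lam) (hR : 1 ≤ R) (hlR : 1 ≤ lam ^ 2 * R)
    (ha : 0 < a) (hd : 0 < d) {ξ : ℂ} (h1 : ‖A ξ‖ ≤ a) (h2 : ‖fderiv ℝ A ξ 1‖ ≤ d * (1 + 1 / lam)) :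
    ‖A ξ + ((-1 / (2 * π * (lam * R)) : ℝ) : ℂ) * fderiv ℝ A ξ 1‖ ≤ 16 * a + d := by
  have hR0 : 0 < R := by linarith
  have hΛ : 1 ≤ lam * R := by
    by_cases h1 : 1 ≤ lam
    · nlinarith
    · nlinarith [mul_pos hl hR0]
  have hπ : 1 ≤ π := by linarith [Real.pi_gt_three]
  have h3 : 1 / lam ≤ lam * R := by
    rw [div_le_iff₀ hl]
    nlinarith
  have h4 : 1 + 1 / lam ≤ 2 * π * (lam * R) := by nlinarith
  have h5 : ‖((-1 / (2 * π * (lam * R)) : ℝ) : ℂ) * fderiv ℝ A ξ 1‖ ≤ d := by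
    rw [norm_mul, Complex.norm_real, neg_div, norm_neg, Real.norm_of_nonneg (by positivity)]
    refine (mul_le_mul_of_nonneg_left h2 (by positivity)).trans ?_
    rw [one_div (2 * π * (lam * R)), inv_mul_le_iff₀ (by positivity), mul_comm _ d]
    exact mul_le_mul_of_nonneg_left h4 hd.le
  refine (norm_add_le _ _).trans ?_
  linarith

theorem katoL_b2 {w ξ : ℂ} {lam a d : ℝ} (hl : 0 < lam) (ha : 0 < a) (hd : 0 < d) (h0 : ‖w‖ ≤ a)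
    (h : w ≠ 0 → lam / 4 ≤ ξ.re ∧ ξ.re ≤ 4 * lam ∧ 1 / 4 ≤ ‖ξ‖ ∧ ‖ξ‖ ≤ 4) :
    ‖w * ((ξ.re / (lam * ‖ξ‖) : ℝ) : ℂ)‖ ≤ 16 * a + d := by
  by_cases hw : w = 0
  · rw [hw, zero_mul, norm_zero]
    positivity
  obtain ⟨h1, h2, h3, -⟩ := h hw
  have h4 : ‖((ξ.re / (lam * ‖ξ‖) : ℝ) : ℂ)‖ ≤ 16 := by
    have h5 : 0 < ‖ξ‖ := by linarith
    have h6 : 0 ≤ ξ.re := by linarith
    rw [Complex.norm_real, Real.norm_of_nonneg (by positivity), div_le_iff₀ (by positivity)]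
    nlinarith
  have h5 := mul_le_mul h0 h4 (norm_nonneg _) ha.le
  rw [← norm_mul] at h5
  exact h5.trans (by linarith)

theorem katoL_s2 {A : ℂ → ℂ} (h : Sw A) {lam : ℝ} (hl : 0 < lam) :
    Sm fun ξ => A ξ * ((ξ.re / (lam * ‖ξ‖) : ℝ) : ℂ) := by
  refine (h.mul fun ξ hξ => ?_).sm
  refine Complex.ofRealCLM.contDiff.contDiffAt.comp ξ ?_
  exact Complex.reCLM.contDiff.contDiffAt.div (contDiffAt_const.mul (contDiffAt_norm ℝ hξ))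
    (mul_pos hl (norm_pos_iff.2 hξ)).ne'

theorem katoL_s1 {A : ℂ → ℂ} (h : Sm A) {lam : ℝ} (κ : ℂ)
    (hs : ∀ ξ, A ξ ≠ 0 → lam / 4 ≤ ξ.re ∧ ‖ξ‖ ≤ 4) :
    (Sm fun ξ => A ξ + κ * fderiv ℝ A ξ 1) ∧
      ∀ ξ, A ξ + κ * fderiv ℝ A ξ 1 ≠ 0 → lam / 4 ≤ ξ.re ∧ ‖ξ‖ ≤ 4 := by
  have hD := sm_fderiv h (1 : ℂ)
  refine ⟨⟨h.smooth.add (contDiff_const.mul hD.smooth), h.cs.add hD.cs.mul_left⟩, fun ξ hξ => ?_⟩
  have hcl : IsClosed {ξ : ℂ | lam / 4 ≤ ξ.re ∧ ‖ξ‖ ≤ 4} :=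
    (isClosed_le continuous_const Complex.continuous_re).inter
      (isClosed_le continuous_norm continuous_const)
  by_contra h0
  have h1 : A ξ = 0 := by
    by_contra h1
    exact h0 (hs ξ h1)
  apply hξ
  rw [h1, katoL_zero hcl hs h0]
  simp

theorem kato3 {φ : ℂ → ℂ} {c : ℝ → ℂ} (hφ : Am φ) (hc : Prof c) : ∃ C : ℝ, 0 < C ∧
    ∀ (lam R x₁ : ℝ) (G : ℂ → ℂ), 0 < lam → 1 ≤ R → 1 ≤ lam ^ 2 * R → Nice G →
      ∫⁻ t in Icc 0 R, ∫⁻ z : ℝ, ‖Tw (amp φ c lam) G (t, ⟨x₁, z⟩)‖ₑ ^ 2 ≤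
        ENNReal.ofReal (C / lam) *
          ∫⁻ y, ENNReal.ofReal (1 + ((x₁ - y.re) / (lam * R)) ^ 2)⁻¹ * ‖G y‖ₑ ^ 2 := by
  obtain ⟨C, hC, hk⟩ := katoL_one
  obtain ⟨a, ha, hab⟩ := amp_bdd hφ hc
  obtain ⟨d, hd, hdb⟩ := katoL_der hφ hc
  refine ⟨4 * (C * (16 * a + d) ^ 2), by positivity, fun lam R x₁ G hl hR hlR hG => ?_⟩
  have hR0 : 0 < R := by linarith
  have hSw : Sw (amp φ c lam) := (amp_am hφ hc hl).sw
  have hs : ∀ ξ, amp φ c lam ξ ≠ 0 → lam / 4 ≤ ξ.re ∧ ‖ξ‖ ≤ 4 := fun ξ h =>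
    ⟨(amp_ne hφ hc hl h).1, (amp_ne hφ hc hl h).2.2.2⟩
  obtain ⟨hS1, hs1⟩ := katoL_s1 hSw.sm ((-1 / (2 * π * (lam * R)) : ℝ) : ℂ) hs
  have hS2 := katoL_s2 hSw hl
  obtain ⟨P, hP⟩ : ∃ P : ℂ → ℂ,
    P = fun y => 1 + Complex.I * (((x₁ - y.re) / (lam * R) : ℝ) : ℂ) := ⟨_, rfl⟩
  have hP2 : ∀ y, ‖P y‖ ^ 2 = 1 + ((x₁ - y.re) / (lam * R)) ^ 2 := fun y => by
    rw [hP]
    exact katoL_w _
  have hP1 : ∀ y, 1 ≤ ‖P y‖ := fun y => by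
    have h1 := hP2 y
    nlinarith [norm_nonneg (P y), sq_nonneg ((x₁ - y.re) / (lam * R))]
  have hP0 : ∀ y, P y ≠ 0 := fun y => norm_pos_iff.1 (lt_of_lt_of_le one_pos (hP1 y))
  have hPm : Measurable P := by
    rw [hP]
    fun_prop
  have hH : Nice fun y => G y / P y := nice_of_le hG (hG.meas.div hPm) fun y => by
    rw [norm_div]
    exact div_le_self (norm_nonneg _) (hP1 y)
  have hN : Np volume 2 (fun y => G y / P y) =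
      ∫⁻ y, ENNReal.ofReal (1 + ((x₁ - y.re) / (lam * R)) ^ 2)⁻¹ * ‖G y‖ₑ ^ 2 := by
    rw [Np_two]
    refine lintegral_congr fun y => ?_
    rw [← hP2 y, ← ofReal_norm, ← ofReal_norm,
      ← ENNReal.ofReal_pow (norm_nonneg _), ← ENNReal.ofReal_pow (norm_nonneg _),
      ← ENNReal.ofReal_mul (by positivity), norm_div, div_pow, div_eq_inv_mul]
  have k1 := hk lam R x₁ (16 * a + d) _ _ hl hR0 (by positivity) hS1 hs1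
    (fun ξ => katoL_b1 hl hR hlR ha hd (hab lam ξ) (hdb lam ξ hl)) hH.int
  have k2 := hk lam R x₁ (16 * a + d) _ _ hl hR0 (by positivity) hS2
    (fun ξ h => hs ξ (left_ne_zero_of_mul h))
    (fun ξ => katoL_b2 hl ha hd (hab lam ξ) (amp_ne hφ hc hl)) hH.int
  have k4 := katoL_id hSw hl hR0 x₁ rfl rfl hP hP0 hS1.ker.int hS2.ker.int hH.int
  have k5 := katoL_meas x₁ hS1.ker.int hH.int
  generalize (fun ξ => amp φ c lam ξ + ((-1 / (2 * π * (lam * R)) : ℝ) : ℂ) *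
    fderiv ℝ (amp φ c lam) ξ 1) = A₁ at k1 k4 k5
  generalize (fun ξ : ℂ => amp φ c lam ξ * ((ξ.re / (lam * ‖ξ‖) : ℝ) : ℂ)) = A₂ at k2 k4
  have k3 := katoL_sum hR0 (F := fun t z => Tw (amp φ c lam) G (t, ⟨x₁, z⟩))
    (F₁ := fun t z => Tw A₁ (fun y => G y / P y) (t, ⟨x₁, z⟩))
    (F₂ := fun t z => Tw A₂ (fun y => G y / P y) (t, ⟨x₁, z⟩)) k5 k4 k1 k2
  rw [← hN]
  refine k3.trans (le_of_eq ?_)
  have e : ENNReal.ofReal 4 = 4 := by simp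
  rw [mul_div_assoc 4, ENNReal.ofReal_mul (by norm_num : (0 : ℝ) ≤ 4), e, mul_assoc]

end Vale.Agent.P106
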