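import Vale.Agent.P106.Cr
import Vale.Agent.P117.Decay
import Vale.Agent.P117.Cx
import Vale.Agent.P117.Cyl

/-!
The fixed weight. `β` is a `ContDiffBump (0 : E3)` with `rIn = 241`, `rOut = 242` (as a complex function it is `Sm`). `W₁ = cr β β` is `Cc`, bounded by some `M > 0`,
`W₁ ξ = ∫ β (ζ - ξ) β ζ ≥ volume (ball 0 1)` for `‖ξ‖ ≤ 240`, zero for `‖ξ‖ > 484` (`cr_supp`). `𝓕⁻ W₁ = ‖𝓕⁻ β‖²` (`inv_cr`) is integrable, so `𝓕 (𝓕⁻ W₁) = W₁`.
Take `W = W₁ / M`, `w = ‖𝓕⁻ β‖² / M`. Decay: `Sm.decay` with `n = 3`, `|y i| ≤ ‖y‖`.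
-/

open MeasureTheory Set Real Filter Topology
open scoped FourierTransform RealInnerProductSpace ContDiff ENNReal SchwartzMap

noncomputable section

namespace Vale.Agent.P106

open Vale.Agent.P117

theorem wex_beta : ∃ (β : E3 → ℂ) (c : ℝ), Sm β ∧ 0 < c ∧ (∀ ξ, ‖ξ‖ ≤ 240 → c ≤ ‖cr β β ξ‖) ∧
    ∀ ξ, 500 < ‖ξ‖ → cr β β ξ = 0 := by
  let b : ContDiffBump (0 : E3) := ⟨241, 242, by norm_num, by norm_num⟩
  have h1 : ∀ x : E3, ‖x‖ ≤ 241 → b x = 1 := fun x hx =>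
    b.one_of_mem_closedBall (mem_closedBall_zero_iff.2 hx)
  have h0 : ∀ x : E3, (b x : ℂ) ≠ 0 → ‖x‖ < 242 := fun x hx => by
    have h : x ∈ Function.support b := fun e => hx (by rw [e, Complex.ofReal_zero])
    rw [b.support_eq] at h
    exact mem_ball_zero_iff.1 h
  refine ⟨fun ξ => (b ξ : ℂ), volume.real (Metric.ball (0 : E3) 1),
    ⟨Complex.ofRealCLM.contDiff.comp b.contDiff,
      b.hasCompactSupport.comp_left (g := Complex.ofReal) Complex.ofReal_zero⟩,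
    ENNReal.toReal_pos (Metric.measure_ball_pos _ _ one_pos).ne' measure_ball_lt_top.ne,
    fun ξ hξ => ?_, fun ξ hξ => ?_⟩
  · have e : cr (fun ξ => (b ξ : ℂ)) (fun ξ => (b ξ : ℂ)) ξ = ((∫ y, b (y - ξ) * b y : ℝ) : ℂ) := by
      rw [← integral_complex_ofReal]
      refine integral_congr_ae (Eventually.of_forall fun y => ?_)
      simp only [neg_sub, Complex.conj_ofReal, Complex.ofReal_mul]
    have hi : Integrable fun y => b (y - ξ) * b y :=
      ((b.continuous.comp (continuous_id.sub continuous_const)).mul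
        b.continuous).integrable_of_hasCompactSupport b.hasCompactSupport.mul_left
    rw [e, Complex.norm_real]
    refine le_trans ?_ (le_abs_self _)
    rw [← integral_indicator_one Metric.isOpen_ball.measurableSet]
    refine integral_mono ((integrable_indicator_iff Metric.isOpen_ball.measurableSet).2
      (integrableOn_const measure_ball_lt_top.ne)) hi fun y => ?_
    by_cases hy : y ∈ Metric.ball (0 : E3) 1
    · have h2 := mem_ball_zero_iff.1 hy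
      have h3 := norm_sub_le y ξ
      simp only
      rw [indicator_of_mem hy, h1 y (by linarith), h1 (y - ξ) (by linarith), mul_one]
      exact le_rfl
    · rw [indicator_of_notMem hy]
      exact mul_nonneg b.nonneg b.nonneg
  · by_contra hne
    obtain ⟨x, y, hx, hy, rfl⟩ := cr_supp hne
    have h2 := norm_sub_le x y
    linarith [h0 x hx, h0 y hy]

theorem wex_dc (y : E3) :
    (((1 + ‖y‖) ^ 3)⁻¹) ^ 2 ≤ dc 2 (y 0) * dc 2 (y 1) * dc 2 (y 2) := by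
  have h : ∀ i, dc 2 ‖y‖ ≤ dc 2 (y i) := fun i =>
    dc_mono 2 (by rw [abs_norm]; exact PiLp.norm_apply_le y i)
  have h0 := (dc_pos 2 ‖y‖).le
  refine le_of_eq_of_le ?_ (mul_le_mul (mul_le_mul (h 0) (h 1) h0 (dc_pos _ _).le) (h 2) h0
    (mul_pos (dc_pos _ _) (dc_pos _ _)).le)
  rw [dc, abs_norm, ← inv_pow, ← inv_pow]
  generalize (1 + ‖y‖)⁻¹ = u
  ring

theorem exists_W : ∃ W w c C, Wgt W w c C := by
  obtain ⟨β, c, hβ, hc, lo, van⟩ := wex_beta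
  have hcc := cc_of_sm hβ
  have hW := (hcc.cr hcc).ker
  obtain ⟨M, hM⟩ := hW.bdd
  have hM0 : 0 < M := hc.trans_le ((lo 0 (by simp)).trans (hM 0))
  obtain ⟨C, hC0, hC⟩ := hβ.decay 3
  have hK : Ker fun ξ => ((M⁻¹ : ℝ) : ℂ) * cr β β ξ :=
    ((hcc.cr hcc).mul_left (G := fun _ => ((M⁻¹ : ℝ) : ℂ)) continuous_const).ker
  have e : (fun y => ((M⁻¹ * ‖𝓕⁻ β y‖ ^ 2 : ℝ) : ℂ)) =
      𝓕⁻ fun ξ => ((M⁻¹ : ℝ) : ℂ) * cr β β ξ := funext fun y => by
    rw [inv_const_mul, inv_cr hcc hcc, Complex.mul_conj', Complex.ofReal_mul, Complex.ofReal_pow]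
  have hi : Integrable fun y => M⁻¹ * ‖𝓕⁻ β y‖ ^ 2 := by
    simpa only [sq] using (inv_mul_int hcc hcc).const_mul M⁻¹
  have hF : Integrable (𝓕 fun ξ => ((M⁻¹ : ℝ) : ℂ) * cr β β ξ) := by
    have h := hi.ofReal (𝕜 := ℂ)
    have h' : Integrable (𝓕⁻ fun ξ => ((M⁻¹ : ℝ) : ℂ) * cr β β ξ) := e ▸ h
    refine h'.comp_neg.congr (Eventually.of_forall fun y => ?_)
    simp only [Real.fourierInv_eq_fourier_neg, neg_neg]
  have hn : ∀ ξ, ‖((M⁻¹ : ℝ) : ℂ) * cr β β ξ‖ = M⁻¹ * ‖cr β β ξ‖ := fun ξ => by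
    rw [norm_mul, Complex.norm_real, Real.norm_of_nonneg (inv_pos.2 hM0).le]
  refine ⟨fun ξ => ((M⁻¹ : ℝ) : ℂ) * cr β β ξ, fun y => M⁻¹ * ‖𝓕⁻ β y‖ ^ 2, M⁻¹ * c,
    M⁻¹ * C ^ 2 + 1, ⟨continuous_const.mul (hβ.ker_inv.cont.norm.pow 2), hi,
      fun y => by positivity, fun ξ => ?_⟩, by positivity, by positivity, fun ξ hξ => ?_,
    fun ξ => ?_, fun ξ hξ => by rw [van ξ hξ, mul_zero], fun y => ?_⟩
  · rw [e, hK.cont.fourier_fourierInv_eq hK.int hF]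
  · rw [hn]
    exact mul_le_mul_of_nonneg_left (lo ξ hξ) (inv_pos.2 hM0).le
  · rw [hn, inv_mul_le_iff₀ hM0, mul_one]
    exact hM ξ
  · have h1 := pow_le_pow_left₀ (norm_nonneg _) (hC y) 2
    have h2 := mul_le_mul_of_nonneg_left (wex_dc y) (sq_nonneg C)
    have h3 : 0 ≤ dc 2 (y 0) * dc 2 (y 1) * dc 2 (y 2) :=
      (mul_pos (mul_pos (dc_pos _ _) (dc_pos _ _)) (dc_pos _ _)).le
    rw [mul_pow] at h1
    have h4 := mul_le_mul_of_nonneg_left (h1.trans h2) (inv_pos.2 hM0).le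
    rw [add_mul, one_mul, mul_assoc]
    linarith

end Vale.Agent.P106
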