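import Vale.Agent.P106.MuB
import Vale.Agent.P106.EnvB
import Vale.Agent.P106.Gwz
import Vale.Agent.P106.Wex

/-!
Planar local smoothing for a thin amplitude. `exists_W`, `gwz_cov` with `η / 2`, `exists_h`, `δ = min δ₀ (a * (4 ^ κ)⁻¹ / 16)`, `ρ = 4 ^ n / δ`, `A` from `exists_Lm` for `a / (1 + (4 ^ κ)⁻¹ / 8)`,
`F j = lf h ρ (cap .. j * 𝓕 G)` (`lf_cc`, `lf_supp`, `cap_cs`). `par n F 0 = lf h ρ (amp * 𝓕 G)` (`blk_zero`, `sum_cap`). By `lint_e3`, `inv_lf`, `Tw_eq`, `Np_tm` and `1 / 2 ≤ ‖𝓕⁻ h (t / ρ)‖` for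
`0 ≤ t ≤ 4 ^ n` the left side is at most `16 * Np volume 4 (𝓕⁻ (par n F 0))`. Then `envA`, `mu_four`, and `n + 1 ≤ C (4 ^ n) ^ (η / 2)` (`l4a_log`).
-/

open MeasureTheory Set Real Filter Topology
open scoped FourierTransform RealInnerProductSpace ContDiff ENNReal SchwartzMap

noncomputable section

namespace Vale.Agent.P106

open Vale.Agent.P117

theorem l4a_log {η : ℝ} (hη : 0 < η) :
    ∃ C : ℝ, 0 < C ∧ ∀ n : ℕ, (n + 3 : ℝ) ≤ C * (4 ^ n) ^ η := by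
  have hl : 0 < η * Real.log 4 := mul_pos hη (Real.log_pos (by norm_num))
  refine ⟨3 + 1 / (η * Real.log 4), by positivity, fun n => ?_⟩
  have h1 : ((4 : ℝ) ^ n) ^ η = Real.exp (n * (η * Real.log 4)) := by
    rw [Real.rpow_def_of_pos (by positivity), Real.log_pow]
    congr 1
    ring
  rw [h1]
  have h2 := Real.add_one_le_exp (n * (η * Real.log 4))
  generalize η * Real.log 4 = L at hl h2 ⊢
  have h3 : (3 + 1 / L) * (n * L + 1) = 3 * (n * L) + 3 + n + 1 / L := by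
    field_simp
    ring
  have h4 : 0 ≤ (n : ℝ) * L := by positivity
  have h5 : 0 < 1 / L := by positivity
  calc (n + 3 : ℝ) ≤ (3 + 1 / L) * (n * L + 1) := by rw [h3]; linarith
    _ ≤ _ := mul_le_mul_of_nonneg_left h2 (by positivity)

theorem l4a_pt {a b : ℂ} (ha : 1 / 2 ≤ ‖a‖) :
    ‖b‖ₑ ^ (4 : ℝ) ≤ 16 * ‖a * b‖ₑ ^ (4 : ℝ) := by
  have h1 : ‖b‖ₑ ≤ 2 * ‖a * b‖ₑ := by
    have h2 : ‖b‖ ≤ 2 * ‖a * b‖ := by
      rw [norm_mul]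
      nlinarith [norm_nonneg b]
    rw [← ofReal_norm, ← ofReal_norm]
    calc ENNReal.ofReal ‖b‖ ≤ ENNReal.ofReal (2 * ‖a * b‖) := ENNReal.ofReal_le_ofReal h2
      _ = _ := by rw [ENNReal.ofReal_mul (by norm_num)]; simp
  have h3 : (2 : ℝ≥0∞) ^ (4 : ℝ) = 16 := by
    have : (4 : ℝ) = ((4 : ℕ) : ℝ) := by norm_num
    rw [this, ENNReal.rpow_natCast]
    norm_num
  calc ‖b‖ₑ ^ (4 : ℝ) ≤ (2 * ‖a * b‖ₑ) ^ (4 : ℝ) := ENNReal.rpow_le_rpow h1 (by norm_num)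
    _ = _ := by rw [ENNReal.mul_rpow_of_nonneg _ _ (by norm_num), h3]

theorem l4a_low {U : ℂ → ℂ} {h : ℝ → ℂ} {ρ R : ℝ} (hU : Cc U) (hh : Sm h) (hρ : 0 < ρ)
    (hl : ∀ t ∈ Icc (0 : ℝ) R, 1 / 2 ≤ ‖𝓕⁻ h (t / ρ)‖) :
    ∫⁻ t in Icc (0 : ℝ) R, Np volume 4 (fun x => 𝓕⁻ (wv U t) x) ≤
      16 * Np volume 4 (𝓕⁻ (lf h ρ U)) := by
  have hc : Continuous (𝓕⁻ (lf h ρ U)) := continuous_inv (lf_cc hU hh hρ).ker.int
  have hm : Measurable fun y => ‖𝓕⁻ (lf h ρ U) y‖ₑ ^ (4 : ℝ) :=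
    hc.measurable.enorm.pow_const _
  have h1 : Np volume 4 (𝓕⁻ (lf h ρ U)) =
      ∫⁻ t : ℝ, ∫⁻ x : ℂ, ‖𝓕⁻ h (t / ρ) * 𝓕⁻ (wv U t) x‖ₑ ^ (4 : ℝ) := by
    unfold Np
    rw [lint_e3 hm]
    simp only [inv_lf hU hh hρ]
  rw [h1, ← lintegral_const_mul' _ _ (by norm_num)]
  refine le_trans (setLIntegral_mono' measurableSet_Icc fun t ht => ?_)
    (setLIntegral_le_lintegral _ _)
  rw [← lintegral_const_mul' _ _ (by norm_num)]
  exact lintegral_mono fun x => l4a_pt (hl t ht)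

theorem l4_amp {η : ℝ} (hη : 0 < η) : ∃ κ : ℕ, ∀ (a : ℝ) (φ : ℂ → ℂ) (c : ℝ → ℂ), 0 < a → Am φ →
    Prof c → (∀ ξ, φ ξ ≠ 0 → 0 ≤ ξ.re → a ≤ ‖ξ‖ + ξ.re ∧ ‖ξ‖ + ξ.re ≤ a * (1 + (4 ^ κ)⁻¹ / 2)) →
    ∃ C : ℝ, 0 < C ∧ ∀ (n : ℕ) (lam : ℝ), 2 ≤ n → (2 ^ n)⁻¹ ≤ lam → ∀ G : ℂ → ℂ, Nice G →
      Np (tm ℂ 0 (4 ^ n)) 4 (Tw (amp φ c lam) G) ≤
        ENNReal.ofReal (C * 4 ^ n * (4 ^ n) ^ η) * Np volume 4 G := by
  obtain ⟨W, w, c0, C0, hW⟩ := exists_W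
  obtain ⟨κ, C1, hC1, hg⟩ := gwz_cov hW (half_pos hη)
  obtain ⟨C2, hC2, hlog⟩ := l4a_log (half_pos hη)
  obtain ⟨h, hh, hh0, δ0, hδ0, hhl⟩ := exists_h
  refine ⟨κ, fun a φ c ha hφ hc hs => ?_⟩
  obtain ⟨δ, hδ, hδ1, hδ2⟩ : ∃ δ : ℝ, 0 < δ ∧ δ ≤ δ0 ∧ δ ≤ a * (4 ^ κ)⁻¹ / 16 :=
    ⟨min δ0 (a * (4 ^ κ)⁻¹ / 16), lt_min hδ0 (by positivity), min_le_left _ _, min_le_right _ _⟩
  have ha0 : 0 < a / (1 + (4 ^ κ)⁻¹ / 8) := by positivity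
  obtain ⟨A, hA⟩ := exists_Lm ha0
  obtain ⟨C3, hC3, henv⟩ := envA hW ha0
  obtain ⟨C4, hC4, hmu⟩ := mu_four hφ hc hh hδ
  refine ⟨16 * C1 * C2 * C3 * C4, by positivity, fun n lam hn hl G hG => ?_⟩
  have hlam : 0 < lam := lt_of_lt_of_le (by positivity) hl
  have hρ : 0 < (4 : ℝ) ^ n / δ := by positivity
  have hcc : ∀ j, Cc (cap φ c lam n j) := fun j => cc_of_sm (cap_am hφ hc hlam n j).sm
  have hac : Cc (amp φ c lam) := cc_of_sm (amp_am hφ hc hlam).sm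
  have hFG : Continuous (𝓕 G) := continuous_fourier hG.int
  have hF := hg A n (fun j => lf h (4 ^ n / δ) fun ξ => cap φ c lam n j ξ * 𝓕 G ξ)
    (fun j hj => ⟨(lf_cc ((hcc j).mul_right hFG) hh hρ).cont, fun ξ hξ => by
      by_contra h0
      apply hξ
      rw [hA]
      refine lf_supp ha hj hδ hδ2 hh0 ?_ h0
      intro ζ hζ
      have h1 : cap φ c lam n j ζ ≠ 0 := left_ne_zero_of_mul hζ
      have h2 := cap_cs hφ hc hlam h1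
      have h3 : φ ζ ≠ 0 := left_ne_zero_of_mul (left_ne_zero_of_mul h1)
      have h4 : 0 ≤ ζ.re := by linarith [h2.1]
      exact ⟨h4, (hs ζ h3 h4).1, (hs ζ h3 h4).2, h2.2.2.2.2⟩⟩)
  have hpar : par n (fun j => lf h (4 ^ n / δ) fun ξ => cap φ c lam n j ξ * 𝓕 G ξ) 0 =
      lf h (4 ^ n / δ) fun ξ => amp φ c lam ξ * 𝓕 G ξ := by
    funext ξ
    simp only [par, blk_zero, lf]
    rw [← Finset.sum_mul, ← Finset.sum_mul, sum_cap hφ hc hlam hn]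
  rw [hpar] at hF
  have hlow := l4a_low (R := 4 ^ n) (hac.mul_right hFG) hh hρ (fun t ht => hhl _ (by
    have h4 : (0 : ℝ) < 4 ^ n := by positivity
    rw [abs_of_nonneg (div_nonneg ht.1 hρ.le), div_le_iff₀ hρ]
    calc t ≤ 4 ^ n := ht.2
      _ = δ * (4 ^ n / δ) := by field_simp
      _ ≤ δ0 * (4 ^ n / δ) := mul_le_mul_of_nonneg_right hδ1 hρ.le))
  have hsum : ∑ m ∈ Finset.range (n + 1), ∑ i ∈ Finset.range (2 ^ m),
      Q (fun ξ => W (Tz n m i (A ξ))) (blk (n - m) i)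
        (fun j => lf h (4 ^ n / δ) fun ξ => cap φ c lam n j ξ * 𝓕 G ξ) ≤
      ENNReal.ofReal ((n + 1) * (C3 * 4 ^ n * C4)) * Np volume 4 G := by
    have h1 : ∀ m ∈ Finset.range (n + 1), ∑ i ∈ Finset.range (2 ^ m),
        Q (fun ξ => W (Tz n m i (A ξ))) (blk (n - m) i)
          (fun j => lf h (4 ^ n / δ) fun ξ => cap φ c lam n j ξ * 𝓕 G ξ) ≤
        ENNReal.ofReal (C3 * 4 ^ n * C4) * Np volume 4 G := by
      intro m hm
      have hmn : m ≤ n := Nat.lt_succ_iff.mp (Finset.mem_range.mp hm)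
      calc _ ≤ ∑ i ∈ Finset.range (2 ^ m), ENNReal.ofReal (C3 * 4 ^ n) *
            ∫⁻ x, mu (𝓕⁻ h) (4 ^ n / δ) (cap φ c lam n) G n m i x ^ 2 := by
            refine Finset.sum_le_sum fun i hi => ?_
            simp only [hA]
            exact henv n m i hmn (Finset.mem_range.mp hi) _ h _ G hρ hh hcc hG
        _ ≤ ENNReal.ofReal (C3 * 4 ^ n) * (ENNReal.ofReal C4 * Np volume 4 G) := by
            rw [← Finset.mul_sum]
            exact mul_le_mul_right (hmu n m lam hmn hl G hG) _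
        _ = _ := by rw [ENNReal.ofReal_mul (p := C3 * 4 ^ n) (by positivity), mul_assoc]
    refine (Finset.sum_le_card_nsmul _ _ _ h1).trans (le_of_eq ?_)
    have h2 : ENNReal.ofReal (n + 1 : ℝ) = ((n + 1 : ℕ) : ℝ≥0∞) := by
      rw [← ENNReal.ofReal_natCast]
      push_cast
      rfl
    rw [Finset.card_range, nsmul_eq_mul, ENNReal.ofReal_mul (p := (n + 1 : ℝ)) (by positivity), h2]
    exact (mul_assoc _ _ _).symm
  have hT : Continuous (Tw (amp φ c lam) G) := Tw_cont hac.ker.int hG.int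
  rw [Np_tm hT.measurable]
  simp only [Tw_eq hac.ker.int hG.int]
  refine hlow.trans ?_
  have hreal : 16 * (C1 * (4 ^ n) ^ (η / 2) * ((n + 1) * (C3 * 4 ^ n * C4))) ≤
      16 * C1 * C2 * C3 * C4 * 4 ^ n * ((4 : ℝ) ^ n) ^ η := by
    have h4 : (0 : ℝ) < 4 ^ n := by positivity
    have h5 : ((4 : ℝ) ^ n) ^ η = (4 ^ n) ^ (η / 2) * (4 ^ n) ^ (η / 2) := by
      rw [← Real.rpow_add h4, add_halves]
    have h6 : (n + 1 : ℝ) ≤ C2 * (4 ^ n) ^ (η / 2) := by linarith [hlog n]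
    have h7 : 0 < ((4 : ℝ) ^ n) ^ (η / 2) := Real.rpow_pos_of_pos h4 _
    rw [h5]
    calc _ = (16 * C1 * (4 ^ n) ^ (η / 2) * (C3 * 4 ^ n * C4)) * (n + 1 : ℝ) := by ring
      _ ≤ (16 * C1 * (4 ^ n) ^ (η / 2) * (C3 * 4 ^ n * C4)) * (C2 * (4 ^ n) ^ (η / 2)) :=
          mul_le_mul_of_nonneg_left h6 (by positivity)
      _ = _ := by ring
  calc _ ≤ 16 * (ENNReal.ofReal (C1 * (4 ^ n) ^ (η / 2)) *
        (ENNReal.ofReal ((n + 1) * (C3 * 4 ^ n * C4)) * Np volume 4 G)) :=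
        mul_le_mul_right (hF.trans (mul_le_mul_right hsum _)) _
    _ = ENNReal.ofReal (16 * (C1 * (4 ^ n) ^ (η / 2) * ((n + 1) * (C3 * 4 ^ n * C4)))) *
        Np volume 4 G := by
        rw [ENNReal.ofReal_mul (p := 16) (by norm_num),
          ENNReal.ofReal_mul (p := C1 * (4 ^ n) ^ (η / 2)) (by positivity)]
        simp only [ENNReal.ofReal_ofNat, mul_assoc]
    _ ≤ _ := mul_le_mul_left (ENNReal.ofReal_le_ofReal hreal) _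

end Vale.Agent.P106
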