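import Vale.Agent.P106.L4A

/-!
Planar local smoothing. `K = (4 ^ κ)⁻¹`, `h = K / 32`, `N = 256 * 4 ^ κ + 1`, `φ l ξ = φ ξ * ps ((‖ξ‖ + ξ.re) / h - l)` is `Am` (`Sw.mul`). Where `amp φ c lam ≠ 0` one has `0 ≤ (‖ξ‖ + ξ.re) / h ≤ N - 1`, so
`amp φ c lam = ∑ l ∈ range N, amp (φ l) c lam` (`ps_sum`). If `4 / K ≤ l - 1` use `l4_amp` with `a = h (l - 1)`; otherwise `φ l ξ ≠ 0` and `0 ≤ ξ.re` is impossible
(`1/4 ≤ ‖ξ‖ + ξ.re < h (l + 1)`), use `a = 1`. `choose`, `Tw_sum`, then `Np_sum_le` (write `ofReal C = ofReal (C ^ (1/4)) ^ 4`) or induction with `Np_add_le'`.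
-/

open MeasureTheory Set Real Filter Topology
open scoped FourierTransform RealInnerProductSpace ContDiff ENNReal SchwartzMap

noncomputable section

namespace Vale.Agent.P106

open Vale.Agent.P117

theorem l4b_am {φ : ℂ → ℂ} (hφ : Am φ) (h l : ℝ) :
    Am fun ξ => φ ξ * (ps ((‖ξ‖ + ξ.re) / h - l) : ℝ) := by
  refine ⟨(hφ.sw.mul fun ξ hξ => ?_).sm, fun ξ h0 => hφ.ann ξ (left_ne_zero_of_mul h0)⟩
  exact ps_sm.smooth.contDiffAt.comp ξ ((((contDiffAt_norm ℝ hξ).add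
    Complex.reCLM.contDiff.contDiffAt).div_const h).sub contDiffAt_const)

theorem l4b_int {φ : ℂ → ℂ} (hφ : Am φ) : Integrable φ :=
  hφ.sm.smooth.continuous.integrable_of_hasCompactSupport hφ.sm.cs

theorem l4_all {η : ℝ} (hη : 0 < η) {φ : ℂ → ℂ} {c : ℝ → ℂ} (hφ : Am φ) (hc : Prof c) :
    ∃ C : ℝ, 0 < C ∧ ∀ (n : ℕ) (lam : ℝ), 2 ≤ n → (2 ^ n)⁻¹ ≤ lam → ∀ G : ℂ → ℂ, Nice G →
      Np (tm ℂ 0 (4 ^ n)) 4 (Tw (amp φ c lam) G) ≤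
        ENNReal.ofReal (C * 4 ^ n * (4 ^ n) ^ η) * Np volume 4 G := by
  obtain ⟨κ, hκ⟩ := l4_amp hη
  have hQ : (1 : ℝ) ≤ 4 ^ κ := one_le_pow₀ (by norm_num)
  obtain ⟨K, hK⟩ : ∃ K : ℝ, K = (4 ^ κ)⁻¹ := ⟨_, rfl⟩
  rw [← hK] at hκ
  have hK0 : 0 < K := by rw [hK]; positivity
  have hK1 : K ≤ 1 := by rw [hK]; exact inv_le_one_of_one_le₀ hQ
  have hh : 0 < K / 32 := by positivity
  have h1 : ∀ l : ℕ, ∃ a : ℝ, 0 < a ∧ ∀ ξ : ℂ,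
      φ ξ * (ps ((‖ξ‖ + ξ.re) / (K / 32) - l) : ℝ) ≠ 0 → 0 ≤ ξ.re →
        a ≤ ‖ξ‖ + ξ.re ∧ ‖ξ‖ + ξ.re ≤ a * (1 + K / 2) := by
    intro l
    have h2 : ∀ ξ : ℂ, φ ξ * (ps ((‖ξ‖ + ξ.re) / (K / 32) - l) : ℝ) ≠ 0 →
        (l - 1) * (K / 32) < ‖ξ‖ + ξ.re ∧ ‖ξ‖ + ξ.re < (l + 1) * (K / 32) := by
      intro ξ h0
      have h3 : |(‖ξ‖ + ξ.re) / (K / 32) - l| < 1 := by
        by_contra h4
        exact h0 (by rw [ps_zero (not_lt.1 h4), Complex.ofReal_zero, mul_zero])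
      rw [abs_lt] at h3
      exact ⟨(lt_div_iff₀ hh).1 (by linarith [h3.1]), (div_lt_iff₀ hh).1 (by linarith [h3.2])⟩
    by_cases h5 : 4 ≤ (l - 1) * K
    · refine ⟨(l - 1) * (K / 32), by linarith, fun ξ h0 _ => ⟨(h2 ξ h0).1.le, ?_⟩⟩
      nlinarith [(h2 ξ h0).2, mul_le_mul_of_nonneg_right h5 hK0.le]
    · refine ⟨1, one_pos, fun ξ h0 h6 => ?_⟩
      exfalso
      linarith [(h2 ξ h0).2, (hφ.ann ξ (left_ne_zero_of_mul h0)).1, not_le.1 h5]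
  choose a ha0 ha using h1
  choose C hC0 hC using fun l : ℕ => hκ (a l) _ c (ha0 l) (l4b_am hφ (K / 32) l) hc (ha l)
  have hS : 0 < ∑ l ∈ Finset.range (256 * 4 ^ κ + 1), C l ^ (1 / 4 : ℝ) :=
    Finset.sum_pos (fun l _ => rpow_pos_of_pos (hC0 l) _) Finset.nonempty_range_add_one
  refine ⟨_, rpow_pos_of_pos hS 4, fun n lam hn hl G hG => ?_⟩
  have hl0 : 0 < lam := lt_of_lt_of_le (by positivity) hl
  have hi := fun l : ℕ => l4b_int (amp_am (l4b_am hφ (K / 32) l) hc hl0)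
  have h7 : amp φ c lam = fun ξ => ∑ l ∈ Finset.range (256 * 4 ^ κ + 1),
      amp (fun ξ => φ ξ * (ps ((‖ξ‖ + ξ.re) / (K / 32) - l) : ℝ)) c lam ξ := by
    funext ξ
    have h8 : ∀ l : ℕ, amp (fun ξ => φ ξ * (ps ((‖ξ‖ + ξ.re) / (K / 32) - l) : ℝ)) c lam ξ =
        amp φ c lam ξ * (ps ((‖ξ‖ + ξ.re) / (K / 32) - l) : ℝ) := fun l => mul_right_comm _ _ _
    simp only [h8]
    rw [← Finset.mul_sum]
    by_cases h0 : amp φ c lam ξ = 0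
    · rw [h0, zero_mul]
    · obtain ⟨b1, -, -, b4⟩ := amp_ne hφ hc hl0 h0
      have b2 : ξ.re ≤ ‖ξ‖ := Complex.re_le_norm ξ
      have b3 : K * 4 ^ κ = 1 := by rw [hK]; exact inv_mul_cancel₀ (by positivity)
      rw [← Complex.ofReal_sum, ps_sum (div_nonneg (by linarith [norm_nonneg ξ]) hh.le),
        Complex.ofReal_one, mul_one]
      rw [div_le_iff₀ hh]
      push_cast
      nlinarith
  have h9 : Tw (amp φ c lam) G = fun q => ∑ l ∈ Finset.range (256 * 4 ^ κ + 1),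
      Tw (amp (fun ξ => φ ξ * (ps ((‖ξ‖ + ξ.re) / (K / 32) - l) : ℝ)) c lam) G q := by
    funext q
    rw [h7]
    exact Tw_sum _ (fun l _ => hi l) hG.int q
  have h10 : ∀ x : ℝ, 0 < x → ENNReal.ofReal (x ^ (4 : ℝ) * 4 ^ n * (4 ^ n) ^ η) * Np volume 4 G =
      ENNReal.ofReal x ^ (4 : ℝ) * (ENNReal.ofReal (4 ^ n * (4 ^ n) ^ η) * Np volume 4 G) := by
    intro x hx
    rw [mul_assoc, ENNReal.ofReal_mul (by positivity), ENNReal.ofReal_rpow_of_pos hx, mul_assoc]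
  rw [h9, h10 _ hS]
  refine Np_sum_le (by norm_num) _ (fun l _ => (Tw_cont (hi l) hG.int).measurable)
    (fun l _ => (rpow_pos_of_pos (hC0 l) _).le) fun l _ => ?_
  rw [← h10 _ (rpow_pos_of_pos (hC0 l) _), ← rpow_mul (hC0 l).le]
  norm_num
  simpa using hC l n lam hn hl G hG

end Vale.Agent.P106
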