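import Vale.Agent.P106.Amp
import Vale.Agent.P117.Cyl

/-!
The lift to three-space. `lint_e3`: `measurePreserving_pt`, `measurePreserving_mk`, `lintegral_prod_symm`. `inv_lf`: `inv_eq`, the same maps, Fubini (`Cc.ker` gives integrability), and
`∫ τ, ex (τ t) * (ρ * h (ρ (τ - r))) = ex (r t) * 𝓕⁻ h (t / ρ)`. `exists_h`: a normalised bump (`ContDiffBump.normed`), `𝓕⁻ h 0 = 1`, continuity.
`lf_supp`: `K = (4 ^ κ)⁻¹ ≤ 1`, `a₀ = a / (1 + K / 8)`, `δ ≤ a₀ K / 8`, `ζ = ⟨ξ 0, ξ 1⟩`, `A = ‖ζ‖ + ζ.re`, `σ = ξ 2 - ‖ζ‖`, `|σ| ≤ δ / 4 ^ n`. With `(a', b', c') = Lm a₀ ξ`: `a₀ a' = A + σ`,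
`a₀ (2 ^ n b' - j a') = A * kap n j ζ + σ (2 ^ n / 2 - j)`, `16 a₀² (a' c' - b'²) = σ (2 ‖ζ‖ + σ)`; `A ≤ a₀ (1 + 11 K / 16)`.
-/

open MeasureTheory Set Real Filter Topology
open scoped FourierTransform RealInnerProductSpace ContDiff ENNReal SchwartzMap

noncomputable section

namespace Vale.Agent.P106

open Vale.Agent.P117

variable {U : ℂ → ℂ} {h : ℝ → ℂ} {ρ a : ℝ}

theorem lift_mp : MeasurePreserving fun w : ℂ × ℝ => pt w.1.re w.1.im w.2 :=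
  measurePreserving_pt.comp
    (Complex.volume_preserving_equiv_real_prod.prod (MeasurePreserving.id volume))

theorem lift_cont : Continuous fun w : ℂ × ℝ => pt w.1.re w.1.im w.2 :=
  continuous_pt.comp (f := fun w : ℂ × ℝ => ((w.1.re, w.1.im), w.2)) (by fun_prop)

theorem lift_emb : MeasurableEmbedding fun w : ℂ × ℝ => pt w.1.re w.1.im w.2 :=
  lift_cont.measurableEmbedding fun w w' h => by
    have h0 := congrArg (· 0) h
    have h1 := congrArg (· 1) h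
    have h2 := congrArg (· 2) h
    exact Prod.ext (Complex.ext h0 h1) h2

theorem lift_mk : Continuous fun ξ : E3 => (⟨ξ 0, ξ 1⟩ : ℂ) :=
  continuous_mk.comp (f := fun ξ : E3 => (ξ 0, ξ 1)) (by fun_prop)

theorem lift_one (hρ : 0 < ρ) (h : ℝ → ℂ) (r t : ℝ) :
    ∫ τ : ℝ, ex (τ * t) * (ρ * h (ρ * (τ - r))) = ex (t * r) * 𝓕⁻ h (t / ρ) := by
  have h1 := Measure.integral_comp_mul_left (fun u : ℝ => ex ⟪u, t / ρ⟫ * h u) ρ
  have h2 := integral_sub_right_eq_self (μ := volume)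
    (fun τ : ℝ => ex ⟪ρ * τ, t / ρ⟫ * h (ρ * τ)) r
  have e : ∀ τ : ℝ, ex (τ * t) * (ρ * h (ρ * (τ - r))) =
      (ex (t * r) * ρ) * (ex ⟪ρ * (τ - r), t / ρ⟫ * h (ρ * (τ - r))) := fun τ => by
    have e1 : τ * t = t * r + ⟪ρ * (τ - r), t / ρ⟫ := by
      simp only [RCLike.inner_apply, conj_trivial]
      field_simp
      ring
    rw [e1, ex_add]
    ring
  have h3 : (ρ : ℂ) ≠ 0 := by exact_mod_cast hρ.ne'
  simp only [e]
  rw [integral_const_mul, h2, h1, inv_eq, abs_of_pos (inv_pos.2 hρ), Complex.real_smul]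
  push_cast
  field_simp

theorem lint_e3 {g : E3 → ℝ≥0∞} (hg : Measurable g) :
    ∫⁻ y, g y = ∫⁻ t : ℝ, ∫⁻ x : ℂ, g (pt x.re x.im t) := by
  rw [← lift_mp.lintegral_comp hg]
  exact lintegral_prod_symm' _ (hg.comp lift_cont.measurable)

theorem pt_sub (x y : ℂ) (s t : ℝ) :
    pt x.re x.im s - pt y.re y.im t = pt (x - y).re (x - y).im (s - t) := by
  ext i
  fin_cases i <;> simp [pt]

theorem lf_cc (hU : Cc U) (hh : Sm h) (hρ : 0 < ρ) : Cc (lf h ρ U) := by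
  obtain ⟨R, hR⟩ := hU.supp
  obtain ⟨R', hR'⟩ := (cc_of_sm hh).supp
  refine ⟨(hU.cont.comp lift_mk).mul (continuous_const.mul (hh.smooth.continuous.comp
    (continuous_const.mul ((by fun_prop : Continuous fun ξ : E3 => ξ 2).sub lift_mk.norm)))),
    2 * R + R' / ρ, fun ξ hξ => ?_⟩
  by_contra h0
  have h1 : ‖(⟨ξ 0, ξ 1⟩ : ℂ)‖ ≤ R := not_lt.1 fun h2 => h0 (by rw [lf, hR _ h2, zero_mul])
  have h2 : ‖ρ * (ξ 2 - ‖(⟨ξ 0, ξ 1⟩ : ℂ)‖)‖ ≤ R' :=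
    not_lt.1 fun h2 => h0 (by rw [lf, hR' _ h2, mul_zero, mul_zero])
  rw [Real.norm_eq_abs, abs_mul, abs_of_pos hρ, ← le_div_iff₀' hρ] at h2
  have h3 := norm_sq_e3 ξ
  have h4 := norm_sq_cx (⟨ξ 0, ξ 1⟩ : ℂ)
  have h5 := norm_nonneg (⟨ξ 0, ξ 1⟩ : ℂ)
  have h6 : |ξ 2| ≤ R + R' / ρ := by
    rw [abs_le] at h2 ⊢
    constructor <;> linarith [h2.1, h2.2]
  have h7 : ‖ξ‖ ≤ ‖(⟨ξ 0, ξ 1⟩ : ℂ)‖ + |ξ 2| := by
    refine abs_le_of_sq_le_sq' ?_ (by positivity) |>.2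
    simp only at h4
    nlinarith [sq_abs (ξ 2), mul_nonneg h5 (abs_nonneg (ξ 2))]
  linarith

theorem inv_lf (hU : Cc U) (hh : Sm h) (hρ : 0 < ρ) (x : ℂ) (t : ℝ) :
    𝓕⁻ (lf h ρ U) (pt x.re x.im t) = 𝓕⁻ h (t / ρ) * 𝓕⁻ (wv U t) x := by
  have hi : Integrable fun ξ : E3 => ex ⟪ξ, pt x.re x.im t⟫ * lf h ρ U ξ :=
    ((lf_cc hU hh hρ).mul_left (contDiff_ex.continuous.comp (by fun_prop))).ker.int
  rw [inv_eq, ← lift_mp.integral_comp lift_emb, inv_eq (wv U t), ← integral_const_mul]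
  refine (integral_prod _ ((lift_mp.integrable_comp_emb lift_emb).2 hi)).trans
    (integral_congr_ae (Eventually.of_forall fun ζ => ?_))
  have e : ∀ τ : ℝ, ex ⟪pt ζ.re ζ.im τ, pt x.re x.im t⟫ * lf h ρ U (pt ζ.re ζ.im τ) =
      (ex ⟪ζ, x⟫ * U ζ) * (ex (τ * t) * (ρ * h (ρ * (τ - ‖ζ‖)))) := fun τ => by
    rw [inner_e3, inner_cx, ex_add]
    simp only [lf, pt_zero, pt_one, pt_two, Complex.eta]
    ring
  simp only [Function.comp_apply, e]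
  rw [integral_const_mul, lift_one hρ, wv]
  ring

theorem exists_h : ∃ h : ℝ → ℂ, Sm h ∧ (∀ u, 1 < |u| → h u = 0) ∧
    ∃ δ : ℝ, 0 < δ ∧ ∀ s, |s| ≤ δ → 1 / 2 ≤ ‖𝓕⁻ h s‖ := by
  let f : ContDiffBump (0 : ℝ) := ⟨1 / 2, 1, by norm_num, by norm_num⟩
  have hs : Sm fun u => ((f.normed volume u : ℝ) : ℂ) :=
    ⟨Complex.ofRealCLM.contDiff.comp f.contDiff_normed,
      f.hasCompactSupport_normed.comp_left Complex.ofReal_zero⟩
  refine ⟨_, hs, fun u hu => ?_, ?_⟩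
  · have h1 : u ∉ Function.support (f.normed volume) := by
      rw [f.support_normed_eq, mem_ball_zero_iff, Real.norm_eq_abs]
      exact not_lt.2 hu.le
    rw [Function.notMem_support.1 h1, Complex.ofReal_zero]
  · have h1 : 𝓕⁻ (fun u => ((f.normed volume u : ℝ) : ℂ)) 0 = 1 := by
      rw [inv_eq]
      simp only [inner_zero_right, ex, mul_zero, Complex.ofReal_zero, zero_mul, Complex.exp_zero,
        one_mul]
      rw [integral_complex_ofReal, f.integral_normed, Complex.ofReal_one]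
    have h2 := (continuous_inv hs.ker.int).norm.continuousAt (x := 0)
    have h3 := h2.eventually (lt_mem_nhds (show (1 / 2 : ℝ) < _ by simp only [h1]; norm_num))
    obtain ⟨δ, hδ, h4⟩ := Metric.nhds_basis_closedBall.eventually_iff.1 h3
    exact ⟨δ, hδ, fun s hs => (h4 (by rwa [mem_closedBall_zero_iff, Real.norm_eq_abs])).le⟩

theorem exists_Lm (ha : 0 < a) : ∃ A : E3 ≃L[ℝ] E3, ∀ ξ, A ξ = Lm a ξ := by
  let L : E3 →ₗ[ℝ] E3 :=
    { toFun := Lm a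
      map_add' := fun x y => by
        ext i
        fin_cases i <;> simp [Lm, pt] <;> ring
      map_smul' := fun c x => by
        ext i
        fin_cases i <;> simp [Lm, pt] <;> ring }
  have hL : Function.Injective L := by
    rw [injective_iff_map_eq_zero]
    intro ξ h
    have h0 : (ξ 2 + ξ 0) / a = 0 := congrArg (· 0) h
    have h1 : (ξ 1 + 2 * (ξ 2 + ξ 0)) / (4 * a) = 0 := congrArg (· 1) h
    have h2 : (ξ 2 - ξ 0 + 4 * ξ 1 + 4 * (ξ 2 + ξ 0)) / (16 * a) = 0 := congrArg (· 2) h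
    rw [div_eq_zero_iff, or_iff_left (by positivity)] at h0 h1 h2
    ext i
    fin_cases i
    · change ξ 0 = 0
      linarith
    · change ξ 1 = 0
      linarith
    · change ξ 2 = 0
      linarith
  exact ⟨(LinearEquiv.ofInjectiveEndo L hL).toContinuousLinearEquiv, fun _ => rfl⟩

theorem lf_supp (ha : 0 < a) {κ n j : ℕ} (hj : j < 2 ^ n) {δ : ℝ} (hδ : 0 < δ)
    (hδ' : δ ≤ a * (4 ^ κ)⁻¹ / 16) (hh : ∀ u, 1 < |u| → h u = 0)
    (hU : ∀ ζ, U ζ ≠ 0 → 0 ≤ ζ.re ∧ a ≤ ‖ζ‖ + ζ.re ∧ ‖ζ‖ + ζ.re ≤ a * (1 + (4 ^ κ)⁻¹ / 2) ∧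
      |kap n j ζ| ≤ 1) {ξ : E3} (h0 : lf h (4 ^ n / δ) U ξ ≠ 0) :
    Lm (a / (1 + (4 ^ κ)⁻¹ / 8)) ξ ∈ th κ n j := by
  obtain ⟨h1, h2, h3, h4⟩ := hU ⟨ξ 0, ξ 1⟩ (left_ne_zero_of_mul h0)
  have h5 : |4 ^ n / δ * (ξ 2 - ‖(⟨ξ 0, ξ 1⟩ : ℂ)‖)| ≤ 1 :=
    not_lt.1 fun h6 => h0 (by rw [lf, hh _ h6, mul_zero, mul_zero])
  have h6 := norm_sq_cx (⟨ξ 0, ξ 1⟩ : ℂ)
  have h7 := norm_nonneg (⟨ξ 0, ξ 1⟩ : ℂ)
  simp only [kap, pp] at h1 h2 h3 h4 h6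
  have hK1 : ((4 : ℝ) ^ κ)⁻¹ ≤ 1 := inv_le_one_of_one_le₀ (one_le_pow₀ (by norm_num))
  have hK0 : (0 : ℝ) < (4 ^ κ)⁻¹ := by positivity
  have hj' : (j : ℝ) ≤ 2 ^ n := by exact_mod_cast hj.le
  have hj0 : (0 : ℝ) ≤ j := j.cast_nonneg
  have h24 : (2 : ℝ) ^ n ≤ 4 ^ n := pow_le_pow_left₀ (by norm_num) (by norm_num) n
  have h41 : (1 : ℝ) ≤ 4 ^ n := one_le_pow₀ (by norm_num)
  simp only [th, Lm, mem_ofPred_eq, pt_zero, pt_one, pt_two]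
  generalize ((4 : ℝ) ^ κ)⁻¹ = K at *
  generalize ‖(⟨ξ 0, ξ 1⟩ : ℂ)‖ = N at *
  generalize (4 : ℝ) ^ n = T at *
  generalize (2 : ℝ) ^ n = S at *
  obtain ⟨b, hb⟩ : ∃ b, b = a / (1 + K / 8) := ⟨_, rfl⟩
  have hb0 : 0 < b := by rw [hb]; positivity
  have hab : a = b * (1 + K / 8) := by rw [hb]; field_simp
  rw [← hb]
  subst hab
  obtain ⟨σ, hσ⟩ : ∃ σ, ξ 2 = N + σ := ⟨ξ 2 - N, by ring⟩
  rw [hσ] at h5 ⊢
  have hT : 0 < T := by linarith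
  have hbK : 0 < b * K := by positivity
  have hKK : b * K * K ≤ b * K := by nlinarith
  have hbb : b * K ≤ b := by nlinarith
  have h8 : T * |σ| ≤ δ := by
    rwa [add_sub_cancel_left, abs_mul, abs_of_pos (by positivity), div_mul_eq_mul_div,
      div_le_one hδ] at h5
  have h9 : δ ≤ b * K / 8 := by nlinarith
  have h10 : |σ| ≤ b * K / 8 := by nlinarith [abs_nonneg σ]
  have h11 : N + ξ 0 ≤ b + 11 * (b * K) / 16 := by nlinarith
  have hA : 0 < N + ξ 0 := lt_of_lt_of_le (by positivity) h2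
  obtain ⟨h12, h13⟩ := abs_le.1 h10
  refine ⟨(one_le_div hb0).2 (by nlinarith), (div_le_iff₀ hb0).2 (by nlinarith), ?_, ?_⟩
  · have e : S * ((ξ 1 + 2 * (N + σ + ξ 0)) / (4 * b)) - j * ((N + σ + ξ 0) / b) =
        ((N + ξ 0) * (S * ((ξ 1 / (N + ξ 0) + 2) / 4) - j) + σ * (S / 2 - j)) / b := by
      field_simp
      ring
    rw [e, abs_div, abs_of_pos hb0, div_le_iff₀ hb0]
    refine (abs_add_le _ _).trans ?_
    rw [abs_mul, abs_mul, abs_of_pos hA]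
    have h14 : |S / 2 - j| ≤ T := abs_le.2 ⟨by linarith, by linarith⟩
    have h15 := mul_le_mul_of_nonneg_left h14 (abs_nonneg σ)
    have h16 := mul_le_mul_of_nonneg_left h4 hA.le
    linarith
  · have e : (N + σ + ξ 0) / b * ((N + σ - ξ 0 + 4 * ξ 1 + 4 * (N + σ + ξ 0)) / (16 * b)) -
        ((ξ 1 + 2 * (N + σ + ξ 0)) / (4 * b)) ^ 2 = σ * (2 * N + σ) / (16 * b ^ 2) := by
      field_simp
      linear_combination 16 * h6
    rw [e, abs_div, abs_of_pos (show 0 < 16 * b ^ 2 by positivity), div_le_iff₀ (by positivity),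
      abs_mul, inv_mul_eq_div, le_div_iff₀ hT]
    have h14 : |2 * N + σ| ≤ 5 * b := abs_le.2 ⟨by linarith, by linarith⟩
    have h15 : T * |σ| ≤ b := by linarith
    have h16 := mul_le_mul h15 h14 (abs_nonneg _) hb0.le
    nlinarith

end Vale.Agent.P106
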