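import Vale.Agent.P106.Polar

/-!
Two families of `L¹` bounds, by `l1_lin` (with `a = b`) and `l1_unif`. `bes`: `bs α j (2 ^ j • η) = chi ‖η‖ * (s² + 4 π² ‖η‖²) ^ (-α / 2)`, `s = (2 ^ j)⁻¹ ∈ [0, 1]`; smooth in `(s, η)`, locally zero for `‖η‖ < 1/2`.
`low`: `lw N ξ = ∑ j ∈ range N, chi (2 ^ j ‖ξ‖)`, so `wv (lw N) t = lw N + ∑ j ∈ range N, (ex (t ‖ξ‖) - 1) chi (2 ^ j ‖ξ‖)`. The kernels of `bt (‖ξ‖²)` and `bt (4 ^ N ‖ξ‖²)` have the same `L¹` norm.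
After scaling the term `j` is `τ * N (τ, η)`, `τ = t / 2 ^ j ∈ [0, 2]`, `N (τ, η) = 2 π i ‖η‖ * dslope Complex.exp 0 (2 π i τ ‖η‖) * chi ‖η‖` (`dslope Complex.exp 0` is entire:
`Complex.differentiableOn_dslope`, `Differentiable.contDiff`, `ContDiff.restrict_scalars`); `∑ (2 ^ j)⁻¹ ≤ 2`.
-/

open MeasureTheory Set Real Filter Topology
open scoped FourierTransform RealInnerProductSpace ContDiff ENNReal SchwartzMap

noncomputable section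

namespace Vale.Agent.P106

open Vale.Agent.P117

theorem low_chi0 {u : ℝ} (h0 : 0 ≤ u) (h : u < 1 / 2) : chi u = 0 := by
  rw [chi, bt_one (by nlinarith), bt_one (by nlinarith)]
  simp

theorem low_chi2 {u : ℝ} (h : 2 < u) : chi u = 0 := by
  rw [chi, bt_zero (by nlinarith), bt_zero (by nlinarith)]
  simp

theorem low_bt (c : ℝ) : ContDiff ℝ ∞ fun ξ : E3 => bt (c * ‖ξ‖ ^ 2) :=
  bt_smooth.comp (contDiff_const.mul (contDiff_norm_sq ℝ))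

theorem low_chi : ContDiff ℝ ∞ fun ξ : E3 => chi ‖ξ‖ := by
  have h := cutb_ofReal ((low_bt 1).sub (low_bt 4))
  simpa only [one_mul, chi] using h

section par
variable {P : Type} [NormedAddCommGroup P] [NormedSpace ℝ P] {g : P × E3 → ℂ}

theorem low_sm (hg : ∀ z : P × E3, z.2 ≠ 0 → ContDiffAt ℝ ∞ g z) :
    ContDiff ℝ ∞ fun z : P × E3 => chi ‖z.2‖ * g z := by
  refine contDiff_iff_contDiffAt.2 fun z => ?_
  by_cases hz : z.2 = 0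
  · refine (contDiffAt_const (c := (0 : ℂ))).congr_of_eventuallyEq ?_
    have h : ∀ᶠ w : P × E3 in 𝓝 z, ‖w.2‖ < 1 / 2 :=
      (continuous_snd.norm.continuousAt (x := z)).eventually_lt continuousAt_const
        (by simp [hz])
    filter_upwards [h] with w hw
    rw [low_chi0 (norm_nonneg _) hw, zero_mul]
  · exact (low_chi.comp contDiff_snd).contDiffAt.mul (hg z hz)

theorem low_Sm (hg : ∀ z : P × E3, z.2 ≠ 0 → ContDiffAt ℝ ∞ g z) (a : P) :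
    Sm fun y : E3 => chi ‖y‖ * g (a, y) :=
  ⟨(low_sm hg).comp (f := fun y : E3 => (a, y)) (contDiff_prodMk_right a),
    HasCompactSupport.intro (isCompact_closedBall 0 2) fun y hy => by
      rw [low_chi2 (by simpa using hy), zero_mul]⟩

theorem low_unif (hg : ∀ z : P × E3, z.2 ≠ 0 → ContDiffAt ℝ ∞ g z) {S : Set P}
    (hS : IsCompact S) :
    ∃ C : ℝ, 0 < C ∧ ∀ a ∈ S, ∫ x, ‖𝓕⁻ (fun y : E3 => chi ‖y‖ * g (a, y)) x‖ ≤ C :=
  l1_unif (low_sm hg) hS (R := 2) fun a _ y hy => by rw [low_chi2 hy, zero_mul]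

end par

theorem low_scale (M : E3 → ℂ) {a : ℝ} (ha : 0 < a) :
    ∫ x, ‖𝓕⁻ (fun y : E3 => M (a • y)) x‖ = ∫ x, ‖𝓕⁻ M x‖ := by
  rw [← l1_lin M ha ha]
  have e : ∀ y : E3, pt (a * y 0) (a * y 1) (a * y 2) = a • y := fun y => pt_eta (a • y)
  simp only [e]

theorem low_Sm_scale {M : E3 → ℂ} (h : Sm M) {a : ℝ} (ha : 0 < a) : Sm fun y => M (a • y) :=
  ⟨h.smooth.comp (contDiff_const_smul a), h.cs.comp_smul ha.ne'⟩

theorem low_Sm_add {M M' : E3 → ℂ} (h : Sm M) (h' : Sm M') : Sm fun y => M y + M' y :=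
  ⟨h.smooth.add h'.smooth, h.cs.add h'.cs⟩

theorem low_Sm_mul {M : E3 → ℂ} (h : Sm M) (c : ℂ) : Sm fun y => c * M y :=
  ⟨contDiff_const.mul h.smooth, h.cs.mul_left⟩

theorem low_add {M M' : E3 → ℂ} (h : Sm M) (h' : Sm M') :
    ∫ x, ‖𝓕⁻ (fun y => M y + M' y) x‖ ≤ (∫ x, ‖𝓕⁻ M x‖) + ∫ x, ‖𝓕⁻ M' x‖ := by
  rw [← integral_add h.ker_inv.int.norm h'.ker_inv.int.norm]
  refine integral_mono_of_nonneg (Eventually.of_forall fun x => norm_nonneg _)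
    (h.ker_inv.int.norm.add h'.ker_inv.int.norm) (Eventually.of_forall fun x => ?_)
  simp only [inv_add h.ker.int h'.ker.int]
  exact norm_add_le _ _

theorem low_mul (M : E3 → ℂ) (c : ℂ) :
    ∫ x, ‖𝓕⁻ (fun y => c * M y) x‖ = ‖c‖ * ∫ x, ‖𝓕⁻ M x‖ := by
  simp only [inv_const_mul, norm_mul, integral_const_mul]

theorem low_sum {M : ℕ → E3 → ℂ} (h : ∀ j, Sm (M j)) (N : ℕ) :
    (Sm fun y => ∑ j ∈ Finset.range N, M j y) ∧
      ∫ x, ‖𝓕⁻ (fun y => ∑ j ∈ Finset.range N, M j y) x‖ ≤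
        ∑ j ∈ Finset.range N, ∫ x, ‖𝓕⁻ (M j) x‖ := by
  induction N with
  | zero =>
    have h0 := low_Sm_mul (h 0) 0
    have h1 := low_mul (M 0) 0
    simp only [zero_mul, norm_zero] at h0 h1
    simp only [Finset.range_zero, Finset.sum_empty]
    exact ⟨h0, h1.le⟩
  | succ N ih =>
    simp only [Finset.sum_range_succ]
    exact ⟨low_Sm_add ih.1 (h N), (low_add ih.1 (h N)).trans (add_le_add ih.2 le_rfl)⟩

theorem low_ds : ContDiff ℝ ∞ (dslope Complex.exp 0) := by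
  have h : Differentiable ℂ (dslope Complex.exp 0) := differentiableOn_univ.1
    ((Complex.differentiableOn_dslope univ_mem).2 Complex.differentiable_exp.differentiableOn)
  exact h.contDiff.restrict_scalars ℝ

/-- the difference quotient of the character -/
def lowq (z : ℝ × E3) : ℂ := ((2 * π * ‖z.2‖ : ℝ) : ℂ) * Complex.I *
  dslope Complex.exp 0 (((2 * π * (z.1 * ‖z.2‖) : ℝ) : ℂ) * Complex.I)

theorem low_q (τ : ℝ) (η : E3) : ex (τ * ‖η‖) - 1 = τ * lowq (τ, η) := by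
  have h := sub_smul_dslope Complex.exp 0 (((2 * π * (τ * ‖η‖) : ℝ) : ℂ) * Complex.I)
  rw [Complex.exp_zero, sub_zero, smul_eq_mul] at h
  rw [ex, ← h, lowq]
  push_cast
  ring

theorem low_qsm (z : ℝ × E3) (hz : z.2 ≠ 0) : ContDiffAt ℝ ∞ lowq z := by
  have hn : ContDiffAt ℝ ∞ (fun z : ℝ × E3 => ‖z.2‖) z := contDiffAt_snd.norm ℝ hz
  have hr : ∀ {f : ℝ × E3 → ℝ}, ContDiffAt ℝ ∞ f z → ContDiffAt ℝ ∞ (fun w => (f w : ℂ)) z :=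
    fun hf => Complex.ofRealCLM.contDiff.contDiffAt.comp z hf
  exact ((hr (contDiffAt_const.mul hn)).mul contDiffAt_const).mul (low_ds.contDiffAt.comp z
    ((hr (contDiffAt_const.mul (contDiffAt_fst.mul hn))).mul contDiffAt_const))

theorem low_split (N : ℕ) (t : ℝ) (ξ : E3) : wv (lw N) t ξ =
    ((bt (‖ξ‖ ^ 2) : ℝ) : ℂ) + -1 * ((bt (‖(2 ^ N : ℝ) • ξ‖ ^ 2) : ℝ) : ℂ) +
      ∑ j ∈ Finset.range N, ((t / 2 ^ j : ℝ) : ℂ) *
        (chi ‖(2 ^ j : ℝ) • ξ‖ * lowq (t / 2 ^ j, (2 ^ j : ℝ) • ξ)) := by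
  have hn : ∀ j : ℕ, ‖(2 ^ j : ℝ) • ξ‖ = 2 ^ j * ‖ξ‖ := fun j => by
    rw [norm_smul, Real.norm_of_nonneg (by positivity)]
  have h4 : ∀ j : ℕ, (2 ^ j * ‖ξ‖) ^ 2 = 4 ^ j * ‖ξ‖ ^ 2 := fun j => by
    rw [mul_pow, ← pow_mul, mul_comm j, pow_mul]; norm_num
  have e1 : ∀ j : ℕ, ((t / 2 ^ j : ℝ) : ℂ) *
      (chi ‖(2 ^ j : ℝ) • ξ‖ * lowq (t / 2 ^ j, (2 ^ j : ℝ) • ξ)) = (ex (t * ‖ξ‖) - 1) *
        (((bt (4 ^ j * ‖ξ‖ ^ 2) : ℝ) : ℂ) - ((bt (4 ^ (j + 1) * ‖ξ‖ ^ 2) : ℝ) : ℂ)) := fun j => by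
    rw [mul_left_comm, ← low_q, hn, chi, h4, show t / 2 ^ j * (2 ^ j * ‖ξ‖) = t * ‖ξ‖ by
      field_simp, show 4 * (4 ^ j * ‖ξ‖ ^ 2) = 4 ^ (j + 1) * ‖ξ‖ ^ 2 by ring]
    push_cast
    ring
  simp only [e1]
  rw [← Finset.mul_sum, Finset.sum_range_sub' fun j => ((bt (4 ^ j * ‖ξ‖ ^ 2) : ℝ) : ℂ), hn, h4,
    wv, lw, pow_zero, one_mul]
  push_cast
  ring

theorem bes (α : ℝ) : ∃ C : ℝ, 0 < C ∧ ∀ j : ℕ, ∫ x, ‖𝓕⁻ (bs α j) x‖ ≤ C := by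
  obtain ⟨C, hC, h⟩ := low_unif (P := ℝ)
    (g := fun z => (((z.1 ^ 2 + 4 * π ^ 2 * ‖z.2‖ ^ 2) ^ (-α / 2) : ℝ) : ℂ)) (fun z hz => by
      refine Complex.ofRealCLM.contDiff.contDiffAt.comp z (ContDiffAt.rpow_const_of_ne ?_ ?_)
      · exact (contDiffAt_fst.pow 2).add
          (contDiffAt_const.mul ((contDiff_norm_sq ℝ).contDiffAt.comp z contDiffAt_snd))
      · have := norm_pos_iff.2 hz
        positivity) (isCompact_Icc (a := 0) (b := 1))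
  refine ⟨C, hC, fun j => ?_⟩
  have h2 : (0 : ℝ) < 2 ^ j := by positivity
  rw [← low_scale _ h2]
  refine le_trans (le_of_eq ?_) (h (2 ^ j)⁻¹
    ⟨by positivity, inv_le_one_of_one_le₀ (one_le_pow₀ one_le_two)⟩)
  have e : ∀ y : E3, bs α j ((2 ^ j : ℝ) • y) =
      chi ‖y‖ * (((((2 ^ j)⁻¹ : ℝ) ^ 2 + 4 * π ^ 2 * ‖y‖ ^ 2) ^ (-α / 2) : ℝ) : ℂ) := fun y => by
    rw [bs, jb, norm_smul, Real.norm_of_nonneg h2.le, mul_div_cancel_left₀ _ h2.ne',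
      ← Complex.ofReal_mul]
    have e1 : ((2 ^ j)⁻¹ : ℝ) ^ 2 + 4 * π ^ 2 * ‖y‖ ^ 2 =
        (2 ^ j : ℝ) ^ (-2 : ℝ) * (1 + 4 * π ^ 2 * (2 ^ j * ‖y‖) ^ 2) := by
      rw [Real.rpow_neg h2.le, Real.rpow_two]
      field_simp
    rw [e1, Real.mul_rpow (by positivity) (by positivity), ← Real.rpow_mul h2.le,
      show -2 * (-α / 2) = α by ring]
  simp only [e]

theorem low : ∃ C : ℝ, 0 < C ∧ ∀ N : ℕ, ∀ t ∈ Icc (1 : ℝ) 2, ∫ x, ‖𝓕⁻ (wv (lw N) t) x‖ ≤ C := by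
  obtain ⟨C, hC, h⟩ := low_unif low_qsm (isCompact_Icc (a := (0 : ℝ)) (b := 2))
  have hB : Sm fun ξ : E3 => ((bt (‖ξ‖ ^ 2) : ℝ) : ℂ) :=
    ⟨by simpa only [one_mul] using cutb_ofReal (low_bt 1),
      HasCompactSupport.intro (isCompact_closedBall 0 2) fun y hy => by
        have h2 : 2 < ‖y‖ := by simpa using hy
        rw [bt_zero (by nlinarith), Complex.ofReal_zero]⟩
  obtain ⟨B, hB'⟩ : ∃ B, B = ∫ x, ‖𝓕⁻ (fun ξ : E3 => ((bt (‖ξ‖ ^ 2) : ℝ) : ℂ)) x‖ := ⟨_, rfl⟩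
  have hB0 : 0 ≤ B := hB' ▸ integral_nonneg fun _ => norm_nonneg _
  refine ⟨B + B + 4 * C, by positivity, fun N t ht => ?_⟩
  have h2 : ∀ j : ℕ, (0 : ℝ) < 2 ^ j := fun j => by positivity
  have h3 := low_Sm_mul (low_Sm_scale hB (h2 N)) (-1)
  have h4 := low_sum (fun j => low_Sm_mul
    (low_Sm_scale (low_Sm low_qsm (t / 2 ^ j)) (h2 j)) ((t / 2 ^ j : ℝ) : ℂ)) N
  rw [funext (low_split N t)]
  refine (low_add (low_Sm_add hB h3) h4.1).trans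
    (add_le_add ((low_add hB h3).trans (add_le_add hB'.ge ?_)) (h4.2.trans ?_))
  · rw [low_mul, low_scale (fun ξ : E3 => ((bt (‖ξ‖ ^ 2) : ℝ) : ℂ)) (h2 N), ← hB']
    simp
  · have h5 : ∀ j ∈ Finset.range N, ∫ x, ‖𝓕⁻ (fun y : E3 => ((t / 2 ^ j : ℝ) : ℂ) *
        (chi ‖(2 ^ j : ℝ) • y‖ * lowq (t / 2 ^ j, (2 ^ j : ℝ) • y))) x‖ ≤ (1 / 2) ^ j * (2 * C) := by
      intro j _
      have t0 : 0 ≤ t / 2 ^ j := div_nonneg (by linarith [ht.1]) (h2 j).le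
      have t1 : t / 2 ^ j ≤ (1 / 2) ^ j * 2 := by
        rw [one_div, inv_pow, ← div_eq_inv_mul]
        exact div_le_div_of_nonneg_right ht.2 (h2 j).le
      have t2 : t / 2 ^ j ≤ 2 := (div_le_self (by linarith [ht.1]) (one_le_pow₀ one_le_two)).trans ht.2
      rw [low_mul, low_scale (fun y : E3 => chi ‖y‖ * lowq (t / 2 ^ j, y)) (h2 j),
        Complex.norm_real, Real.norm_of_nonneg t0, ← mul_assoc]
      exact mul_le_mul t1 (h _ ⟨t0, t2⟩) (integral_nonneg fun _ => norm_nonneg _) (by positivity)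
    refine (Finset.sum_le_sum h5).trans ?_
    rw [← Finset.sum_mul]
    nlinarith [sum_geometric_two_le N]

end Vale.Agent.P106
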