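import Vale.Agent.P106.Sum
import Vale.Agent.P106.Jw

/-!
The two estimates. `eLp_of_Np`: `eLpNorm_eq_lintegral_rpow_enorm_toReal`. `main_eqv`: `bd_am`, `tw_lim`, `Np_fatou`. `main_ang`: copy `BR_hasSum`, `angc_num`, `mainB` of P117/AngC.lean (do not import it) for the operator
`Tw (am α N)` applied to the Schwartz function `g = Jw α f` (`tw_hasSum`; the kernel `𝓕⁻ (wv A q.1)` is continuous and bounded), with a bound that does not depend on `N`; then
`Lp.eLpNorm_le_of_ae_tendsto` with `tw_lim`.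
-/

open MeasureTheory Set Real Filter Topology
open scoped FourierTransform RealInnerProductSpace ContDiff ENNReal SchwartzMap

noncomputable section

namespace Vale.Agent.P106

open Vale.Agent.P117

variable {p α : ℝ}

theorem main_num {k : ℤ} (hk : k ≠ 0) :
    (1 + |(k : ℝ)|) ^ 2 * (|(k : ℝ)| ^ 4)⁻¹ ≤ 4 * (1 / (k : ℝ) ^ 2) := by
  have h1 : (1 : ℝ) ≤ |(k : ℝ)| := by exact_mod_cast Int.one_le_abs hk
  rw [← sq_abs (k : ℝ)]
  generalize |(k : ℝ)| = t at h1
  have ht : 0 < t := by linarith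
  rw [← div_eq_mul_inv, mul_one_div, div_le_div_iff₀ (by positivity) (by positivity)]
  have : (1 + t) ^ 2 ≤ 4 * t ^ 2 := by nlinarith
  calc (1 + t) ^ 2 * t ^ 2 ≤ 4 * t ^ 2 * t ^ 2 := by gcongr
    _ = 4 * t ^ 4 := by ring

theorem eLp_of_Np {X Y : Type} [MeasurableSpace X] [MeasurableSpace Y] {μ : Measure X} {ν : Measure Y}
    {F : X → ℂ} {g : Y → ℂ} {B : ℝ} (hp : 0 < p) (h : Np μ p F ≤ ENNReal.ofReal B ^ p * Np ν p g) :
    eLpNorm F (ENNReal.ofReal p) μ ≤ ENNReal.ofReal B * eLpNorm g (ENNReal.ofReal p) ν := by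
  have h0 : ENNReal.ofReal p ≠ 0 := by simpa using hp
  have h1 : ENNReal.ofReal p ≠ ⊤ := ENNReal.ofReal_ne_top
  rw [eLpNorm_eq_lintegral_rpow_enorm_toReal h0 h1, eLpNorm_eq_lintegral_rpow_enorm_toReal h0 h1,
    ENNReal.toReal_ofReal hp.le]
  have hq : 0 ≤ 1 / p := by positivity
  refine (ENNReal.rpow_le_rpow h hq).trans (le_of_eq ?_)
  rw [ENNReal.mul_rpow_of_nonneg _ _ hq, ← ENNReal.rpow_mul, mul_one_div_cancel hp.ne',
    ENNReal.rpow_one]
  rfl

theorem tw_hasSum {A : E3 → ℂ} (hA : Integrable A) (g : 𝓢(E3, ℂ)) (q : ℝ × E3) :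
    HasSum (fun k : ℤ => Tw A (Pk k g) q) (Tw A g q) := by
  set K : E3 → ℂ := 𝓕⁻ (wv A q.1) with hK
  have hKc : Continuous K := continuous_inv (wv_int hA q.1)
  obtain ⟨B, hB⟩ : ∃ B, ∀ y, ‖K y‖ ≤ B := ⟨_, norm_inv_le _⟩
  have hB0 : 0 ≤ B := (norm_nonneg _).trans (hB 0)
  have hn := fun k => Pk_nice (schwartz_nice g) k
  have hi : ∀ k : ℤ, Integrable fun y => K (q.2 - y) * Pk k g y := fun k =>
    (hn k).int.bdd_mul (c := B) (hKc.comp (continuous_const.sub continuous_id)).aestronglyMeasurable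
      (ae_of_all _ fun y => hB _)
  have hs : Summable fun k : ℤ => ∫ y, ‖K (q.2 - y) * Pk k g y‖ := by
    refine Summable.of_nonneg_of_le (fun _ => integral_nonneg fun _ => norm_nonneg _)
      (fun k => ?_) ((summable_Pk_L1 g).mul_left B)
    rw [← integral_const_mul]
    refine integral_mono (hi k).norm ((hn k).int.norm.const_mul B) fun y => ?_
    simp only [norm_mul]
    gcongr
    exact hB _
  have h := hasSum_integral_of_summable_integral_norm hi hs
  have e : ∀ y, ∑' k : ℤ, K (q.2 - y) * Pk k g y = K (q.2 - y) * g y := fun y =>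
    ((hasSum_Pk g y).mul_left _).tsum_eq
  simp only [e] at h
  exact h

theorem main_eqv (h2 : 2 ≤ p) (hα : max 0 (1 - 3 / p) < α) : ∃ C : ℝ, 0 < C ∧
    ∀ (k : ℤ) (f : 𝓢(E3, ℂ)), Eqv k f → eLpNorm (Uw f) (ENNReal.ofReal p) (tm E3 1 2) ≤
      ENNReal.ofReal (C * (1 + |(k : ℝ)|) ^ 2) * eLpNorm (Jw α f) (ENNReal.ofReal p) volume := by
  obtain ⟨C, hC, H⟩ := bd_am h2 hα
  refine ⟨C, hC, fun k f hf => ?_⟩
  have hp : 0 < p := by linarith
  obtain ⟨g, hg⟩ := jw_schwartz α f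
  have hn : Nice (Jw α f) := hg ▸ schwartz_nice g
  refine eLp_of_Np hp (Np_fatou hp.le (F := fun N => Tw (am α N) (Jw α f))
    (fun N => (Tw_cont (am_sw α N).sm.ker.int hn.int).measurable) (fun q => tw_lim α f q)
    (Eventually.of_forall fun N => H N k _ hn (jw_eqv α hf)))

theorem main_ang (h2 : 2 ≤ p) (hα : max 0 (1 - 3 / p) < α) : ∃ C : ℝ, 0 < C ∧
    ∀ f : 𝓢(E3, ℂ), eLpNorm (Uw f) (ENNReal.ofReal p) (tm E3 1 2) ≤ ENNReal.ofReal C *
      (eLpNorm (Jw α f) (ENNReal.ofReal p) volume +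
        eLpNorm (ang^[4] (Jw α f)) (ENNReal.ofReal p) volume) := by
  obtain ⟨C, hC, H⟩ := bd_am h2 hα
  have hp : 0 < p := by linarith
  have h1 : 1 ≤ ENNReal.ofReal p := by
    rw [← ENNReal.ofReal_one]
    exact ENNReal.ofReal_le_ofReal (by linarith)
  have hsum : Summable fun k : ℤ => 1 / (k : ℝ) ^ 2 := Real.summable_one_div_int_pow.2 one_lt_two
  set S : ℝ := ∑' k : ℤ, 1 / (k : ℝ) ^ 2 with hS
  have hS0 : 0 ≤ S := tsum_nonneg fun _ => by positivity
  refine ⟨C * (1 + 4 * S), by positivity, fun f0 => ?_⟩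
  obtain ⟨f, hf⟩ := jw_schwartz α f0
  rw [← hf]
  obtain ⟨g, hg⟩ := ang_iter_schwartz f 4
  have hn := fun k => Pk_nice (schwartz_nice f) k
  set M : ℝ≥0∞ := eLpNorm f (ENNReal.ofReal p) volume +
    eLpNorm (ang^[4] f) (ENNReal.ofReal p) volume with hM
  let a : ℤ → ℝ := fun k => (if k = 0 then 1 else 0) + 4 * (1 / (k : ℝ) ^ 2)
  have ha : ∀ k, 0 ≤ a k := fun k => by
    have : (0 : ℝ) ≤ if k = 0 then 1 else 0 := by split_ifs <;> norm_num
    positivity
  have hA : ∀ N, Integrable (am α N) := fun N => (am_sw α N).sm.ker.int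
  have hk : ∀ (N : ℕ) (k : ℤ), eLpNorm (Tw (am α N) (Pk k f)) (ENNReal.ofReal p) (tm E3 1 2) ≤
      ENNReal.ofReal (C * a k) * M := by
    intro N k
    refine (eLp_of_Np hp (H N k _ (hn k) (Pk_eqv k f))).trans ?_
    by_cases h0 : k = 0
    · subst h0
      have : eLpNorm (Pk 0 f) (ENNReal.ofReal p) volume ≤ M :=
        (Pk_eLp h1 f.continuous 0).trans le_self_add
      simp only [a]
      gcongr
      simp
    · have h3 : eLpNorm (Pk k (ang^[4] f)) (ENNReal.ofReal p) volume ≤ M := by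
        refine le_trans ?_ le_add_self
        rw [← hg]
        exact Pk_eLp h1 g.continuous k
      rw [Pk_eq_iter f h0 4, eLpNorm_const_smul, ← ofReal_norm, angb_norm, ← mul_assoc,
        ← ENNReal.ofReal_mul (by positivity), mul_assoc C]
      simp only [a, if_neg h0, zero_add]
      exact mul_le_mul' (ENNReal.ofReal_le_ofReal
        (mul_le_mul_of_nonneg_left (main_num h0) hC.le)) h3
  have hN : ∀ N : ℕ, eLpNorm (Tw (am α N) f) (ENNReal.ofReal p) (tm E3 1 2) ≤
      ENNReal.ofReal (C * (1 + 4 * S)) * M := by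
    intro N
    have hm : ∀ k : ℤ, AEStronglyMeasurable (Tw (am α N) (Pk k f)) (tm E3 1 2) := fun k =>
      (Tw_cont (hA N) (hn k).int).measurable.aestronglyMeasurable
    refine Lp.eLpNorm_le_of_ae_tendsto (u := (atTop : Filter (Finset ℤ)))
      (f := fun s => ∑ k ∈ s, Tw (am α N) (Pk k f)) (Eventually.of_forall fun s => ?_)
      (fun s => Finset.aestronglyMeasurable_sum s fun k _ => hm k) (ae_of_all _ fun x => ?_)
    · refine (eLpNorm_sum_le (fun k _ => hm k) h1).trans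
        ((Finset.sum_le_sum fun k _ => hk N k).trans ?_)
      rw [← Finset.sum_mul, ← ENNReal.ofReal_sum_of_nonneg fun k _ => mul_nonneg hC.le (ha k),
        ← Finset.mul_sum]
      gcongr
      simp only [a]
      rw [Finset.sum_add_distrib, ← Finset.mul_sum]
      gcongr
      · rw [Finset.sum_ite_eq']
        split_ifs <;> norm_num
      · exact hsum.sum_le_tsum s fun _ _ => by positivity
    · simp only [Finset.sum_apply]
      exact tw_hasSum (hA N) f x
  refine Lp.eLpNorm_le_of_ae_tendsto (u := (atTop : Filter ℕ)) (f := fun N => Tw (am α N) f)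
    (Eventually.of_forall hN)
    (fun N => (Tw_cont (hA N) f.integrable).measurable.aestronglyMeasurable)
    (ae_of_all _ fun q => ?_)
  rw [hf]
  exact tw_lim α f0 q

end Vale.Agent.P106
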