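import Vale.Agent.P106.Base
import Vale.Agent.P117.Marc

/-!
Interpolation for a quadratic functional. Layer cake as in P117/Marc: for a real function `g ≥ 0` apply `marc_cake` to `√g` (exponent `4`, `c = √(2 B)`); `{2 B α² < Φ} ⊆ {B α² ≤ Ψ}` up to
strictness, Chebyshev (`mul_meas_ge_le_lintegral₀`), `marc_hi` with `q = 2`, `p = 4`. Infinite values: apply this to `min (Φ i y) N` and let `N → ∞` (`lintegral_iSup`), or any other route.
-/

open MeasureTheory Set Real Filter Topology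
open scoped FourierTransform RealInnerProductSpace ContDiff ENNReal SchwartzMap

noncomputable section

namespace Vale.Agent.P106

open Vale.Agent.P117

theorem marcs_sum {Z : Type} [MeasurableSpace Z] (m : Measure Z) (s : Finset ℕ)
    (F : ℕ → Z → ℝ≥0∞) : ∑ i ∈ s, ∫⁻ z, F i z ∂m ≤ ∫⁻ z, ∑ i ∈ s, F i z ∂m := by
  induction s using Finset.induction_on with
  | empty => simp
  | insert a s ha ih =>
    simp only [Finset.sum_insert ha]
    exact (add_le_add_right ih _).trans (le_lintegral_add _ _)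

theorem marcs_cake {Y : Type} [MeasurableSpace Y] (ν : Measure Y) {Φ : Y → ℝ≥0∞}
    (hΦ : Measurable Φ) {B : ℝ} (hB : 0 < B) :
    ∫⁻ y, Φ y ^ 2 ∂ν ≤ ENNReal.ofReal (16 * B ^ 2) * ∫⁻ α in Ioi (0 : ℝ),
      ν {y | ENNReal.ofReal (2 * B * α ^ 2) < Φ y} * ENNReal.ofReal (α ^ (4 - 1 : ℝ)) := by
  have e : ∀ y, Φ y ^ 2 = ⨆ N : ℕ, min (Φ y) N ^ 2 := fun y => by
    have h1 : Tendsto (fun N : ℕ => min (Φ y) N ^ 2) atTop (𝓝 (min (Φ y) ⊤ ^ 2)) :=
      ENNReal.Tendsto.pow (tendsto_const_nhds.min ENNReal.tendsto_nat_nhds_top)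
    rw [min_top_right] at h1
    exact tendsto_nhds_unique h1 (tendsto_atTop_iSup fun a b hab => by gcongr)
  simp only [e]
  rw [lintegral_iSup (fun N => (hΦ.min measurable_const).pow_const 2)
    fun a b hab y => by dsimp only; gcongr]
  refine iSup_le fun N => ?_
  have ht : ∀ y, min (Φ y) N ≠ ⊤ := fun y =>
    ((min_le_right _ _).trans_lt (ENNReal.natCast_lt_top N)).ne
  have hg : Measurable fun y => ((√(min (Φ y) N).toReal : ℝ) : ℂ) :=
    Complex.measurable_ofReal.comp (hΦ.min measurable_const).ennreal_toReal.sqrt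
  have hn : ∀ y, ‖((√(min (Φ y) N).toReal : ℝ) : ℂ)‖ = √(min (Φ y) N).toReal := fun y => by
    rw [Complex.norm_real, Real.norm_of_nonneg (sqrt_nonneg _)]
  have h4 : ∀ t : ℝ, 0 ≤ t → √t ^ (4 : ℝ) = t ^ 2 := fun t h => by
    rw [show (4 : ℝ) = (2 * 2 : ℕ) by norm_num, Real.rpow_natCast, pow_mul, sq_sqrt h]
  have h := marc_cake ν hg (p := 4) (c := √(2 * B)) four_pos (by positivity)
  have e1 : ∫⁻ y, min (Φ y) N ^ 2 ∂ν = Np ν 4 fun y => ((√(min (Φ y) N).toReal : ℝ) : ℂ) :=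
    lintegral_congr fun y => by
      rw [marc_enorm _ four_pos.le, hn, h4 _ ENNReal.toReal_nonneg,
        ENNReal.ofReal_pow ENNReal.toReal_nonneg, ENNReal.ofReal_toReal (ht y)]
  rw [e1, h, h4 _ (by positivity), show 4 * (2 * B) ^ 2 = 16 * B ^ 2 by ring]
  refine mul_le_mul_right (setLIntegral_mono' measurableSet_Ioi fun α hα => mul_le_mul_left
    (measure_mono fun y hy => ?_) _) _
  simp only [mem_ofPred_eq, hn] at hy ⊢
  have h1 := pow_lt_pow_left₀ hy (mul_nonneg (sqrt_nonneg _) (le_of_lt hα)) two_ne_zero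
  rw [mul_pow, sq_sqrt (by positivity), sq_sqrt ENNReal.toReal_nonneg] at h1
  exact ((ENNReal.ofReal_lt_iff_lt_toReal (by positivity) (ht y)).2 h1).trans_le (min_le_left _ _)

theorem marc_sq {X Y : Type} [MeasurableSpace X] [MeasurableSpace Y] (μ : Measure X) [SFinite μ]
    (ν : Measure Y) (s : Finset ℕ) {Φ : ℕ → Y → ℝ≥0∞} (hΦ : ∀ i ∈ s, Measurable (Φ i)) {f : X → ℂ}
    (hf : Measurable f) {A : ℝ≥0∞} {B : ℝ} (hB : 0 < B)
    (h : ∀ α : ℝ, 0 < α → ∃ Ψ : ℕ → Y → ℝ≥0∞, (∀ i ∈ s, Measurable (Ψ i)) ∧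
      (∀ i ∈ s, ∀ y, Φ i y ≤ Ψ i y + ENNReal.ofReal (B * α ^ 2)) ∧
      ∑ i ∈ s, ∫⁻ y, Ψ i y ∂ν ≤ A * Np μ 2 (hi α f)) :
    ∑ i ∈ s, ∫⁻ y, Φ i y ^ 2 ∂ν ≤ ENNReal.ofReal (16 * B) * A * Np μ 4 f := by
  have key : ∀ α ∈ Ioi (0 : ℝ), ∑ i ∈ s, ν {y | ENNReal.ofReal (2 * B * α ^ 2) < Φ i y} *
      ENNReal.ofReal (α ^ (4 - 1 : ℝ)) ≤
      ENNReal.ofReal B⁻¹ * A * (ENNReal.ofReal (α ^ (4 - 1 - 2 : ℝ)) * Np μ 2 (hi α f)) := by
    intro α hα
    have α0 : 0 < α := hα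
    obtain ⟨Ψ, m1, n1, n2⟩ := h α hα
    have h3 : ∀ i ∈ s, ν {y | ENNReal.ofReal (2 * B * α ^ 2) < Φ i y} ≤
        ENNReal.ofReal (B * α ^ 2)⁻¹ * ∫⁻ y, Ψ i y ∂ν := fun i hi => by
      have h4 := mul_meas_ge_le_lintegral₀ (μ := ν) (m1 i hi).aemeasurable
        (ENNReal.ofReal (B * α ^ 2))
      refine le_trans ?_ (mul_le_mul_right h4 _)
      rw [← mul_assoc, ← ENNReal.ofReal_mul (by positivity), inv_mul_cancel₀ (by positivity),
        ENNReal.ofReal_one, one_mul]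
      refine measure_mono fun y hy => ?_
      have h5 := lt_of_lt_of_le hy (n1 i hi y)
      rw [show 2 * B * α ^ 2 = B * α ^ 2 + B * α ^ 2 by ring,
        ENNReal.ofReal_add (by positivity) (by positivity)] at h5
      exact (lt_of_add_lt_add_right h5).le
    rw [← Finset.sum_mul]
    refine (mul_le_mul_left (Finset.sum_le_sum h3) _).trans ?_
    rw [← Finset.mul_sum]
    refine (mul_le_mul_left (mul_le_mul_right n2 _) _).trans (le_of_eq ?_)
    rw [← marc_pow α0, mul_inv, ENNReal.ofReal_mul (by positivity), Real.rpow_neg α0.le,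
      Real.rpow_two]
    ring
  refine (Finset.sum_le_sum fun i hi => marcs_cake ν (hΦ i hi) hB).trans ?_
  rw [← Finset.mul_sum]
  refine (mul_le_mul_right ((marcs_sum _ _ _).trans
    (setLIntegral_mono' measurableSet_Ioi key)) _).trans ?_
  rw [lintegral_const_mul _ (marc_meas μ (marc_mhi hf) _ _)]
  refine (mul_le_mul_right (mul_le_mul_right (marc_hi μ hf two_pos (by norm_num)) _) _).trans ?_
  have e : ENNReal.ofReal (16 * B ^ 2) * ENNReal.ofReal B⁻¹ * ENNReal.ofReal (1 / (4 - 2)) ≤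
      ENNReal.ofReal (16 * B) := by
    rw [← ENNReal.ofReal_mul (by positivity), ← ENNReal.ofReal_mul (by positivity)]
    refine ENNReal.ofReal_le_ofReal ?_
    rw [show 16 * B ^ 2 * B⁻¹ = 16 * B by field_simp]
    linarith
  refine le_trans (le_of_eq ?_) (mul_le_mul_left (mul_le_mul_left e A) (Np μ 4 f))
  ring

end Vale.Agent.P106
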