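import Vale.Agent.P106.Der
import Vale.Agent.P106.Wt

/-!
The mass of an envelope at one time. `tw_shift`: `Tw_eq`, `cv_eq`, `inv_eq`, `ex_add`. `vw_int`: reflect and translate (`lintegral_sub_left_eq_self`), `lintegral_cx'`; with `y = ⟨u, v⟩`:
`⟪e2 p, y⟫ = v - p u`, `⟪e1 p, y⟫ = (1 + p²) / 2 * u + p (v - p u)`; translate `v`, swap, `lintegral_dc_aff` twice (`4 / α` and `2 / β`, `α β = 8 ^ m / 16 ^ n`).
`mu_wt`: substitute `y = y' - t • nv p` (`lintegral_sub_right_eq_self`), `tw_shift`, `wt_b0`, `der_sum`. `tint`: substitute `t = 4 ^ n s`; `Sm.decay` with `n = 3`: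
`‖𝓕⁻ h (δ s)‖² (1 + |s|) ^ 4 ≤ C dc 2 s`, since `1 + |s| ≤ (1 + δ⁻¹) (1 + |δ s|)`.
-/

open MeasureTheory Set Real Filter Topology
open scoped FourierTransform RealInnerProductSpace ContDiff ENNReal SchwartzMap

noncomputable section

namespace Vale.Agent.P106

open Vale.Agent.P117

variable {φ : ℂ → ℂ} {c : ℝ → ℂ}

theorem tw_shift {A G : ℂ → ℂ} (hA : Integrable A) (hG : Integrable G) (t p : ℝ) (y : ℂ) :
    Tw A G (t, y - t • nv p) = cv (𝓕⁻ (mv A t p)) G y := by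
  have _ := hA
  have _ := hG
  unfold Tw cv
  refine integral_congr_ae (Eventually.of_forall fun w => ?_)
  refine congrArg (· * G w) ?_
  rw [inv_eq, inv_eq]
  refine integral_congr_ae (Eventually.of_forall fun ξ => ?_)
  simp only [wv, mv]
  rw [← mul_assoc, ← mul_assoc, ← ex_add, ← ex_add, sub_right_comm, inner_sub_right (y := y - w),
    real_inner_smul_right, real_inner_comm ξ (nv p)]
  congr 2
  ring

theorem vw_cont (a b : ℂ) : Continuous (vw a b) :=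
  ((continuous_dc 2).comp (continuous_const.inner continuous_id)).mul
    ((continuous_dc 2).comp (continuous_const.inner continuous_id))

theorem mu_core {α β : ℝ} (hα : 0 < α) (hβ : 0 < β) (p : ℝ) :
    ∫⁻ y, ENNReal.ofReal (α * β * vw (α • e1 p) (β • e2 p) y) ≤ 8 := by
  have hm : Measurable fun y => ENNReal.ofReal (α * β * vw (α • e1 p) (β • e2 p) y) :=
    (continuous_const.mul (vw_cont _ _)).measurable.ennreal_ofReal
  have h0 := mul_pos hα hβ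
  have e : ∀ u : ℝ, ∫⁻ v : ℝ, ENNReal.ofReal (α * β * vw (α • e1 p) (β • e2 p) ⟨u, v⟩) =
      ∫⁻ w : ℝ, ENNReal.ofReal (α * β) * ENNReal.ofReal (dc 2 (β * w + 0)) *
        ENNReal.ofReal (dc 2 (α * ((1 + p ^ 2) / 2) * u + α * p * w)) := fun u => by
    rw [← lintegral_add_right_eq_self _ (p * u)]
    refine lintegral_congr fun w => ?_
    have e1' : ⟪α • e1 p, (⟨u, w + p * u⟩ : ℂ)⟫ = α * ((1 + p ^ 2) / 2) * u + α * p * w := by
      rw [real_inner_smul_left, inner_cx]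
      simp only [e1]
      ring
    have e2' : ⟪β • e2 p, (⟨u, w + p * u⟩ : ℂ)⟫ = β * w + 0 := by
      rw [real_inner_smul_left, inner_cx]
      simp only [e2]
      ring
    rw [← ENNReal.ofReal_mul h0.le, ← ENNReal.ofReal_mul (mul_pos h0 (dc_pos _ _)).le, vw, e1', e2']
    congr 1
    ring
  have c1 : Continuous fun w : ℝ => dc 2 (β * w + 0) := (continuous_dc 2).comp (by fun_prop)
  have c2 : Continuous fun q : ℝ × ℝ => dc 2 (α * ((1 + p ^ 2) / 2) * q.1 + α * p * q.2) :=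
    (continuous_dc 2).comp (by fun_prop)
  rw [lintegral_cx' hm]
  simp only [e]
  rw [lintegral_lintegral_swap ((measurable_const.mul
    (c1.comp continuous_snd).measurable.ennreal_ofReal).mul
      c2.measurable.ennreal_ofReal).aemeasurable]
  have h1 : ∀ w : ℝ, ∫⁻ u : ℝ, ENNReal.ofReal (α * β) * ENNReal.ofReal (dc 2 (β * w + 0)) *
      ENNReal.ofReal (dc 2 (α * ((1 + p ^ 2) / 2) * u + α * p * w)) ≤
        ENNReal.ofReal (α * β) * ENNReal.ofReal (4 / α) * ENNReal.ofReal (dc 2 (β * w + 0)) :=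
    fun w => by
      rw [lintegral_const_mul' _ _ (ENNReal.mul_ne_top ENNReal.ofReal_ne_top ENNReal.ofReal_ne_top),
        mul_right_comm]
      refine mul_le_mul_left (mul_le_mul_right ((lintegral_dc_aff le_rfl (by positivity) _).trans
        (ENNReal.ofReal_le_ofReal ?_)) _) _
      rw [div_le_div_iff₀ (by positivity) hα]
      nlinarith [mul_nonneg hα.le (sq_nonneg p)]
  refine (lintegral_mono h1).trans ?_
  rw [lintegral_const_mul' _ _ (ENNReal.mul_ne_top ENNReal.ofReal_ne_top ENNReal.ofReal_ne_top)]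
  refine (mul_le_mul_right (lintegral_dc_aff le_rfl hβ 0) _).trans_eq ?_
  rw [← ENNReal.ofReal_mul h0.le, ← ENNReal.ofReal_mul (by positivity),
    show α * β * (4 / α) * (2 / β) = 8 by field_simp; norm_num, ENNReal.ofReal_ofNat]

theorem mu_core' (n m i : ℕ) :
    ∫⁻ y, ENNReal.ofReal (8 ^ m / 16 ^ n * vw (v1 n m i) (v2 n m i) y) ≤ 8 := by
  have e : (8 : ℝ) ^ m / 16 ^ n = 4 ^ m / 4 ^ n * (2 ^ m / 4 ^ n) := by
    rw [div_mul_div_comm, ← mul_pow, ← mul_pow]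
    norm_num
  rw [e]
  exact mu_core (by positivity) (by positivity) _

theorem vw_int (n m i : ℕ) (x : ℂ) :
    ∫⁻ y, ENNReal.ofReal (8 ^ m / 16 ^ n * vw (v1 n m i) (v2 n m i) (x - y)) ≤ 8 :=
  (lintegral_sub_left_eq_self
    (fun y => ENNReal.ofReal (8 ^ m / 16 ^ n * vw (v1 n m i) (v2 n m i) y)) x).trans_le
      (mu_core' n m i)

theorem vw_int' (n m i : ℕ) (y : ℂ) :
    ∫⁻ x, ENNReal.ofReal (8 ^ m / 16 ^ n * vw (v1 n m i) (v2 n m i) (x - y)) ≤ 8 :=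
  (lintegral_sub_right_eq_self
    (fun y => ENNReal.ofReal (8 ^ m / 16 ^ n * vw (v1 n m i) (v2 n m i) y)) y).trans_le
      (mu_core' n m i)

theorem mu_wt (h : Am φ) (hc : Prof c) : ∃ C : ℝ, 0 < C ∧ ∀ (n m i : ℕ) (lam t : ℝ),
    m ≤ n → i < 2 ^ m → (2 ^ n)⁻¹ ≤ lam → ∀ G : ℂ → ℂ, Nice G → ∀ x : ℂ,
      ∫⁻ y : ℂ, ENNReal.ofReal (8 ^ m / 16 ^ n *
          vw (v1 n m i) (v2 n m i) (x - y - t • nv (p0 m i))) *
          ∑ j ∈ blk (n - m) i, ‖Tw (cap φ c lam n j) G (t, y)‖ₑ ^ 2 ≤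
        ENNReal.ofReal (C * (1 + |t| / 4 ^ n) ^ 4) *
          ∫⁻ y, ENNReal.ofReal (8 ^ m / 16 ^ n * vw (v1 n m i) (v2 n m i) (x - y)) * ‖G y‖ₑ ^ 2 := by
  obtain ⟨C, hC, hd⟩ := der_sum h hc
  refine ⟨64 * C, by positivity, fun n m i lam t hm hi hl G hG x => ?_⟩
  have hl0 : 0 < lam := lt_of_lt_of_le (by positivity) hl
  have hA := fun j => cap_am h hc hl0 n j
  have hd' := hd n m i lam t hm hi hl _ fun _ => rfl
  have h1 := wt_b0 (blk (n - m) i) (fun j _ => mv_sm (hA j).sw t (p0 m i)) (v1 n m i) (v2 n m i)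
    (fun ξ => (hd' ξ).1) (fun ξ => (hd' ξ).2.1) (fun ξ => (hd' ξ).2.2.1) (fun ξ => (hd' ξ).2.2.2)
    hG x
  have h0 : (0 : ℝ) ≤ 8 ^ m / 16 ^ n := by positivity
  rw [← lintegral_sub_right_eq_self _ (t • nv (p0 m i))]
  simp only [fun j => tw_shift (hA j).sm.ker.int hG.int t (p0 m i), sub_sub, sub_add_cancel,
    ENNReal.ofReal_mul h0, mul_assoc]
  rw [lintegral_const_mul' _ _ ENNReal.ofReal_ne_top,
    lintegral_const_mul' _ _ ENNReal.ofReal_ne_top, mul_left_comm]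
  exact mul_le_mul_right h1 _

theorem tint {h : ℝ → ℂ} (hh : Sm h) {δ : ℝ} (hδ : 0 < δ) : ∃ C : ℝ, 0 < C ∧ ∀ n : ℕ,
    ∫⁻ t : ℝ, ENNReal.ofReal (4 ^ n)⁻¹ * ‖𝓕⁻ h (t / (4 ^ n / δ))‖ₑ ^ 2 *
      ENNReal.ofReal ((1 + |t| / 4 ^ n) ^ 4) ≤ ENNReal.ofReal C := by
  obtain ⟨C, hC, hd⟩ := hh.decay 3
  have key : ∀ s : ℝ, ‖𝓕⁻ h (δ * s)‖ ^ 2 * (1 + |s|) ^ 4 ≤ C ^ 2 * (1 + δ⁻¹) ^ 6 * dc 2 s :=
    fun s => by
      have h1 : 1 + |s| ≤ (1 + δ⁻¹) * (1 + ‖δ * s‖) := by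
        have h2 : δ⁻¹ * ‖δ * s‖ = |s| := by
          rw [Real.norm_eq_abs, abs_mul, abs_of_pos hδ, inv_mul_cancel_left₀ hδ.ne']
        have h3 := norm_nonneg (δ * s)
        have h4 := inv_pos.2 hδ
        nlinarith
      have h2 : ‖𝓕⁻ h (δ * s)‖ * (1 + |s|) ^ 3 ≤ C * (1 + δ⁻¹) ^ 3 := by
        refine (mul_le_mul (hd _) (pow_le_pow_left₀ (by positivity) h1 3) (by positivity)
          (by positivity)).trans_eq ?_
        field_simp
      have h3 := pow_le_pow_left₀ (by positivity) h2 2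
      rw [dc, ← div_eq_mul_inv, le_div_iff₀ (by positivity)]
      refine le_of_eq_of_le ?_ (h3.trans_eq ?_) <;> ring
  refine ⟨2 * (C ^ 2 * (1 + δ⁻¹) ^ 6) + 1, by positivity, fun n => ?_⟩
  have h4 : (0 : ℝ) < (4 ^ n)⁻¹ := by positivity
  have h5 : ∀ t : ℝ, ENNReal.ofReal (4 ^ n)⁻¹ * ‖𝓕⁻ h (t / (4 ^ n / δ))‖ₑ ^ 2 *
      ENNReal.ofReal ((1 + |t| / 4 ^ n) ^ 4) ≤ ENNReal.ofReal ((4 ^ n)⁻¹ *
        (C ^ 2 * (1 + δ⁻¹) ^ 6)) * ENNReal.ofReal (dc 2 ((4 ^ n)⁻¹ * t + 0)) := fun t => by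
    have h6 := key ((4 ^ n)⁻¹ * t)
    rw [abs_mul, abs_of_pos h4] at h6
    rw [← ofReal_norm, ← ENNReal.ofReal_pow (norm_nonneg _), ← ENNReal.ofReal_mul h4.le,
      ← ENNReal.ofReal_mul (by positivity), ← ENNReal.ofReal_mul (by positivity), add_zero,
      mul_assoc, mul_assoc (4 ^ n)⁻¹, show t / (4 ^ n / δ) = δ * ((4 ^ n)⁻¹ * t) by field_simp,
      div_eq_inv_mul]
    exact ENNReal.ofReal_le_ofReal (mul_le_mul_of_nonneg_left h6 h4.le)
  refine (lintegral_mono h5).trans ?_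
  rw [lintegral_const_mul' _ _ ENNReal.ofReal_ne_top]
  refine (mul_le_mul_right (lintegral_dc_aff le_rfl h4 0) _).trans ?_
  rw [← ENNReal.ofReal_mul (by positivity)]
  refine ENNReal.ofReal_le_ofReal (le_of_eq_of_le ?_ (le_add_of_nonneg_right zero_le_one))
  field_simp

end Vale.Agent.P106
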