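import Vale.Agent.P106.Cr
import Vale.Agent.P117.Cyl

/-!
Planks and the Lorentz maps. All proofs are elementary algebra: `simp only [th, Lz, pt_zero, pt_one, pt_two, mem_setOf_eq]`, `push_cast`, `ring_nf`, `nlinarith`.
`th_mono`: `2 ^ (k+d) b - j a = 2 ^ d (2 ^ k b - i a) - (j - i 2 ^ d) a`, `0 ≤ j - i 2 ^ d ≤ 2 ^ d - 1`, `a ≤ 2`. `Lz` preserves `ξ 0` and multiplies
`ξ 0 * ξ 2 - ξ 1 ^ 2` by `4 ^ m`. `th_diff`: by `th_Lz` with `d = 0` both points go to `th κ 0 0`, where `1 ≤ a ≤ 2`, `|b| ≤ 2`, `-1 ≤ c ≤ 5`; `Lz` is linear.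
-/

open MeasureTheory Set Real Filter Topology
open scoped FourierTransform RealInnerProductSpace ContDiff ENNReal SchwartzMap

noncomputable section

namespace Vale.Agent.P106

open Vale.Agent.P117

variable {κ n k d i j m : ℕ} {F : ℕ → E3 → ℂ} {ξ : E3}

theorem mem_blk : j ∈ blk d i ↔ j / 2 ^ d = i := by
  rw [blk, Finset.mem_Ico, Nat.div_eq_iff (by positivity), Nat.succ_mul]
  have : 0 < 2 ^ d := by positivity
  omega

theorem blk_lt (hi : i < 2 ^ m) (hj : j ∈ blk d i) : j < 2 ^ (m + d) := by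
  rw [blk, Finset.mem_Ico] at hj
  rw [pow_add]
  exact hj.2.trans_le (Nat.mul_le_mul_right _ hi)

theorem blk_zero (n : ℕ) : blk n 0 = Finset.range (2 ^ n) := by
  rw [blk, zero_mul, zero_add, one_mul, Finset.range_eq_Ico]

theorem blk_self (i : ℕ) : blk 0 i = {i} := by
  ext j
  rw [mem_blk, pow_zero, Nat.div_one, Finset.mem_singleton]

theorem sum_blk {M : Type} [AddCommMonoid M] (d e i : ℕ) (g : ℕ → M) :
    ∑ l ∈ blk d i, ∑ j ∈ blk e l, g j = ∑ j ∈ blk (d + e) i, g j := by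
  have h : ∀ j, j / 2 ^ e / 2 ^ d = j / 2 ^ (d + e) := fun j => by
    rw [Nat.div_div_eq_div_mul, pow_add, mul_comm]
  rw [← Finset.sum_fiberwise_of_maps_to (s := blk (d + e) i) (t := blk d i)
    (g := fun j => j / 2 ^ e) fun j hj => mem_blk.2 ((h j).trans (mem_blk.1 hj))]
  refine Finset.sum_congr rfl fun l hl => Finset.sum_congr ?_ fun _ _ => rfl
  ext j
  rw [Finset.mem_filter, mem_blk, mem_blk, ← h]
  exact ⟨fun h1 => ⟨by rw [h1]; exact mem_blk.1 hl, h1⟩, fun h1 => h1.2⟩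

theorem sum_blk_shift {M : Type} [AddCommMonoid M] (d m i l : ℕ) (g : ℕ → M) :
    ∑ j ∈ blk d l, g (i * 2 ^ (m + d) + j) = ∑ j ∈ blk d (i * 2 ^ m + l), g j := by
  rw [blk, blk, Finset.sum_Ico_add g]
  congr 2 <;> ring

theorem par_par (d e : ℕ) (F : ℕ → E3 → ℂ) : par d (par e F) = par (d + e) F := by
  funext i ξ
  exact sum_blk d e i fun j => F j ξ

theorem th_two (κ : ℕ) : (1 : ℝ) + (4 ^ κ)⁻¹ ≤ 2 := by
  have : ((4 : ℝ) ^ κ)⁻¹ ≤ 1 := inv_le_one_of_one_le₀ (one_le_pow₀ (by norm_num))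
  linarith

theorem th_mono (hj : j ∈ blk d i) : th κ (k + d) j ⊆ th κ k i := by
  rintro ξ ⟨h1, h2, h3, h4⟩
  rw [blk, Finset.mem_Ico] at hj
  have h5 : (i : ℝ) * 2 ^ d ≤ j := by exact_mod_cast hj.1
  have h6 : (j : ℝ) + 1 ≤ (i + 1) * 2 ^ d := by exact_mod_cast hj.2
  have h7 := h2.trans (th_two κ)
  have h8 : (0 : ℝ) < 2 ^ d := by positivity
  refine ⟨h1, h2, ?_, h4.trans (inv_anti₀ (by positivity)
    (pow_le_pow_right₀ (by norm_num) (Nat.le_add_right k d)))⟩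
  rw [pow_add, abs_le] at h3
  have h9 : 0 ≤ (j - i * 2 ^ d) * ξ 0 := mul_nonneg (by linarith) (by linarith)
  have h10 : (j - i * 2 ^ d) * ξ 0 ≤ (2 ^ d - 1) * 2 :=
    mul_le_mul (by linarith) h7 (by linarith) (by linarith)
  have h11 : (1 : ℝ) ≤ 2 ^ d := one_le_pow₀ (by norm_num)
  refine abs_le.2 ⟨le_of_mul_le_mul_left ?_ h8, le_of_mul_le_mul_left ?_ h8⟩ <;> nlinarith

theorem Fam.par (h : Fam κ (k + d) F) : Fam κ k (par d F) := fun _ hi =>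
  ⟨continuous_finsetSum _ fun j hj => (h j (blk_lt hi hj)).1, fun ξ hξ =>
    Finset.sum_eq_zero fun j hj => (h j (blk_lt hi hj)).2 ξ fun h1 => hξ (th_mono hj h1)⟩

theorem th_ext {x y : E3} (h0 : x 0 = y 0) (h1 : x 1 = y 1) (h2 : x 2 = y 2) : x = y := by
  rw [← pt_eta x, ← pt_eta y, h0, h1, h2]

theorem exists_Lz (m i : ℕ) : ∃ A : E3 ≃L[ℝ] E3, ∀ ξ, A ξ = Lz m i ξ := by
  let L : E3 →ₗ[ℝ] E3 :=
    { toFun := Lz m i
      map_add' := fun x y => th_ext (by simp [Lz]) (by simp [Lz]; ring) (by simp [Lz]; ring)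
      map_smul' := fun c x => th_ext (by simp [Lz]) (by simp [Lz]; ring) (by simp [Lz]; ring) }
  have hL : Function.Injective L := (injective_iff_map_eq_zero L).2 fun x hx => by
    have h0 : x 0 = 0 := congrArg (fun v : E3 => v 0) hx
    have h1 : 2 ^ m * x 1 - i * x 0 = 0 := congrArg (fun v : E3 => v 1) hx
    have h2 : 4 ^ m * x 2 - 2 * 2 ^ m * i * x 1 + i ^ 2 * x 0 = 0 :=
      congrArg (fun v : E3 => v 2) hx
    have h3 : x 1 = 0 := by simpa [h0] using h1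
    have h4 : x 2 = 0 := by simpa [h0, h3] using h2
    exact th_ext h0 h3 h4
  exact ⟨(LinearEquiv.ofInjectiveEndo L hL).toContinuousLinearEquiv, fun _ => rfl⟩

theorem th_sq4 (m : ℕ) : (4 : ℝ) ^ m = (2 ^ m) ^ 2 := by
  rw [← pow_mul, mul_comm, pow_mul]
  norm_num

theorem Lz_comp (m i m' i' : ℕ) (ξ : E3) :
    Lz m' i' (Lz m i ξ) = Lz (m + m') (i * 2 ^ m' + i') ξ := by
  refine th_ext rfl ?_ ?_
  · simp only [Lz, pt_zero, pt_one, pow_add]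
    push_cast
    ring
  · simp only [Lz, pt_zero, pt_one, pt_two, pow_add, th_sq4]
    push_cast
    ring

theorem Lz_zero (ξ : E3) : Lz 0 0 ξ = ξ := th_ext rfl (by simp [Lz]) (by simp [Lz])

theorem th_Lz : Lz m i ξ ∈ th κ d j ↔ ξ ∈ th κ (m + d) (i * 2 ^ d + j) := by
  have h1 : 2 ^ d * Lz m i ξ 1 - j * Lz m i ξ 0 =
      2 ^ (m + d) * ξ 1 - ((i * 2 ^ d + j : ℕ) : ℝ) * ξ 0 := by
    simp only [Lz, pt_zero, pt_one, pow_add]
    push_cast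
    ring
  have h2 : Lz m i ξ 0 * Lz m i ξ 2 - Lz m i ξ 1 ^ 2 = 4 ^ m * (ξ 0 * ξ 2 - ξ 1 ^ 2) := by
    simp only [Lz, pt_zero, pt_one, pt_two, th_sq4]
    ring
  have h3 : (0 : ℝ) < 4 ^ m := by positivity
  simp only [th, mem_ofPred_eq]
  rw [h1, h2, abs_mul, abs_of_pos h3, pow_add 4, mul_inv, le_inv_mul_iff₀ h3]
  rfl

theorem th_base (h : ξ ∈ th κ n j) : 1 ≤ ξ 0 ∧ ξ 0 ≤ 2 ∧ |Lz n j ξ 1| ≤ 2 ∧
    -1 ≤ Lz n j ξ 2 ∧ Lz n j ξ 2 ≤ 5 := by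
  have h1 : Lz n j ξ ∈ th κ 0 0 := th_Lz.2 (by simpa using h)
  obtain ⟨h2, h3, h4, h5⟩ := h1
  simp only [pow_zero, one_mul, Nat.cast_zero, zero_mul, sub_zero, inv_one] at h4 h5
  have h6 := h3.trans (th_two κ)
  have h7 : Lz n j ξ 1 ^ 2 ≤ 2 ^ 2 := sq_le_sq' (abs_le.1 h4).1 (abs_le.1 h4).2
  rw [abs_le] at h5
  refine ⟨h2, h6, h4, ?_, ?_⟩
  · by_contra h8
    nlinarith [sq_nonneg (Lz n j ξ 1)]
  · by_contra h8
    nlinarith

theorem th_bdd (κ n j : ℕ) : ∃ R, ∀ ξ ∈ th κ n j, ‖ξ‖ ≤ R := by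
  obtain ⟨A, hA⟩ := exists_Lz n j
  refine ⟨‖(A.symm : E3 →L[ℝ] E3)‖ * 6, fun ξ hξ => ?_⟩
  obtain ⟨h1, h2, h3, h4, h5⟩ := th_base hξ
  have h6 : ‖A ξ‖ ≤ 6 := by
    refine abs_le_of_sq_le_sq' ?_ (by norm_num) |>.2
    have h7 : Lz n j ξ 0 = ξ 0 := rfl
    rw [hA, norm_sq_e3, h7]
    rw [abs_le] at h3
    nlinarith
  have h7 := (A.symm : E3 →L[ℝ] E3).le_opNorm (A ξ)
  rw [ContinuousLinearEquiv.coe_coe, A.symm_apply_apply] at h7
  exact h7.trans (mul_le_mul_of_nonneg_left h6 (norm_nonneg _))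

theorem Fam.cc (h : Fam κ n F) (hj : j < 2 ^ n) : Cc (F j) := by
  obtain ⟨R, hR⟩ := th_bdd κ n j
  exact ⟨(h j hj).1, R, fun ξ hξ => (h j hj).2 ξ fun h1 => (hR ξ h1).not_gt hξ⟩

theorem th_diff {a b : E3} (ha : a ∈ th κ n j) (hb : b ∈ th κ n j) : Df n j (a - b) := by
  obtain ⟨a1, a2, a3, a4, a5⟩ := th_base ha
  obtain ⟨b1, b2, b3, b4, b5⟩ := th_base hb
  simp only [Lz, pt_one, pt_two, abs_le] at a3 a4 a5 b3 b4 b5
  simp only [Df, PiLp.sub_apply, abs_le]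
  refine ⟨⟨?_, ?_⟩, ⟨?_, ?_⟩, ?_, ?_⟩ <;> linarith [a3.1, a3.2, b3.1, b3.2]

theorem Df_norm (h : Df 0 0 ξ) : ‖ξ‖ ≤ 240 := by
  obtain ⟨h1, h2, h3⟩ := h
  simp only [pow_zero, one_mul, Nat.cast_zero, zero_mul, sub_zero, mul_zero, ne_eq,
    OfNat.ofNat_ne_zero, not_false_eq_true, zero_pow, add_zero, abs_le] at h1 h2 h3
  refine abs_le_of_sq_le_sq' ?_ (by norm_num) |>.2
  rw [norm_sq_e3]
  nlinarith [h1.1, h1.2, h2.1, h2.2, h3.1, h3.2]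

end Vale.Agent.P106
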