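import Vale.Agent.P106.Mu
import Vale.Agent.P106.MarcS
import Vale.Agent.P106.Th

/-!
The masses of all envelopes of one level. `mu_meas`: `Measurable.lintegral_prod_right` twice. `mu_add`: `Tw_add`, `‖a + b‖² ≤ 2 ‖a‖² + 2 ‖b‖²`, `lintegral_add_left`. `mu_inf`: `mu_wt`, `vw_int`, `tint`.
`mu_two`: Tonelli, `vw_int'`, then for every `t` the sum over `i` and `j` is a sum over `range (2 ^ n)` (`sum_blk` with `blk_zero`), `cv_L2_sum` for `wv (cap ..) t` (`norm_wv`, `sq_cap`, `amp_bdd`), `tint`.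
`mu_four`: `marc_sq` with `Ψ i = 2 * mu .. (hi α G)` (`hi_add_lo`, `nice_of_le`, `norm_lo_le'`).
-/

open MeasureTheory Set Real Filter Topology
open scoped FourierTransform RealInnerProductSpace ContDiff ENNReal SchwartzMap

noncomputable section

namespace Vale.Agent.P106

open Vale.Agent.P117

variable {φ : ℂ → ℂ} {c h : ℝ → ℂ} {δ : ℝ}

theorem mub_k (n m i : ℕ) : Measurable fun z : ℂ =>
    ENNReal.ofReal (8 ^ m / 16 ^ n * vw (v1 n m i) (v2 n m i) z) :=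
  (continuous_const.mul (vw_cont _ _)).measurable.ennreal_ofReal

theorem mub_S {M : ℕ → ℂ → ℂ} (hM : ∀ j, Integrable (M j)) {G : ℂ → ℂ} (hG : Integrable G)
    (s : Finset ℕ) : Measurable fun q : ℝ × ℂ => ∑ j ∈ s, ‖Tw (M j) G q‖ₑ ^ 2 :=
  Finset.measurable_sum _ fun j _ => (Tw_cont (hM j) hG).measurable.enorm.pow_const 2

theorem mub_a {χ : ℝ → ℂ} (hχ : Continuous χ) (ρ : ℝ) (n : ℕ) :
    Measurable fun t : ℝ => ENNReal.ofReal (4 ^ n)⁻¹ * ‖χ (t / ρ)‖ₑ ^ 2 :=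
  (((hχ.comp (continuous_id.div_const ρ)).measurable.enorm).pow_const 2).const_mul _

theorem mub_f {M : ℕ → ℂ → ℂ} (hM : ∀ j, Integrable (M j)) {G : ℂ → ℂ} (hG : Integrable G)
    (n m i : ℕ) {P : Type} [MeasurableSpace P] {X Y : P → ℂ} {T : P → ℝ} (hX : Measurable X)
    (hY : Measurable Y) (hT : Measurable T) : Measurable fun r : P =>
      ENNReal.ofReal (8 ^ m / 16 ^ n * vw (v1 n m i) (v2 n m i) (X r - Y r - T r • nv (p0 m i))) *
        ∑ j ∈ blk (n - m) i, ‖Tw (M j) G (T r, Y r)‖ₑ ^ 2 :=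
  ((mub_k n m i).fun_comp ((hX.fun_sub hY).fun_sub (hT.smul_const _))).fun_mul
    ((mub_S hM hG _).fun_comp (hT.prodMk hY))

theorem mub_in {M : ℕ → ℂ → ℂ} (hM : ∀ j, Integrable (M j)) {G : ℂ → ℂ} (hG : Integrable G)
    (n m i : ℕ) {P : Type} [MeasurableSpace P] {X : P → ℂ} {T : P → ℝ} (hX : Measurable X)
    (hT : Measurable T) : Measurable fun r : P => ∫⁻ y : ℂ,
      ENNReal.ofReal (8 ^ m / 16 ^ n * vw (v1 n m i) (v2 n m i) (X r - y - T r • nv (p0 m i))) *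
        ∑ j ∈ blk (n - m) i, ‖Tw (M j) G (T r, y)‖ₑ ^ 2 :=
  (mub_f hM hG n m i (hX.fun_comp measurable_fst) measurable_snd
    (hT.fun_comp measurable_fst)).lintegral_prod_right'

theorem mu_meas {χ : ℝ → ℂ} (hχ : Continuous χ) (ρ : ℝ) {M : ℕ → ℂ → ℂ} (hM : ∀ j, Integrable (M j))
    {G : ℂ → ℂ} (hG : Integrable G) (n m i : ℕ) : Measurable (mu χ ρ M G n m i) :=
  (((mub_a hχ ρ n).fun_comp measurable_snd).fun_mul
    (mub_in hM hG n m i measurable_fst measurable_snd)).lintegral_prod_right'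

theorem mub_sq (a b : ℂ) : ‖a + b‖ₑ ^ 2 ≤ 2 * ‖a‖ₑ ^ 2 + 2 * ‖b‖ₑ ^ 2 := by
  have h : ‖a + b‖₊ ^ 2 ≤ 2 * ‖a‖₊ ^ 2 + 2 * ‖b‖₊ ^ 2 := by
    rw [← NNReal.coe_le_coe]
    push_cast
    nlinarith [norm_add_le a b, norm_nonneg (a + b), sq_nonneg (‖a‖ - ‖b‖), norm_nonneg a,
      norm_nonneg b]
  simp only [enorm]
  exact_mod_cast h

theorem mub_lin {X : Type} [MeasurableSpace X] {μ : Measure X} {a f g k : X → ℝ≥0∞}
    (hf : Measurable fun x => a x * f x) (hk : ∀ x, k x ≤ 2 * f x + 2 * g x) :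
    ∫⁻ x, a x * k x ∂μ ≤ 2 * ∫⁻ x, a x * f x ∂μ + 2 * ∫⁻ x, a x * g x ∂μ := by
  rw [← lintegral_const_mul' _ _ (by simp), ← lintegral_const_mul' _ _ (by simp),
    ← lintegral_add_left (hf.const_mul 2)]
  refine lintegral_mono fun x => (mul_le_mul_right (hk x) _).trans (le_of_eq ?_)
  ring

theorem mu_add {χ : ℝ → ℂ} (hχ : Continuous χ) (ρ : ℝ) {M : ℕ → ℂ → ℂ} (hM : ∀ j, Integrable (M j))
    {G G' : ℂ → ℂ} (hG : Integrable G) (hG' : Integrable G') (n m i : ℕ) (x : ℂ) :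
    mu χ ρ M (fun y => G y + G' y) n m i x ≤ 2 * mu χ ρ M G n m i x + 2 * mu χ ρ M G' n m i x := by
  unfold mu
  refine mub_lin ((mub_a hχ ρ n).fun_mul (mub_in hM hG n m i measurable_const measurable_id'))
    fun t => mub_lin (mub_f hM hG n m i measurable_const measurable_id' measurable_const)
      fun y => ?_
  rw [Finset.mul_sum, Finset.mul_sum, ← Finset.sum_add_distrib]
  refine Finset.sum_le_sum fun j _ => ?_
  rw [Tw_add (hM j) hG hG']
  exact mub_sq _ _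

theorem mu_inf (hφ : Am φ) (hc : Prof c) (hh : Sm h) (hδ : 0 < δ) : ∃ C : ℝ, 0 < C ∧
    ∀ (n m i : ℕ) (lam : ℝ), m ≤ n → i < 2 ^ m → (2 ^ n)⁻¹ ≤ lam → ∀ G : ℂ → ℂ, Nice G →
      ∀ α : ℝ, (∀ y, ‖G y‖ ≤ α) → ∀ x,
        mu (𝓕⁻ h) (4 ^ n / δ) (cap φ c lam n) G n m i x ≤ ENNReal.ofReal (C * α ^ 2) := by
  obtain ⟨C, hC, h1⟩ := mu_wt hφ hc
  obtain ⟨D, hD, h2⟩ := tint hh hδ
  refine ⟨D * (C * 8), by positivity, fun n m i lam hm hi hl G hG α hα x => ?_⟩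
  have h3 : ∫⁻ y, ENNReal.ofReal (8 ^ m / 16 ^ n * vw (v1 n m i) (v2 n m i) (x - y)) * ‖G y‖ₑ ^ 2 ≤
      8 * ENNReal.ofReal (α ^ 2) := by
    refine le_trans (lintegral_mono fun y => mul_le_mul_right (c := ENNReal.ofReal (α ^ 2)) ?_ _) ?_
    · rw [← ofReal_norm, ← ENNReal.ofReal_pow (norm_nonneg _)]
      exact ENNReal.ofReal_le_ofReal (pow_le_pow_left₀ (norm_nonneg _) (hα y) 2)
    · rw [lintegral_mul_const' _ _ ENNReal.ofReal_ne_top]
      exact mul_le_mul_left (vw_int n m i x) _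
  calc _ ≤ ∫⁻ t : ℝ, ENNReal.ofReal (4 ^ n)⁻¹ * ‖𝓕⁻ h (t / (4 ^ n / δ))‖ₑ ^ 2 *
        ENNReal.ofReal ((1 + |t| / 4 ^ n) ^ 4) * ENNReal.ofReal (C * 8 * α ^ 2) := by
        refine lintegral_mono fun t => ?_
        rw [mul_assoc _ (ENNReal.ofReal ((1 + |t| / 4 ^ n) ^ 4))]
        refine mul_le_mul_right ((h1 n m i lam t hm hi hl G hG x).trans
          ((mul_le_mul_right h3 _).trans (le_of_eq ?_))) _
        rw [ENNReal.ofReal_mul hC.le, ENNReal.ofReal_mul (by positivity), ENNReal.ofReal_mul hC.le,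
          ENNReal.ofReal_ofNat]
        ring
    _ ≤ ENNReal.ofReal D * ENNReal.ofReal (C * 8 * α ^ 2) := by
        rw [lintegral_mul_const' _ _ ENNReal.ofReal_ne_top]
        exact mul_le_mul_left (h2 n) _
    _ = _ := by rw [← ENNReal.ofReal_mul hD.le, mul_assoc D]

theorem mub_x {χ : ℝ → ℂ} (hχ : Continuous χ) (ρ : ℝ) {M : ℕ → ℂ → ℂ} (hM : ∀ j, Integrable (M j))
    {G : ℂ → ℂ} (hG : Integrable G) (n m i : ℕ) :
    ∫⁻ x, mu χ ρ M G n m i x ≤ ∫⁻ t : ℝ, ENNReal.ofReal (4 ^ n)⁻¹ * ‖χ (t / ρ)‖ₑ ^ 2 *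
      (8 * ∑ j ∈ blk (n - m) i, Np volume 2 (cv (𝓕⁻ (wv (M j) t)) G)) := by
  unfold mu
  rw [lintegral_lintegral_swap (((mub_a hχ ρ n).fun_comp measurable_snd).fun_mul
    (mub_in hM hG n m i measurable_fst measurable_snd)).aemeasurable]
  refine lintegral_mono fun t => ?_
  have h2 : ∀ j, Measurable fun y : ℂ => ‖Tw (M j) G (t, y)‖ₑ ^ 2 := fun j =>
    ((Tw_cont (hM j) hG).measurable.enorm.pow_const 2).fun_comp measurable_prodMk_left
  rw [lintegral_const_mul _ (mub_in hM hG n m i measurable_id' measurable_const),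
    lintegral_lintegral_swap
      (mub_f hM hG n m i measurable_fst measurable_snd measurable_const).aemeasurable]
  refine mul_le_mul_right ?_ _
  simp only [Np_two]
  change _ ≤ 8 * ∑ j ∈ blk (n - m) i, ∫⁻ y, ‖Tw (M j) G (t, y)‖ₑ ^ 2
  rw [← lintegral_finsetSum _ fun j _ => h2 j, ← lintegral_const_mul' _ _ ENNReal.ofNat_ne_top]
  refine lintegral_mono fun y => ?_
  have h3 : Measurable fun x : ℂ => x - y - t • nv (p0 m i) := by fun_prop
  rw [lintegral_mul_const _ ((mub_k n m i).fun_comp h3)]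
  refine mul_le_mul_left ?_ _
  simp only [sub_sub]
  exact vw_int' n m i _

theorem mu_two (hφ : Am φ) (hc : Prof c) (hh : Sm h) (hδ : 0 < δ) : ∃ C : ℝ, 0 < C ∧
    ∀ (n m : ℕ) (lam : ℝ), m ≤ n → 0 < lam → ∀ G : ℂ → ℂ, Nice G →
      ∑ i ∈ Finset.range (2 ^ m), ∫⁻ x, mu (𝓕⁻ h) (4 ^ n / δ) (cap φ c lam n) G n m i x ≤
        ENNReal.ofReal C * Np volume 2 G := by
  obtain ⟨C, hC, h1⟩ := amp_bdd hφ hc
  obtain ⟨D, hD, h2⟩ := tint hh hδ
  refine ⟨D * (8 * C ^ 2), by positivity, fun n m lam hm hl G hG => ?_⟩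
  have hM : ∀ j, Integrable (cap φ c lam n j) := fun j => (cap_am hφ hc hl n j).sm.ker.int
  have hχ := hh.ker_inv.cont
  have h3 : ∀ i, Measurable fun t : ℝ => ENNReal.ofReal (4 ^ n)⁻¹ * ‖𝓕⁻ h (t / (4 ^ n / δ))‖ₑ ^ 2 *
      (8 * ∑ j ∈ blk (n - m) i, Np volume 2 (cv (𝓕⁻ (wv (cap φ c lam n j) t)) G)) := fun i => by
    refine (mub_a hχ _ n).mul (Measurable.const_mul (Finset.measurable_sum _ fun j _ => ?_) _)
    simp only [Np_two]
    exact ((Tw_cont (hM j) hG.int).measurable.enorm.pow_const 2).lintegral_prod_right'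
  refine (Finset.sum_le_sum fun i _ => mub_x hχ _ hM hG.int n m i).trans ?_
  rw [← lintegral_finsetSum _ fun i _ => h3 i]
  calc _ ≤ ∫⁻ t : ℝ, ENNReal.ofReal (4 ^ n)⁻¹ * ‖𝓕⁻ h (t / (4 ^ n / δ))‖ₑ ^ 2 *
        ENNReal.ofReal ((1 + |t| / 4 ^ n) ^ 4) * (ENNReal.ofReal (8 * C ^ 2) * Np volume 2 G) := by
        refine lintegral_mono fun t => ?_
        rw [← Finset.mul_sum, ← Finset.mul_sum, ← blk_zero, sum_blk, Nat.add_sub_cancel' hm,
          mul_assoc _ (ENNReal.ofReal ((1 + |t| / 4 ^ n) ^ 4))]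
        refine mul_le_mul_right (le_trans ?_ (le_mul_of_one_le_left' ?_)) _
        · rw [ENNReal.ofReal_mul (by norm_num), ENNReal.ofReal_ofNat, mul_assoc]
          refine mul_le_mul_right (cv_L2_sum _
            (fun j _ => wv_cc (cc_of_sm (cap_am hφ hc hl n j).sm) t) (fun ξ => ?_) hG.int) _
          simp only [norm_wv]
          exact (sq_cap _ ξ).trans (pow_le_pow_left₀ (norm_nonneg _) (h1 lam ξ) 2)
        · exact ENNReal.one_le_ofReal.2 (one_le_pow₀ (le_add_of_nonneg_right (by positivity)))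
    _ ≤ ENNReal.ofReal D * (ENNReal.ofReal (8 * C ^ 2) * Np volume 2 G) := by
        rw [lintegral_mul_const _ ((mub_a hχ _ n).fun_mul
          (Measurable.ennreal_ofReal (Continuous.measurable (by fun_prop))))]
        exact mul_le_mul_left (h2 n) _
    _ = _ := by rw [← mul_assoc, ← ENNReal.ofReal_mul hD.le]

theorem mu_four (hφ : Am φ) (hc : Prof c) (hh : Sm h) (hδ : 0 < δ) : ∃ C : ℝ, 0 < C ∧
    ∀ (n m : ℕ) (lam : ℝ), m ≤ n → (2 ^ n)⁻¹ ≤ lam → ∀ G : ℂ → ℂ, Nice G →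
      ∑ i ∈ Finset.range (2 ^ m), ∫⁻ x, mu (𝓕⁻ h) (4 ^ n / δ) (cap φ c lam n) G n m i x ^ 2 ≤
        ENNReal.ofReal C * Np volume 4 G := by
  obtain ⟨C, hC, h1⟩ := mu_inf hφ hc hh hδ
  obtain ⟨D, hD, h2⟩ := mu_two hφ hc hh hδ
  refine ⟨16 * (2 * C) * (2 * D), by positivity, fun n m lam hm hl G hG => ?_⟩
  have hl0 : 0 < lam := lt_of_lt_of_le (by positivity) hl
  have hM : ∀ j, Integrable (cap φ c lam n j) := fun j => (cap_am hφ hc hl0 n j).sm.ker.int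
  have hχ := hh.ker_inv.cont
  rw [ENNReal.ofReal_mul (by positivity)]
  refine marc_sq volume volume _ (fun i _ => mu_meas hχ _ hM hG.int n m i) hG.meas
    (by positivity) fun α hα => ?_
  have g1 := nice_of_le hG (measurable_hi α hG.meas) (norm_hi_le α G)
  have g2 := nice_of_le hG (measurable_lo α hG.meas) (norm_lo_le α G)
  refine ⟨fun i x => 2 * mu (𝓕⁻ h) (4 ^ n / δ) (cap φ c lam n) (hi α G) n m i x,
    fun i _ => (mu_meas hχ _ hM g1.int n m i).const_mul 2, fun i hi' x => ?_, ?_⟩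
  · have e : G = fun y => hi α G y + lo α G y := funext (hi_add_lo α G)
    have h3 := mu_add hχ (4 ^ n / δ) hM g1.int g2.int n m i x
    rw [← e] at h3
    refine h3.trans (add_le_add_right ?_ _)
    rw [mul_assoc, ENNReal.ofReal_mul (by norm_num), ENNReal.ofReal_ofNat]
    exact mul_le_mul_right (h1 n m i lam hm (Finset.mem_range.1 hi') hl _ g2 α
      (norm_lo_le' hα.le G) x) _
  · simp only [lintegral_const_mul' 2 _ ENNReal.ofNat_ne_top]
    rw [← Finset.mul_sum, ENNReal.ofReal_mul (by norm_num), ENNReal.ofReal_ofNat, mul_assoc]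
    exact mul_le_mul_right (h2 n m lam hm hl0 _ g1) _

end Vale.Agent.P106
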