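import Vale.Agent.P106.WT
import Vale.Agent.P106.Cut3
import Vale.Agent.P117.KerB
import Vale.Agent.P117.PrimX
import Vale.Agent.P117.SS
import Vale.Agent.P117.Rad
import Vale.Agent.P117.FBP

/-!
One piece. Copy the proof of `piece` in P117/Piece.lean (do not import it; copy `piece_cx`): `exists_c`, `exists_ab`, `G = rad (𝓕 b) k lam f`. For every `t`: `Np_cyl`, `fbp` with `M = wv (amp (rd φ) c lam) t`,
`m = wv (pcw φ lam) t` (`pcw_eq`, `Sw.wv`, `amp_am`, `rd_am`, `inv_rot`, `wv_rot`, `pcw_rot`), `ss_out`. Integrate in `t` (`Np_tm` on both sides, `Tw_cont`), `wlpT` with `η * p`, `ss_in`, `Np_cyl`.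
-/

open MeasureTheory Set Real Filter Topology
open scoped FourierTransform RealInnerProductSpace ContDiff ENNReal SchwartzMap

noncomputable section

namespace Vale.Agent.P106

open Vale.Agent.P117

theorem piece_meas {lam : ℝ} (hl : 0 ≤ lam) (b : ℝ) : Measurable fun x : ℂ => (wt lam b x.re : ℂ) :=
  Complex.measurable_ofReal.comp ((continuous_wt hl b).comp Complex.continuous_re).measurable

theorem piece_cx {lam p : ℝ} (hl : 0 ≤ lam) (s : ℝ) {G : ℂ → ℂ} (hG : Measurable G) :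
    Np volume p (wm lam s G) = ∫⁻ z : ℝ, ∫⁻ t : ℝ, ‖(wt lam s t : ℂ) * G ⟨t, z⟩‖ₑ ^ p := by
  have h1 : Measurable (wm lam s G) := (piece_meas hl s).mul hG
  exact lintegral_cx (h1.enorm.pow_const p)

theorem pieceT {p η : ℝ} (h2 : 2 ≤ p) (h3 : p < 3) (hη : 0 < η) {φ : ℝ → ℂ} (hφ : Prof φ) :
    ∃ C : ℝ, 0 < C ∧ ∀ (n : ℕ) (lam : ℝ), 2 ≤ n → (2 ^ n)⁻¹ ≤ lam → ∀ k : ℤ,
      BdT p k (4 ^ n) (C * (1 + |(k : ℝ)|) ^ 2 * (4 ^ n) ^ η) (pcw φ lam) := by
  have hp : 0 < p := by linarith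
  obtain ⟨c, hc, hcc⟩ := exists_c
  obtain ⟨a, b, ha, hb, hab⟩ := exists_ab
  obtain ⟨D₁, hD₁, h1⟩ := ha.prim_inv
  obtain ⟨D₂, hD₂, h2'⟩ := hb.prim_fourier
  obtain ⟨C, hC, hB⟩ := Bk_le
  obtain ⟨C', hC', hW⟩ := wlpT h2 h3 (mul_pos hη hp) (rd_am hφ) hc
  refine ⟨16 * (C * D₁) * (16 * (C * D₂)) * C' ^ (1 / p), by positivity,
    fun n lam hn hl k f hf => ?_⟩
  have hlam : 0 < lam := lt_of_lt_of_le (by positivity) hl
  have hm := pcw_sw hφ lam
  have hM : Sw (amp (rd φ) c lam) := (amp_am (rd_am hφ) hc hlam).sw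
  have hG := rad_dec h2' hf hlam
  set G := rad (𝓕 b) k lam f with hGd
  have hk : 0 < 1 + |(k : ℝ)| := by positivity
  set E₁ := C * D₁ * (1 + |(k : ℝ)|) with hE₁
  set E₂ := C * D₂ * (1 + |(k : ℝ)|) with hE₂
  have p1 : 0 < E₁ := by positivity
  have p2 : 0 < E₂ := by positivity
  have e1 : ∀ t : ℝ, Np volume p (fun x => Tw (pcw φ lam) f (t, x)) ≤ ENNReal.ofReal (2 * π) *
      (ENNReal.ofReal ((16 * E₁) ^ p * lam ^ (p - 1)) * Np volume p fun x : ℂ =>
        (wt lam (1 / 2 - 1 / p) x.re : ℂ) * Tw (amp (rd φ) c lam) G (t, x)) := fun t => by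
    have hHm : Measurable (cv (𝓕⁻ (wv (amp (rd φ) c lam) t)) G) :=
      (cv_ker (hM.wv t).ker_inv hG.nice).cont.measurable
    change Np volume p (cv (𝓕⁻ (wv (pcw φ lam) t)) f) ≤ _ * (_ * Np volume p
      (wm lam (1 / 2 - 1 / p) (cv (𝓕⁻ (wv (amp (rd φ) c lam) t)) G)))
    rw [Np_cyl (cv_ker (hm.wv t).ker_inv hf.nice).cont.measurable
      (Eqv.cv (inv_rot (wv_rot (pcw_rot φ lam) t)) hf.eqv)]
    refine mul_le_mul_right ?_ _
    rw [piece_cx hlam.le _ hHm, ← lintegral_const_mul' _ _ ENNReal.ofReal_ne_top]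
    refine lintegral_mono fun z => ?_
    simp only [fbp (hM.wv t) ha hab hlam (hm.wv t).ker.int (pcw_eq hcc hlam φ t) hf.nice.int hf.eqv
      hG.nice (fourier_rad hb h2' hf hlam)]
    exact ss_out h2 (by linarith) p1.le hlam (hB _ _ h1 k)
      (hHm.comp (measurable_mk.comp (measurable_id.prodMk measurable_const)))
  have e2 : Np volume p (wm lam (1 / 2 - 1 / p) G) ≤
      ENNReal.ofReal ((16 * E₂) ^ p * lam ^ (1 - p)) *
        ∫⁻ z : ℝ, ∫⁻ r in Ioi (0 : ℝ), ‖f (pt r 0 z)‖ₑ ^ p * ENNReal.ofReal r := by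
    rw [piece_cx hlam.le _ hG.meas, ← lintegral_const_mul' _ _ ENNReal.ofReal_ne_top]
    refine lintegral_mono fun z => ?_
    exact ss_in h2 (by linarith) p2.le hlam (hB _ _ h2' k) (F := fun r => f (pt r 0 z))
      ((rad_meas hf z).comp (measurable_id.prodMk measurable_const))
  set R : ℝ := 4 ^ n with hR
  have hR0 : 0 < R := by positivity
  have e3 : ENNReal.ofReal ((16 * E₁) ^ p * lam ^ (p - 1)) *
      (ENNReal.ofReal (C' * R * R ^ (η * p)) * ENNReal.ofReal ((16 * E₂) ^ p * lam ^ (1 - p))) =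
      ENNReal.ofReal (16 * (C * D₁) * (16 * (C * D₂)) * C' ^ (1 / p) * (1 + |(k : ℝ)|) ^ 2 *
        R ^ η) ^ p * ENNReal.ofReal R := by
    rw [ENNReal.ofReal_rpow_of_nonneg (by positivity) hp.le, ← ENNReal.ofReal_mul (by positivity),
      ← ENNReal.ofReal_mul (by positivity), ← ENNReal.ofReal_mul (by positivity)]
    congr 1
    have q1 : 16 * (C * D₁) * (16 * (C * D₂)) * C' ^ (1 / p) * (1 + |(k : ℝ)|) ^ 2 * R ^ η =
        16 * E₁ * (16 * E₂ * (C' ^ (1 / p) * R ^ η)) := by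
      rw [hE₁, hE₂]
      ring
    have q2 : lam ^ (p - 1) * lam ^ (1 - p) = 1 := by
      rw [← Real.rpow_add hlam, sub_add_sub_cancel, sub_self, Real.rpow_zero]
    rw [q1, Real.mul_rpow (x := 16 * E₁) (by positivity) (by positivity),
      Real.mul_rpow (x := 16 * E₂) (by positivity) (by positivity),
      Real.mul_rpow (x := C' ^ (1 / p)) (by positivity) (by positivity), ← Real.rpow_mul hC'.le,
      ← Real.rpow_mul hR0.le, one_div_mul_cancel hp.ne', Real.rpow_one]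
    linear_combination ((16 * E₁) ^ p * (16 * E₂) ^ p * C' * R * R ^ (η * p)) * q2
  have e4 := hW n lam hn hl G hG.nice
  have e5 : Measurable fun q : ℝ × ℂ =>
      (wt lam (1 / 2 - 1 / p) q.2.re : ℂ) * Tw (amp (rd φ) c lam) G q :=
    ((piece_meas hlam.le _).comp measurable_snd).mul (Tw_cont hM.sm.ker.int hG.nice.int).measurable
  rw [Np_tm e5] at e4
  rw [Np_tm (Tw_cont hm.sm.ker.int hf.nice.int).measurable, Np_cyl hf.meas hf.eqv, ← mul_assoc,
    ← e3, mul_left_comm]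
  refine (lintegral_mono e1).trans ?_
  rw [lintegral_const_mul' _ _ ENNReal.ofReal_ne_top, lintegral_const_mul' _ _ ENNReal.ofReal_ne_top,
    mul_assoc, mul_assoc]
  exact mul_le_mul_right (mul_le_mul_right (e4.trans (mul_le_mul_right e2 _)) _) _

end Vale.Agent.P106
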