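import Vale.Agent.P106.All

/-!
Scaling. `tw_scale`: `Tw_eq`, `inv_eq`, `Measure.integral_comp_smul` (`𝓕 (f (l⁻¹ • ·)) η = l ^ 3 * 𝓕 f (l • η)`). `scal`: `l = 2 ^ j`, `n = j / 2 + 4`, so `2 l ≤ 4 ^ n ≤ 256 l`; `g y = f (l⁻¹ • y)` is `Nice`, `Eqv k`,
`Np p g = l ^ 3 Np p f` (`Measure.lintegral_comp_smul`-type lemma, or `jac` of P106/Lin); `Np_tm`, substitute `x` and `t` (`lintegral_comp_mul_left`-type, `Real.map_volume_mul_left`), `Icc l (2 l) ⊆ Icc 0 (4 ^ n)`, `allp`, `BdT.ext`.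
-/

open MeasureTheory Set Real Filter Topology
open scoped FourierTransform RealInnerProductSpace ContDiff ENNReal SchwartzMap

noncomputable section

namespace Vale.Agent.P106

open Vale.Agent.P117

theorem scal_lin {V : Type} [NormedAddCommGroup V] [InnerProductSpace ℝ V] [FiniteDimensional ℝ V]
    [MeasurableSpace V] [BorelSpace V] (g : V → ℝ≥0∞) {r : ℝ} (hr : 0 < r) :
    ∫⁻ x, g (r • x) = ENNReal.ofReal (r ^ Module.finrank ℝ V)⁻¹ * ∫⁻ x, g x := by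
  have h := lintegral_map_equiv (μ := (volume : Measure V)) g (MeasurableEquiv.smul₀ r hr.ne')
  have e : ((MeasurableEquiv.smul₀ r hr.ne' : V ≃ᵐ V) : V → V) = (r • ·) := rfl
  rw [e, Measure.map_addHaar_smul _ hr.ne', lintegral_smul_measure,
    abs_of_pos (by positivity)] at h
  exact h.symm

theorem scal_rank : Module.finrank ℝ E3 = 3 := by simp

theorem scal_four (f : E3 → ℂ) {l : ℝ} (hl : 0 < l) (η : E3) :
    𝓕 (fun y => f (l⁻¹ • y)) η = ((l ^ 3 : ℝ) : ℂ) * 𝓕 f (l • η) := by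
  have h := Measure.integral_comp_inv_smul_of_nonneg (volume : Measure E3)
    (fun v => 𝐞 (-⟪v, l • η⟫) • f v) hl.le
  rw [scal_rank, Complex.real_smul] at h
  rw [fourier_eq, fourier_eq, ← h]
  refine integral_congr_ae (Eventually.of_forall fun v => ?_)
  simp only [real_inner_smul_left, real_inner_smul_right]
  rw [← mul_assoc, mul_inv_cancel₀ hl.ne', one_mul]

theorem tw_scale {A f : E3 → ℂ} (hA : Integrable A) (hf : Integrable f) {l : ℝ} (hl : 0 < l) (t : ℝ)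
    (x : E3) : Tw (fun ξ => A (l⁻¹ • ξ)) f (t, x) = Tw A (fun y => f (l⁻¹ • y)) (l * t, l • x) := by
  have hl' : l⁻¹ ≠ 0 := inv_ne_zero hl.ne'
  rw [Tw_eq (hA.comp_smul hl') hf, Tw_eq hA (hf.comp_smul hl'), inv_eq, inv_eq]
  have h := Measure.integral_comp_smul_of_nonneg (volume : Measure E3)
    (fun ξ => ex ⟪ξ, x⟫ * wv (fun ξ => A (l⁻¹ • ξ) * 𝓕 f ξ) t ξ) l (hR := hl.le)
  rw [scal_rank, Complex.real_smul] at h
  have e : ∀ η : E3, ex ⟪η, l • x⟫ * wv (fun ξ => A ξ * 𝓕 (fun y => f (l⁻¹ • y)) ξ) (l * t) η =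
      ((l ^ 3 : ℝ) : ℂ) *
        (ex ⟪l • η, x⟫ * wv (fun ξ => A (l⁻¹ • ξ) * 𝓕 f ξ) t (l • η)) := by
    intro η
    simp only [wv]
    rw [scal_four f hl, real_inner_smul_left, real_inner_smul_right, norm_smul,
      Real.norm_of_nonneg hl.le, inv_smul_smul₀ hl.ne', ← mul_assoc t, mul_comm t l]
    ring
  simp only [e]
  rw [integral_const_mul, h, ← mul_assoc, ← Complex.ofReal_mul,
    mul_inv_cancel₀ (by positivity), Complex.ofReal_one, one_mul]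

theorem scal_pow (j : ℕ) : (2 : ℝ) * 2 ^ j ≤ 4 ^ (j / 2 + 4) ∧
    (4 : ℝ) ^ (j / 2 + 4) ≤ 256 * 2 ^ j := by
  have e : (4 : ℝ) ^ (j / 2 + 4) = 2 ^ (2 * (j / 2) + 8) := by
    rw [show (4 : ℝ) = 2 ^ 2 by norm_num, ← pow_mul, mul_add]
  rw [e]
  constructor
  · rw [← pow_succ']
    exact pow_le_pow_right₀ (by norm_num) (by omega)
  · rw [show (256 : ℝ) = 2 ^ 8 by norm_num, ← pow_add]
    exact pow_le_pow_right₀ (by norm_num) (by omega)

theorem scal {φ : ℝ → ℂ} {p σ : ℝ} (hφ : Prof φ) (h2 : 2 ≤ p) (hσ : max 0 (1 - 3 / p) < σ) :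
    ∃ C : ℝ, 0 < C ∧ ∀ (j : ℕ) (k : ℤ) (f : E3 → ℂ), Nice f → Eqv k f →
      Np (tm E3 1 2) p (Tw (fun ξ => φ (‖ξ‖ / 2 ^ j)) f) ≤
        ENNReal.ofReal (C * (1 + |(k : ℝ)|) ^ 2 * (2 ^ j) ^ σ) ^ p * Np volume p f := by
  obtain ⟨C, hC, H⟩ := allp hφ h2 hσ
  have hσ0 : 0 ≤ σ := ((le_max_left _ _).trans_lt hσ).le
  refine ⟨256 * (C * 256 ^ σ), by positivity, fun j k f hf he => ?_⟩
  obtain ⟨ha, hb⟩ := scal_pow j
  have H' := H (j / 2 + 4) (by omega) k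
  generalize (4 : ℝ) ^ (j / 2 + 4) = R at ha hb H'
  have hl : (0 : ℝ) < 2 ^ j := by positivity
  generalize (2 : ℝ) ^ j = l at ha hb hl ⊢
  have hl' : l⁻¹ ≠ 0 := inv_ne_zero hl.ne'
  have hR : 0 < R := by linarith
  have hA : Integrable (rd φ : E3 → ℂ) := (rd_sw' hφ).sm.ker.int
  have hg : Nice fun y : E3 => f (l⁻¹ • y) := by
    obtain ⟨M, hM⟩ := hf.bdd
    exact ⟨hf.meas.comp (measurable_const_smul _), hf.int.comp_smul hl', M, fun x => hM _⟩
  have hge : Eqv k fun y : E3 => f (l⁻¹ • y) := by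
    intro θ x
    obtain ⟨B, hB⟩ := exists_rotL θ
    have e : l⁻¹ • rot θ x = rot θ (l⁻¹ • x) := by rw [← hB, ← hB, map_smul]
    change f (l⁻¹ • rot θ x) = _
    rw [e, he]
  have hT := BdT.ext (by linarith) hA H' hg hge
  have e0 : (fun ξ : E3 => φ (‖ξ‖ / l)) = fun ξ => rd φ (l⁻¹ • ξ) := by
    funext ξ
    rw [rd, norm_smul, norm_inv, Real.norm_of_nonneg hl.le, div_eq_inv_mul]
  have e1 : Np volume p (fun y : E3 => f (l⁻¹ • y)) = ENNReal.ofReal (l ^ 3) * Np volume p f := by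
    have h := scal_lin (fun y : E3 => ‖f y‖ₑ ^ p) (inv_pos.2 hl)
    rw [scal_rank, inv_pow, inv_inv] at h
    exact h
  rw [e1, Np_tm (Tw_cont hA hg.int).measurable] at hT
  rw [e0, Np_tm (Tw_cont (hA.comp_smul hl') hf.int).measurable]
  simp only [tw_scale hA hf.int hl]
  generalize Tw (rd φ) (fun y : E3 => f (l⁻¹ • y)) = T at hT ⊢
  have e2 : ∀ s : ℝ, Np volume p (fun x : E3 => T (s, l • x)) =
      ENNReal.ofReal (l ^ 3)⁻¹ * Np volume p fun x : E3 => T (s, x) := by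
    intro s
    have h := scal_lin (fun x : E3 => ‖T (s, x)‖ₑ ^ p) hl
    rw [scal_rank] at h
    exact h
  simp only [e2]
  rw [lintegral_const_mul' _ _ ENNReal.ofReal_ne_top]
  have h3 : ∫⁻ t in Icc (1 : ℝ) 2, Np volume p (fun x : E3 => T (l * t, x)) ≤
      ENNReal.ofReal l⁻¹ * ∫⁻ s in Icc 0 R, Np volume p fun x : E3 => T (s, x) := by
    have h := scal_lin ((Icc 0 R).indicator fun s : ℝ => Np volume p fun x : E3 => T (s, x)) hl
    rw [Module.finrank_self, pow_one, lintegral_indicator measurableSet_Icc] at h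
    rw [← h, ← lintegral_indicator measurableSet_Icc]
    refine lintegral_mono fun t => ?_
    by_cases ht : t ∈ Icc (1 : ℝ) 2
    · have hm : l • t ∈ Icc 0 R := by
        rw [smul_eq_mul]
        exact ⟨by nlinarith [ht.1], by nlinarith [ht.2]⟩
      rw [indicator_of_mem ht, indicator_of_mem hm, smul_eq_mul]
    · rw [indicator_of_notMem ht]
      exact zero_le
  have hk : 0 ≤ (1 + |(k : ℝ)|) ^ 2 := by positivity
  have h4 : C * (1 + |(k : ℝ)|) ^ 2 * R ^ σ ≤ C * 256 ^ σ * (1 + |(k : ℝ)|) ^ 2 * l ^ σ := by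
    have h := Real.rpow_le_rpow hR.le hb hσ0
    rw [Real.mul_rpow (by norm_num) hl.le] at h
    calc C * (1 + |(k : ℝ)|) ^ 2 * R ^ σ ≤ C * (1 + |(k : ℝ)|) ^ 2 * (256 ^ σ * l ^ σ) :=
          mul_le_mul_of_nonneg_left h (by positivity)
      _ = _ := by ring
  have h5 : ENNReal.ofReal (l ^ 3)⁻¹ * (ENNReal.ofReal l⁻¹ * (ENNReal.ofReal R *
      ENNReal.ofReal (l ^ 3))) ≤ ENNReal.ofReal 256 ^ p := by
    rw [← ENNReal.ofReal_mul hR.le, ← ENNReal.ofReal_mul (by positivity),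
      ← ENNReal.ofReal_mul (by positivity), ENNReal.ofReal_rpow_of_pos (by norm_num)]
    refine ENNReal.ofReal_le_ofReal ?_
    have e : (l ^ 3)⁻¹ * (l⁻¹ * (R * l ^ 3)) = R / l := by field_simp
    rw [e]
    calc R / l ≤ 256 := by rwa [div_le_iff₀ hl]
      _ ≤ 256 ^ p := Real.self_le_rpow_of_one_le (by norm_num) (by linarith)
  have h6 : ENNReal.ofReal (256 * (C * 256 ^ σ) * (1 + |(k : ℝ)|) ^ 2 * l ^ σ) ^ p =
      ENNReal.ofReal 256 ^ p * ENNReal.ofReal (C * 256 ^ σ * (1 + |(k : ℝ)|) ^ 2 * l ^ σ) ^ p := by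
    rw [← ENNReal.mul_rpow_of_nonneg _ _ (by linarith), ← ENNReal.ofReal_mul (by norm_num)]
    congr 2
    ring
  rw [h6]
  calc ENNReal.ofReal (l ^ 3)⁻¹ * ∫⁻ t in Icc (1 : ℝ) 2, Np volume p (fun x : E3 => T (l * t, x))
      ≤ ENNReal.ofReal (l ^ 3)⁻¹ * (ENNReal.ofReal l⁻¹ *
          (ENNReal.ofReal (C * (1 + |(k : ℝ)|) ^ 2 * R ^ σ) ^ p *
            (ENNReal.ofReal R * (ENNReal.ofReal (l ^ 3) * Np volume p f)))) :=
        mul_le_mul_right (h3.trans (mul_le_mul_right hT _)) _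
    _ = ENNReal.ofReal (l ^ 3)⁻¹ * (ENNReal.ofReal l⁻¹ * (ENNReal.ofReal R *
          ENNReal.ofReal (l ^ 3))) * ENNReal.ofReal (C * (1 + |(k : ℝ)|) ^ 2 * R ^ σ) ^ p *
          Np volume p f := by ring
    _ ≤ _ := mul_le_mul_left (mul_le_mul' h5
          (ENNReal.rpow_le_rpow (ENNReal.ofReal_le_ofReal h4) (by linarith))) _

end Vale.Agent.P106
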