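import Mathlib

/-! Definitions used in the statement for P106. -/

open MeasureTheory Real
open scoped RealInnerProductSpace

noncomputable section

namespace Vale.Agent.P106.St

/-- Euclidean three-space. -/
abbrev E3 := EuclideanSpace ℝ (Fin 3)

/-- Rotation by the angle `θ` about the third coordinate axis. -/
def rot (θ : ℝ) (x : E3) : E3 :=
  !₂[cos θ * x 0 - sin θ * x 1, sin θ * x 0 + cos θ * x 1, x 2]

/-- The angular derivative `x₀ ∂₁ f - x₁ ∂₀ f` about the third coordinate axis. -/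
def ang (f : E3 → ℂ) (x : E3) : ℂ := fderiv ℝ f x !₂[-x 1, x 0, 0]

/-- The Fourier transform `∫ exp (-i x ξ) f x dx`. -/
def hat (f : E3 → ℂ) (ξ : E3) : ℂ :=
  ∫ x : E3, Complex.exp (((-⟪x, ξ⟫ : ℝ) : ℂ) * Complex.I) * f x

/-- The half-wave evolution, as a function of space and time. -/
def U (f : E3 → ℂ) (q : E3 × ℝ) : ℂ :=
  ((((2 * π) ^ 3)⁻¹ : ℝ) : ℂ) *
    ∫ ξ : E3, Complex.exp (((⟪q.1, ξ⟫ + q.2 * ‖ξ‖ : ℝ) : ℂ) * Complex.I) * hat f ξ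

/-- The Fourier multiplier `(1 + |ξ|²) ^ (α / 2)`. -/
def J (α : ℝ) (f : E3 → ℂ) (x : E3) : ℂ :=
  ((((2 * π) ^ 3)⁻¹ : ℝ) : ℂ) *
    ∫ ξ : E3, Complex.exp (((⟪x, ξ⟫ : ℝ) : ℂ) * Complex.I) *
      ((((1 + ‖ξ‖ ^ 2) ^ (α / 2) : ℝ) : ℂ) * hat f ξ)

end Vale.Agent.P106.St
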