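import Vale.Agent.P106.Scal
import Vale.Agent.P106.Low

/-! Summation of the dyadic pieces. -/

open MeasureTheory Set Real Filter Topology
open scoped FourierTransform RealInnerProductSpace ContDiff ENNReal SchwartzMap

noncomputable section

namespace Vale.Agent.P106

open Vale.Agent.P117

theorem sum_comp {p a b : ℝ} (hp : 0 ≤ p) (ha : 0 ≤ a) {X Y Z : ℝ≥0∞}
    (h1 : X ≤ ENNReal.ofReal a ^ p * Y) (h2 : Y ≤ ENNReal.ofReal b ^ p * Z) :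
    X ≤ ENNReal.ofReal (a * b) ^ p * Z := by
  rw [ENNReal.ofReal_mul ha, ENNReal.mul_rpow_of_nonneg _ _ hp, mul_assoc]
  exact h1.trans (mul_le_mul_right h2 _)

theorem sum_geo {r : ℝ} (h0 : 0 ≤ r) (h1 : r < 1) (N : ℕ) :
    ∑ j ∈ Finset.range N, r ^ (j + 1) ≤ (1 - r)⁻¹ := by
  rw [← tsum_geometric_of_lt_one h0 h1]
  refine le_trans (Finset.sum_le_sum fun j _ => ?_)
    ((summable_geometric_of_lt_one h0 h1).sum_le_tsum (Finset.range N)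
      fun j _ => pow_nonneg h0 j)
  exact pow_le_pow_of_le_one h0 h1.le (Nat.le_succ j)

theorem bd_am {p α : ℝ} (h2 : 2 ≤ p) (hα : max 0 (1 - 3 / p) < α) : ∃ C : ℝ, 0 < C ∧
    ∀ (N : ℕ) (k : ℤ) (g : E3 → ℂ), Nice g → Eqv k g → Np (tm E3 1 2) p (Tw (am α N) g) ≤
      ENNReal.ofReal (C * (1 + |(k : ℝ)|) ^ 2) ^ p * Np volume p g := by
  have hp1 : 1 ≤ p := by linarith
  have hp0 : 0 ≤ p := by linarith
  obtain ⟨σ, hσ, hσα⟩ := exists_between hα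
  obtain ⟨c, hc, hcc⟩ := exists_c
  obtain ⟨C₁, hC₁, H₁⟩ := scal hc h2 hσ
  obtain ⟨C₂, hC₂, H₂⟩ := bes α
  obtain ⟨C₃, hC₃, H₃⟩ := low
  set C₄ := ∫ x, ‖𝓕⁻ (b0 α) x‖ with hC₄
  have hC₄0 : 0 ≤ C₄ := integral_nonneg fun _ => norm_nonneg _
  set r : ℝ := 2 ^ (σ - α) with hr
  have hr0 : 0 < r := rpow_pos_of_pos two_pos _
  have hr1 : r < 1 := rpow_lt_one_of_one_lt_of_neg one_lt_two (by linarith)
  have hri : 0 < (1 - r)⁻¹ := inv_pos.2 (by linarith)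
  refine ⟨C₃ * C₄ + C₁ * C₂ * (1 - r)⁻¹, by positivity, fun N k g hg hk => ?_⟩
  set K : ℝ := (1 + |(k : ℝ)|) ^ 2 with hK
  have hK1 : 1 ≤ K := one_le_pow₀ (by linarith [abs_nonneg (k : ℝ)])
  have hA : ∀ j : ℕ, Integrable fun ξ : E3 => c (‖ξ‖ / 2 ^ (j + 1)) := fun j =>
    (rd_sw hc (by positivity)).sm.ker.int
  have hB : ∀ j : ℕ, Integrable fun ξ : E3 => c (‖ξ‖ / 2 ^ (j + 1)) * bs α (j + 1) ξ := fun j =>
    ((rd_sw hc (by positivity)).mul fun _ _ => (bs_sm α (j + 1)).smooth.contDiffAt).sm.ker.int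
  have hL : Integrable fun ξ : E3 => lw N ξ * b0 α ξ :=
    ((lw_sw N).mul fun _ _ => (b0_sm α).smooth.contDiffAt).sm.ker.int
  have hn : ∀ j : ℕ, Nice (cv (𝓕⁻ (bs α (j + 1))) g) := fun j =>
    cv_nice (bs_sm α (j + 1)).ker_inv.nice hg
  have hn0 : Nice (cv (𝓕⁻ (b0 α)) g) := cv_nice (b0_sm α).ker_inv.nice hg
  have e : Tw (am α N) g = fun q => Tw (lw N) (cv (𝓕⁻ (b0 α)) g) q + ∑ j ∈ Finset.range N,
      ((((2 : ℝ) ^ (j + 1)) ^ (-α) : ℝ) : ℂ) *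
        Tw (fun ξ : E3 => c (‖ξ‖ / 2 ^ (j + 1))) (cv (𝓕⁻ (bs α (j + 1))) g) q := by
    funext q
    rw [funext (am_split hcc α N), Tw_addA hL
      (integrable_finsetSum _ fun j _ => (hB j).const_mul _) hg.int,
      Tw_sum _ (fun j _ => (hB j).const_mul _) hg.int,
      Tw_mul (lw_sw N).sm.ker.int (b0_sm α) hg]
    refine congrArg _ (Finset.sum_congr rfl fun j _ => ?_)
    rw [Tw_cmul (hB j) hg.int, Tw_mul (hA j) (bs_sm α (j + 1)) hg]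
  rw [e]
  have hm : ∀ j : ℕ, Measurable fun q => ((((2 : ℝ) ^ (j + 1)) ^ (-α) : ℝ) : ℂ) *
      Tw (fun ξ : E3 => c (‖ξ‖ / 2 ^ (j + 1))) (cv (𝓕⁻ (bs α (j + 1))) g) q := fun j =>
    (Tw_cont (hA j) (hn j).int).measurable.const_mul _
  have h0 : Np (tm E3 1 2) p (Tw (lw N) (cv (𝓕⁻ (b0 α)) g)) ≤
      ENNReal.ofReal (C₃ * C₄) ^ p * Np volume p g := by
    refine sum_comp hp0 hC₃.le ?_ (young hp1 (b0_sm α).ker_inv hg.meas le_rfl)
    have := tw_L1 hp1 (lw_sw N) (H₃ N) hn0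
    rwa [show (2 : ℝ) - 1 = 1 by norm_num, ENNReal.ofReal_one, one_mul] at this
  have h1 : ∀ j ∈ Finset.range N, Np (tm E3 1 2) p (fun q =>
      ((((2 : ℝ) ^ (j + 1)) ^ (-α) : ℝ) : ℂ) *
        Tw (fun ξ : E3 => c (‖ξ‖ / 2 ^ (j + 1))) (cv (𝓕⁻ (bs α (j + 1))) g) q) ≤
      ENNReal.ofReal (C₁ * C₂ * K * r ^ (j + 1)) ^ p * Np volume p g := fun j _ => by
    have hq : (0 : ℝ) < 2 ^ (j + 1) := by positivity
    have hq' : 0 ≤ ((2 : ℝ) ^ (j + 1)) ^ (-α) := rpow_nonneg hq.le _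
    have ee : C₁ * C₂ * K * r ^ (j + 1) =
        ((2 : ℝ) ^ (j + 1)) ^ (-α) * (C₁ * K * (2 ^ (j + 1)) ^ σ * C₂) := by
      have : r ^ (j + 1) = ((2 : ℝ) ^ (j + 1)) ^ (-α) * (2 ^ (j + 1)) ^ σ := by
        rw [← rpow_add hq, hr, ← rpow_natCast, ← rpow_mul two_pos.le, ← rpow_natCast,
          ← rpow_mul two_pos.le]
        congr 1
        ring
      rw [this]
      ring
    rw [ee]
    refine sum_comp hp0 hq' ?_ (sum_comp hp0 (by positivity)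
      (H₁ (j + 1) k _ (hn j) (hk.cv (inv_rot (bs_rot α (j + 1)))))
      (young hp1 (bs_sm α (j + 1)).ker_inv hg.meas (H₂ (j + 1))))
    rw [Np_const_mul hp0, ← ofReal_norm, Complex.norm_real, Real.norm_of_nonneg hq']
  refine (Np_add_le hp1 (Tw_cont (lw_sw N).sm.ker.int hn0.int).measurable
    (Finset.measurable_sum _ fun j _ => hm j) (by positivity)
    (Finset.sum_nonneg fun j _ => by positivity) h0
    (Np_sum_le hp1 _ (fun j _ => hm j) (fun j _ => by positivity) h1)).trans ?_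
  refine mul_le_mul_left (ENNReal.rpow_le_rpow (ENNReal.ofReal_le_ofReal ?_) hp0) _
  rw [← Finset.mul_sum, add_mul]
  have a1 := sum_geo hr0.le hr1 N
  have a2 : C₃ * C₄ ≤ C₃ * C₄ * K := le_mul_of_one_le_right (by positivity) hK1
  have a3 := mul_le_mul_of_nonneg_left a1 (show 0 ≤ C₁ * C₂ * K by positivity)
  linarith

end Vale.Agent.P106
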