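import Vale.Agent.P106.Cr
import Vale.Agent.P117.CutA

/-!
The evolution operators. `Tw_eq` is `cv_eq`. `cont_pr`: `inv_eq`, `continuous_of_dominated`. `Sw.wv`: `contDiff_iff_contDiffAt`; near a point with `‖ξ‖ < r` the function vanishes,
elsewhere `contDiffAt_norm`. `Tw_mul`: `Tw_eq` twice, `fourier_cv`, `Sm.fourier_inv`. `Np_tm`: `lintegral_prod`.
-/

open MeasureTheory Set Real Filter Topology
open scoped FourierTransform RealInnerProductSpace ContDiff ENNReal SchwartzMap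

noncomputable section

namespace Vale.Agent.P106

open Vale.Agent.P117

variable {V : Type} [NormedAddCommGroup V] [InnerProductSpace ℝ V] [FiniteDimensional ℝ V]
  [MeasurableSpace V] [BorelSpace V]
  {A B f g : V → ℂ}

/-- smooth amplitudes that vanish near the origin -/
structure Sw (A : V → ℂ) : Prop where
  sm : Sm A
  off : ∃ r : ℝ, 0 < r ∧ ∀ ξ, A ξ ≠ 0 → r ≤ ‖ξ‖

theorem tw_ex (t : ℝ) : Continuous fun ξ : V => ex (t * ‖ξ‖) :=
  contDiff_ex.continuous.comp (by fun_prop)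

theorem tw_sm {r : ℝ} (hr : 0 < r) (h : ∀ ξ, A ξ ≠ 0 → r ≤ ‖ξ‖)
    (h' : ∀ ξ, ξ ≠ 0 → ContDiffAt ℝ ∞ A ξ) : ContDiff ℝ ∞ A := by
  refine contDiff_iff_contDiffAt.2 fun ξ => ?_
  by_cases h0 : ξ = 0
  · subst h0
    refine (contDiffAt_const (c := (0 : ℂ))).congr_of_eventuallyEq ?_
    filter_upwards [Metric.ball_mem_nhds (0 : V) hr] with ζ hζ
    by_contra h1
    exact absurd (mem_ball_zero_iff.1 hζ) (not_lt.2 (h ζ h1))
  · exact h' ξ h0

theorem tw_mul (h : Sw A) (hB : ∀ ξ, ξ ≠ 0 → ContDiffAt ℝ ∞ B ξ) : Sw fun ξ => A ξ * B ξ := by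
  obtain ⟨r, hr, H⟩ := h.off
  have k : ∀ ξ, A ξ * B ξ ≠ 0 → r ≤ ‖ξ‖ := fun ξ hξ => H ξ (left_ne_zero_of_mul hξ)
  exact ⟨⟨tw_sm hr k fun ξ hξ => h.sm.smooth.contDiffAt.mul (hB ξ hξ), h.sm.cs.mul_right⟩,
    r, hr, k⟩

theorem norm_wv (A : V → ℂ) (t : ℝ) (ξ : V) : ‖wv A t ξ‖ = ‖A ξ‖ := by
  rw [wv, norm_mul, norm_ex, one_mul]

theorem wv_int (h : Integrable A) (t : ℝ) : Integrable (wv A t) :=
  h.bdd_mul (c := 1) (tw_ex t).aestronglyMeasurable (ae_of_all _ fun _ => (norm_ex _).le)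

theorem wv_cc (h : Cc A) (t : ℝ) : Cc (wv A t) := h.mul_left (tw_ex t)

theorem Sw.wv (h : Sw A) (t : ℝ) : Sm (wv A t) := by
  have e : Vale.Agent.P106.wv A t = fun ξ => A ξ * ex (t * ‖ξ‖) := funext fun ξ => mul_comm _ _
  rw [e]
  exact (tw_mul h fun ξ hξ => contDiff_ex.contDiffAt.comp ξ
    (contDiffAt_const.mul (contDiffAt_norm ℝ hξ))).sm

theorem Sw.mul (h : Sw A) (hB : ∀ ξ, ξ ≠ 0 → ContDiffAt ℝ ∞ B ξ) : Sw fun ξ => A ξ * B ξ :=
  tw_mul h hB

theorem Sw.add (h : Sw A) (h' : Sw B) : Sw fun ξ => A ξ + B ξ := by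
  obtain ⟨r, hr, H⟩ := h.off
  obtain ⟨r', hr', H'⟩ := h'.off
  refine ⟨⟨h.sm.smooth.add h'.sm.smooth, h.sm.cs.add h'.sm.cs⟩, min r r', lt_min hr hr',
    fun ξ hξ => ?_⟩
  by_cases h0 : A ξ = 0
  · exact (min_le_right _ _).trans (H' ξ fun h1 => hξ (by rw [h0, h1, add_zero]))
  · exact (min_le_left _ _).trans (H ξ h0)

theorem Sw.sum {ι : Type} (s : Finset ι) {M : ι → V → ℂ} (h : ∀ i ∈ s, Sw (M i)) :
    Sw fun ξ => ∑ i ∈ s, M i ξ := by
  classical
  induction s using Finset.induction_on with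
  | empty =>
    simp only [Finset.sum_empty]
    exact ⟨⟨contDiff_const, HasCompactSupport.zero⟩, 1, one_pos, fun _ h => absurd rfl h⟩
  | insert i s hi ih =>
    simp only [Finset.sum_insert hi]
    exact (h i (Finset.mem_insert_self _ _)).add
      (ih fun j hj => h j (Finset.mem_insert_of_mem hj))

theorem rd_sw {φ : ℝ → ℂ} (h : Prof φ) {l : ℝ} (hl : 0 < l) : Sw fun ξ : V => φ (‖ξ‖ / l) := by
  have k : ∀ ξ : V, φ (‖ξ‖ / l) ≠ 0 → l / 4 ≤ ‖ξ‖ ∧ ‖ξ‖ ≤ 4 * l := fun ξ hξ => by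
    have h1 : ‖ξ‖ / l ∈ Icc (1 / 4 : ℝ) 4 := by
      by_contra h1
      exact hξ (h.supp _ h1)
    have h2 := (le_div_iff₀ hl).1 h1.1
    exact ⟨by linarith, (div_le_iff₀ hl).1 h1.2⟩
  refine ⟨⟨tw_sm (by positivity : 0 < l / 4) (fun ξ hξ => (k ξ hξ).1) fun ξ hξ =>
    h.smooth.contDiffAt.comp ξ ((contDiffAt_norm ℝ hξ).div_const l),
    HasCompactSupport.intro (isCompact_closedBall (0 : V) (4 * l)) fun ξ hξ => ?_⟩,
    l / 4, by positivity, fun ξ hξ => (k ξ hξ).1⟩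
  by_contra h1
  exact hξ (mem_closedBall_zero_iff.2 (k ξ h1).2)

theorem rd_sw' {φ : ℝ → ℂ} (h : Prof φ) : Sw (rd φ : V → ℂ) := by
  have e : (rd φ : V → ℂ) = fun ξ : V => φ (‖ξ‖ / 1) := funext fun ξ => by rw [div_one, rd]
  rw [e]
  exact rd_sw h one_pos

theorem rd_ne {φ : ℝ → ℂ} (h : Prof φ) {ξ : V} (h0 : rd φ ξ ≠ 0) : 1 / 4 ≤ ‖ξ‖ ∧ ‖ξ‖ ≤ 4 := by
  by_contra h1
  exact h0 (h.supp _ h1)

theorem Tw_eq (hA : Integrable A) (hf : Integrable f) (q : ℝ × V) :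
    Tw A f q = 𝓕⁻ (wv (fun ξ => A ξ * 𝓕 f ξ) q.1) q.2 := by
  rw [Tw, cv_eq (wv_int hA _) hf]
  exact congrArg (fun F : V → ℂ => 𝓕⁻ F q.2) (funext fun ξ => mul_assoc _ _ _)

theorem cont_pr (hA : Integrable A) : Continuous fun q : ℝ × V => 𝓕⁻ (wv A q.1) q.2 := by
  simp only [inv_eq]
  have hc := contDiff_ex.continuous
  refine continuous_of_dominated (bound := fun ξ => ‖A ξ‖) (fun q => ?_)
    (fun q => ae_of_all _ fun ξ => ?_) hA.norm (ae_of_all _ fun ξ => ?_)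
  · exact (hc.comp (by fun_prop)).aestronglyMeasurable.mul (wv_int hA _).aestronglyMeasurable
  · rw [norm_mul, norm_ex, one_mul, norm_wv]
  · unfold wv
    exact (hc.comp (by fun_prop)).mul ((hc.comp (by fun_prop)).mul continuous_const)

theorem Tw_cont (hA : Integrable A) (hf : Integrable f) : Continuous (Tw A f) := by
  rw [funext (Tw_eq hA hf)]
  exact cont_pr (integrable_mul_fourier hA hf)

theorem Tw_add (hA : Integrable A) (hf : Integrable f) (hg : Integrable g) (q : ℝ × V) :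
    Tw A (fun x => f x + g x) q = Tw A f q + Tw A g q := by
  have k : ∀ {u : V → ℂ}, Integrable u →
      Integrable fun y => 𝓕⁻ (wv A q.1) (q.2 - y) * u y := fun hu =>
    hu.bdd_mul ((continuous_inv (wv_int hA _)).comp (by fun_prop)).aestronglyMeasurable
      (ae_of_all _ fun y => norm_inv_le _ _)
  unfold Tw cv
  rw [← integral_add (k hf) (k hg)]
  simp only [mul_add]

theorem Tw_addA (hA : Integrable A) (hB : Integrable B) (hf : Integrable f) (q : ℝ × V) :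
    Tw (fun ξ => A ξ + B ξ) f q = Tw A f q + Tw B f q := by
  rw [Tw_eq (A := fun ξ => A ξ + B ξ) (hA.add hB) hf, Tw_eq hA hf, Tw_eq hB hf,
    ← inv_add (wv_int (integrable_mul_fourier hA hf) _) (wv_int (integrable_mul_fourier hB hf) _)]
  refine congrArg (fun F : V → ℂ => 𝓕⁻ F q.2) (funext fun ξ => ?_)
  simp only [wv]
  ring

theorem Tw_sum {ι : Type} (s : Finset ι) {M : ι → V → ℂ} (h : ∀ i ∈ s, Integrable (M i))
    (hf : Integrable f) (q : ℝ × V) :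
    Tw (fun ξ => ∑ i ∈ s, M i ξ) f q = ∑ i ∈ s, Tw (M i) f q := by
  rw [Tw_eq (integrable_finsetSum s h) hf, Finset.sum_congr rfl fun i hi => Tw_eq (h i hi) hf q,
    ← inv_sum s fun i hi => wv_int (integrable_mul_fourier (h i hi) hf) _]
  refine congrArg (fun F : V → ℂ => 𝓕⁻ F q.2) (funext fun ξ => ?_)
  simp only [wv, Finset.sum_mul, Finset.mul_sum]

theorem Tw_cmul (hA : Integrable A) (hf : Integrable f) (c : ℂ) (q : ℝ × V) :
    Tw (fun ξ => c * A ξ) f q = c * Tw A f q := by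
  rw [Tw_eq (hA.const_mul c) hf, Tw_eq hA hf, ← inv_const_mul]
  refine congrArg (fun F : V → ℂ => 𝓕⁻ F q.2) (funext fun ξ => ?_)
  simp only [wv]
  ring

theorem Tw_mul (hA : Integrable A) (hB : Sm B) (hf : Nice f) :
    Tw (fun ξ => A ξ * B ξ) f = Tw A (cv (𝓕⁻ B) f) := by
  funext q
  obtain ⟨C, hC⟩ := hB.ker.bdd
  rw [Tw_eq (hA.mul_bdd hB.ker.cont.aestronglyMeasurable (ae_of_all _ hC)) hf.int,
    Tw_eq hA (cv_nice hB.ker_inv.nice hf).int]
  refine congrArg (fun F : V → ℂ => 𝓕⁻ (wv F q.1) q.2) (funext fun ξ => ?_)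
  rw [fourier_cv hB.ker_inv.int hf.int, hB.fourier_inv, mul_assoc]

theorem Np_tm {F : ℝ × V → ℂ} (hF : Measurable F) (a b p : ℝ) :
    Np (tm V a b) p F = ∫⁻ t in Icc a b, Np volume p fun x => F (t, x) := by
  unfold Np tm
  exact lintegral_prod _ (hF.enorm.pow_const p).aemeasurable

theorem Np_tm_snd (hf : Measurable f) (a b p : ℝ) :
    Np (tm V a b) p (fun q => f q.2) = ENNReal.ofReal (b - a) * Np volume p f := by
  rw [Np_tm (F := fun q => f q.2) (hf.comp measurable_snd), mul_comm, ← volume_Icc]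
  exact setLIntegral_const (Icc a b) (Np volume p f)

instance tm_sfinite (a b : ℝ) : SFinite (tm V a b) := by
  unfold tm
  infer_instance

theorem nice_of_le (hf : Nice f) (hg : Measurable g) (h : ∀ x, ‖g x‖ ≤ ‖f x‖) : Nice g := by
  obtain ⟨C, hC⟩ := hf.bdd
  exact ⟨hg, hf.int.mono hg.aestronglyMeasurable (ae_of_all _ h), C, fun x => (h x).trans (hC x)⟩

theorem Np_sum_le {X : Type} [MeasurableSpace X] {μ : Measure X} {p : ℝ} (hp : 1 ≤ p) {ι : Type}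
    (s : Finset ι) {F : ι → X → ℂ} (hF : ∀ i ∈ s, Measurable (F i)) {a : ι → ℝ}
    (ha : ∀ i ∈ s, 0 ≤ a i) {N : ℝ≥0∞} (h : ∀ i ∈ s, Np μ p (F i) ≤ ENNReal.ofReal (a i) ^ p * N) :
    Np μ p (fun x => ∑ i ∈ s, F i x) ≤ ENNReal.ofReal (∑ i ∈ s, a i) ^ p * N := by
  classical
  induction s using Finset.induction_on with
  | empty => simp [Np, ENNReal.zero_rpow_of_pos (one_pos.trans_le hp)]
  | insert i s hi ih =>
    have m : ∀ j ∈ s, j ∈ insert i s := fun j hj => Finset.mem_insert_of_mem hj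
    have m0 := Finset.mem_insert_self i s
    simp only [Finset.sum_insert hi]
    exact Np_add_le hp (hF i m0) (Finset.measurable_sum s fun j hj => hF j (m j hj)) (ha i m0)
      (Finset.sum_nonneg fun j hj => ha j (m j hj)) (h i m0)
      (ih (fun j hj => hF j (m j hj)) (fun j hj => ha j (m j hj)) fun j hj => h j (m j hj))

end Vale.Agent.P106
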