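import Vale.Agent.P106.KatoL
import Vale.Agent.P106.A1
import Vale.Agent.P106.L4B
import Vale.Agent.P117.Marc

/-!
The weighted estimates in the plane. `wl2T`: `Np_tm`, `lintegral_cx'`, swap `t` and `x₁`, `kato3`, swap `x₁` and `y`, `a1` with `Λ = lam R`. `wlpT`: copy the proof of `wlp` in P117/W.lean (do not import it;
copy `w_meas`, `w_conv`): for `2 < p` let `b = (p / 2 - 1) / (4 - p)`, `u = wt lam b ·.re`, `ν = volume.withDensity (ofReal (u ^ 4))`, and apply `marc` on `ℝ × ℂ` with the measure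
`(tm ℂ 0 R).withDensity (ofReal (u q.2 ^ 4))` to `f q = G q.2 / u q.2`, `g q = Tw A G q / u q.2`, with `G₁ = u * hi α (G / u)`, `G₂ = u * lo α (G / u)` (`nice_of_le`, `Tw_add`, `Np_tm_snd`);
`A = ofReal C₂`, `B = ofReal (C₄ (4 ^ n) ^ η)`. `1 ≤ lam² 4 ^ n`.
-/

open MeasureTheory Set Real Filter Topology
open scoped FourierTransform RealInnerProductSpace ContDiff ENNReal SchwartzMap

noncomputable section

namespace Vale.Agent.P106

open Vale.Agent.P117

variable {φ : ℂ → ℂ} {c : ℝ → ℂ}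

theorem wt_meas {lam : ℝ} (hl : 0 ≤ lam) (b : ℝ) : Measurable fun x : ℂ => wt lam b x.re :=
  ((continuous_wt hl b).comp Complex.continuous_re).measurable

theorem wt_enorm {lam : ℝ} (hl : 0 ≤ lam) (b t : ℝ) (z : ℂ) :
    ‖(wt lam b t : ℂ) * z‖ₑ ^ 2 = ENNReal.ofReal (wt lam b t ^ 2) * ‖z‖ₑ ^ 2 := by
  have h := (wt_pos hl b t).le
  rw [enorm_mul, mul_pow, ← ofReal_norm (wt lam b t : ℂ), Complex.norm_real,
    Real.norm_of_nonneg h, ENNReal.ofReal_pow h]

theorem wt_int (hφ : Am φ) (hc : Prof c) {lam : ℝ} (hl : 0 < lam) : Integrable (amp φ c lam) :=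
  (amp_am hφ hc hl).sm.smooth.continuous.integrable_of_hasCompactSupport (amp_am hφ hc hl).sm.cs

theorem wtt_split {lam : ℝ} (hl : 0 ≤ lam) (b R : ℝ) {T : ℝ × ℂ → ℂ} (hT : Continuous T) :
    Np (tm ℂ 0 R) 2 (fun q => (wt lam b q.2.re : ℂ) * T q) =
      ∫⁻ x : ℝ, ENNReal.ofReal (wt lam b x ^ 2) *
        ∫⁻ t in Icc 0 R, ∫⁻ z : ℝ, ‖T (t, ⟨x, z⟩)‖ₑ ^ 2 := by
  have hw := continuous_wt hl b
  have hF : Continuous fun q : ℝ × ℂ => (wt lam b q.2.re : ℂ) * T q := by fun_prop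
  have c3 : Continuous fun w : (ℝ × ℝ) × ℝ => T (w.1.1, (⟨w.1.2, w.2⟩ : ℂ)) :=
    hT.comp (continuous_fst.fst.prodMk
      (continuous_mk.comp (continuous_fst.snd.prodMk continuous_snd)))
  have m3 : Measurable fun w : (ℝ × ℝ) × ℝ => ‖T (w.1.1, (⟨w.1.2, w.2⟩ : ℂ))‖ₑ ^ 2 :=
    c3.measurable.enorm.pow_const 2
  have m2 : Measurable fun w : ℝ × ℝ => ∫⁻ z : ℝ, ‖T (w.1, (⟨w.2, z⟩ : ℂ))‖ₑ ^ 2 :=
    m3.lintegral_prod_right'
  have mw : Measurable fun x : ℝ => ENNReal.ofReal (wt lam b x ^ 2) :=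
    (hw.measurable.pow_const 2).ennreal_ofReal
  have e1 : ∀ t : ℝ, Np volume 2 (fun x : ℂ => (wt lam b x.re : ℂ) * T (t, x)) =
      ∫⁻ x : ℝ, ENNReal.ofReal (wt lam b x ^ 2) * ∫⁻ z : ℝ, ‖T (t, ⟨x, z⟩)‖ₑ ^ 2 := fun t => by
    have hc : Continuous fun x : ℂ => (wt lam b x.re : ℂ) * T (t, x) := by fun_prop
    rw [Np_two, lintegral_cx' (hc.measurable.enorm.pow_const 2)]
    refine lintegral_congr fun x => ?_
    simp only [wt_enorm hl]
    rw [lintegral_const_mul' _ _ ENNReal.ofReal_ne_top]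
  rw [Np_tm hF.measurable]
  simp only [e1]
  rw [lintegral_lintegral_swap (((mw.comp measurable_snd).mul m2).aemeasurable)]
  refine lintegral_congr fun x => ?_
  rw [lintegral_const_mul' _ _ ENNReal.ofReal_ne_top]

theorem wl2T {b : ℝ} (h0 : 0 ≤ b) (h1 : b < 1 / 2) (hφ : Am φ) (hc : Prof c) : ∃ C : ℝ, 0 < C ∧
    ∀ (lam R : ℝ) (G : ℂ → ℂ), 0 < lam → 1 ≤ R → 1 ≤ lam ^ 2 * R → Nice G →
      Np (tm ℂ 0 R) 2 (fun q => (wt lam b q.2.re : ℂ) * Tw (amp φ c lam) G q) ≤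
        ENNReal.ofReal (C * R) * Np volume 2 (wm lam b G) := by
  obtain ⟨C₁, hC₁, h₁⟩ := kato3 hφ hc
  obtain ⟨C₂, hC₂, h₂⟩ := a1 h0 h1
  refine ⟨C₁ * C₂, by positivity, fun lam R G hl hR hlR hG => ?_⟩
  have hΛ : 0 < lam * R := by positivity
  have hw := continuous_wt hl.le b
  have mG : Measurable fun y => ‖G y‖ₑ ^ 2 := hG.meas.enorm.pow_const 2
  have mk : Measurable fun w : ℝ × ℂ => ENNReal.ofReal
      (wt lam b w.1 ^ 2 * (1 + ((w.1 - w.2.re) / (lam * R)) ^ 2)⁻¹) := by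
    have := hw.measurable
    fun_prop
  rw [wtt_split hl.le b R (Tw_cont (wt_int hφ hc hl) hG.int)]
  calc _ ≤ ∫⁻ x : ℝ, ENNReal.ofReal (C₁ / lam) * ∫⁻ y : ℂ, ENNReal.ofReal
          (wt lam b x ^ 2 * (1 + ((x - y.re) / (lam * R)) ^ 2)⁻¹) * ‖G y‖ₑ ^ 2 := by
        refine lintegral_mono fun x => ?_
        refine (mul_le_mul_right (h₁ lam R x G hl hR hlR hG) _).trans (le_of_eq ?_)
        rw [mul_left_comm, ← lintegral_const_mul' _ _ ENNReal.ofReal_ne_top]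
        congr 1
        refine lintegral_congr fun y => ?_
        rw [← mul_assoc, ← ENNReal.ofReal_mul (sq_nonneg _)]
    _ = ENNReal.ofReal (C₁ / lam) * ∫⁻ y : ℂ, (∫⁻ x : ℝ, ENNReal.ofReal
          (wt lam b x ^ 2 * (1 + ((x - y.re) / (lam * R)) ^ 2)⁻¹)) * ‖G y‖ₑ ^ 2 := by
        rw [lintegral_const_mul' _ _ ENNReal.ofReal_ne_top,
          lintegral_lintegral_swap ((mk.mul (mG.comp measurable_snd)).aemeasurable)]
        congr 1
        refine lintegral_congr fun y => ?_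
        rw [lintegral_mul_const' _ _ (ENNReal.pow_ne_top enorm_ne_top)]
    _ ≤ ENNReal.ofReal (C₁ / lam) * ∫⁻ y : ℂ,
          ENNReal.ofReal (C₂ * (lam * R)) * ‖wm lam b G y‖ₑ ^ 2 := by
        refine mul_le_mul_right (lintegral_mono fun y => ?_) _
        refine (mul_le_mul_left (h₂ lam _ y.re hl hΛ) _).trans (le_of_eq ?_)
        rw [wm, wt_enorm hl.le, ENNReal.ofReal_mul (by positivity), mul_assoc]
    _ = _ := by
        rw [lintegral_const_mul' _ _ ENNReal.ofReal_ne_top, ← mul_assoc,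
          ← ENNReal.ofReal_mul (by positivity), Np_two]
        congr 2
        field_simp

theorem wt_conv {lam q s b : ℝ} (R : ℝ) (hl : 0 ≤ lam) (hq : 0 ≤ q) (hs : s * q = b * (4 - q))
    {F : ℝ × ℂ → ℂ} (hF : Measurable F) :
    Np ((tm ℂ 0 R).withDensity fun x => ENNReal.ofReal (wt lam b x.2.re ^ (4 : ℝ))) q
      (fun x => F x / wt lam b x.2.re) =
      Np (tm ℂ 0 R) q fun x => (wt lam s x.2.re : ℂ) * F x := by
  have h1 : Measurable fun x : ℝ × ℂ => wt lam b x.2.re := (wt_meas hl b).comp measurable_snd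
  rw [Np, Np, lintegral_withDensity_eq_lintegral_mul _ (by fun_prop) (by fun_prop)]
  refine lintegral_congr fun x => ?_
  have h2 := wt_pos hl b x.2.re
  have h3 := wt_pos hl s x.2.re
  have h4 : 0 < 1 + lam * |x.2.re| := by positivity
  simp only [Pi.mul_apply, ← ofReal_norm, norm_div, norm_mul, Complex.norm_real,
    Real.norm_of_nonneg h2.le, Real.norm_of_nonneg h3.le]
  rw [ENNReal.ofReal_rpow_of_nonneg (by positivity) hq,
    ENNReal.ofReal_rpow_of_nonneg (by positivity) hq, ← ENNReal.ofReal_mul (by positivity),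
    div_rpow (norm_nonneg _) h2.le, mul_rpow h3.le (norm_nonneg _), mul_div_assoc',
    mul_div_right_comm, ← rpow_sub h2, wt, wt, ← rpow_mul h4.le, ← rpow_mul h4.le, neg_mul,
    neg_mul, hs]

theorem wt_conv' {lam q s b : ℝ} (R : ℝ) (hl : 0 ≤ lam) (hq : 0 ≤ q) (hs : s * q = b * (4 - q))
    {H : ℂ → ℂ} (hH : Measurable H) :
    Np ((tm ℂ 0 R).withDensity fun x => ENNReal.ofReal (wt lam b x.2.re ^ (4 : ℝ))) q
      (fun x => H x.2 / wt lam b x.2.re) = ENNReal.ofReal R * Np volume q (wm lam s H) := by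
  have h1 := wt_meas hl s
  have h2 : Measurable (wm lam s H) := by
    unfold wm
    fun_prop
  have h3 := Np_tm_snd h2 0 R q
  rw [sub_zero] at h3
  rw [wt_conv (F := fun x => H x.2) R hl hq hs (hH.comp measurable_snd), ← h3]
  rfl

theorem wlpT {p η : ℝ} (h2 : 2 ≤ p) (h3 : p < 3) (hη : 0 < η) (hφ : Am φ) (hc : Prof c) :
    ∃ C : ℝ, 0 < C ∧ ∀ (n : ℕ) (lam : ℝ), 2 ≤ n → (2 ^ n)⁻¹ ≤ lam → ∀ G : ℂ → ℂ, Nice G →
      Np (tm ℂ 0 (4 ^ n)) p
          (fun q => (wt lam (1 / 2 - 1 / p) q.2.re : ℂ) * Tw (amp φ c lam) G q) ≤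
        ENNReal.ofReal (C * 4 ^ n * (4 ^ n) ^ η) * Np volume p (wm lam (1 / 2 - 1 / p) G) := by
  have one0 : ∀ n : ℕ, (1 : ℝ) ≤ 4 ^ n := fun n => one_le_pow₀ (by norm_num)
  have one : ∀ n : ℕ, (1 : ℝ) ≤ (4 ^ n) ^ η := fun n => one_le_rpow (one0 n) hη.le
  have pos : ∀ (n : ℕ) (lam : ℝ), (2 ^ n)⁻¹ ≤ lam → 0 < lam := fun n lam h =>
    lt_of_lt_of_le (by positivity) h
  have big : ∀ (n : ℕ) (lam : ℝ), (2 ^ n)⁻¹ ≤ lam → 1 ≤ lam ^ 2 * 4 ^ n := fun n lam h => by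
    have h5 : (0 : ℝ) < 2 ^ n := by positivity
    have h6 : 1 ≤ lam * 2 ^ n := (inv_le_iff_one_le_mul₀ h5).1 h
    have h7 : (4 : ℝ) ^ n = (2 ^ n) ^ 2 := by
      rw [← pow_mul, mul_comm, pow_mul]
      norm_num
    rw [h7, ← mul_pow]
    exact one_le_pow₀ h6
  rcases h2.eq_or_lt with rfl | h2
  · obtain ⟨C, hC, h⟩ := wl2T (b := 1 / 2 - 1 / 2) (by norm_num) (by norm_num) hφ hc
    refine ⟨C, hC, fun n lam hn hl G hG => ?_⟩
    refine (h lam _ G (pos n lam hl) (one0 n) (big n lam hl) hG).trans ?_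
    exact mul_le_mul_left (ENNReal.ofReal_le_ofReal
      (le_mul_of_one_le_right (by positivity) (one n))) _
  have h4 : 0 < 4 - p := by linarith
  obtain ⟨b, hb⟩ : ∃ b, b = (p / 2 - 1) / (4 - p) := ⟨_, rfl⟩
  have hb0 : 0 ≤ b := hb ▸ div_nonneg (by linarith) h4.le
  obtain ⟨C, hC, h⟩ := wl2T hb0 (hb ▸ (div_lt_iff₀ h4).2 (by linarith)) hφ hc
  obtain ⟨C', hC', h'⟩ := l4_all hη hφ hc
  obtain ⟨D, hD, hm⟩ := marc two_pos h2 (show p < 4 by linarith)
  refine ⟨D * (C + C'), by positivity, fun n lam hn hl G hG => ?_⟩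
  have hlam := pos n lam hl
  have hA := wt_int hφ hc hlam
  have mu := wt_meas hlam.le b
  have mc : ∀ {H : ℂ → ℂ}, Nice H → Measurable (Tw (amp φ c lam) H) := fun hH =>
    (Tw_cont hA hH.int).measurable
  have md : ∀ {H : ℂ → ℂ}, Measurable H → Measurable fun x => H x / wt lam b x.re := fun hH => by
    fun_prop
  have md' : ∀ {H : ℝ × ℂ → ℂ}, Measurable H → Measurable fun x => H x / wt lam b x.2.re :=
    fun hH => hH.div (Complex.measurable_ofReal.comp (mu.comp measurable_snd))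
  have u0 : ∀ x : ℂ, (wt lam b x.re : ℂ) ≠ 0 := fun x =>
    Complex.ofReal_ne_zero.2 (wt_pos hlam.le _ _).ne'
  have k2 : ∀ {H : ℂ → ℂ}, Measurable H → (∀ x, ‖H x‖ ≤ ‖G x / wt lam b x.re‖) →
      Nice (wm lam b H) := fun hH hle => nice_of_le hG (by unfold wm; fun_prop) fun x => by
    have := hle x
    rwa [norm_div, le_div_iff₀' (norm_pos_iff.2 (u0 x)), ← norm_mul] at this
  have k0 : ∀ H : ℂ → ℂ, wm lam 0 H = H := fun H => funext fun x => by simp [wm, wt]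
  have k0' : ∀ H : ℝ × ℂ → ℂ, (fun x => (wt lam 0 x.2.re : ℂ) * H x) = H := fun H =>
    funext fun x => by simp [wt]
  have hs : (1 / 2 - 1 / p) * p = b * (4 - p) := by
    rw [hb]
    field_simp
  have hR : (0 : ℝ) < 4 ^ n := by positivity
  rw [← wt_conv _ hlam.le (by linarith) hs (mc hG)]
  refine (hm _ (fun x : ℝ × ℂ => G x.2 / wt lam b x.2.re) _ (ENNReal.ofReal C)
    (ENNReal.ofReal (C' * (4 ^ n) ^ η)) (md' (hG.meas.comp measurable_snd))
    (md' (mc hG)) fun α _ => ?_).trans ?_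
  · have d1 := k2 (measurable_hi α (md hG.meas)) (norm_hi_le α _)
    have d2 := k2 (measurable_lo α (md hG.meas)) (norm_lo_le α _)
    have e1 : hi α (fun x : ℝ × ℂ => G x.2 / wt lam b x.2.re) = fun x =>
        wm lam b (hi α fun y => G y / wt lam b y.re) x.2 / wt lam b x.2.re := funext fun x => by
      rw [wm, mul_div_cancel_left₀ _ (u0 _)]
      rfl
    have e2 : lo α (fun x : ℝ × ℂ => G x.2 / wt lam b x.2.re) = fun x =>
        wm lam b (lo α fun y => G y / wt lam b y.re) x.2 / wt lam b x.2.re := funext fun x => by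
      rw [wm, mul_div_cancel_left₀ _ (u0 _)]
      rfl
    refine ⟨_, _, md' (mc d1), md' (mc d2), fun x => ?_, ?_, ?_⟩
    · rw [← add_div, ← Tw_add hA d1.int d2.int]
      congr 2
      funext y
      rw [wm, wm, ← mul_add, ← hi_add_lo, mul_div_cancel₀ _ (u0 y)]
    · rw [e1, wt_conv' (s := b) _ hlam.le zero_le_two (by ring) d1.meas,
        wt_conv (s := b) _ hlam.le zero_le_two (by ring) (mc d1), ← mul_assoc,
        ← ENNReal.ofReal_mul hC.le]
      exact h lam _ _ hlam (one0 n) (big n lam hl) d1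
    · rw [e2, wt_conv' (s := 0) _ hlam.le zero_le_four (by ring) d2.meas,
        wt_conv (s := 0) _ hlam.le zero_le_four (by ring) (mc d2), k0, k0', ← mul_assoc,
        ← ENNReal.ofReal_mul (by positivity), mul_right_comm]
      exact h' n lam hn hl _ d2
  · have h5 := one n
    rw [wt_conv' _ hlam.le (by linarith) hs hG.meas, ← mul_assoc,
      ← ENNReal.ofReal_add hC.le (by positivity), ← ENNReal.ofReal_mul hD.le,
      ← ENNReal.ofReal_mul (by positivity)]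
    refine mul_le_mul_left (ENNReal.ofReal_le_ofReal ?_) _
    have h6 : C ≤ C * (4 ^ n) ^ η := le_mul_of_one_le_right hC.le h5
    calc D * (C + C' * (4 ^ n) ^ η) * 4 ^ n ≤ D * (C * (4 ^ n) ^ η + C' * (4 ^ n) ^ η) * 4 ^ n := by
          gcongr
      _ = _ := by ring

end Vale.Agent.P106
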